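import Vale.Agent.Lib.P329.AbelPrime

/-!
# An abelian normal subgroup and one further element

Let `N` be an abelian normal subgroup of a finite group `G` and `ρ` any element of `G`. If a map
`φ` sends every letter into `N` or to `ρ`, then every language `{w | product of w in P}` has
generalized star height at most one (`abel_cyclic_finite`). The subgroup generated by `N` and
`ρ` is abelian by cyclic, with a cyclic quotient of arbitrary order; the restriction is on the
images of the letters.

The point is that the weight counter modulo an arbitrary `q` is counter-free once its state `0`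
is made absorbing as soon as all letters have weight `0` or `1` (`counter_aper_unary`).
-/

namespace Vale.Agent.Lib.P329

open Language

variable {α : Type}

/-- a run of the absorbing counter with weights `0` and `1` that collects enough weight ends in
the state `0` -/
theorem abs_unary_hit (q : ℕ) (κ : α → ℕ) (hκ : ∀ x, κ x ≤ 1) :
    ∀ (v : List α) (z : ℕ), z < q → q ≤ z + (v.map κ).sum →
      List.foldl (absStep (cstep q κ)) z v = 0 := by
  intro v
  induction v with
  | nil =>
    intro z hz h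
    rw [List.map_nil, List.sum_nil] at h
    omega
  | cons x v ih =>
    intro z hz h
    rw [List.foldl_cons]
    by_cases hz0 : z = 0
    · subst hz0
      rw [absStep_zero]
      exact foldl_abs_zero _ v
    · have hstep : absStep (cstep q κ) z x = (z + κ x) % q := by
        unfold absStep cstep
        rw [if_neg hz0]
      rw [hstep]
      rw [List.map_cons, List.sum_cons] at h
      have hk := hκ x
      by_cases hw : z + κ x = q
      · rw [hw, Nat.mod_self]
        exact foldl_abs_zero _ v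
      · have hlt : z + κ x < q := by omega
        rw [Nat.mod_eq_of_lt hlt]
        exact ih (z + κ x) hlt (by omega)

/-- a word of weight zero fixes every state of the absorbing counter -/
theorem abs_unary_fix (q : ℕ) (κ : α → ℕ) :
    ∀ (v : List α) (z : ℕ), z < q → (v.map κ).sum = 0 →
      List.foldl (absStep (cstep q κ)) z v = z := by
  intro v
  induction v with
  | nil =>
    intro z _ _
    rfl
  | cons x v ih =>
    intro z hz h
    rw [List.map_cons, List.sum_cons] at h
    have hx : κ x = 0 := by omega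
    have hv : (v.map κ).sum = 0 := by omega
    rw [List.foldl_cons]
    have hstep : absStep (cstep q κ) z x = z := by
      unfold absStep cstep
      by_cases h0 : z = 0
      · rw [if_pos h0, h0]
      · rw [if_neg h0, hx, Nat.add_zero, Nat.mod_eq_of_lt hz]
    rw [hstep]
    exact ih z hz hv

/-- the weight counter modulo any `q`, with all weights `0` or `1`, is counter-free once the
state `0` is made absorbing -/
theorem counter_aper_unary (q : ℕ) (κ : α → ℕ) (hκ : ∀ x, κ x ≤ 1) :
    ∀ w : List α, ∃ k : ℕ, ∀ y, y < q →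
      List.foldl (absStep (cstep q κ)) y (List.replicate k w).flatten =
        List.foldl (absStep (cstep q κ)) y (List.replicate (k + 1) w).flatten := by
  intro w
  refine ⟨q, fun y hy => ?_⟩
  by_cases hW : (w.map κ).sum = 0
  · have h1 : ∀ j, (((List.replicate j w).flatten).map κ).sum = 0 := by
      intro j
      rw [sum_map_replicate, hW, Nat.mul_zero]
    rw [abs_unary_fix q κ _ y hy (h1 q), abs_unary_fix q κ _ y hy (h1 (q + 1))]
  · have h1 : ∀ j, q ≤ j → q ≤ y + (((List.replicate j w).flatten).map κ).sum := by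
      intro j hj
      rw [sum_map_replicate]
      have h2 : 1 ≤ (w.map κ).sum := Nat.one_le_iff_ne_zero.mpr hW
      calc q ≤ j := hj
        _ = j * 1 := (Nat.mul_one j).symm
        _ ≤ j * (w.map κ).sum := Nat.mul_le_mul_left j h2
        _ ≤ y + j * (w.map κ).sum := Nat.le_add_left _ _
    rw [abs_unary_hit q κ hκ _ y hy (h1 q le_rfl),
      abs_unary_hit q κ hκ _ y hy (h1 (q + 1) (Nat.le_succ q))]

variable [Fintype α] [DecidableEq α]

/-- **Counting marked letters of weight zero, any modulus.** Weights `0` and `1`, any `q ≥ 1`: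
the number of positions of a word that carry a letter of `S` (letters of weight divisible by
`q`) and are preceded by letters of total weight congruent to `r` modulo `q`, taken modulo `m`,
is a statistic of generalized star height at most one. -/
theorem stat_wocc_unary (q : ℕ) (hq0 : 0 < q) (m : ℕ) (hm : 0 < m) (κ : α → ℕ)
    (hκ : ∀ x, κ x ≤ 1) (S : Finset α) (hS : ∀ x ∈ S, κ x % q = 0) (r : ℕ) :
    StatLe 1 (fun w : List α => wocc q κ S r w % m) := by
  have hb : ∀ y a, y < q → cstep q κ y a < q := fun y a _ => cstep_lt q hq0 κ y a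
  have hy0 : (q - r % q) % q < q * m :=
    lt_of_lt_of_le (Nat.mod_lt _ hq0) (Nat.le_mul_of_pos_right q hm)
  have hC2 : ∀ a, a ∉ nzSet q κ → cstep q κ 0 a = 0 :=
    fun a ha => cstep_zero_of_notMem q κ a ha
  have hC1 : ∀ a, a ∉ S ∪ nzSet q κ → cstep q κ 0 a = 0 :=
    fun a ha => hC2 a (fun h => ha (Finset.mem_union_right _ h))
  have h1 := stat_visits q m (cstep q κ) (S ∪ nzSet q κ) (counter_aper_unary q κ hκ) hb hC1 _ hy0
  have h2 := stat_visits q m (cstep q κ) (nzSet q κ) (counter_aper_unary q κ hκ) hb hC2 _ hy0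
  have h3 := (h1.prod h2).comp
    (fun p : Fin (q * m) × Fin (q * m) => (p.1.val / q + (m - p.2.val / q % m)) % m)
  refine h3.congr (fun w => ?_)
  obtain ⟨b1, b2, _, _, dv⟩ := woc_inv q m hq0 hm κ S hS r w
  show (List.foldl (visitStep q m (cstep q κ) (S ∪ nzSet q κ)) ((q - r % q) % q) w % (q * m) / q
      + (m - List.foldl (visitStep q m (cstep q κ) (nzSet q κ)) ((q - r % q) % q) w % (q * m)
          / q % m)) % m = wocc q κ S r w % m
  rw [Nat.mod_eq_of_lt b1, Nat.mod_eq_of_lt b2]
  exact modsub m _ _ _ hm dv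

/-- the same count as a statistic with values in `ZMod m` -/
theorem stat_wocc_zmod_unary (q : ℕ) (hq0 : 0 < q) (m : ℕ) (hm : 0 < m) [NeZero m]
    (κ : α → ℕ) (hκ : ∀ x, κ x ≤ 1) (x : α) (hx : κ x = 0) (r : ℕ) :
    StatLe 1 (fun w : List α => ((wocc q κ {x} r w : ℕ) : ZMod m)) := by
  have hS : ∀ a ∈ ({x} : Finset α), κ a % q = 0 := by
    intro a ha
    rw [Finset.mem_singleton.mp ha, hx, Nat.zero_mod]
  intro v
  refine (stat_wocc_unary q hq0 m hm κ hκ {x} hS r v.val).of_iff (fun w => ?_)
  show wocc q κ {x} r w % m = v.val ↔ ((wocc q κ {x} r w : ℕ) : ZMod m) = v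
  constructor
  · intro hw
    apply ZMod.val_injective
    rw [ZMod.val_natCast]
    exact hw
  · intro hw
    rw [← hw, ZMod.val_natCast]

/-- abstract form: a group generated by the image of an abelian group of exponent dividing `m`,
`m > 0`, and one further element `ρ` with `ρ ^ (q * m) = 1` that acts on that image with period
`q` (any `q ≥ 1`), when every letter is sent into the image of the abelian group or to `ρ` -/
theorem ext_gsh_unary (q : ℕ) (hq0 : 0 < q) (m : ℕ) (hm : 0 < m) {G V : Type} [Group G]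
    [CommGroup V] (ι : V →* G) (hV : ∀ a : V, a ^ m = 1) (ρ : G) (hρ : ρ ^ (q * m) = 1)
    (c : ℕ → V → V) (hc : ∀ (t : ℕ) (a : V), ρ ^ t * ι a = ι (c (t % q) a) * ρ ^ t)
    (hc1 : ∀ r : ℕ, c r 1 = 1)
    (φ : α → G) (v : α → V) (κ : α → ℕ) (hκ : ∀ x, κ x ≤ 1) (hv1 : ∀ x, κ x ≠ 0 → v x = 1)
    (h : ∀ x, φ x = ι (v x) * ρ ^ κ x) (P : Set G) :
    GSHLe 1 ({w | (w.map φ).prod ∈ P} : Language α) := by
  have : NeZero m := ⟨hm.ne'⟩
  have : NeZero (q * m) := ⟨(Nat.mul_pos hq0 hm).ne'⟩
  have hcnt : ∀ (x : α) (r : Fin q), StatLe 1 (fun w : List α =>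
      (if κ x = 0 then ((wocc q κ {x} (r : ℕ) w : ℕ) : ZMod m) else 0)) := by
    intro x r
    by_cases hx : κ x = 0
    · simp only [if_pos hx]
      exact stat_wocc_zmod_unary q hq0 m hm κ hκ x hx (r : ℕ)
    · simp only [if_neg hx]
      exact StatLe.const 1 (0 : ZMod m)
  have hT : StatLe 1 (fun w : List α =>
      ((((w.map κ).sum : ℕ) : ZMod (q * m)),
        fun (x : α) (r : Fin q) =>
          (if κ x = 0 then ((wocc q κ {x} (r : ℕ) w : ℕ) : ZMod m) else 0))) :=
    (stat_weight_mod (q * m) κ).prod (StatLe.pi (fun x => StatLe.pi (fun r : Fin q => hcnt x r)))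
  have hlev := hT.level (fun p : ZMod (q * m) × (α → Fin q → ZMod m) =>
    ι (∏ x : α, ∏ r : Fin q, c (r : ℕ) (v x) ^ (p.2 x r).val) * ρ ^ p.1.val ∈ P)
  refine hlev.of_iff (fun w => ?_)
  show ι (∏ x : α, ∏ r : Fin q,
      c (r : ℕ) (v x) ^ ((if κ x = 0 then ((wocc q κ {x} (r : ℕ) w : ℕ) : ZMod m) else 0)).val) *
      ρ ^ ((((w.map κ).sum : ℕ) : ZMod (q * m))).val ∈ P ↔ (w.map φ).prod ∈ P
  rw [ext_prod_q q hq0 ι ρ c hc φ v κ h w, ZMod.val_natCast,
    pow_mod_of_pow_eq_one ρ (q * m) hρ]
  have e : (∏ x : α, ∏ r : Fin q,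
      c (r : ℕ) (v x) ^ ((if κ x = 0 then ((wocc q κ {x} (r : ℕ) w : ℕ) : ZMod m) else 0)).val)
      = ∏ x : α, ∏ r : Fin q, c (r : ℕ) (v x) ^ wocc q κ {x} (r : ℕ) w := by
    refine Finset.prod_congr rfl (fun x _ => Finset.prod_congr rfl (fun r _ => ?_))
    by_cases hx : κ x = 0
    · rw [if_pos hx, ZMod.val_natCast, pow_mod_of_pow_eq_one _ m (hV _)]
    · rw [if_neg hx, hv1 x hx, hc1, one_pow, one_pow]
  rw [e]

/-- a group with a normal abelian subgroup `N` of exponent dividing `m > 0` and an element `ρ`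
with `ρ ^ q ∈ N`, `q ≥ 1`, when every letter is sent into `N` or to `ρ` -/
theorem abel_cyclic_unary {G : Type} [Group G] (N : Subgroup G) [hnor : N.Normal]
    (hcomm : ∀ a ∈ N, ∀ b ∈ N, a * b = b * a) (m : ℕ) (hm : 0 < m)
    (hexp : ∀ v ∈ N, v ^ m = 1) (q : ℕ) (hq0 : 0 < q) (ρ : G) (hρ : ρ ^ q ∈ N)
    (φ : α → G) (hφ : ∀ x, φ x ∈ N ∨ φ x = ρ) (P : Set G) :
    GSHLe 1 ({w | (w.map φ).prod ∈ P} : Language α) := by
  classical
  let inst : CommGroup N := commOfComm N hcomm
  let ι : N →* G := MonoidHom.mk' (fun a : N => (a : G)) (fun _ _ => rfl)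
  let c : ℕ → N → N := fun r a =>
    ⟨ρ ^ r * (a : G) * (ρ ^ r)⁻¹, hnor.conj_mem (a : G) a.2 (ρ ^ r)⟩
  have hqm : ρ ^ (q * m) = 1 := by
    rw [pow_mul]
    exact hexp (ρ ^ q) hρ
  have hc : ∀ (t : ℕ) (a : N), ρ ^ t * ι a = ι (c (t % q) a) * ρ ^ t := by
    intro t a
    show ρ ^ t * (a : G) = ρ ^ (t % q) * (a : G) * (ρ ^ (t % q))⁻¹ * ρ ^ t
    have hz : (ρ ^ q) ^ (t / q) ∈ N := N.pow_mem hρ _
    have ht : ρ ^ t = ρ ^ (t % q) * (ρ ^ q) ^ (t / q) := by
      rw [← pow_mul, ← pow_add, add_comm, Nat.div_add_mod]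
    have hza := hcomm _ hz _ a.2
    calc ρ ^ t * (a : G) = ρ ^ (t % q) * ((ρ ^ q) ^ (t / q) * (a : G)) := by
          rw [ht, mul_assoc]
      _ = ρ ^ (t % q) * ((a : G) * (ρ ^ q) ^ (t / q)) := by rw [hza]
      _ = ρ ^ (t % q) * (a : G) * (ρ ^ (t % q))⁻¹ * (ρ ^ (t % q) * (ρ ^ q) ^ (t / q)) := by
          simp only [mul_assoc, inv_mul_cancel_left]
      _ = ρ ^ (t % q) * (a : G) * (ρ ^ (t % q))⁻¹ * ρ ^ t := by rw [← ht]
  have hc1 : ∀ r : ℕ, c r 1 = 1 := by
    intro r
    apply Subtype.ext
    show ρ ^ r * ((1 : N) : G) * (ρ ^ r)⁻¹ = ((1 : N) : G)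
    rw [Subgroup.coe_one, mul_one, mul_inv_cancel]
  have hV : ∀ a : N, a ^ m = 1 := by
    intro a
    apply Subtype.ext
    show ((a ^ m : N) : G) = 1
    rw [Subgroup.coe_pow]
    exact hexp a a.2
  have h : ∀ x, φ x = ι (if hx : φ x ∈ N then (⟨φ x, hx⟩ : N) else 1)
      * ρ ^ (if φ x ∈ N then 0 else 1) := by
    intro x
    by_cases hx : φ x ∈ N
    · rw [dif_pos hx, if_pos hx, pow_zero, mul_one]
      rfl
    · rw [dif_neg hx, if_neg hx, pow_one]
      show φ x = ((1 : N) : G) * ρ
      rw [Subgroup.coe_one, one_mul]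
      exact (hφ x).resolve_left hx
  refine ext_gsh_unary q hq0 m hm ι hV ρ hqm c hc hc1 φ
    (fun x => if hx : φ x ∈ N then (⟨φ x, hx⟩ : N) else 1)
    (fun x => if φ x ∈ N then 0 else 1) (fun x => ?_) (fun x hx => ?_) h P
  · show (if φ x ∈ N then 0 else 1) ≤ 1
    split_ifs <;> omega
  · have hx' : φ x ∉ N := by
      intro hmem
      apply hx
      show (if φ x ∈ N then 0 else 1) = 0
      rw [if_pos hmem]
    show (if hx : φ x ∈ N then (⟨φ x, hx⟩ : N) else 1) = 1
    rw [dif_neg hx']

/-- **An abelian normal subgroup and one further element.** Let `N` be an abelian normal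
subgroup of a finite group `G` and `ρ` an element of `G`. For every map `φ` from a finite
alphabet into `G` that sends every letter into `N` or to `ρ`, and every subset `P` of `G`, the
language of all words whose product lies in `P` has generalized star height at most one. -/
theorem abel_cyclic_finite {G : Type} [Group G] [Finite G] (N : Subgroup G) [N.Normal]
    (hcomm : ∀ a ∈ N, ∀ b ∈ N, a * b = b * a) (ρ : G) (φ : α → G)
    (hφ : ∀ x, φ x ∈ N ∨ φ x = ρ) (P : Set G) :
    GSHLe 1 ({w | (w.map φ).prod ∈ P} : Language α) := by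
  refine abel_cyclic_unary N hcomm (Nat.card G) Nat.card_pos (fun v _ => pow_card_eq_one')
    (Nat.card G) Nat.card_pos ρ ?_ φ hφ P
  rw [pow_card_eq_one']
  exact N.one_mem

end Vale.Agent.Lib.P329
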