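import Vale.Agent.Lib.P329.ExcCount

/-!
# Counting marked letters by the weight of the earlier letters modulo a prime: the theorem

`stat_wocc_prime`: for a prime `q`, weights `κ`, a set `S` of letters whose weights agree modulo
`q`, a residue `r` and a modulus `m ≥ 1`, the number of positions of a word that carry a letter
of `S` and are preceded by letters of total weight congruent to `r` modulo `q`, taken modulo
`m`, is a statistic of generalized star height at most one.
-/

namespace Vale.Agent.Lib.P329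

open Language

variable {α : Type} [DecidableEq α] [Fintype α]

/-- the invariant along a word -/
theorem excInv_fold (q m : ℕ) (hq : 0 < q) (hm : 0 < m) (κ : α → ℕ) (S : Finset α) (kb : ℕ)
    (hkb : ∀ x ∈ S, κ x % q = kb) (hkb0 : kb ≠ 0) (r : ℕ) (w : List α) :
    ExcInv q m ((q - (r + kb) % q) % q)
      (List.foldl (visitStep (2 * q) m (bstep q κ S (nzSet q κ \ S)) (nzSet q κ))
        ((q - (r + kb) % q) % q) w)
      (List.foldl (visitStep (2 * q) m (bstep q κ (nzSet q κ \ S) S) (nzSet q κ))
        (if (q - (r + kb) % q) % q = 0 then 0 else (q - (r + kb) % q) % q + q) w)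
      (w.map κ).sum (wocc q κ S (r + kb) w) (wocc q κ S r w) := by
  induction w using List.reverseRecOn with
  | nil =>
    have hr0 : (q - (r + kb) % q) % q < q := Nat.mod_lt _ hq
    generalize (q - (r + kb) % q) % q = r0 at hr0
    show ExcInv q m r0 r0 (if r0 = 0 then 0 else r0 + q) 0 0 0
    have h2q : 2 * q ≤ 2 * q * m := Nat.le_mul_of_pos_right (2 * q) hm
    by_cases h0 : r0 = 0
    · subst h0
      rw [if_pos rfl]
      refine ⟨by omega, by omega, by simp, by simp, ?_, ?_⟩
      · intro h
        exact absurd (by simp) h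
      · simp
    · rw [if_neg h0]
      have e1 : r0 % (2 * q) = r0 := Nat.mod_eq_of_lt (by omega)
      have e2 : (r0 + q) % (2 * q) = r0 + q := Nat.mod_eq_of_lt (by omega)
      have e3 : r0 / q = 0 := Nat.div_eq_of_lt hr0
      have e4 : (r0 + q) / q = 1 := by
        rw [Nat.add_div_right _ hq, e3]
      have e5 : r0 / (2 * q) = 0 := Nat.div_eq_of_lt (by omega)
      have e6 : (r0 + q) / (2 * q) = 0 := Nat.div_eq_of_lt (by omega)
      have e7 : r0 % q = r0 := Nat.mod_eq_of_lt hr0
      refine ⟨by omega, by omega, ?_, ?_, ?_, ?_⟩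
      · rw [e1, Nat.add_zero]
      · rw [e2, Nat.add_zero, Nat.add_mod_right]
      · intro _
        rw [e1, e2, e3, e4]
      · rw [e1, e2, e3, e5, e6, Nat.add_zero, e7]
        simp [h0]
  | append_singleton w y ih =>
    rw [List.foldl_append, List.foldl_append, List.map_append, List.sum_append, wocc_snoc,
      wocc_snoc]
    have h := excInv_step q m hq κ S kb hkb hkb0 _ _ _ _ _ _ y ih
    simp only [List.foldl_cons, List.foldl_nil, List.map_cons, List.map_nil, List.sum_cons,
      List.sum_nil, Nat.add_zero]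
    have hrq : (r + kb) % q < q := Nat.mod_lt _ hq
    have e1 : (y ∈ S ∧ ((q - (r + kb) % q) % q + (w.map κ).sum) % q = 0)
        ↔ (y ∈ S ∧ (w.map κ).sum % q = (r + kb) % q) := by
      rw [mod_shift q ((r + kb) % q) _ hrq]
    have e2 : (y ∈ S ∧ (((q - (r + kb) % q) % q + (w.map κ).sum) % q + κ y) % q = 0)
        ↔ (y ∈ S ∧ (w.map κ).sum % q = r % q) := by
      constructor
      · rintro ⟨hy, h0⟩
        refine ⟨hy, ?_⟩
        rw [Nat.mod_add_mod, Nat.add_assoc, mod_shift q ((r + kb) % q) _ hrq] at h0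
        have h1 : (w.map κ).sum + κ y ≡ r + kb [MOD q] := h0
        have h2 : κ y ≡ kb [MOD q] := by
          show κ y % q = kb % q
          rw [← hkb y hy, Nat.mod_mod]
        exact Nat.ModEq.add_right_cancel h2 h1
      · rintro ⟨hy, h0⟩
        refine ⟨hy, ?_⟩
        rw [Nat.mod_add_mod, Nat.add_assoc, mod_shift q ((r + kb) % q) _ hrq]
        have h2 : κ y ≡ kb [MOD q] := by
          show κ y % q = kb % q
          rw [← hkb y hy, Nat.mod_mod]
        exact Nat.ModEq.add h0 h2
    have c1 : (if y ∈ S ∧ ((q - (r + kb) % q) % q + (w.map κ).sum) % q = 0 then 1 else 0)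
        = (if y ∈ S ∧ (w.map κ).sum % q = (r + kb) % q then 1 else 0) := by
      simp only [e1]
    have c2 : (if y ∈ S ∧ (((q - (r + kb) % q) % q + (w.map κ).sum) % q + κ y) % q = 0
          then 1 else 0)
        = (if y ∈ S ∧ (w.map κ).sum % q = r % q then 1 else 0) := by
      simp only [e2]
    rw [c1, c2] at h
    exact h

/-- **The difference of two neighbouring counts.** For marked letters of common nonzero weight
`kb`, the difference `wocc (r + kb) - wocc r` modulo any `M ≥ 1` is a statistic of generalized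
star height at most one. -/
theorem stat_wocc_dif (q : ℕ) (hq : q.Prime) (M : ℕ) (hM : 0 < M) (κ : α → ℕ) (S : Finset α)
    (kb : ℕ) (hkb : ∀ x ∈ S, κ x % q = kb) (hkb0 : kb ≠ 0) (r : ℕ) :
    StatLe 1 (fun w : List α =>
      ((wocc q κ S (r + kb) w : ℕ) : ZMod M) - ((wocc q κ S r w : ℕ) : ZMod M)) := by
  have hq0 : 0 < q := hq.pos
  have h2q : 2 * q ≤ 2 * q * M := Nat.le_mul_of_pos_right (2 * q) hM
  have hbA : ∀ y a, y < 2 * q → bstep q κ S (nzSet q κ \ S) y a < 2 * q :=
    fun y a hy => bstep_lt q hq0 κ _ _ y a hy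
  have hbB : ∀ y a, y < 2 * q → bstep q κ (nzSet q κ \ S) S y a < 2 * q :=
    fun y a hy => bstep_lt q hq0 κ _ _ y a hy
  have hC : ∀ (O I : Finset α) (a : α), a ∉ nzSet q κ → bstep q κ O I 0 a = 0 := by
    intro O I a ha
    have hk : κ a % q = 0 := by
      by_contra h
      exact ha ((mem_nzSet q κ a).mpr h)
    exact bstep_gate0 q κ O I 0 a (Nat.zero_mod q) hk
  have hr0 : (q - (r + kb) % q) % q < q := Nat.mod_lt _ hq0
  have ha0 : (q - (r + kb) % q) % q < 2 * q * M := by omega
  have hb0 : (if (q - (r + kb) % q) % q = 0 then 0 else (q - (r + kb) % q) % q + q)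
      < 2 * q * M := by
    split_ifs <;> omega
  have h1 := stat_visits (2 * q) M (bstep q κ S (nzSet q κ \ S)) (nzSet q κ)
    (exc_aper q hq κ _ _ Finset.disjoint_sdiff) hbA (hC _ _) _ ha0
  have h2 := stat_visits (2 * q) M (bstep q κ (nzSet q κ \ S) S) (nzSet q κ)
    (exc_aper q hq κ _ _ Finset.sdiff_disjoint) hbB (hC _ _) _ hb0
  have h3 := (h1.prod h2).comp
    (fun p : Fin (2 * q * M) × Fin (2 * q * M) =>
      ((p.2.val / (2 * q) : ℕ) : ZMod M) + (if p.2.val % (2 * q) = 0 then 1 else 0)
        + (if p.1.val % (2 * q) % q ≠ 0 ∧ p.1.val % (2 * q) / q = 1 then 1 else 0)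
        - ((p.1.val / (2 * q) : ℕ) : ZMod M) - (if p.1.val % (2 * q) = 0 then 1 else 0))
  refine h3.congr (fun w => ?_)
  obtain ⟨b1, b2, ra, rb, _, hiv⟩ := excInv_fold q M hq0 hM κ S kb hkb hkb0 r w
  simp only [Nat.mod_eq_of_lt b1, Nat.mod_eq_of_lt b2, ra]
  linear_combination (-1 : ZMod M) * hiv

omit [Fintype α] in
/-- the counts over all residues add up to the number of marked letters -/
theorem wocc_sum (q : ℕ) (hq : q.Prime) (κ : α → ℕ) (S : Finset α) (kb : ℕ)
    (hkb0 : kb % q ≠ 0) (r : ℕ) (w : List α) :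
    ∑ j ∈ Finset.range q, wocc q κ S (r + j * kb) w
      = (w.map (fun x => if x ∈ S then 1 else 0)).sum := by
  induction w using List.reverseRecOn with
  | nil => simp [wocc_nil]
  | append_singleton w y ih =>
    simp only [wocc_snoc]
    rw [Finset.sum_add_distrib, ih, List.map_append, List.sum_append]
    congr 1
    simp only [List.map_cons, List.map_nil, List.sum_cons, List.sum_nil, Nat.add_zero]
    by_cases hy : y ∈ S
    · simp only [hy, true_and, if_true]
      have hq0 : 0 < q := hq.pos
      obtain ⟨j, hj⟩ := exists_hit q hq kb hkb0 (r % q) (w.map κ).sum (Nat.mod_lt _ hq0)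
      have hj' : (r + (j % q) * kb) % q = (w.map κ).sum % q := by
        rw [← hj]
        have h1 : j % q * kb ≡ j * kb [MOD q] := Nat.ModEq.mul_right kb (Nat.mod_modEq j q)
        have h2 : r + j % q * kb ≡ r % q + j * kb [MOD q] :=
          Nat.ModEq.add (Nat.mod_modEq r q).symm h1
        exact h2
      have hmem : j % q ∈ Finset.range q := Finset.mem_range.mpr (Nat.mod_lt _ hq0)
      rw [Finset.sum_eq_single_of_mem (j % q) hmem, if_pos hj'.symm]
      intro i hi hne
      rw [if_neg]
      intro hi'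
      apply hne
      have h3 : r + i * kb ≡ r + j % q * kb [MOD q] := by
        show _ % q = _ % q
        rw [hj', hi']
      have h4 : i * kb ≡ j % q * kb [MOD q] := Nat.ModEq.add_left_cancel' r h3
      have hcop : Nat.gcd q kb = 1 := by
        have hnd : ¬ q ∣ kb := fun hd => hkb0 (Nat.mod_eq_zero_of_dvd hd)
        exact (Nat.Prime.coprime_iff_not_dvd hq).mpr hnd
      have h5 : i ≡ j % q [MOD q] := Nat.ModEq.cancel_right_of_coprime hcop h4
      have h6 : i % q = j % q % q := h5
      rw [Nat.mod_eq_of_lt (Finset.mem_range.mp hi), Nat.mod_mod] at h6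
      exact h6
    · simp [hy]

/-- summation by parts -/
theorem tele_sum {R : Type} [CommRing R] (c : ℕ → R) (n : ℕ) :
    ∑ j ∈ Finset.range n, c j
      = (n : R) * c n - ∑ i ∈ Finset.range n, ((i + 1 : ℕ) : R) * (c (i + 1) - c i) := by
  induction n with
  | zero => simp
  | succ n ih =>
    rw [Finset.sum_range_succ, Finset.sum_range_succ, ih]
    push_cast
    ring

/-- the counting theorem for marked letters of nonzero weight -/
theorem stat_wocc_nz (q : ℕ) (hq : q.Prime) (m : ℕ) (hm : 0 < m) (κ : α → ℕ) (S : Finset α)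
    (kb : ℕ) (hkb : ∀ x ∈ S, κ x % q = kb) (hkb0 : kb ≠ 0) (hkbq : kb < q) (r : ℕ) :
    StatLe 1 (fun w : List α => wocc q κ S r w % m) := by
  have hq0 : 0 < q := hq.pos
  have hpos : 0 < q * m := Nat.mul_pos hq0 hm
  have : NeZero (q * m) := ⟨hpos.ne'⟩
  have sN := stat_weight_mod (α := α) (q * m) (fun x => if x ∈ S then 1 else 0)
  have sE : StatLe 1 (fun w : List α => (fun i : Fin q =>
      ((wocc q κ S (r + i.val * kb + kb) w : ℕ) : ZMod (q * m))
        - ((wocc q κ S (r + i.val * kb) w : ℕ) : ZMod (q * m)))) :=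
    StatLe.pi (fun i => stat_wocc_dif q hq (q * m) hpos κ S kb hkb hkb0 (r + i.val * kb))
  have s := (sN.prod sE).comp
    (fun v : ZMod (q * m) × (Fin q → ZMod (q * m)) =>
      ZMod.val (v.1 + ∑ i : Fin q, ((i.val + 1 : ℕ) : ZMod (q * m)) * v.2 i) / q)
  refine s.congr (fun w => ?_)
  have hsum := wocc_sum q hq κ S kb (by rw [Nat.mod_eq_of_lt hkbq]; exact hkb0) r w
  have htele := tele_sum (fun j => ((wocc q κ S (r + j * kb) w : ℕ) : ZMod (q * m))) q
  have hper : wocc q κ S (r + q * kb) w = wocc q κ S r w :=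
    wocc_congr q κ S _ _ (Nat.add_mul_mod_self_left r q kb) w
  dsimp only at htele ⊢
  rw [hper] at htele
  have hfin := Fin.sum_univ_eq_sum_range (fun i => ((i + 1 : ℕ) : ZMod (q * m))
    * (((wocc q κ S (r + i * kb + kb) w : ℕ) : ZMod (q * m))
        - ((wocc q κ S (r + i * kb) w : ℕ) : ZMod (q * m)))) q
  have hstep : ∀ i : ℕ, r + (i + 1) * kb = r + i * kb + kb := by
    intro i
    ring
  simp only [hstep] at htele
  have e : (((w.map (fun x => if x ∈ S then 1 else 0)).sum : ℕ) : ZMod (q * m))
      + ∑ i : Fin q, ((i.val + 1 : ℕ) : ZMod (q * m))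
          * (((wocc q κ S (r + i.val * kb + kb) w : ℕ) : ZMod (q * m))
              - ((wocc q κ S (r + i.val * kb) w : ℕ) : ZMod (q * m)))
      = ((q * wocc q κ S r w : ℕ) : ZMod (q * m)) := by
    rw [hfin, ← hsum]
    push_cast at htele ⊢
    linear_combination htele
  rw [e, ZMod.val_natCast, Nat.mul_mod_mul_left, Nat.mul_div_cancel_left _ hq0]

/-- **Counting marked letters by prefix weight modulo a prime.** For a prime `q`, weights `κ`, a
set `S` of letters whose weights agree modulo `q`, a residue `r` and a modulus `m ≥ 1`: the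
number of positions of a word that carry a letter of `S` and are preceded by letters of total
weight congruent to `r` modulo `q`, taken modulo `m`, is a statistic of generalized star height
at most one. -/
theorem stat_wocc_prime (q : ℕ) (hq : q.Prime) (m : ℕ) (hm : 0 < m) (κ : α → ℕ) (S : Finset α)
    (hS : ∀ x ∈ S, ∀ y ∈ S, κ x % q = κ y % q) (r : ℕ) :
    StatLe 1 (fun w : List α => wocc q κ S r w % m) := by
  obtain ⟨kb, hkbq, hkb⟩ : ∃ kb, kb < q ∧ ∀ x ∈ S, κ x % q = kb := by
    rcases S.eq_empty_or_nonempty with rfl | ⟨x0, hx0⟩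
    · exact ⟨0, hq.pos, fun x hx => absurd hx (Finset.notMem_empty x)⟩
    · exact ⟨κ x0 % q, Nat.mod_lt _ hq.pos, fun x hx => hS x hx x0 hx0⟩
  by_cases h0 : kb = 0
  · subst h0
    exact stat_wocc q hq m hm κ S hkb r
  · exact stat_wocc_nz q hq m hm κ S kb hkb h0 hkbq r

end Vale.Agent.Lib.P329
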