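import Vale.Agent.Lib.P329.AbelThree
import Vale.Agent.Lib.P329.Excursion

/-!
# Groups with an abelian normal subgroup of prime index

Let `N` be an abelian normal subgroup of prime index `q` of a group `G`, with `v ^ m = 1` for all
`v` in `N`, where `m > 0`, and let `ρ` be an element outside `N`. Every element of `G` is
`v * ρ ^ j` with `v` in `N`, and `ρ ^ q` lies in `N`. For a word `x₁ ... x_k` with
`φ xᵢ = vᵢ * ρ ^ jᵢ` the product is `(∏ᵢ ρ ^ sᵢ₋₁ vᵢ ρ ^ (-sᵢ₋₁)) * ρ ^ s_k` with the prefix weights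
`sᵢ = j₁ + ... + jᵢ`; the first factor lies in `N` and only depends on the numbers, modulo `m`, of
occurrences of each letter at each prefix weight modulo `q`.
-/

namespace Vale.Agent.Lib.P329

open Language

variable {α : Type} [Fintype α] [DecidableEq α]

omit [Fintype α] in
theorem wocq_fst (q : ℕ) (κ : α → ℕ) (S : Finset α) (r : ℕ) (w : List α) : ∀ st : ℕ × ℕ,
    (w.foldl (wocStep q κ S r) st).1 = st.1 + (w.map κ).sum := by
  induction w with
  | nil => intro st; simp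
  | cons x w ih =>
    intro st
    rw [List.foldl_cons, ih, List.map_cons, List.sum_cons]
    show st.1 + κ x + (w.map κ).sum = st.1 + (κ x + (w.map κ).sum)
    ring

omit [Fintype α] in
theorem wocq_nil (q : ℕ) (κ : α → ℕ) (S : Finset α) (r : ℕ) : wocc q κ S r [] = 0 := rfl

omit [Fintype α] in
theorem wocq_snoc (q : ℕ) (κ : α → ℕ) (S : Finset α) (r : ℕ) (w : List α) (y : α) :
    wocc q κ S r (w ++ [y]) =
      wocc q κ S r w + if y ∈ S ∧ (w.map κ).sum % q = r % q then 1 else 0 := by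
  unfold wocc
  rw [List.foldl_append, List.foldl_cons, List.foldl_nil]
  have h1 := wocq_fst q κ S r w (0, 0)
  rw [Nat.zero_add] at h1
  show (if y ∈ S ∧ (w.foldl (wocStep q κ S r) (0, 0)).1 % q = r % q
      then (w.foldl (wocStep q κ S r) (0, 0)).2 + 1 else (w.foldl (wocStep q κ S r) (0, 0)).2) = _
  rw [h1]
  split_ifs <;> rfl

/-- the product of a word in a group `ι V * ⟨ρ⟩`, in terms of the counting statistics -/
theorem ext_prod_q (q : ℕ) (hq : 0 < q) {G V : Type} [Group G] [CommGroup V] (ι : V →* G)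
    (ρ : G) (c : ℕ → V → V)
    (hc : ∀ (t : ℕ) (a : V), ρ ^ t * ι a = ι (c (t % q) a) * ρ ^ t)
    (φ : α → G) (v : α → V) (κ : α → ℕ) (h : ∀ x, φ x = ι (v x) * ρ ^ κ x) (w : List α) :
    (w.map φ).prod =
      ι (∏ x : α, ∏ r : Fin q, c (r : ℕ) (v x) ^ wocc q κ {x} (r : ℕ) w)
        * ρ ^ (w.map κ).sum := by
  induction w using List.reverseRecOn with
  | nil =>
    simp only [List.map_nil, List.prod_nil, List.sum_nil, pow_zero, mul_one, wocq_nil,
      Finset.prod_const_one, map_one]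
  | append_singleton w y ih =>
    have hlt : (w.map κ).sum % q < q := Nat.mod_lt _ hq
    have hsum : (∏ x : α, ∏ r : Fin q, c (r : ℕ) (v x) ^ wocc q κ {x} (r : ℕ) (w ++ [y])) =
        (∏ x : α, ∏ r : Fin q, c (r : ℕ) (v x) ^ wocc q κ {x} (r : ℕ) w) *
          c ((w.map κ).sum % q) (v y) := by
      have h1 : ∀ (x : α) (r : Fin q), c (r : ℕ) (v x) ^ wocc q κ {x} (r : ℕ) (w ++ [y]) =
          c (r : ℕ) (v x) ^ wocc q κ {x} (r : ℕ) w *
            (if y = x ∧ r = ⟨(w.map κ).sum % q, hlt⟩ then c (r : ℕ) (v x) else 1) := by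
        intro x r
        rw [wocq_snoc, pow_add]
        congr 1
        have hr : (r : ℕ) % q = (r : ℕ) := Nat.mod_eq_of_lt r.isLt
        by_cases hcc : y = x ∧ r = ⟨(w.map κ).sum % q, hlt⟩
        · rw [if_pos hcc, if_pos, pow_one]
          refine ⟨Finset.mem_singleton.mpr hcc.1, ?_⟩
          rw [hr, hcc.2]
        · rw [if_neg hcc, if_neg, pow_zero]
          rintro ⟨h2, h3⟩
          apply hcc
          refine ⟨Finset.mem_singleton.mp h2, ?_⟩
          apply Fin.ext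
          show (r : ℕ) = (w.map κ).sum % q
          rw [← hr, h3]
      simp only [h1, Finset.prod_mul_distrib]
      congr 1
      rw [Finset.prod_eq_single y]
      · rw [Finset.prod_eq_single (⟨(w.map κ).sum % q, hlt⟩ : Fin q)]
        · rw [if_pos ⟨rfl, rfl⟩]
        · intro r _ hr
          rw [if_neg]
          rintro ⟨-, h3⟩
          exact hr h3
        · intro hn
          exact absurd (Finset.mem_univ _) hn
      · intro x _ hx
        apply Finset.prod_eq_one
        intro r _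
        rw [if_neg]
        rintro ⟨h2, -⟩
        exact hx h2.symm
      · intro hn
        exact absurd (Finset.mem_univ _) hn
    rw [List.map_append, List.prod_append, List.map_cons, List.map_nil, List.prod_singleton, ih,
      List.map_append, List.sum_append, List.map_cons, List.map_nil, List.sum_singleton, hsum,
      map_mul, h y, pow_add]
    have hcs := hc (w.map κ).sum (v y)
    calc ι (∏ x : α, ∏ r : Fin q, c (r : ℕ) (v x) ^ wocc q κ {x} (r : ℕ) w) *
          ρ ^ (w.map κ).sum * (ι (v y) * ρ ^ κ y)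
        = ι (∏ x : α, ∏ r : Fin q, c (r : ℕ) (v x) ^ wocc q κ {x} (r : ℕ) w) *
          (ρ ^ (w.map κ).sum * ι (v y)) * ρ ^ κ y := by
          simp only [mul_assoc]
      _ = ι (∏ x : α, ∏ r : Fin q, c (r : ℕ) (v x) ^ wocc q κ {x} (r : ℕ) w) *
          ι (c ((w.map κ).sum % q) (v y)) *
          (ρ ^ (w.map κ).sum * ρ ^ κ y) := by
          rw [hcs]
          simp only [mul_assoc]

/-- a prefix-weight letter count modulo `m`, as a statistic with values in `ZMod m` -/
theorem stat_wocc_zmod (q : ℕ) (hq : q.Prime) (m : ℕ) (hm : 0 < m) [NeZero m] (κ : α → ℕ)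
    (x : α) (r : ℕ) :
    StatLe 1 (fun w : List α => ((wocc q κ {x} r w : ℕ) : ZMod m)) := by
  have hS : ∀ a ∈ ({x} : Finset α), ∀ b ∈ ({x} : Finset α), κ a % q = κ b % q := by
    intro a ha b hb
    rw [Finset.mem_singleton.mp ha, Finset.mem_singleton.mp hb]
  intro v
  refine (stat_wocc_prime q hq m hm κ {x} hS r v.val).of_iff (fun w => ?_)
  show wocc q κ {x} r w % m = v.val ↔ ((wocc q κ {x} r w : ℕ) : ZMod m) = v
  constructor
  · intro hw
    apply ZMod.val_injective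
    rw [ZMod.val_natCast]
    exact hw
  · intro hw
    rw [← hw, ZMod.val_natCast]

/-- abstract form: a group generated by the image of an abelian group of exponent dividing `m`,
`m > 0`, and one further element `ρ` with `ρ ^ (q * m) = 1` that acts on that image with period
`q`, a prime -/
theorem ext_gsh_prime (q : ℕ) (hq : q.Prime) (m : ℕ) (hm : 0 < m) {G V : Type} [Group G]
    [CommGroup V] (ι : V →* G) (hV : ∀ a : V, a ^ m = 1) (ρ : G) (hρ : ρ ^ (q * m) = 1)
    (c : ℕ → V → V) (hc : ∀ (t : ℕ) (a : V), ρ ^ t * ι a = ι (c (t % q) a) * ρ ^ t)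
    (φ : α → G) (v : α → V) (κ : α → ℕ) (h : ∀ x, φ x = ι (v x) * ρ ^ κ x) (P : Set G) :
    GSHLe 1 ({w | (w.map φ).prod ∈ P} : Language α) := by
  have hq0 : 0 < q := hq.pos
  have : NeZero m := ⟨hm.ne'⟩
  have : NeZero (q * m) := ⟨(Nat.mul_pos hq0 hm).ne'⟩
  have hT : StatLe 1 (fun w : List α =>
      ((((w.map κ).sum : ℕ) : ZMod (q * m)),
        fun (x : α) (r : Fin q) => ((wocc q κ {x} (r : ℕ) w : ℕ) : ZMod m))) :=
    (stat_weight_mod (q * m) κ).prod
      (StatLe.pi (fun x => StatLe.pi (fun r : Fin q => stat_wocc_zmod q hq m hm κ x (r : ℕ))))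
  have hlev := hT.level (fun p : ZMod (q * m) × (α → Fin q → ZMod m) =>
    ι (∏ x : α, ∏ r : Fin q, c (r : ℕ) (v x) ^ (p.2 x r).val) * ρ ^ p.1.val ∈ P)
  refine hlev.of_iff (fun w => ?_)
  show ι (∏ x : α, ∏ r : Fin q,
      c (r : ℕ) (v x) ^ (((wocc q κ {x} (r : ℕ) w : ℕ) : ZMod m)).val) *
      ρ ^ ((((w.map κ).sum : ℕ) : ZMod (q * m))).val ∈ P ↔ (w.map φ).prod ∈ P
  rw [ext_prod_q q hq0 ι ρ c hc φ v κ h w, ZMod.val_natCast,
    pow_mod_of_pow_eq_one ρ (q * m) hρ]
  simp only [ZMod.val_natCast, pow_mod_of_pow_eq_one _ m (hV _)]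

/-- a group of the form `N * ⟨ρ⟩` with `N` normal, abelian, of exponent dividing `m > 0`, and
`ρ ^ q ∈ N` for a prime `q` -/
theorem abel_sub_prime {G : Type} [Group G] (N : Subgroup G) [hnor : N.Normal]
    (hcomm : ∀ a ∈ N, ∀ b ∈ N, a * b = b * a) (m : ℕ) (hm : 0 < m)
    (hexp : ∀ v ∈ N, v ^ m = 1) (q : ℕ) (hq : q.Prime) (ρ : G) (hρ : ρ ^ q ∈ N)
    (hdec : ∀ g : G, ∃ j : ℕ, g * (ρ ^ j)⁻¹ ∈ N) (φ : α → G) (P : Set G) :
    GSHLe 1 ({w | (w.map φ).prod ∈ P} : Language α) := by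
  let inst : CommGroup N := commOfComm N hcomm
  let ι : N →* G := MonoidHom.mk' (fun a : N => (a : G)) (fun _ _ => rfl)
  let c : ℕ → N → N := fun r a =>
    ⟨ρ ^ r * (a : G) * (ρ ^ r)⁻¹, hnor.conj_mem (a : G) a.2 (ρ ^ r)⟩
  have hqm : ρ ^ (q * m) = 1 := by
    rw [pow_mul]
    exact hexp (ρ ^ q) hρ
  have hc : ∀ (t : ℕ) (a : N), ρ ^ t * ι a = ι (c (t % q) a) * ρ ^ t := by
    intro t a
    show ρ ^ t * (a : G) = ρ ^ (t % q) * (a : G) * (ρ ^ (t % q))⁻¹ * ρ ^ t
    have hz : (ρ ^ q) ^ (t / q) ∈ N := N.pow_mem hρ _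
    have ht : ρ ^ t = ρ ^ (t % q) * (ρ ^ q) ^ (t / q) := by
      rw [← pow_mul, ← pow_add, add_comm, Nat.div_add_mod]
    have hza := hcomm _ hz _ a.2
    calc ρ ^ t * (a : G) = ρ ^ (t % q) * ((ρ ^ q) ^ (t / q) * (a : G)) := by
          rw [ht, mul_assoc]
      _ = ρ ^ (t % q) * ((a : G) * (ρ ^ q) ^ (t / q)) := by rw [hza]
      _ = ρ ^ (t % q) * (a : G) * (ρ ^ (t % q))⁻¹ * (ρ ^ (t % q) * (ρ ^ q) ^ (t / q)) := by
          simp only [mul_assoc, inv_mul_cancel_left]
      _ = ρ ^ (t % q) * (a : G) * (ρ ^ (t % q))⁻¹ * ρ ^ t := by rw [← ht]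
  choose κ hκ using hdec
  have h : ∀ x, φ x = ι (⟨φ x * (ρ ^ κ (φ x))⁻¹, hκ (φ x)⟩ : N) * ρ ^ κ (φ x) := by
    intro x
    show φ x = φ x * (ρ ^ κ (φ x))⁻¹ * ρ ^ κ (φ x)
    rw [inv_mul_cancel_right]
  have hV : ∀ a : N, a ^ m = 1 := by
    intro a
    apply Subtype.ext
    show ((a ^ m : N) : G) = 1
    rw [Subgroup.coe_pow]
    exact hexp a a.2
  exact ext_gsh_prime q hq m hm ι hV ρ hqm c hc φ
    (fun x => (⟨φ x * (ρ ^ κ (φ x))⁻¹, hκ (φ x)⟩ : N)) (fun x => κ (φ x)) h P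

/-- **Abelian by prime index.** If a group `G` has an abelian normal subgroup `N` of prime index
with `v ^ m = 1` for all `v` in `N`, where `m > 0`, then for every map `φ` from a finite alphabet
into `G` and every subset `P` of `G` the language of all words whose product lies in `P` has
generalized star height at most one. -/
theorem abel_prime {G : Type} [Group G] (N : Subgroup G) [N.Normal]
    (hcomm : ∀ a ∈ N, ∀ b ∈ N, a * b = b * a) (m : ℕ) (hm : 0 < m)
    (hexp : ∀ v ∈ N, v ^ m = 1) (q : ℕ) (hq : q.Prime) (hidx : N.index = q) (φ : α → G)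
    (P : Set G) :
    GSHLe 1 ({w | (w.map φ).prod ∈ P} : Language α) := by
  have hcard : Nat.card (G ⧸ N) = q := by
    rw [← Subgroup.index_eq_card]
    exact hidx
  have hpq : Fact (Nat.Prime q) := ⟨hq⟩
  have hne : ∃ ρ : G, ρ ∉ N := by
    by_contra hcon
    have htop : N = ⊤ := by
      apply (Subgroup.eq_top_iff' N).mpr
      intro g
      by_contra hg
      exact hcon ⟨g, hg⟩
    rw [htop, Subgroup.index_top] at hidx
    exact hq.one_lt.ne hidx
  obtain ⟨ρ, hρN⟩ := hne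
  have hqn : (ρ : G ⧸ N) ≠ 1 := by
    intro hcon
    exact hρN ((QuotientGroup.eq_one_iff ρ).mp hcon)
  have hρq : ρ ^ q ∈ N := by
    apply (QuotientGroup.eq_one_iff (ρ ^ q)).mp
    have h := pow_card_eq_one' (G := G ⧸ N) (x := (ρ : G ⧸ N))
    rw [hcard] at h
    rw [QuotientGroup.mk_pow]
    exact h
  have hdec : ∀ g : G, ∃ j : ℕ, g * (ρ ^ j)⁻¹ ∈ N := by
    intro g
    have hmem : (g : G ⧸ N) ∈ Submonoid.powers (ρ : G ⧸ N) := mem_powers_of_prime_card hcard hqn
    obtain ⟨n, hn⟩ := hmem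
    refine ⟨n, ?_⟩
    apply (QuotientGroup.eq_one_iff (g * (ρ ^ n)⁻¹)).mp
    rw [QuotientGroup.mk_mul, QuotientGroup.mk_inv, QuotientGroup.mk_pow]
    show (g : G ⧸ N) * ((ρ : G ⧸ N) ^ n)⁻¹ = 1
    have hn' : (ρ : G ⧸ N) ^ n = (g : G ⧸ N) := hn
    rw [← hn', mul_inv_cancel]
  exact abel_sub_prime N hcomm m hm hexp q hq ρ hρq hdec φ P

/-- **Finite form.** Every language recognized by a finite group that has an abelian normal
subgroup of prime index has generalized star height at most one. -/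
theorem abel_prime_finite {G : Type} [Group G] [Finite G] (N : Subgroup G) [N.Normal]
    (hcomm : ∀ a ∈ N, ∀ b ∈ N, a * b = b * a) (hidx : N.index.Prime) (φ : α → G) (P : Set G) :
    GSHLe 1 ({w | (w.map φ).prod ∈ P} : Language α) := by
  refine abel_prime N hcomm (Nat.card N) Nat.card_pos (fun v hv => ?_) N.index hidx rfl φ P
  have h := pow_card_eq_one' (G := N) (x := (⟨v, hv⟩ : N))
  have h2 : (((⟨v, hv⟩ : N) ^ Nat.card N : N) : G) = ((1 : N) : G) := congrArg Subtype.val h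
  rw [Subgroup.coe_pow] at h2
  exact h2

end Vale.Agent.Lib.P329
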