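import Vale.Agent.Lib.P329.AltFour

/-!
# Groups with a normal subgroup of exponent two and index three

Let `N` be a normal subgroup of a group `G` with `v * v = 1` for all `v` in `N` (so `N` is
abelian) and of index three, and let `ρ` be an element outside `N`. Every element of `G` is
`v * ρ ^ j` with `v` in `N`, and `ρ ^ 3` lies in `N`. For a word `x₁ ... x_k` with
`φ xᵢ = vᵢ * ρ ^ jᵢ` the product is `(∏ᵢ ρ ^ sᵢ₋₁ vᵢ ρ ^ (-sᵢ₋₁)) * ρ ^ s_k` with the prefix weights
`sᵢ = j₁ + ... + jᵢ`; the first factor lies in `N` and only depends on the parities of the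
numbers of occurrences of each letter at each prefix weight modulo three.
-/

namespace Vale.Agent.Lib.P329

open Language

variable {α : Type} [Fintype α] [DecidableEq α]

/-- the total weight modulo `m` is a statistic of generalized star height at most one -/
theorem stat_weight_mod (m : ℕ) [NeZero m] (κ : α → ℕ) :
    StatLe 1 (fun w : List α => (((w.map κ).sum : ℕ) : ZMod m)) := by
  have h1 : StatLe 1 (fun w : List α => (fun a : α => ((w.count a : ℕ) : ZMod m))) :=
    StatLe.pi (fun a => stat_count m a)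
  have h2 := h1.comp (fun c : α → ZMod m => ∑ a : α, (κ a : ZMod m) * c a)
  refine h2.congr (fun w => ?_)
  show (∑ a : α, (κ a : ZMod m) * ((w.count a : ℕ) : ZMod m)) = (((w.map κ).sum : ℕ) : ZMod m)
  rw [weight_count κ w]
  push_cast
  rfl

/-- the product of a word in a group `ι V * ⟨ρ⟩`, in terms of the counting statistics -/
theorem ext_prod {G V : Type} [Group G] [CommGroup V] (ι : V →* G) (ρ : G)
    (c : Fin 3 → V → V)
    (hc : ∀ (t : ℕ) (a : V), ρ ^ t * ι a = ι (c ⟨t % 3, Nat.mod_lt t (by norm_num)⟩ a) * ρ ^ t)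
    (φ : α → G) (v : α → V) (κ : α → ℕ) (h : ∀ x, φ x = ι (v x) * ρ ^ κ x) (w : List α) :
    (w.map φ).prod =
      ι (∏ x : α, ∏ r : Fin 3, c r (v x) ^ occW κ {x} (r : ℕ) w) * ρ ^ (w.map κ).sum := by
  induction w using List.reverseRecOn with
  | nil =>
    simp only [List.map_nil, List.prod_nil, List.sum_nil, pow_zero, mul_one, occW_nil,
      Finset.prod_const_one, map_one]
  | append_singleton w y ih =>
    have hlt : (w.map κ).sum % 3 < 3 := Nat.mod_lt _ (by norm_num)
    have hsum : (∏ x : α, ∏ r : Fin 3, c r (v x) ^ occW κ {x} (r : ℕ) (w ++ [y])) =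
        (∏ x : α, ∏ r : Fin 3, c r (v x) ^ occW κ {x} (r : ℕ) w) *
          c ⟨(w.map κ).sum % 3, hlt⟩ (v y) := by
      have h1 : ∀ (x : α) (r : Fin 3), c r (v x) ^ occW κ {x} (r : ℕ) (w ++ [y]) =
          c r (v x) ^ occW κ {x} (r : ℕ) w *
            (if y = x ∧ r = ⟨(w.map κ).sum % 3, hlt⟩ then c r (v x) else 1) := by
        intro x r
        rw [occW_snoc, pow_add]
        congr 1
        have hr : (r : ℕ) % 3 = (r : ℕ) := Nat.mod_eq_of_lt r.isLt
        by_cases hcc : y = x ∧ r = ⟨(w.map κ).sum % 3, hlt⟩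
        · rw [if_pos hcc, if_pos, pow_one]
          refine ⟨Finset.mem_singleton.mpr hcc.1, ?_⟩
          rw [hr, hcc.2]
        · rw [if_neg hcc, if_neg, pow_zero]
          rintro ⟨h2, h3⟩
          apply hcc
          refine ⟨Finset.mem_singleton.mp h2, ?_⟩
          apply Fin.ext
          show (r : ℕ) = (w.map κ).sum % 3
          rw [← hr, h3]
      simp only [h1, Finset.prod_mul_distrib]
      congr 1
      rw [Finset.prod_eq_single y]
      · rw [Finset.prod_eq_single (⟨(w.map κ).sum % 3, hlt⟩ : Fin 3)]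
        · rw [if_pos ⟨rfl, rfl⟩]
        · intro r _ hr
          rw [if_neg]
          rintro ⟨-, h3⟩
          exact hr h3
        · intro hn
          exact absurd (Finset.mem_univ _) hn
      · intro x _ hx
        apply Finset.prod_eq_one
        intro r _
        rw [if_neg]
        rintro ⟨h2, -⟩
        exact hx h2.symm
      · intro hn
        exact absurd (Finset.mem_univ _) hn
    rw [List.map_append, List.prod_append, List.map_cons, List.map_nil, List.prod_singleton, ih,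
      List.map_append, List.sum_append, List.map_cons, List.map_nil, List.sum_singleton, hsum,
      map_mul, h y, pow_add]
    have hcs := hc (w.map κ).sum (v y)
    calc ι (∏ x : α, ∏ r : Fin 3, c r (v x) ^ occW κ {x} (r : ℕ) w) *
          ρ ^ (w.map κ).sum * (ι (v y) * ρ ^ κ y)
        = ι (∏ x : α, ∏ r : Fin 3, c r (v x) ^ occW κ {x} (r : ℕ) w) *
          (ρ ^ (w.map κ).sum * ι (v y)) * ρ ^ κ y := by
          simp only [mul_assoc]
      _ = ι (∏ x : α, ∏ r : Fin 3, c r (v x) ^ occW κ {x} (r : ℕ) w) *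
          ι (c ⟨(w.map κ).sum % 3, hlt⟩ (v y)) *
          (ρ ^ (w.map κ).sum * ρ ^ κ y) := by
          rw [hcs]
          simp only [mul_assoc]

theorem pow_mod_two {V : Type} [Monoid V] (a : V) (ha : a * a = 1) (n : ℕ) :
    a ^ (n % 2) = a ^ n := by
  conv_rhs => rw [← Nat.div_add_mod n 2, pow_add, pow_mul, pow_two, ha, one_pow, one_mul]

theorem pow_mod_six {G : Type} [Monoid G] (ρ : G) (h6 : ρ ^ 6 = 1) (n : ℕ) :
    ρ ^ (n % 6) = ρ ^ n := by
  conv_rhs => rw [← Nat.div_add_mod n 6, pow_add, pow_mul, h6, one_pow, one_mul]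

/-- abstract form: a group generated by the image of an abelian group of exponent two and one
further element `ρ` with `ρ ^ 6 = 1` that acts on that image with period three -/
theorem ext_gsh {G V : Type} [Group G] [CommGroup V] (ι : V →* G) (hV : ∀ a : V, a * a = 1)
    (ρ : G) (h6 : ρ ^ 6 = 1) (c : Fin 3 → V → V)
    (hc : ∀ (t : ℕ) (a : V), ρ ^ t * ι a = ι (c ⟨t % 3, Nat.mod_lt t (by norm_num)⟩ a) * ρ ^ t)
    (φ : α → G) (v : α → V) (κ : α → ℕ) (h : ∀ x, φ x = ι (v x) * ρ ^ κ x) (P : Set G) :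
    GSHLe 1 ({w | (w.map φ).prod ∈ P} : Language α) := by
  have hT : StatLe 1 (fun w : List α =>
      ((((w.map κ).sum : ℕ) : ZMod 6),
        fun (x : α) (r : Fin 3) => ((occW κ {x} (r : ℕ) w : ℕ) : ZMod 2))) :=
    (stat_weight_mod 6 κ).prod
      (StatLe.pi (fun x => StatLe.pi (fun r : Fin 3 => stat_occ2 κ x (r : ℕ))))
  have hlev := hT.level (fun p : ZMod 6 × (α → Fin 3 → ZMod 2) =>
    ι (∏ x : α, ∏ r : Fin 3, c r (v x) ^ (p.2 x r).val) * ρ ^ p.1.val ∈ P)
  refine hlev.of_iff (fun w => ?_)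
  show ι (∏ x : α, ∏ r : Fin 3,
      c r (v x) ^ (((occW κ {x} (r : ℕ) w : ℕ) : ZMod 2)).val) *
      ρ ^ ((((w.map κ).sum : ℕ) : ZMod 6)).val ∈ P ↔ (w.map φ).prod ∈ P
  rw [ext_prod ι ρ c hc φ v κ h w, ZMod.val_natCast, pow_mod_six ρ h6]
  simp only [ZMod.val_natCast, pow_mod_two _ (hV _)]

/-- a group all of whose elements square to one is commutative; here for a subgroup -/
@[reducible] def commOfExpTwo {G : Type} [Group G] (N : Subgroup G)
    (hN : ∀ v ∈ N, v * v = 1) : CommGroup N :=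
  { (inferInstance : Group N) with
    mul_comm := fun a b => by
      apply Subtype.ext
      show (a : G) * (b : G) = (b : G) * (a : G)
      have ha := hN a a.2
      have hb := hN b b.2
      have hab := hN ((a : G) * (b : G)) (N.mul_mem a.2 b.2)
      calc (a : G) * (b : G) = (a : G) * ((a : G) * (b : G) * ((a : G) * (b : G))) * (b : G) := by
            rw [hab, mul_one]
        _ = (a : G) * (a : G) * ((b : G) * (a : G)) * ((b : G) * (b : G)) := by
            simp only [mul_assoc]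
        _ = (b : G) * (a : G) := by rw [ha, hb, one_mul, mul_one] }

/-- a group of the form `N * ⟨ρ⟩` with `N` normal of exponent two and `ρ ^ 3 ∈ N` -/
theorem ext_sub {G : Type} [Group G] (N : Subgroup G) [hnor : N.Normal]
    (hN : ∀ v ∈ N, v * v = 1) (ρ : G) (hρ : ρ ^ 3 ∈ N)
    (hdec : ∀ g : G, ∃ j : ℕ, g * (ρ ^ j)⁻¹ ∈ N) (φ : α → G) (P : Set G) :
    GSHLe 1 ({w | (w.map φ).prod ∈ P} : Language α) := by
  let inst : CommGroup N := commOfExpTwo N hN
  have hcomm : ∀ a b : G, a ∈ N → b ∈ N → a * b = b * a := by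
    intro a b ha hb
    have h := mul_comm (⟨a, ha⟩ : N) ⟨b, hb⟩
    exact congrArg Subtype.val h
  let ι : N →* G := MonoidHom.mk' (fun a : N => (a : G)) (fun _ _ => rfl)
  let c : Fin 3 → N → N := fun r a =>
    ⟨ρ ^ (r : ℕ) * (a : G) * (ρ ^ (r : ℕ))⁻¹, hnor.conj_mem (a : G) a.2 (ρ ^ (r : ℕ))⟩
  have h6 : ρ ^ 6 = 1 := by
    have h := hN (ρ ^ 3) hρ
    rw [← pow_add] at h
    exact h
  have hc : ∀ (t : ℕ) (a : N),
      ρ ^ t * ι a = ι (c ⟨t % 3, Nat.mod_lt t (by norm_num)⟩ a) * ρ ^ t := by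
    intro t a
    show ρ ^ t * (a : G) = ρ ^ (t % 3) * (a : G) * (ρ ^ (t % 3))⁻¹ * ρ ^ t
    have hz : (ρ ^ 3) ^ (t / 3) ∈ N := N.pow_mem hρ _
    have ht : ρ ^ t = ρ ^ (t % 3) * (ρ ^ 3) ^ (t / 3) := by
      rw [← pow_mul, ← pow_add, add_comm, Nat.div_add_mod]
    have hza := hcomm _ _ hz a.2
    calc ρ ^ t * (a : G) = ρ ^ (t % 3) * ((ρ ^ 3) ^ (t / 3) * (a : G)) := by
          rw [ht, mul_assoc]
      _ = ρ ^ (t % 3) * ((a : G) * (ρ ^ 3) ^ (t / 3)) := by rw [hza]
      _ = ρ ^ (t % 3) * (a : G) * (ρ ^ (t % 3))⁻¹ * (ρ ^ (t % 3) * (ρ ^ 3) ^ (t / 3)) := by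
          simp only [mul_assoc, inv_mul_cancel_left]
      _ = ρ ^ (t % 3) * (a : G) * (ρ ^ (t % 3))⁻¹ * ρ ^ t := by rw [← ht]
  choose κ hκ using hdec
  have h : ∀ x, φ x = ι (⟨φ x * (ρ ^ κ (φ x))⁻¹, hκ (φ x)⟩ : N) * ρ ^ κ (φ x) := by
    intro x
    show φ x = φ x * (ρ ^ κ (φ x))⁻¹ * ρ ^ κ (φ x)
    rw [inv_mul_cancel_right]
  exact ext_gsh ι (fun a => Subtype.ext (hN a a.2)) ρ h6 c hc φ
    (fun x => (⟨φ x * (ρ ^ κ (φ x))⁻¹, hκ (φ x)⟩ : N)) (fun x => κ (φ x)) h P

/-- **Exponent two by index three.** If a group `G` has a normal subgroup `N` of index three all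
of whose elements square to one, then for every map `φ` from a finite alphabet into `G` and
every subset `P` of `G` the language of all words whose product lies in `P` has generalized star
height at most one. -/
theorem ext_two_three {G : Type} [Group G] (N : Subgroup G) [N.Normal]
    (hN : ∀ v ∈ N, v * v = 1) (hidx : N.index = 3) (φ : α → G) (P : Set G) :
    GSHLe 1 ({w | (w.map φ).prod ∈ P} : Language α) := by
  have hcard : Nat.card (G ⧸ N) = 3 := by
    rw [← Subgroup.index_eq_card]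
    exact hidx
  have hp3 : Fact (Nat.Prime 3) := ⟨Nat.prime_three⟩
  have hne : ∃ ρ : G, ρ ∉ N := by
    by_contra hcon
    have htop : N = ⊤ := by
      apply (Subgroup.eq_top_iff' N).mpr
      intro g
      by_contra hg
      exact hcon ⟨g, hg⟩
    rw [htop, Subgroup.index_top] at hidx
    norm_num at hidx
  obtain ⟨ρ, hρN⟩ := hne
  have hq : (ρ : G ⧸ N) ≠ 1 := by
    intro hcon
    exact hρN ((QuotientGroup.eq_one_iff ρ).mp hcon)
  have h3 : ρ ^ 3 ∈ N := by
    apply (QuotientGroup.eq_one_iff (ρ ^ 3)).mp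
    have h := pow_card_eq_one' (G := G ⧸ N) (x := (ρ : G ⧸ N))
    rw [hcard] at h
    rw [QuotientGroup.mk_pow]
    exact h
  have hdec : ∀ g : G, ∃ j : ℕ, g * (ρ ^ j)⁻¹ ∈ N := by
    intro g
    have hmem : (g : G ⧸ N) ∈ Submonoid.powers (ρ : G ⧸ N) := mem_powers_of_prime_card hcard hq
    obtain ⟨n, hn⟩ := hmem
    refine ⟨n, ?_⟩
    apply (QuotientGroup.eq_one_iff (g * (ρ ^ n)⁻¹)).mp
    rw [QuotientGroup.mk_mul, QuotientGroup.mk_inv, QuotientGroup.mk_pow]
    show (g : G ⧸ N) * ((ρ : G ⧸ N) ^ n)⁻¹ = 1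
    have hn' : (ρ : G ⧸ N) ^ n = (g : G ⧸ N) := hn
    rw [← hn', mul_inv_cancel]
  exact ext_sub N hN ρ h3 hdec φ P

end Vale.Agent.Lib.P329
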