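import Vale.Agent.Lib.P329.LevelAper
import Vale.Agent.Lib.P329.ExtThree

/-!
# Counting marked letters modulo `m` by means of level automata

`occW κ S r w` is the number of positions of `w` carrying a letter of `S` at which the total
weight of the preceding letters is congruent to `r` modulo three. If the letters of `S` have
the same weight modulo three and `m > 0`, then `occW κ S r w % m` is a statistic of generalized
star height at most one (`stat_occW_modm`).

The proof compares the levels reached by two variants of the level automaton of `LevelAper`: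
the difference of the two levels is a difference of two of the counts, and the three counts
add up to the number of marked letters. Running the automata with `3 * m` levels gives three
times the count modulo `3 * m`, hence the count modulo `m`.
-/

namespace Vale.Agent.Lib.P329

open Language

variable {α : Type} [Fintype α] [DecidableEq α]

/-- indicator of a step up -/
def lup (e : ℕ) : ℕ := if e = 1 then 1 else 0

/-- indicator of a step down -/
def ldn (e : ℕ) : ℕ := if e = 2 then 1 else 0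

/-- indicator of the local states that remember a marked letter -/
def lmu (y : ℕ) : ℕ := if y = 2 ∨ y = 5 then 1 else 0

/-- indicator of a marked letter read at the gate -/
def lg0 (y : ℕ) (c : Fin 4) : ℕ := if c.val = 3 ∧ y = 0 then 1 else 0

/-- indicator of a marked letter read at a local state of residue two -/
def lg2 (y : ℕ) (c : Fin 4) : ℕ := if c.val = 3 ∧ 4 ≤ y then 1 else 0

/-- the local start state of a given residue -/
def ly0 (ρ : ℕ) : ℕ := if ρ = 0 then 0 else if ρ = 1 then 1 else 4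

theorem lfinB : ∀ y : Fin 7, ∀ c : Fin 4,
    lup (ldT 1 y.val c) + ldn (ldT 0 y.val c)
      = lup (ldT 0 y.val c) + ldn (ldT 1 y.val c) + lg0 y.val c := by decide

theorem lfinC : ∀ y : Fin 7, ∀ c : Fin 4,
    lup (ldT 3 y.val c) + ldn (ldT 2 y.val c) + lmu (lsT 1 y.val c) + lg2 y.val c
      = lup (ldT 2 y.val c) + ldn (ldT 3 y.val c) + lmu y.val + lg0 y.val c := by decide

theorem lres_facts : ∀ y : Fin 7, (lres y.val = 0 ↔ y.val = 0) ∧ (lres y.val = 2 ↔ 4 ≤ y.val) := by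
  decide

theorem ly0_facts : ∀ ρ : Fin 3, lres (ly0 ρ.val) = ρ.val ∧ ly0 ρ.val < 7 ∧ lmu (ly0 ρ.val) = 0 := by
  decide

theorem mdv_zero : mdv 0 = 0 := by decide

theorem mdv_one : mdv 1 = 0 := by decide

theorem mdv_two : mdv 2 = 1 := by decide

theorem mdv_three : mdv 3 = 1 := by decide

/-! ### One step of the level automaton -/

theorem lvs_mod (m v : ℕ) (st : ℕ) (c : Fin 4) :
    lvStep m v st c % 7 = lsT (mdv v) (st % 7) c := by
  have h := lsT_lt ⟨mdv v, mdv_lt v⟩ ⟨st % 7, Nat.mod_lt _ (by norm_num)⟩ c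
  have h' : lsT (mdv v) (st % 7) c < 7 := h
  unfold lvStep
  omega

theorem lvs_div (m v : ℕ) (st : ℕ) (c : Fin 4) :
    lvStep m v st c / 7
      = (st / 7 + (if ldT v (st % 7) c = 2 then m - 1 else ldT v (st % 7) c)) % m := by
  have h := lsT_lt ⟨mdv v, mdv_lt v⟩ ⟨st % 7, Nat.mod_lt _ (by norm_num)⟩ c
  have h' : lsT (mdv v) (st % 7) c < 7 := h
  unfold lvStep
  omega

theorem lvs_cast (m v : ℕ) (hm : 0 < m) (hv : v < 4) (st : ℕ) (c : Fin 4) :
    ((lvStep m v st c / 7 : ℕ) : ZMod m) + (ldn (ldT v (st % 7) c) : ZMod m)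
      = ((st / 7 : ℕ) : ZMod m) + (lup (ldT v (st % 7) c) : ZMod m) := by
  rw [lvs_div, ZMod.natCast_mod]
  have hlt := ldT_lt ⟨v, hv⟩ ⟨st % 7, Nat.mod_lt _ (by norm_num)⟩ c
  have hlt' : ldT v (st % 7) c < 3 := hlt
  generalize ldT v (st % 7) c = e at hlt' ⊢
  interval_cases e
  · simp [lup, ldn]
  · simp [lup, ldn]
  · have h1 : ((m - 1 : ℕ) : ZMod m) = -1 := by
      rw [Nat.cast_sub hm, ZMod.natCast_self]
      simp
    simp only [lup, ldn]
    push_cast
    rw [h1]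
    ring

/-! ### Marked letters of weight zero -/

omit [Fintype α] in
theorem ltype_three (κ : α → ℕ) (S : Finset α) (x : α) : ltype κ S x = 3 ↔ x ∈ S := by
  unfold ltype
  have h3 : κ x % 3 < 3 := Nat.mod_lt _ (by norm_num)
  by_cases hx : x ∈ S
  · rw [if_pos hx]
    exact ⟨fun _ => hx, fun _ => rfl⟩
  · rw [if_neg hx]
    exact ⟨fun h => by omega, fun h => absurd h hx⟩

/-- the letter class of a letter when the marked letters have weight zero -/
def lclsB (κ : α → ℕ) (S : Finset α) (x : α) : Fin 4 := ⟨ltype κ S x, ltype_lt κ S x⟩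

/-- the invariant for marked letters of weight zero -/
def InvLB (m r : ℕ) (s0 s1 : ℕ) (p : ℕ × ℕ) : Prop :=
  s0 % 7 = s1 % 7 ∧ lres (s0 % 7) = ((3 - r % 3) % 3 + p.1) % 3
    ∧ ((s1 / 7 : ℕ) : ZMod m) = ((s0 / 7 : ℕ) : ZMod m) + ((p.2 : ℕ) : ZMod m)

omit [Fintype α] in
theorem invLB_step (m : ℕ) (hm : 0 < m) (κ : α → ℕ) (S : Finset α)
    (hkb : ∀ x ∈ S, κ x % 3 = 0) (r : ℕ) (s0 s1 : ℕ) (p : ℕ × ℕ) (x : α)
    (h : InvLB m r s0 s1 p) :
    InvLB m r (lvStep m 0 s0 (lclsB κ S x)) (lvStep m 1 s1 (lclsB κ S x))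
      (occStep κ S r p x) := by
  obtain ⟨h1, h2, h3⟩ := h
  have hy : s0 % 7 < 7 := Nat.mod_lt _ (by norm_num)
  have hk3 : κ x % 3 < 3 := Nat.mod_lt _ (by norm_num)
  refine ⟨?_, ?_, ?_⟩
  · rw [lvs_mod, lvs_mod, mdv_zero, mdv_one, h1]
  · rw [lvs_mod, mdv_zero]
    have hs : lres (lsT 0 (s0 % 7) (lclsB κ S x))
        = (lres (s0 % 7) + lwt 0 (lclsB κ S x)) % 3 :=
      lres_step ⟨0, by norm_num⟩ ⟨s0 % 7, hy⟩ (lclsB κ S x)
    rw [hs, h2]
    have hw : lwt 0 (lclsB κ S x) = κ x % 3 := by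
      show (if ltype κ S x = 3 then (if 0 = 0 then 0 else 1) else ltype κ S x) = κ x % 3
      by_cases hx : x ∈ S
      · rw [if_pos ((ltype_three κ S x).mpr hx), if_pos rfl, hkb x hx]
      · have ht : ltype κ S x = κ x % 3 := by
          unfold ltype
          rw [if_neg hx]
        rw [if_neg (fun h => hx ((ltype_three κ S x).mp h)), ht]
    rw [hw]
    show _ = ((3 - r % 3) % 3 + (p.1 + κ x)) % 3
    omega
  · have e0 := lvs_cast m 0 hm (by norm_num) s0 (lclsB κ S x)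
    have e1 := lvs_cast m 1 hm (by norm_num) s1 (lclsB κ S x)
    rw [← h1] at e1
    have hf := congrArg (Nat.cast : ℕ → ZMod m) (lfinB ⟨s0 % 7, hy⟩ (lclsB κ S x))
    push_cast at hf
    have hc : (occStep κ S r p x).2 = p.2 + lg0 (s0 % 7) (lclsB κ S x) := by
      show (if x ∈ S ∧ p.1 % 3 = r % 3 then p.2 + 1 else p.2)
        = p.2 + (if ltype κ S x = 3 ∧ s0 % 7 = 0 then 1 else 0)
      have hz : lres (s0 % 7) = 0 ↔ s0 % 7 = 0 := (lres_facts ⟨s0 % 7, hy⟩).1
      have hiff : (x ∈ S ∧ p.1 % 3 = r % 3) ↔ (ltype κ S x = 3 ∧ s0 % 7 = 0) := by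
        rw [ltype_three, ← hz, h2]
        constructor
        · rintro ⟨ha, hb⟩
          exact ⟨ha, by omega⟩
        · rintro ⟨ha, hb⟩
          exact ⟨ha, by omega⟩
      by_cases hc : x ∈ S ∧ p.1 % 3 = r % 3
      · rw [if_pos hc, if_pos (hiff.mp hc)]
      · rw [if_neg hc, if_neg (fun h => hc (hiff.mpr h)), Nat.add_zero]
    rw [hc]
    push_cast
    linear_combination e1 - e0 + h3 + hf

omit [Fintype α] in
theorem invLB_fold (m : ℕ) (hm : 0 < m) (κ : α → ℕ) (S : Finset α)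
    (hkb : ∀ x ∈ S, κ x % 3 = 0) (r : ℕ) :
    ∀ (w : List α) (s0 s1 : ℕ) (p : ℕ × ℕ), InvLB m r s0 s1 p →
      InvLB m r (List.foldl (fun st x => lvStep m 0 st (lclsB κ S x)) s0 w)
        (List.foldl (fun st x => lvStep m 1 st (lclsB κ S x)) s1 w)
        (List.foldl (occStep κ S r) p w) := by
  intro w
  induction w with
  | nil =>
    intro s0 s1 p h
    exact h
  | cons x v ih =>
    intro s0 s1 p h
    simp only [List.foldl_cons]
    exact ih _ _ _ (invLB_step m hm κ S hkb r s0 s1 p x h)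

theorem stat_occW_modB (m : ℕ) (hm : 0 < m) (κ : α → ℕ) (S : Finset α)
    (hkb : ∀ x ∈ S, κ x % 3 = 0) (r : ℕ) :
    StatLe 1 (fun w : List α => ((occW κ S r w : ℕ) : ZMod m)) := by
  have hρ : (3 - r % 3) % 3 < 3 := Nat.mod_lt _ (by norm_num)
  obtain ⟨hy1, hy2, -⟩ := ly0_facts ⟨(3 - r % 3) % 3, hρ⟩
  have hy1' : lres (ly0 ((3 - r % 3) % 3)) = (3 - r % 3) % 3 := hy1
  have hy2' : ly0 ((3 - r % 3) % 3) < 7 := hy2
  have hy0 : ly0 ((3 - r % 3) % 3) < 7 * m := by
    have : 7 ≤ 7 * m := Nat.le_mul_of_pos_right 7 hm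
    omega
  have : NeZero m := ⟨hm.ne'⟩
  have s0 := stat_level (α := α) m 0 hm (by norm_num) (lclsB κ S) (ly0 ((3 - r % 3) % 3)) hy0
  have s1 := stat_level (α := α) m 1 hm (by norm_num) (lclsB κ S) (ly0 ((3 - r % 3) % 3)) hy0
  have s := (s0.prod s1).comp (fun v : Fin (7 * m) × Fin (7 * m) =>
    ((v.2.val / 7 : ℕ) : ZMod m) - ((v.1.val / 7 : ℕ) : ZMod m))
  refine s.congr (fun w => ?_)
  have hinit : InvLB m r (ly0 ((3 - r % 3) % 3)) (ly0 ((3 - r % 3) % 3)) (0, 0) := by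
    refine ⟨rfl, ?_, ?_⟩
    · rw [Nat.mod_eq_of_lt hy2', hy1']
      show _ = ((3 - r % 3) % 3 + 0) % 3
      omega
    · simp
  obtain ⟨-, -, h3⟩ := invLB_fold m hm κ S hkb r w _ _ _ hinit
  show (((List.foldl (fun st x => lvStep m 1 st (lclsB κ S x)) (ly0 ((3 - r % 3) % 3)) w
        % (7 * m) / 7 : ℕ) : ZMod m))
      - (((List.foldl (fun st x => lvStep m 0 st (lclsB κ S x)) (ly0 ((3 - r % 3) % 3)) w
        % (7 * m) / 7 : ℕ) : ZMod m))
    = ((occW κ S r w : ℕ) : ZMod m)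
  rw [Nat.mod_mul_right_div_self, Nat.mod_mul_right_div_self, ZMod.natCast_mod,
    ZMod.natCast_mod, h3]
  show _ + ((occW κ S r w : ℕ) : ZMod m) - _ = _
  ring

/-! ### Marked letters of weight one or two -/

/-- the letter class of a letter when the marked letters have weight `kb` -/
def lclsC (κ : α → ℕ) (S : Finset α) (kb : ℕ) (x : α) : Fin 4 :=
  if ltype κ S x = 0 then 0 else if ltype κ S x = 3 then 3 else if ltype κ S x = kb then 1 else 2

omit [Fintype α] in
theorem lclsC_three (κ : α → ℕ) (S : Finset α) (kb : ℕ) (x : α) :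
    (lclsC κ S kb x).val = 3 ↔ x ∈ S := by
  rw [← ltype_three κ S x]
  unfold lclsC
  split_ifs with h0 h3 hk
  · exact ⟨fun h => absurd h (by decide), fun h => by omega⟩
  · exact ⟨fun _ => h3, fun _ => rfl⟩
  · exact ⟨fun h => absurd h (by decide), fun h => absurd h h3⟩
  · exact ⟨fun h => absurd h (by decide), fun h => absurd h h3⟩

omit [Fintype α] in
theorem lwt_lclsC (κ : α → ℕ) (S : Finset α) (kb : ℕ) (hk : kb = 1 ∨ kb = 2)
    (hkb : ∀ x ∈ S, κ x % 3 = kb) (x : α) :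
    lwt 1 (lclsC κ S kb x) % 3 = (kb * κ x) % 3 := by
  have hk3 : κ x % 3 < 3 := Nat.mod_lt _ (by norm_num)
  by_cases hx : x ∈ S
  · have ht : ltype κ S x = 3 := (ltype_three κ S x).mpr hx
    have hc : lclsC κ S kb x = 3 := by
      unfold lclsC
      rw [if_neg (by omega), if_pos ht]
    have hkx := hkb x hx
    rw [hc]
    show 1 % 3 = (kb * κ x) % 3
    rcases hk with rfl | rfl <;> omega
  · have ht : ltype κ S x = κ x % 3 := by
      unfold ltype
      rw [if_neg hx]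
    unfold lclsC
    rw [ht]
    split_ifs with h0 h3 hkk
    · show 0 % 3 = (kb * κ x) % 3
      rcases hk with rfl | rfl <;> omega
    · omega
    · show 1 % 3 = (kb * κ x) % 3
      rcases hk with rfl | rfl <;> omega
    · show 2 % 3 = (kb * κ x) % 3
      rcases hk with rfl | rfl <;> omega

/-- the invariant for marked letters of weight `kb` -/
def InvLC (m kb r : ℕ) (s2 s3 : ℕ) (p q : ℕ × ℕ) : Prop :=
  s2 % 7 = s3 % 7 ∧ p.1 = q.1 ∧ lres (s2 % 7) = ((3 - (kb * r) % 3) % 3 + kb * p.1) % 3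
    ∧ ((s3 / 7 : ℕ) : ZMod m) + ((lmu (s2 % 7) : ℕ) : ZMod m) + ((q.2 : ℕ) : ZMod m)
        = ((s2 / 7 : ℕ) : ZMod m) + ((p.2 : ℕ) : ZMod m)

omit [Fintype α] in
theorem invLC_step (m : ℕ) (hm : 0 < m) (κ : α → ℕ) (S : Finset α) (kb : ℕ)
    (hk : kb = 1 ∨ kb = 2) (hkb : ∀ x ∈ S, κ x % 3 = kb) (r : ℕ) (s2 s3 : ℕ) (p q : ℕ × ℕ)
    (x : α) (h : InvLC m kb r s2 s3 p q) :
    InvLC m kb r (lvStep m 2 s2 (lclsC κ S kb x)) (lvStep m 3 s3 (lclsC κ S kb x))
      (occStep κ S r p x) (occStep κ S (r + 2 * kb) q x) := by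
  obtain ⟨h1, hpq, h2, h3⟩ := h
  have hy : s2 % 7 < 7 := Nat.mod_lt _ (by norm_num)
  have hk3 : κ x % 3 < 3 := Nat.mod_lt _ (by norm_num)
  have hz : lres (s2 % 7) = 0 ↔ s2 % 7 = 0 := (lres_facts ⟨s2 % 7, hy⟩).1
  have hz2 : lres (s2 % 7) = 2 ↔ 4 ≤ s2 % 7 := (lres_facts ⟨s2 % 7, hy⟩).2
  refine ⟨?_, ?_, ?_, ?_⟩
  · rw [lvs_mod, lvs_mod, mdv_two, mdv_three, h1]
  · show p.1 + κ x = q.1 + κ x
    rw [hpq]
  · rw [lvs_mod, mdv_two]
    have hs : lres (lsT 1 (s2 % 7) (lclsC κ S kb x))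
        = (lres (s2 % 7) + lwt 1 (lclsC κ S kb x)) % 3 :=
      lres_step ⟨1, by norm_num⟩ ⟨s2 % 7, hy⟩ (lclsC κ S kb x)
    have hw := lwt_lclsC κ S kb hk hkb x
    rw [hs, h2]
    show _ = ((3 - (kb * r) % 3) % 3 + kb * (p.1 + κ x)) % 3
    rcases hk with rfl | rfl <;> omega
  · have e2 := lvs_cast m 2 hm (by norm_num) s2 (lclsC κ S kb x)
    have e3 := lvs_cast m 3 hm (by norm_num) s3 (lclsC κ S kb x)
    rw [← h1] at e3
    have hf := congrArg (Nat.cast : ℕ → ZMod m) (lfinC ⟨s2 % 7, hy⟩ (lclsC κ S kb x))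
    push_cast at hf
    have hcp : (occStep κ S r p x).2 = p.2 + lg0 (s2 % 7) (lclsC κ S kb x) := by
      show (if x ∈ S ∧ p.1 % 3 = r % 3 then p.2 + 1 else p.2)
        = p.2 + (if (lclsC κ S kb x).val = 3 ∧ s2 % 7 = 0 then 1 else 0)
      have hiff : (x ∈ S ∧ p.1 % 3 = r % 3) ↔ ((lclsC κ S kb x).val = 3 ∧ s2 % 7 = 0) := by
        rw [lclsC_three, ← hz, h2]
        constructor
        · rintro ⟨ha, hb⟩
          exact ⟨ha, by rcases hk with rfl | rfl <;> omega⟩
        · rintro ⟨ha, hb⟩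
          exact ⟨ha, by rcases hk with rfl | rfl <;> omega⟩
      by_cases hc : x ∈ S ∧ p.1 % 3 = r % 3
      · rw [if_pos hc, if_pos (hiff.mp hc)]
      · rw [if_neg hc, if_neg (fun h => hc (hiff.mpr h)), Nat.add_zero]
    have hcq : (occStep κ S (r + 2 * kb) q x).2 = q.2 + lg2 (s2 % 7) (lclsC κ S kb x) := by
      show (if x ∈ S ∧ q.1 % 3 = (r + 2 * kb) % 3 then q.2 + 1 else q.2)
        = q.2 + (if (lclsC κ S kb x).val = 3 ∧ 4 ≤ s2 % 7 then 1 else 0)
      have hiff : (x ∈ S ∧ q.1 % 3 = (r + 2 * kb) % 3)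
          ↔ ((lclsC κ S kb x).val = 3 ∧ 4 ≤ s2 % 7) := by
        rw [lclsC_three, ← hz2, h2, ← hpq]
        constructor
        · rintro ⟨ha, hb⟩
          exact ⟨ha, by rcases hk with rfl | rfl <;> omega⟩
        · rintro ⟨ha, hb⟩
          exact ⟨ha, by rcases hk with rfl | rfl <;> omega⟩
      by_cases hc : x ∈ S ∧ q.1 % 3 = (r + 2 * kb) % 3
      · rw [if_pos hc, if_pos (hiff.mp hc)]
      · rw [if_neg hc, if_neg (fun h => hc (hiff.mpr h)), Nat.add_zero]
    rw [hcp, hcq, lvs_mod, mdv_two]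
    push_cast
    linear_combination e3 - e2 + h3 + hf

omit [Fintype α] in
theorem invLC_fold (m : ℕ) (hm : 0 < m) (κ : α → ℕ) (S : Finset α) (kb : ℕ)
    (hk : kb = 1 ∨ kb = 2) (hkb : ∀ x ∈ S, κ x % 3 = kb) (r : ℕ) :
    ∀ (w : List α) (s2 s3 : ℕ) (p q : ℕ × ℕ), InvLC m kb r s2 s3 p q →
      InvLC m kb r (List.foldl (fun st x => lvStep m 2 st (lclsC κ S kb x)) s2 w)
        (List.foldl (fun st x => lvStep m 3 st (lclsC κ S kb x)) s3 w)
        (List.foldl (occStep κ S r) p w) (List.foldl (occStep κ S (r + 2 * kb)) q w) := by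
  intro w
  induction w with
  | nil =>
    intro s2 s3 p q h
    exact h
  | cons x v ih =>
    intro s2 s3 p q h
    simp only [List.foldl_cons]
    exact ih _ _ _ _ (invLC_step m hm κ S kb hk hkb r s2 s3 p q x h)

/-- the difference of two of the counts is a statistic of generalized star height at most
one -/
theorem stat_occW_dif (m : ℕ) (hm : 0 < m) (κ : α → ℕ) (S : Finset α) (kb : ℕ)
    (hk : kb = 1 ∨ kb = 2) (hkb : ∀ x ∈ S, κ x % 3 = kb) (r : ℕ) :
    StatLe 1 (fun w : List α =>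
      ((occW κ S r w : ℕ) : ZMod m) - ((occW κ S (r + 2 * kb) w : ℕ) : ZMod m)) := by
  have hρ : (3 - (kb * r) % 3) % 3 < 3 := Nat.mod_lt _ (by norm_num)
  obtain ⟨hy1, hy2, hy3⟩ := ly0_facts ⟨(3 - (kb * r) % 3) % 3, hρ⟩
  have hy1' : lres (ly0 ((3 - (kb * r) % 3) % 3)) = (3 - (kb * r) % 3) % 3 := hy1
  have hy2' : ly0 ((3 - (kb * r) % 3) % 3) < 7 := hy2
  have hy3' : lmu (ly0 ((3 - (kb * r) % 3) % 3)) = 0 := hy3
  have hy0 : ly0 ((3 - (kb * r) % 3) % 3) < 7 * m := by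
    have : 7 ≤ 7 * m := Nat.le_mul_of_pos_right 7 hm
    omega
  have : NeZero m := ⟨hm.ne'⟩
  have s2 := stat_level (α := α) m 2 hm (by norm_num) (lclsC κ S kb)
    (ly0 ((3 - (kb * r) % 3) % 3)) hy0
  have s3 := stat_level (α := α) m 3 hm (by norm_num) (lclsC κ S kb)
    (ly0 ((3 - (kb * r) % 3) % 3)) hy0
  have s := (s2.prod s3).comp (fun v : Fin (7 * m) × Fin (7 * m) =>
    ((v.2.val / 7 : ℕ) : ZMod m) + ((lmu (v.1.val % 7) : ℕ) : ZMod m)
      - ((v.1.val / 7 : ℕ) : ZMod m))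
  refine s.congr (fun w => ?_)
  have hinit : InvLC m kb r (ly0 ((3 - (kb * r) % 3) % 3)) (ly0 ((3 - (kb * r) % 3) % 3))
      (0, 0) (0, 0) := by
    refine ⟨rfl, rfl, ?_, ?_⟩
    · rw [Nat.mod_eq_of_lt hy2', hy1']
      show _ = ((3 - (kb * r) % 3) % 3 + kb * 0) % 3
      omega
    · rw [Nat.mod_eq_of_lt hy2', hy3']
      simp
  obtain ⟨-, -, -, h3⟩ := invLC_fold m hm κ S kb hk hkb r w _ _ _ _ hinit
  show (((List.foldl (fun st x => lvStep m 3 st (lclsC κ S kb x))
          (ly0 ((3 - (kb * r) % 3) % 3)) w % (7 * m) / 7 : ℕ) : ZMod m))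
      + ((lmu (List.foldl (fun st x => lvStep m 2 st (lclsC κ S kb x))
          (ly0 ((3 - (kb * r) % 3) % 3)) w % (7 * m) % 7) : ℕ) : ZMod m)
      - (((List.foldl (fun st x => lvStep m 2 st (lclsC κ S kb x))
          (ly0 ((3 - (kb * r) % 3) % 3)) w % (7 * m) / 7 : ℕ) : ZMod m))
    = ((occW κ S r w : ℕ) : ZMod m) - ((occW κ S (r + 2 * kb) w : ℕ) : ZMod m)
  rw [Nat.mod_mul_right_div_self, Nat.mod_mul_right_div_self, Nat.mod_mul_right_mod,
    ZMod.natCast_mod, ZMod.natCast_mod]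
  have h3' : ((List.foldl (fun st x => lvStep m 3 st (lclsC κ S kb x))
          (ly0 ((3 - (kb * r) % 3) % 3)) w / 7 : ℕ) : ZMod m)
      + ((lmu (List.foldl (fun st x => lvStep m 2 st (lclsC κ S kb x))
          (ly0 ((3 - (kb * r) % 3) % 3)) w % 7) : ℕ) : ZMod m)
      + ((occW κ S (r + 2 * kb) w : ℕ) : ZMod m)
      = ((List.foldl (fun st x => lvStep m 2 st (lclsC κ S kb x))
          (ly0 ((3 - (kb * r) % 3) % 3)) w / 7 : ℕ) : ZMod m)
        + ((occW κ S r w : ℕ) : ZMod m) := h3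
  linear_combination h3'

omit [Fintype α] in
theorem occW_congr3 (κ : α → ℕ) (S : Finset α) (r r' : ℕ) (h : r % 3 = r' % 3) (w : List α) :
    occW κ S r w = occW κ S r' w := by
  have e : occStep κ S r = occStep κ S r' := by
    funext st x
    simp only [occStep, h]
  unfold occW
  rw [e]

omit [Fintype α] in
theorem occW_sum3 (κ : α → ℕ) (S : Finset α) (kb : ℕ) (hk : kb = 1 ∨ kb = 2) (r : ℕ)
    (w : List α) :
    occW κ S r w + occW κ S (r + kb) w + occW κ S (r + 2 * kb) w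
      = (w.map (fun x => if x ∈ S then 1 else 0)).sum := by
  induction w using List.reverseRecOn with
  | nil => simp [occW_nil]
  | append_singleton w y ih =>
    rw [occW_snoc, occW_snoc, occW_snoc, List.map_append, List.sum_append, ← ih]
    simp only [List.map_cons, List.map_nil, List.sum_cons, List.sum_nil]
    by_cases hy : y ∈ S
    · simp only [hy, true_and, if_true]
      rcases hk with rfl | rfl <;> split_ifs <;> omega
    · simp only [hy, false_and, if_false]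
      omega

theorem stat_occW_modC (m : ℕ) (hpos : 0 < m) (κ : α → ℕ)
    (S : Finset α) (kb : ℕ) (hk : kb = 1 ∨ kb = 2) (hkb : ∀ x ∈ S, κ x % 3 = kb) (r : ℕ) :
    StatLe 1 (fun w : List α => occW κ S r w % m) := by
  have hpos3 : 0 < 3 * m := by omega
  have : NeZero (3 * m) := ⟨hpos3.ne'⟩
  have sN := stat_weight_mod (α := α) (3 * m) (fun x => if x ∈ S then 1 else 0)
  have sE := stat_occW_dif (3 * m) hpos3 κ S kb hk hkb r
  have sE' := stat_occW_dif (3 * m) hpos3 κ S kb hk hkb (r + kb)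
  have s := (sN.prod (sE.prod sE')).comp
    (fun v : ZMod (3 * m) × ZMod (3 * m) × ZMod (3 * m) => ZMod.val (v.1 + v.2.1 - v.2.2) / 3)
  refine s.congr (fun w => ?_)
  have hsum := occW_sum3 κ S kb hk r w
  have hper : occW κ S (r + kb + 2 * kb) w = occW κ S r w :=
    occW_congr3 κ S _ _ (by omega) w
  show ZMod.val ((((w.map (fun x => if x ∈ S then 1 else 0)).sum : ℕ) : ZMod (3 * m))
      + (((occW κ S r w : ℕ) : ZMod (3 * m)) - ((occW κ S (r + 2 * kb) w : ℕ) : ZMod (3 * m)))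
      - (((occW κ S (r + kb) w : ℕ) : ZMod (3 * m))
          - ((occW κ S (r + kb + 2 * kb) w : ℕ) : ZMod (3 * m)))) / 3
    = occW κ S r w % m
  rw [hper, ← hsum]
  have e : (((occW κ S r w + occW κ S (r + kb) w + occW κ S (r + 2 * kb) w : ℕ) : ZMod (3 * m))
      + (((occW κ S r w : ℕ) : ZMod (3 * m)) - ((occW κ S (r + 2 * kb) w : ℕ) : ZMod (3 * m)))
      - (((occW κ S (r + kb) w : ℕ) : ZMod (3 * m)) - ((occW κ S r w : ℕ) : ZMod (3 * m))))
      = ((3 * occW κ S r w : ℕ) : ZMod (3 * m)) := by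
    push_cast
    ring
  rw [e, ZMod.val_natCast, Nat.mul_mod_mul_left, Nat.mul_div_cancel_left _ (by norm_num)]

/-! ### The counting theorem modulo `m` -/

/-- **Counting theorem modulo `m`.** If the letters of `S` have the same weight modulo three,
then for every `m > 0` the residue modulo `m` of the number of positions carrying a letter of
`S` preceded by letters of total weight congruent to `r` modulo three is a statistic of
generalized star height at most one. -/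
theorem stat_occW_modm (m : ℕ) (hm : 0 < m) (κ : α → ℕ) (S : Finset α)
    (hS : ∀ x ∈ S, ∀ y ∈ S, κ x % 3 = κ y % 3) (r : ℕ) :
    StatLe 1 (fun w : List α => occW κ S r w % m) := by
  obtain ⟨kb, hkb3, hkb⟩ : ∃ kb, kb < 3 ∧ ∀ x ∈ S, κ x % 3 = kb := by
    rcases S.eq_empty_or_nonempty with rfl | ⟨x0, hx0⟩
    · exact ⟨0, by norm_num, fun x hx => absurd hx (Finset.notMem_empty x)⟩
    · exact ⟨κ x0 % 3, Nat.mod_lt _ (by norm_num), fun x hx => hS x hx x0 hx0⟩
  by_cases h0 : kb = 0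
  · subst h0
    have : NeZero m := ⟨hm.ne'⟩
    refine ((stat_occW_modB m hm κ S hkb r).comp ZMod.val).congr (fun w => ?_)
    show ZMod.val ((occW κ S r w : ℕ) : ZMod m) = occW κ S r w % m
    exact ZMod.val_natCast _ _
  · exact stat_occW_modC m hm κ S kb (by omega) hkb r

end Vale.Agent.Lib.P329
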