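import Vale.Agent.Lib.P329.ExtThree
import Vale.Agent.Lib.P329.LevelCount

/-!
# Groups with an abelian normal subgroup of index three

Let `N` be an abelian normal subgroup of index three of a group `G`, with `v ^ m = 1` for all `v`
in `N`, where `m > 0`, and let `ρ` be an element outside `N`. Every element of `G`
is `v * ρ ^ j` with `v` in `N`, and `ρ ^ 3` lies in `N`. For a word `x₁ ... x_k` with
`φ xᵢ = vᵢ * ρ ^ jᵢ` the product is `(∏ᵢ ρ ^ sᵢ₋₁ vᵢ ρ ^ (-sᵢ₋₁)) * ρ ^ s_k` with the prefix weights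
`sᵢ = j₁ + ... + jᵢ`; the first factor lies in `N` and only depends on the numbers, modulo `m`, of
occurrences of each letter at each prefix weight modulo three.
-/

namespace Vale.Agent.Lib.P329

open Language

variable {α : Type} [Fintype α] [DecidableEq α]

theorem pow_mod_of_pow_eq_one {V : Type} [Monoid V] (a : V) (m : ℕ) (ha : a ^ m = 1) (n : ℕ) :
    a ^ (n % m) = a ^ n := by
  conv_rhs => rw [← Nat.div_add_mod n m, pow_add, pow_mul, ha, one_pow, one_mul]

/-- a prefix-weight letter count modulo `m`, as a statistic with values in `ZMod m` -/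
theorem stat_occ_mod (m : ℕ) (hm : 0 < m) [NeZero m] (κ : α → ℕ) (x : α) (r : ℕ) :
    StatLe 1 (fun w : List α => ((occW κ {x} r w : ℕ) : ZMod m)) := by
  have hS : ∀ a ∈ ({x} : Finset α), ∀ b ∈ ({x} : Finset α), κ a % 3 = κ b % 3 := by
    intro a ha b hb
    rw [Finset.mem_singleton.mp ha, Finset.mem_singleton.mp hb]
  intro v
  refine (stat_occW_modm m hm κ {x} hS r v.val).of_iff (fun w => ?_)
  show occW κ {x} r w % m = v.val ↔ ((occW κ {x} r w : ℕ) : ZMod m) = v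
  constructor
  · intro hw
    apply ZMod.val_injective
    rw [ZMod.val_natCast]
    exact hw
  · intro hw
    rw [← hw, ZMod.val_natCast]

/-- abstract form: a group generated by the image of an abelian group of exponent dividing `m`,
`m > 0`, and one further element `ρ` with `ρ ^ (3 * m) = 1` that acts on that image with period
three -/
theorem ext_gsh_mod (m : ℕ) (hm : 0 < m) {G V : Type} [Group G] [CommGroup V]
    (ι : V →* G) (hV : ∀ a : V, a ^ m = 1) (ρ : G) (hρ : ρ ^ (3 * m) = 1) (c : Fin 3 → V → V)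
    (hc : ∀ (t : ℕ) (a : V), ρ ^ t * ι a = ι (c ⟨t % 3, Nat.mod_lt t (by norm_num)⟩ a) * ρ ^ t)
    (φ : α → G) (v : α → V) (κ : α → ℕ) (h : ∀ x, φ x = ι (v x) * ρ ^ κ x) (P : Set G) :
    GSHLe 1 ({w | (w.map φ).prod ∈ P} : Language α) := by
  have hm0 : m ≠ 0 := hm.ne'
  have : NeZero m := ⟨hm0⟩
  have : NeZero (3 * m) := ⟨by omega⟩
  have hT : StatLe 1 (fun w : List α =>
      ((((w.map κ).sum : ℕ) : ZMod (3 * m)),
        fun (x : α) (r : Fin 3) => ((occW κ {x} (r : ℕ) w : ℕ) : ZMod m))) :=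
    (stat_weight_mod (3 * m) κ).prod
      (StatLe.pi (fun x => StatLe.pi (fun r : Fin 3 => stat_occ_mod m hm κ x (r : ℕ))))
  have hlev := hT.level (fun p : ZMod (3 * m) × (α → Fin 3 → ZMod m) =>
    ι (∏ x : α, ∏ r : Fin 3, c r (v x) ^ (p.2 x r).val) * ρ ^ p.1.val ∈ P)
  refine hlev.of_iff (fun w => ?_)
  show ι (∏ x : α, ∏ r : Fin 3,
      c r (v x) ^ (((occW κ {x} (r : ℕ) w : ℕ) : ZMod m)).val) *
      ρ ^ ((((w.map κ).sum : ℕ) : ZMod (3 * m))).val ∈ P ↔ (w.map φ).prod ∈ P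
  rw [ext_prod ι ρ c hc φ v κ h w, ZMod.val_natCast, pow_mod_of_pow_eq_one ρ (3 * m) hρ]
  simp only [ZMod.val_natCast, pow_mod_of_pow_eq_one _ m (hV _)]

/-- a commutative group structure on a subgroup whose elements commute -/
@[reducible] def commOfComm {G : Type} [Group G] (N : Subgroup G)
    (hcomm : ∀ a ∈ N, ∀ b ∈ N, a * b = b * a) : CommGroup N :=
  { (inferInstance : Group N) with
    mul_comm := fun a b => Subtype.ext (hcomm a a.2 b b.2) }

/-- a group of the form `N * ⟨ρ⟩` with `N` normal, abelian, of exponent dividing `m > 0`, and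
`ρ ^ 3 ∈ N` -/
theorem abel_sub {G : Type} [Group G] (N : Subgroup G) [hnor : N.Normal]
    (hcomm : ∀ a ∈ N, ∀ b ∈ N, a * b = b * a) (m : ℕ) (hm : 0 < m)
    (hexp : ∀ v ∈ N, v ^ m = 1) (ρ : G) (hρ : ρ ^ 3 ∈ N)
    (hdec : ∀ g : G, ∃ j : ℕ, g * (ρ ^ j)⁻¹ ∈ N) (φ : α → G) (P : Set G) :
    GSHLe 1 ({w | (w.map φ).prod ∈ P} : Language α) := by
  let inst : CommGroup N := commOfComm N hcomm
  let ι : N →* G := MonoidHom.mk' (fun a : N => (a : G)) (fun _ _ => rfl)
  let c : Fin 3 → N → N := fun r a =>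
    ⟨ρ ^ (r : ℕ) * (a : G) * (ρ ^ (r : ℕ))⁻¹, hnor.conj_mem (a : G) a.2 (ρ ^ (r : ℕ))⟩
  have h3m : ρ ^ (3 * m) = 1 := by
    rw [pow_mul]
    exact hexp (ρ ^ 3) hρ
  have hc : ∀ (t : ℕ) (a : N),
      ρ ^ t * ι a = ι (c ⟨t % 3, Nat.mod_lt t (by norm_num)⟩ a) * ρ ^ t := by
    intro t a
    show ρ ^ t * (a : G) = ρ ^ (t % 3) * (a : G) * (ρ ^ (t % 3))⁻¹ * ρ ^ t
    have hz : (ρ ^ 3) ^ (t / 3) ∈ N := N.pow_mem hρ _
    have ht : ρ ^ t = ρ ^ (t % 3) * (ρ ^ 3) ^ (t / 3) := by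
      rw [← pow_mul, ← pow_add, add_comm, Nat.div_add_mod]
    have hza := hcomm _ hz _ a.2
    calc ρ ^ t * (a : G) = ρ ^ (t % 3) * ((ρ ^ 3) ^ (t / 3) * (a : G)) := by
          rw [ht, mul_assoc]
      _ = ρ ^ (t % 3) * ((a : G) * (ρ ^ 3) ^ (t / 3)) := by rw [hza]
      _ = ρ ^ (t % 3) * (a : G) * (ρ ^ (t % 3))⁻¹ * (ρ ^ (t % 3) * (ρ ^ 3) ^ (t / 3)) := by
          simp only [mul_assoc, inv_mul_cancel_left]
      _ = ρ ^ (t % 3) * (a : G) * (ρ ^ (t % 3))⁻¹ * ρ ^ t := by rw [← ht]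
  choose κ hκ using hdec
  have h : ∀ x, φ x = ι (⟨φ x * (ρ ^ κ (φ x))⁻¹, hκ (φ x)⟩ : N) * ρ ^ κ (φ x) := by
    intro x
    show φ x = φ x * (ρ ^ κ (φ x))⁻¹ * ρ ^ κ (φ x)
    rw [inv_mul_cancel_right]
  have hV : ∀ a : N, a ^ m = 1 := by
    intro a
    apply Subtype.ext
    show ((a ^ m : N) : G) = 1
    rw [Subgroup.coe_pow]
    exact hexp a a.2
  exact ext_gsh_mod m hm ι hV ρ h3m c hc φ
    (fun x => (⟨φ x * (ρ ^ κ (φ x))⁻¹, hκ (φ x)⟩ : N)) (fun x => κ (φ x)) h P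

/-- **Abelian by index three.** If a group `G` has an abelian normal subgroup `N` of index three
with `v ^ m = 1` for all `v` in `N`, where `m > 0`, then for every map `φ` from a finite alphabet
into `G` and every subset `P` of `G` the language of all words whose product lies in `P` has
generalized star height at most one. -/
theorem abel_three {G : Type} [Group G] (N : Subgroup G) [N.Normal]
    (hcomm : ∀ a ∈ N, ∀ b ∈ N, a * b = b * a) (m : ℕ) (hm : 0 < m)
    (hexp : ∀ v ∈ N, v ^ m = 1) (hidx : N.index = 3) (φ : α → G) (P : Set G) :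
    GSHLe 1 ({w | (w.map φ).prod ∈ P} : Language α) := by
  have hcard : Nat.card (G ⧸ N) = 3 := by
    rw [← Subgroup.index_eq_card]
    exact hidx
  have hp3 : Fact (Nat.Prime 3) := ⟨Nat.prime_three⟩
  have hne : ∃ ρ : G, ρ ∉ N := by
    by_contra hcon
    have htop : N = ⊤ := by
      apply (Subgroup.eq_top_iff' N).mpr
      intro g
      by_contra hg
      exact hcon ⟨g, hg⟩
    rw [htop, Subgroup.index_top] at hidx
    norm_num at hidx
  obtain ⟨ρ, hρN⟩ := hne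
  have hq : (ρ : G ⧸ N) ≠ 1 := by
    intro hcon
    exact hρN ((QuotientGroup.eq_one_iff ρ).mp hcon)
  have h3 : ρ ^ 3 ∈ N := by
    apply (QuotientGroup.eq_one_iff (ρ ^ 3)).mp
    have h := pow_card_eq_one' (G := G ⧸ N) (x := (ρ : G ⧸ N))
    rw [hcard] at h
    rw [QuotientGroup.mk_pow]
    exact h
  have hdec : ∀ g : G, ∃ j : ℕ, g * (ρ ^ j)⁻¹ ∈ N := by
    intro g
    have hmem : (g : G ⧸ N) ∈ Submonoid.powers (ρ : G ⧸ N) := mem_powers_of_prime_card hcard hq
    obtain ⟨n, hn⟩ := hmem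
    refine ⟨n, ?_⟩
    apply (QuotientGroup.eq_one_iff (g * (ρ ^ n)⁻¹)).mp
    rw [QuotientGroup.mk_mul, QuotientGroup.mk_inv, QuotientGroup.mk_pow]
    show (g : G ⧸ N) * ((ρ : G ⧸ N) ^ n)⁻¹ = 1
    have hn' : (ρ : G ⧸ N) ^ n = (g : G ⧸ N) := hn
    rw [← hn', mul_inv_cancel]
  exact abel_sub N hcomm m hm hexp ρ h3 hdec φ P

/-- **Finite form.** Every language recognized by a finite group that has an abelian normal
subgroup of index three has generalized star height at most one. -/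
theorem abel_three_finite {G : Type} [Group G] [Finite G] (N : Subgroup G) [N.Normal]
    (hcomm : ∀ a ∈ N, ∀ b ∈ N, a * b = b * a) (hidx : N.index = 3) (φ : α → G) (P : Set G) :
    GSHLe 1 ({w | (w.map φ).prod ∈ P} : Language α) := by
  refine abel_three N hcomm (Nat.card N) Nat.card_pos (fun v hv => ?_) hidx φ P
  have h := pow_card_eq_one' (G := N) (x := (⟨v, hv⟩ : N))
  have h2 : (((⟨v, hv⟩ : N) ^ Nat.card N : N) : G) = ((1 : N) : G) := congrArg Subtype.val h
  rw [Subgroup.coe_pow] at h2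
  exact h2

end Vale.Agent.Lib.P329
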