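import Vale.Agent.Lib.P329.GRE

/-!
# Inverse images under maps that erase or rename letters

Let `f` send every letter of the alphabet `α` to a letter of `β` or to nothing. The map
`w ↦ w.filterMap f` erases the letters sent to nothing and renames the others. The inverse image
of a language of generalized star height at most `n` under this map has generalized star height
at most `n` (`gsh_comap_erase`).
-/

namespace Vale.Agent.Lib.P329

open Language

variable {α β : Type}

/-- the inverse image of the language `L` under erasing and renaming letters -/
def erasePre (f : α → Option β) (L : Language β) : Language α := {w | w.filterMap f ∈ L}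

theorem mem_erasePre (f : α → Option β) (L : Language β) (w : List α) :
    w ∈ erasePre f L ↔ w.filterMap f ∈ L := Iff.rfl

/-- the star of a language of height at most `n` has height at most `n + 1` -/
theorem GSHLe.kstar_succ {n : ℕ} {L : Language α} (hL : GSHLe n L) :
    GSHLe (n + 1) (KStar.kstar L) := by
  obtain ⟨e, he, rfl⟩ := hL
  refine ⟨GRE.star e, ?_, rfl⟩
  show e.height + 1 ≤ n + 1
  omega

/-- the words all of whose letters are erased form a star-free language -/
theorem gsh_erased [Fintype α] [DecidableEq α] (f : α → Option β) (n : ℕ) :
    GSHLe n (erasePre f 1) := by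
  classical
  refine (gsh_allIn n (Finset.univ.filter (fun x => f x = none))).of_iff (fun w => ?_)
  rw [mem_erasePre, Language.mem_one]
  show (∀ x ∈ w, x ∈ Finset.univ.filter (fun x => f x = none)) ↔ w.filterMap f = []
  rw [List.filterMap_eq_nil_iff]
  simp

/-- the inverse image of a single letter -/
theorem gsh_erase_letter [Fintype α] [DecidableEq α] (f : α → Option β) (n : ℕ) (b : β) :
    GSHLe n (erasePre f {[b]}) := by
  classical
  have h1 : GSHLe n (erasePre f 1
      * (∑ x ∈ Finset.univ.filter (fun x => f x = some b), ({[x]} : Language α))
      * erasePre f 1) :=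
    ((gsh_erased f n).mul (gsh_sum _ _ (fun x _ => gsh_letter n x))).mul (gsh_erased f n)
  refine h1.of_iff (fun w => ?_)
  rw [mem_erasePre]
  show _ ↔ w.filterMap f = [b]
  constructor
  · intro hw
    rw [Language.mem_mul] at hw
    obtain ⟨u, hu, t, ht, rfl⟩ := hw
    rw [Language.mem_mul] at hu
    obtain ⟨s, hs, v, hv, rfl⟩ := hu
    rw [mem_sum_iff] at hv
    obtain ⟨x, hx, hvx⟩ := hv
    have hvx' : v = [x] := hvx
    subst hvx'
    rw [mem_erasePre, Language.mem_one] at hs ht
    have hx' : f x = some b := (Finset.mem_filter.mp hx).2
    rw [List.filterMap_append, List.filterMap_append, hs, ht]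
    simp [hx']
  · intro hw
    rw [List.filterMap_eq_cons_iff] at hw
    obtain ⟨s, x, t, rfl, hs, hx, ht⟩ := hw
    rw [Language.mem_mul]
    refine ⟨s ++ [x], ?_, t, ?_, by simp⟩
    · rw [Language.mem_mul]
      refine ⟨s, ?_, [x], ?_, rfl⟩
      · rw [mem_erasePre, Language.mem_one, List.filterMap_eq_nil_iff]
        exact hs
      · rw [mem_sum_iff]
        exact ⟨x, Finset.mem_filter.mpr ⟨Finset.mem_univ x, hx⟩, rfl⟩
    · rw [mem_erasePre, Language.mem_one]
      exact ht

/-- the inverse image of a star -/
theorem erase_kstar (f : α → Option β) (L : Language β) (w : List α) :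
    w ∈ erasePre f (KStar.kstar L) ↔
      (w ∈ KStar.kstar (erasePre f L) ∨ w ∈ erasePre f 1) := by
  rw [mem_erasePre, mem_erasePre, Language.mem_one]
  constructor
  · intro hw
    rw [Language.mem_kstar] at hw
    obtain ⟨S, hS, hL⟩ := hw
    induction S generalizing w with
    | nil =>
      right
      simpa using hS
    | cons u S ih =>
      left
      rw [List.flatten_cons, List.filterMap_eq_append_iff] at hS
      obtain ⟨w1, w2, rfl, h1, h2⟩ := hS
      have hu : u ∈ L := hL u (by simp)
      rcases ih w2 h2 (fun y hy => hL y (by simp [hy])) with h | h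
      · have hw1 : w1 ∈ erasePre f L := by
          rw [mem_erasePre, h1]
          exact hu
        have hmul : w1 ++ w2 ∈ erasePre f L * KStar.kstar (erasePre f L) := by
          rw [Language.mem_mul]
          exact ⟨w1, hw1, w2, h, rfl⟩
        exact (mul_kstar_le_kstar : erasePre f L * KStar.kstar (erasePre f L)
          ≤ KStar.kstar (erasePre f L)) hmul
      · have hw12 : w1 ++ w2 ∈ erasePre f L := by
          rw [mem_erasePre, List.filterMap_append, h1, h, List.append_nil]
          exact hu
        exact (le_kstar : erasePre f L ≤ KStar.kstar (erasePre f L)) hw12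
  · rintro (hw | hw)
    · rw [Language.mem_kstar] at hw
      obtain ⟨S, rfl, hS⟩ := hw
      rw [Language.mem_kstar]
      refine ⟨S.map (List.filterMap f), ?_, ?_⟩
      · rw [List.filterMap_flatten]
      · intro y hy
        rw [List.mem_map] at hy
        obtain ⟨z, hz, rfl⟩ := hy
        exact hS z hz
    · rw [hw]
      exact Language.nil_mem_kstar L

/-- **Inverse images under erasing and renaming letters.** For every generalized regular
expression `e` over `β`, the words over `α` whose image under `w ↦ w.filterMap f` lies in the
language of `e` form a language of generalized star height at most the height of `e`. -/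
theorem gsh_comap_expr [Fintype α] [DecidableEq α] (f : α → Option β) (e : GRE β) :
    GSHLe e.height (erasePre f e.lang) := by
  induction e with
  | zero =>
    refine (gsh_zero 0).of_iff (fun w => ?_)
    rw [mem_erasePre]
    constructor
    · intro h
      exact absurd h (Language.notMem_zero w)
    · intro h
      exact absurd h (Language.notMem_zero _)
  | one => exact gsh_erased f 0
  | letter b => exact gsh_erase_letter f 0 b
  | union p q ihp ihq =>
    refine ((ihp.mono (le_max_left _ _)).add (ihq.mono (le_max_right _ _))).of_iff (fun w => ?_)
    rw [Language.mem_add, mem_erasePre, mem_erasePre, mem_erasePre]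
    show (w.filterMap f ∈ p.lang ∨ w.filterMap f ∈ q.lang) ↔ w.filterMap f ∈ p.lang + q.lang
    rw [Language.mem_add]
  | concat p q ihp ihq =>
    refine ((ihp.mono (le_max_left _ _)).mul (ihq.mono (le_max_right _ _))).of_iff (fun w => ?_)
    rw [mem_erasePre]
    show _ ↔ w.filterMap f ∈ p.lang * q.lang
    rw [Language.mem_mul, Language.mem_mul]
    constructor
    · rintro ⟨w1, h1, w2, h2, rfl⟩
      exact ⟨w1.filterMap f, h1, w2.filterMap f, h2, (List.filterMap_append).symm⟩
    · rintro ⟨u1, h1, u2, h2, h12⟩
      have h12' : w.filterMap f = u1 ++ u2 := h12.symm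
      rw [List.filterMap_eq_append_iff] at h12'
      obtain ⟨w1, w2, rfl, e1, e2⟩ := h12'
      refine ⟨w1, ?_, w2, ?_, rfl⟩
      · rw [mem_erasePre, e1]
        exact h1
      · rw [mem_erasePre, e2]
        exact h2
  | compl p ih =>
    exact ih.compl.of_iff (fun w => Iff.rfl)
  | star p ih =>
    have h1 : GSHLe (p.height + 1) (KStar.kstar (erasePre f p.lang) + erasePre f 1) :=
      ih.kstar_succ.add (gsh_erased f _)
    refine h1.of_iff (fun w => ?_)
    rw [Language.mem_add]
    exact (erase_kstar f p.lang w).symm

/-- the inverse image of a language of generalized star height at most `n` under erasing and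
renaming letters has generalized star height at most `n` -/
theorem gsh_comap_erase [Fintype α] [DecidableEq α] {n : ℕ} (f : α → Option β)
    {L : Language β} (hL : GSHLe n L) : GSHLe n ({w | w.filterMap f ∈ L} : Language α) := by
  obtain ⟨e, he, rfl⟩ := hL
  exact (gsh_comap_expr f e).mono he

end Vale.Agent.Lib.P329
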