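import Vale.Agent.Lib.P329.AffTwo
import Vale.Agent.Lib.P329.Erase

/-!
# Affine maps of `Z/5`: at most two values other than the identity

Every language recognized by the group of the affine maps `v ↦ l * v + c` of `Z/5` through a
map of the letters that takes at most two values other than the identity has generalized star
height at most one (`gsh_affine_five_values`). The alphabet is arbitrary: the letters sent to
the identity are erased and the letters with equal images are identified (`gsh_comap_erase`),
which reduces the statement to an alphabet with two letters (`gsh_affine_five_two`).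
-/

namespace Vale.Agent.Lib.P329

open Language

variable {α : Type}

/-- the product of a word does not change when the letters sent to the identity are erased and
the other letters are renamed compatibly -/
theorem prod_filterMap_eq {G β : Type} [Monoid G] (φ : α → G) (f : α → Option β) (ψ : β → G)
    (h : ∀ x, φ x = (f x).elim 1 ψ) (w : List α) :
    (w.map φ).prod = ((w.filterMap f).map ψ).prod := by
  induction w with
  | nil => rfl
  | cons x w ih =>
    rw [List.map_cons, List.prod_cons, ih, h x]
    cases hfx : f x with
    | none => simp [hfx]
    | some b => simp [hfx]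

variable [Fintype α] [DecidableEq α]

/-- **Affine maps of `Z/5`, at most two values other than the identity.** Let `σ` send every
letter of a finite alphabet to an affine map `v ↦ l * v + c` of `Z/5` (`l ≠ 0`), and suppose
that `σ` takes at most two values `g`, `r` other than the identity. Then for every set `P` of
permutations, the words whose product lies in `P` form a language of generalized star height at
most one. -/
theorem gsh_affine_five_values (σ : α → Equiv.Perm (ZMod 5))
    (h : ∀ x, ∃ l c : ZMod 5, l ≠ 0 ∧ ∀ v, σ x v = l * v + c)
    (g r : Equiv.Perm (ZMod 5)) (hσ : ∀ x, σ x = 1 ∨ σ x = g ∨ σ x = r)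
    (P : Set (Equiv.Perm (ZMod 5))) :
    GSHLe 1 ({w : List α | (w.map σ).prod ∈ P} : Language α) := by
  classical
  have h1 : ∃ l c : ZMod 5, l ≠ 0 ∧ ∀ v, (1 : Equiv.Perm (ZMod 5)) v = l * v + c :=
    ⟨1, 0, by decide, fun v => by simp⟩
  have hval : ∀ t : Equiv.Perm (ZMod 5), ∃ l c : ZMod 5, l ≠ 0 ∧
      ∀ v, (if ∃ x, σ x = t then t else 1) v = l * v + c := by
    intro t
    by_cases ht : ∃ x, σ x = t
    · rw [if_pos ht]
      obtain ⟨x, hx⟩ := ht
      rw [← hx]
      exact h x
    · rw [if_neg ht]
      exact h1
  let ψ : Fin 2 → Equiv.Perm (ZMod 5) := fun i =>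
    if i = 0 then (if ∃ x, σ x = g then g else 1) else (if ∃ x, σ x = r then r else 1)
  let f : α → Option (Fin 2) := fun x =>
    if σ x = 1 then none else if σ x = g then some 0 else some 1
  have hψ : ∀ i, ∃ l c : ZMod 5, l ≠ 0 ∧ ∀ v, ψ i v = l * v + c := by
    intro i
    by_cases hi : i = 0
    · show ∃ l c : ZMod 5, l ≠ 0 ∧ ∀ v, (if i = 0 then (if ∃ x, σ x = g then g else 1)
        else (if ∃ x, σ x = r then r else 1)) v = l * v + c
      rw [if_pos hi]
      exact hval g
    · show ∃ l c : ZMod 5, l ≠ 0 ∧ ∀ v, (if i = 0 then (if ∃ x, σ x = g then g else 1)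
        else (if ∃ x, σ x = r then r else 1)) v = l * v + c
      rw [if_neg hi]
      exact hval r
  have hf : ∀ x, σ x = (f x).elim 1 ψ := by
    intro x
    by_cases hx1 : σ x = 1
    · have e : f x = none := if_pos hx1
      rw [e]
      exact hx1
    · by_cases hxg : σ x = g
      · have e : f x = some 0 := by
          show (if σ x = 1 then none else if σ x = g then some 0 else some 1) = some 0
          rw [if_neg hx1, if_pos hxg]
        rw [e]
        show σ x = (if (0 : Fin 2) = 0 then (if ∃ x, σ x = g then g else 1)
          else (if ∃ x, σ x = r then r else 1))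
        rw [if_pos rfl, if_pos ⟨x, hxg⟩]
        exact hxg
      · have hxr : σ x = r := ((hσ x).resolve_left hx1).resolve_left hxg
        have e : f x = some 1 := by
          show (if σ x = 1 then none else if σ x = g then some 0 else some 1) = some 1
          rw [if_neg hx1, if_neg hxg]
        rw [e]
        show σ x = (if (1 : Fin 2) = 0 then (if ∃ x, σ x = g then g else 1)
          else (if ∃ x, σ x = r then r else 1))
        rw [if_neg (by decide), if_pos ⟨x, hxr⟩]
        exact hxr
  have hab : ∀ i : Fin 2, i = 0 ∨ i = 1 := by
    intro i
    fin_cases i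
    · left; rfl
    · right; rfl
  have hL := gsh_affine_five_two ψ hψ 0 1 hab P
  refine (gsh_comap_erase f hL).of_iff (fun w => ?_)
  show ((w.filterMap f).map ψ).prod ∈ P ↔ (w.map σ).prod ∈ P
  rw [prod_filterMap_eq σ f ψ hf w]

end Vale.Agent.Lib.P329
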