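import Vale.Agent.Lib.P329.Binom

/-!
# Scattered subword counts of length at most three, modulo `m`

For every word `u` of length at most three the statistic `w ↦ (number of occurrences of `u` as a
scattered subword of `w`) mod m` has level sets of generalized star height at most one.
-/

namespace Vale.Agent.Lib.P329

open Language

variable {α : Type} [DecidableEq α]

/-! ### Algebra of the weighted sums -/

theorem wsum_consM {M : Type} [AddCommMonoid M] (S : Finset α) (b : α) (f : ℕ → M) (k : ℕ)
    (x : α) (w : List α) :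
    wsum S b f k (x :: w)
      = (if x = b then f k else 0) + wsum S b f (if x ∈ S then k + 1 else k) w := rfl

/-- casting a weighted sum of natural numbers into `ZMod m` -/
theorem wsum_cast (m : ℕ) (S : Finset α) (b : α) (f : ℕ → ℕ) (w : List α) :
    ∀ k : ℕ, ((wsum S b f k w : ℕ) : ZMod m) = wsum S b (fun j => ((f j : ℕ) : ZMod m)) k w := by
  induction w with
  | nil =>
    intro k
    show ((0 : ℕ) : ZMod m) = 0
    exact Nat.cast_zero
  | cons x v ih =>
    intro k
    rw [wsum_consM, wsum_consM, Nat.cast_add, ih]
    by_cases hx : x = b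
    · rw [if_pos hx, if_pos hx]
    · rw [if_neg hx, if_neg hx, Nat.cast_zero]

/-- weighted sums are linear in the weight -/
theorem wsum_sum {R : Type} [CommSemiring R] {ι : Type} (s : Finset ι) (c : ι → R)
    (g : ι → ℕ → R) (S : Finset α) (b : α) (w : List α) :
    ∀ k : ℕ, wsum S b (fun j => ∑ r ∈ s, c r * g r j) k w
      = ∑ r ∈ s, c r * wsum S b (g r) k w := by
  induction w with
  | nil =>
    intro k
    show (0 : R) = ∑ r ∈ s, c r * 0
    simp
  | cons x v ih =>
    intro k
    rw [wsum_consM, ih]
    have h2 : ∀ r ∈ s, c r * wsum S b (g r) k (x :: v)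
        = c r * (if x = b then g r k else 0)
          + c r * wsum S b (g r) (if x ∈ S then k + 1 else k) v := by
      intro r _
      rw [wsum_consM, mul_add]
    rw [Finset.sum_congr rfl h2, Finset.sum_add_distrib]
    congr 1
    by_cases hx : x = b
    · simp only [if_pos hx]
    · simp only [if_neg hx, mul_zero, Finset.sum_const_zero]

/-- a periodic function only depends on the residue -/
theorem periodic_mod {M : Type} (f : ℕ → M) (q : ℕ) (hf : ∀ k, f (k + q) = f k) (j : ℕ) :
    f j = f (j % q) := by
  have h : ∀ t k : ℕ, f (k + q * t) = f k := by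
    intro t
    induction t with
    | zero => intro k; simp
    | succ t ih =>
      intro k
      have e : k + q * (t + 1) = (k + q * t) + q := by ring
      rw [e, hf, ih]
  have e := h (j / q) (j % q)
  rw [Nat.mod_add_div] at e
  exact e

/-- residue indicators with a shifted start -/
theorem ind_shift (q r j : ℕ) (hr : r < q) :
    (0 + j) % q = r ↔ ((q - r) % q + j) % q = 0 := by
  rw [Nat.zero_add]
  have e1 : ((q - r) % q + j) % q = ((q - r) + j) % q := by
    rw [Nat.add_mod, Nat.mod_mod, ← Nat.add_mod]
  rw [e1]
  constructor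
  · intro h
    have h1 : j ≡ r [MOD q] := by
      show j % q = r % q
      rw [h, Nat.mod_eq_of_lt hr]
    have h2 : (q - r) + j ≡ (q - r) + r [MOD q] := h1.add_left _
    have e2 : (q - r) + r = q := by omega
    rw [e2] at h2
    have h3 : ((q - r) + j) % q = q % q := h2
    rw [h3, Nat.mod_self]
  · intro h
    have e2 : (q - r) + r = q := by omega
    have h2 : (q - r) + j ≡ (q - r) + r [MOD q] := by
      show ((q - r) + j) % q = ((q - r) + r) % q
      rw [h, e2, Nat.mod_self]
    have h1 : j ≡ r [MOD q] := Nat.ModEq.add_left_cancel' _ h2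
    have h3 : j % q = r % q := h1
    rw [h3, Nat.mod_eq_of_lt hr]

/-! ### Statistics -/

omit [DecidableEq α] in
theorem StatLe.congr {n : ℕ} {β : Type} {f g : List α → β} (hf : StatLe n f)
    (e : ∀ w, f w = g w) : StatLe n g := by
  intro v
  refine (hf v).of_iff (fun w => ?_)
  show f w = v ↔ g w = v
  rw [e w]

omit [DecidableEq α] in
theorem StatLe.const [Fintype α] (n : ℕ) {β : Type} (c : β) :
    StatLe n (fun _ : List α => c) := by
  classical
  intro v
  by_cases h : c = v
  · refine (gsh_top n).of_iff (fun w => ?_)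
    show w ∈ (⊤ : Language α) ↔ c = v
    exact ⟨fun _ => h, fun _ => trivial⟩
  · refine (gsh_zero n).of_iff (fun w => ?_)
    show w ∈ (0 : Language α) ↔ c = v
    exact ⟨fun hw => absurd hw (Language.notMem_zero w), fun hc => absurd hc h⟩

omit [DecidableEq α] in
theorem StatLe.rev {n : ℕ} {β : Type} {f : List α → β} (hf : StatLe n f) :
    StatLe n (fun w => f w.reverse) := by
  intro v
  refine (hf v).reverse.of_iff (fun w => ?_)
  exact (Language.mem_reverse (l := ({w | f w = v} : Language α)) (a := w))

variable [Fintype α]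

/-- the residue counting statistic of the wreath automaton, with values in `ZMod m` -/
theorem stat_ind (S : Finset α) (b : α) (hb : b ∉ S) (q m : ℕ) (hq : 0 < q) [NeZero m]
    (y0 : ℕ) (hy0 : y0 < q) :
    StatLe 1 (fun w : List α =>
      ((wsum S b (fun j => if j % q = 0 then 1 else 0) y0 w : ℕ) : ZMod m)) := by
  intro v
  have hm : 0 < m := Nat.pos_of_ne_zero (NeZero.ne m)
  have h := gsh_wsum_core S b hb q m hq hm y0
    (lt_of_lt_of_le hy0 (Nat.le_mul_of_pos_right q hm)) v.val
  refine h.of_iff (fun w => ?_)
  show wsum S b (fun j => if j % q = 0 then 1 else 0) y0 w % m = v.val % m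
    ↔ ((wsum S b (fun j => if j % q = 0 then 1 else 0) y0 w : ℕ) : ZMod m) = v
  rw [← ZMod.natCast_eq_natCast_iff', ZMod.natCast_zmod_val]

/-- every weighted sum whose weight is periodic modulo `m` is a statistic of generalized star
height at most one -/
theorem wsum_stat (S : Finset α) (b : α) (hb : b ∉ S) (m : ℕ) [NeZero m] (f : ℕ → ℕ) (q : ℕ)
    (hq : 0 < q) (hf : ∀ k, ((f (k + q) : ℕ) : ZMod m) = ((f k : ℕ) : ZMod m)) :
    StatLe 1 (fun w : List α => ((wsum S b f 0 w : ℕ) : ZMod m)) := by
  have h1 : StatLe 1 (fun w : List α => (fun i : Fin q =>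
      ((wsum S b (fun j => if j % q = 0 then 1 else 0) ((q - i.val) % q) w : ℕ) : ZMod m))) :=
    StatLe.pi (fun i => stat_ind S b hb q m hq ((q - i.val) % q) (Nat.mod_lt _ hq))
  have h2 := h1.comp (fun x : Fin q → ZMod m => ∑ i : Fin q, ((f i.val : ℕ) : ZMod m) * x i)
  refine h2.congr (fun w => ?_)
  symm
  rw [wsum_cast]
  have e1 : (fun j => ((f j : ℕ) : ZMod m))
      = fun j => ∑ r ∈ Finset.range q, ((f r : ℕ) : ZMod m) * (if j % q = r then 1 else 0) := by
    funext j
    rw [periodic_mod (fun j => ((f j : ℕ) : ZMod m)) q hf j, Finset.sum_eq_single (j % q)]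
    · simp
    · intro r _ hr
      rw [if_neg (fun e => hr e.symm), mul_zero]
    · intro h
      exact absurd (Finset.mem_range.mpr (Nat.mod_lt _ hq)) h
  rw [e1, wsum_sum, Finset.sum_range]
  apply Finset.sum_congr rfl
  intro i _
  congr 1
  rw [wsum_cast]
  apply wsum_congr
  intro j
  have hi := ind_shift q i.val j i.isLt
  by_cases hj : (0 + j) % q = i.val
  · rw [if_pos hj, if_pos (hi.mp hj), Nat.cast_one]
  · rw [if_neg hj, if_neg (fun e => hj (hi.mpr e)), Nat.cast_zero]

/-! ### Binomial coefficients modulo `m` -/

theorem choose_two_add (n c : ℕ) : (n + c).choose 2 = n.choose 2 + n * c + c.choose 2 := by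
  induction c with
  | zero => simp
  | succ c ih =>
    have e : n + (c + 1) = (n + c) + 1 := by ring
    rw [e, choose_two_succ, ih, choose_two_succ]
    ring

theorem choose_three_add (n c : ℕ) :
    (n + c).choose 3 = n.choose 3 + n.choose 2 * c + n * c.choose 2 + c.choose 3 := by
  induction c with
  | zero => simp
  | succ c ih =>
    have e : n + (c + 1) = (n + c) + 1 := by ring
    rw [e, choose_three_succ, ih, choose_two_add, choose_three_succ, choose_two_succ]
    ring

theorem dvd_choose_two (m : ℕ) : m ∣ (2 * m).choose 2 := by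
  rw [Nat.choose_two_right, Nat.mul_assoc, Nat.mul_div_cancel_left _ (by norm_num : 0 < 2)]
  exact Dvd.intro _ rfl

theorem dvd_choose_two_six (m : ℕ) : m ∣ (6 * m).choose 2 := by
  have e : 6 * m = 2 * (3 * m) := by ring
  rw [Nat.choose_two_right, e, Nat.mul_assoc, Nat.mul_div_cancel_left _ (by norm_num : 0 < 2)]
  exact Dvd.dvd.mul_right (Dvd.intro_left 3 rfl) _

theorem dvd_choose_three_six (m : ℕ) (hm : 0 < m) : m ∣ (6 * m).choose 3 := by
  obtain ⟨n, hn⟩ : ∃ n, 6 * m = n + 1 := ⟨6 * m - 1, by omega⟩
  have h := Nat.add_one_mul_choose_eq n 2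
  rw [← hn] at h
  have h2 : (6 * m).choose 3 = m * (2 * n.choose 2) := by
    have h3 : 3 * (6 * m).choose 3 = 3 * (m * (2 * n.choose 2)) := by
      have e3 : (2 + 1 : ℕ) = 3 := rfl
      rw [e3] at h
      linarith [h]
    exact Nat.eq_of_mul_eq_mul_left (by norm_num : 0 < 3) h3
  rw [h2]
  exact Dvd.intro _ rfl

theorem choose_two_periodic (m k : ℕ) :
    (((k + 2 * m).choose 2 : ℕ) : ZMod m) = ((k.choose 2 : ℕ) : ZMod m) := by
  have h1 : (((2 * m).choose 2 : ℕ) : ZMod m) = 0 :=
    (ZMod.natCast_eq_zero_iff _ _).mpr (dvd_choose_two m)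
  rw [choose_two_add, Nat.cast_add, Nat.cast_add, h1, Nat.cast_mul, Nat.cast_mul,
    ZMod.natCast_self]
  simp

theorem choose_three_periodic (m : ℕ) (hm : 0 < m) (k : ℕ) :
    (((k + 6 * m).choose 3 : ℕ) : ZMod m) = ((k.choose 3 : ℕ) : ZMod m) := by
  have h1 : (((6 * m).choose 2 : ℕ) : ZMod m) = 0 :=
    (ZMod.natCast_eq_zero_iff _ _).mpr (dvd_choose_two_six m)
  have h2 : (((6 * m).choose 3 : ℕ) : ZMod m) = 0 :=
    (ZMod.natCast_eq_zero_iff _ _).mpr (dvd_choose_three_six m hm)
  rw [choose_three_add]
  simp only [Nat.cast_add, Nat.cast_mul, h1, h2, ZMod.natCast_self]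
  simp

/-! ### The statistics for subwords of length at most three -/

omit [Fintype α] in
theorem wsum_empty_one (b : α) (w : List α) :
    ∀ k : ℕ, wsum (∅ : Finset α) b (fun _ => 1) k w = w.count b := by
  induction w with
  | nil =>
    intro k
    rfl
  | cons x v ih =>
    intro k
    rw [wsum_consM, ih]
    by_cases hx : x = b
    · subst hx
      rw [if_pos rfl, List.count_cons_self]
      omega
    · rw [if_neg hx, List.count_cons_of_ne hx, Nat.zero_add]

/-- letter counts modulo `m` -/
theorem stat_count (m : ℕ) [NeZero m] (a : α) :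
    StatLe 1 (fun w : List α => ((w.count a : ℕ) : ZMod m)) := by
  have h := wsum_stat (∅ : Finset α) a (Finset.notMem_empty a) m (fun _ => 1) 1 Nat.one_pos
    (fun _ => rfl)
  exact h.congr (fun w => by rw [wsum_empty_one])

/-- a function of a letter count that is periodic modulo `m` -/
theorem stat_count_fun (m : ℕ) [NeZero m] (a : α) (f : ℕ → ℕ) (q : ℕ) (hq : 0 < q)
    (hf : ∀ k, ((f (k + q) : ℕ) : ZMod m) = ((f k : ℕ) : ZMod m)) :
    StatLe 1 (fun w : List α => ((f (w.count a) : ℕ) : ZMod m)) := by
  have hq0 : NeZero q := ⟨hq.ne'⟩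
  have h := (stat_count q a).comp (fun x : ZMod q => ((f x.val : ℕ) : ZMod m))
  refine h.congr (fun w => ?_)
  show ((f ((w.count a : ℕ) : ZMod q).val : ℕ) : ZMod m) = ((f (w.count a) : ℕ) : ZMod m)
  rw [ZMod.val_natCast]
  exact (periodic_mod (fun j => ((f j : ℕ) : ZMod m)) q hf (w.count a)).symm

theorem stat_wid (m : ℕ) [NeZero m] (S : Finset α) (b : α) (hb : b ∉ S) :
    StatLe 1 (fun w : List α => ((wsum S b id 0 w : ℕ) : ZMod m)) := by
  have hm : 0 < m := Nat.pos_of_ne_zero (NeZero.ne m)
  refine wsum_stat S b hb m id m hm (fun k => ?_)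
  simp

theorem stat_wch (m : ℕ) [NeZero m] (S : Finset α) (b : α) (hb : b ∉ S) :
    StatLe 1 (fun w : List α => ((wsum S b (fun k => k.choose 2) 0 w : ℕ) : ZMod m)) := by
  have hm : 0 < m := Nat.pos_of_ne_zero (NeZero.ne m)
  exact wsum_stat S b hb m (fun k => k.choose 2) (2 * m) (by omega) (choose_two_periodic m)

theorem stat_wsq (m : ℕ) [NeZero m] (S : Finset α) (b : α) (hb : b ∉ S) :
    StatLe 1 (fun w : List α => ((wsum S b (fun k => k * k) 0 w : ℕ) : ZMod m)) := by
  have hm : 0 < m := Nat.pos_of_ne_zero (NeZero.ne m)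
  refine wsum_stat S b hb m (fun k => k * k) m hm (fun k => ?_)
  simp

/-- the main statistic theorem: subword counts of a word of length at most three, modulo `m` -/
theorem stat_three (m : ℕ) [NeZero m] (u : List α) (hu : u.length ≤ 3) :
    StatLe 1 (fun w : List α => ((w.sublists.count u : ℕ) : ZMod m)) := by
  have hm : 0 < m := Nat.pos_of_ne_zero (NeZero.ne m)
  match u, hu with
  | [], _ =>
    exact (StatLe.const 1 (1 : ZMod m)).congr (fun w => by rw [sc_nil, Nat.cast_one])
  | [a], _ =>
    exact (stat_count m a).congr (fun w => by rw [sc_one])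
  | [a, b], _ =>
    by_cases hab : a = b
    · subst hab
      exact (stat_count_fun m a (fun k => k.choose 2) (2 * m) (by omega)
        (choose_two_periodic m)).congr (fun w => by rw [sc_two_same])
    · have hbS : b ∉ ({a} : Finset α) := by
        rw [Finset.mem_singleton]; exact fun e => hab e.symm
      exact (stat_wid m {a} b hbS).congr (fun w => by rw [sc_two a b hab])
  | [a, b, c], _ =>
    by_cases hab : a = b
    · subst hab
      by_cases hac : a = c
      · subst hac
        exact (stat_count_fun m a (fun k => k.choose 3) (6 * m) (by omega)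
          (choose_three_periodic m hm)).congr (fun w => by rw [sc_three_same])
      · have hcS : c ∉ ({a} : Finset α) := by
          rw [Finset.mem_singleton]; exact fun e => hac e.symm
        exact (stat_wch m {a} c hcS).congr (fun w => by rw [sc_aab a c hac])
    · by_cases hbc : b = c
      · subst hbc
        have haS : a ∉ ({b} : Finset α) := by
          rw [Finset.mem_singleton]; exact hab
        refine (stat_wch m {b} a haS).rev.congr (fun w => ?_)
        have h1 := sc_reverse [b, b, a] w.reverse
        rw [List.reverse_reverse] at h1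
        have h2 : [b, b, a].reverse = [a, b, b] := rfl
        rw [h2] at h1
        rw [h1, sc_aab b a (fun e => hab e.symm)]
      · by_cases hac : a = c
        · subst hac
          have hbS : b ∉ ({a} : Finset α) := by
            rw [Finset.mem_singleton]; exact fun e => hab e.symm
          have h := (((stat_count m a).prod (stat_wid m {a} b hbS)).prod
            (stat_wsq m {a} b hbS)).comp
            (fun p : (ZMod m × ZMod m) × ZMod m => p.1.1 * p.1.2 - p.2)
          refine h.congr (fun w => ?_)
          show ((w.count a : ℕ) : ZMod m) * ((wsum {a} b id 0 w : ℕ) : ZMod m)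
              - ((wsum {a} b (fun k => k * k) 0 w : ℕ) : ZMod m)
            = ((w.sublists.count [a, b, a] : ℕ) : ZMod m)
          have h1 := congrArg (Nat.cast : ℕ → ZMod m) (sc_aba a b hab w)
          rw [Nat.cast_add, Nat.cast_mul] at h1
          rw [← h1]
          ring
        · have hbS : b ∉ ({a} : Finset α) := by
            rw [Finset.mem_singleton]; exact fun e => hab e.symm
          have hbS' : b ∉ ({c} : Finset α) := by
            rw [Finset.mem_singleton]; exact hbc
          have hbS2 : b ∉ ({a, c} : Finset α) := by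
            rw [Finset.mem_insert, Finset.mem_singleton]
            rintro (e | e)
            · exact hab e.symm
            · exact hbc e
          have h := (((((stat_count m c).prod (stat_wid m {a} b hbS)).prod
            (stat_wch m {a} b hbS)).prod (stat_wch m {c} b hbS')).prod
            (stat_wch m {a, c} b hbS2)).comp
            (fun p : (((ZMod m × ZMod m) × ZMod m) × ZMod m) × ZMod m =>
              p.1.1.1.1 * p.1.1.1.2 + p.1.1.2 + p.1.2 - p.2)
          refine h.congr (fun w => ?_)
          show ((w.count c : ℕ) : ZMod m) * ((wsum {a} b id 0 w : ℕ) : ZMod m)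
              + ((wsum {a} b (fun k => k.choose 2) 0 w : ℕ) : ZMod m)
              + ((wsum {c} b (fun k => k.choose 2) 0 w : ℕ) : ZMod m)
              - ((wsum {a, c} b (fun k => k.choose 2) 0 w : ℕ) : ZMod m)
            = ((w.sublists.count [a, b, c] : ℕ) : ZMod m)
          have h1 := congrArg (Nat.cast : ℕ → ZMod m)
            (sc_abc a b c hab (fun e => hbc e.symm) hac w)
          rw [Nat.cast_add, Nat.cast_add, Nat.cast_add, Nat.cast_mul] at h1
          rw [← h1]
          ring
  | _ :: _ :: _ :: _ :: _, h =>
    exfalso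
    simp only [List.length_cons] at h
    omega

/-- **Scattered subword counting, length at most three.** Over a finite alphabet, for every word
`u` of length at most three, every modulus `m ≥ 1` and every residue `r`, the language of the
words in which `u` occurs as a scattered subword a number of times congruent to `r` modulo `m`
has generalized star height at most one. -/
theorem subword_three (m : ℕ) (hm : 0 < m) (u : List α) (hu : u.length ≤ 3) (r : ℕ) :
    GSHLe 1 ({w | w.sublists.count u % m = r % m} : Language α) := by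
  have hm0 : NeZero m := ⟨hm.ne'⟩
  refine (stat_three m u hu (r : ZMod m)).of_iff (fun w => ?_)
  show ((w.sublists.count u : ℕ) : ZMod m) = (r : ZMod m) ↔ w.sublists.count u % m = r % m
  exact ZMod.natCast_eq_natCast_iff' _ _ _

end Vale.Agent.Lib.P329
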