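import Vale.Agent.Lib.P329.Hub
import Vale.Agent.Lib.P329.Three

/-!
# Affine maps of `Z/5` without involutions

The group of the affine maps `v ↦ l * v + c` of `Z/5` (`l ≠ 0`) is the Frobenius group of order
`20`. We show that every language recognized by this group through a map of the letters that
sends no letter to an involution (`l = -1`) has generalized star height at most one
(`gsh_affine_five`).

The automaton has the five states `0, …, 4` and base state `0`; a letter acts by
`y ↦ l * y + c`. For the two sets of pairs `(l, c)` listed in `afP1` and `afP2` this automaton is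
counter-free once the base state is made absorbing: the maps it generates are listed in `afT1`
and `afT2` (`28` and `44` maps), and the closure and the aperiodicity of these lists are checked
by evaluation. The translation parts of the letters are a fixed combination of six choices of
the constants `c` from these two sets, and the value of a word is the same combination of the
six runs.
-/

namespace Vale.Agent.Lib.P329

open Language

variable {α : Type} [Fintype α] [DecidableEq α]

/-- The map of `{0, …, 4}` coded by a quadruple: the images of `1, 2, 3, 4`; the state `0` and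
all other numbers go to `0`. -/
def afAp (t : ℕ × ℕ × ℕ × ℕ) (y : ℕ) : ℕ :=
  if y = 1 then t.1 else if y = 2 then t.2.1 else if y = 3 then t.2.2.1
    else if y = 4 then t.2.2.2 else 0

/-- The code of the map `y ↦ l * y + c` modulo `5` on `1, 2, 3, 4`. -/
def afGen (l c : ℕ) : ℕ × ℕ × ℕ × ℕ :=
  ((l * 1 + c) % 5, (l * 2 + c) % 5, (l * 3 + c) % 5, (l * 4 + c) % 5)

/-- The code of the composite: first `t`, then `g`. -/
def afCmp (t g : ℕ × ℕ × ℕ × ℕ) : ℕ × ℕ × ℕ × ℕ :=
  (afAp g t.1, afAp g t.2.1, afAp g t.2.2.1, afAp g t.2.2.2)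

/-- The automaton on the states `0, …, 4`: the letter `a` acts by `y ↦ l a * y + c a` modulo
`5`. -/
def afStep (l c : α → ℕ) (y : ℕ) (a : α) : ℕ := (l a * y + c a) % 5

/-- First admissible set of pairs `(l, c)`. -/
def afP1 : List (ℕ × ℕ) := [(1, 0), (2, 1), (2, 4), (3, 1), (3, 4)]

/-- Second admissible set of pairs `(l, c)`. -/
def afP2 : List (ℕ × ℕ) := [(1, 0), (1, 1), (2, 1), (3, 1)]

/-- The maps generated by the first set once the base state is absorbing. -/
def afT1 : List (ℕ × ℕ × ℕ × ℕ) :=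
  [(1, 2, 3, 4), (3, 0, 2, 4), (1, 3, 0, 2), (4, 2, 0, 3), (2, 0, 3, 1), (2, 0, 0, 4),
   (0, 0, 3, 2), (0, 0, 2, 3), (3, 0, 0, 1), (3, 2, 0, 0), (1, 0, 0, 3), (4, 0, 0, 2),
   (2, 3, 0, 0), (0, 0, 0, 4), (3, 0, 0, 2), (2, 0, 0, 3), (0, 0, 0, 1), (0, 0, 2, 0),
   (0, 0, 0, 3), (0, 0, 0, 2), (0, 0, 3, 0), (2, 0, 0, 0), (0, 3, 0, 0), (0, 2, 0, 0),
   (3, 0, 0, 0), (1, 0, 0, 0), (4, 0, 0, 0), (0, 0, 0, 0)]

/-- The maps generated by the second set once the base state is absorbing. -/
def afT2 : List (ℕ × ℕ × ℕ × ℕ) :=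
  [(1, 2, 3, 4), (2, 3, 4, 0), (3, 0, 2, 4), (4, 2, 0, 3), (3, 4, 0, 0), (0, 2, 4, 0),
   (2, 0, 3, 0), (4, 0, 3, 0), (2, 0, 0, 4), (0, 0, 2, 3), (0, 3, 0, 4), (4, 0, 0, 2),
   (3, 2, 0, 0), (4, 0, 0, 0), (2, 4, 0, 0), (0, 3, 0, 0), (0, 0, 4, 0), (0, 2, 3, 0),
   (3, 0, 4, 0), (0, 0, 2, 0), (2, 0, 0, 0), (4, 0, 2, 0), (3, 0, 0, 0), (0, 0, 0, 4),
   (2, 0, 0, 3), (0, 0, 3, 4), (0, 0, 0, 2), (0, 4, 0, 0), (0, 2, 0, 4), (0, 0, 0, 3),
   (3, 0, 0, 2), (4, 3, 0, 0), (0, 2, 0, 0), (0, 0, 0, 0), (2, 3, 0, 0), (0, 0, 3, 0),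
   (0, 3, 4, 0), (2, 0, 4, 0), (3, 0, 2, 0), (3, 0, 0, 4), (0, 0, 2, 4), (0, 2, 0, 3),
   (4, 0, 0, 3), (4, 2, 0, 0)]

theorem afT1_closed : ∀ t ∈ afT1, ∀ p ∈ afP1, afCmp t (afGen p.1 p.2) ∈ afT1 := by
  decide +kernel

theorem afT2_closed : ∀ t ∈ afT2, ∀ p ∈ afP2, afCmp t (afGen p.1 p.2) ∈ afT2 := by
  decide +kernel

theorem afT1_bound : ∀ t ∈ afT1, ∀ y, y < 5 → afAp t y < 5 := by decide +kernel

theorem afT2_bound : ∀ t ∈ afT2, ∀ y, y < 5 → afAp t y < 5 := by decide +kernel

theorem afT1_aper : ∀ t ∈ afT1, ∀ y, y < 5 → (afAp t)^[4] y = (afAp t)^[5] y := by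
  decide +kernel

theorem afT2_aper : ∀ t ∈ afT2, ∀ y, y < 5 → (afAp t)^[4] y = (afAp t)^[5] y := by
  decide +kernel

theorem afAp_id (y : ℕ) (hy : y < 5) : afAp (1, 2, 3, 4) y = y := by
  interval_cases y <;> rfl

theorem afAp_cmp (t g : ℕ × ℕ × ℕ × ℕ) (y : ℕ) : afAp (afCmp t g) y = afAp g (afAp t y) := by
  by_cases h1 : y = 1
  · subst h1; rfl
  · by_cases h2 : y = 2
    · subst h2; rfl
    · by_cases h3 : y = 3
      · subst h3; rfl
      · by_cases h4 : y = 4
        · subst h4; rfl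
        · have e : ∀ s : ℕ × ℕ × ℕ × ℕ, afAp s y = 0 := fun s => by
            simp [afAp, h1, h2, h3, h4]
          rw [e, e]
          rfl

omit [Fintype α] [DecidableEq α] in
theorem afStep_abs (l c : α → ℕ) (a : α) (z : ℕ) (hz : z < 5) :
    absStep (afStep l c) z a = afAp (afGen (l a) (c a)) z := by
  unfold absStep afStep afAp afGen
  interval_cases z <;> simp

omit [Fintype α] [DecidableEq α] in
theorem af_foldl_rep {β : Type} (f : β → α → β) (w : List α) (k : ℕ) (y : β) :
    List.foldl f y (List.replicate k w).flatten = (fun z => List.foldl f z w)^[k] y := by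
  induction k generalizing y with
  | zero => simp
  | succ k ih =>
    rw [List.replicate_succ, List.flatten_cons, List.foldl_append, ih,
      Function.iterate_succ_apply]

omit [Fintype α] [DecidableEq α] in
/-- **Closure criterion.** If the list `T` of maps contains the identity, is closed under
composition with the maps of the admissible pairs, and consists of maps `t` of `{0, …, 4}` with
`t ^ 4 = t ^ 5`, then the automaton of any letters with admissible pairs is counter-free once
its base state is absorbing. -/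
theorem af_aper (pairs : List (ℕ × ℕ)) (T : List (ℕ × ℕ × ℕ × ℕ))
    (h1 : (1, 2, 3, 4) ∈ T)
    (hcl : ∀ t ∈ T, ∀ p ∈ pairs, afCmp t (afGen p.1 p.2) ∈ T)
    (hbd : ∀ t ∈ T, ∀ y, y < 5 → afAp t y < 5)
    (hap : ∀ t ∈ T, ∀ y, y < 5 → (afAp t)^[4] y = (afAp t)^[5] y)
    (l c : α → ℕ) (hp : ∀ a, (l a, c a) ∈ pairs) :
    ∀ w : List α, ∃ k : ℕ, ∀ y, y < 5 →
      List.foldl (absStep (afStep l c)) y (List.replicate k w).flatten =
        List.foldl (absStep (afStep l c)) y (List.replicate (k + 1) w).flatten := by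
  intro w
  have key : ∃ t ∈ T, ∀ y, y < 5 → List.foldl (absStep (afStep l c)) y w = afAp t y := by
    induction w using List.reverseRecOn with
    | nil => exact ⟨(1, 2, 3, 4), h1, fun y hy => (afAp_id y hy).symm⟩
    | append_singleton w a ih =>
      obtain ⟨t, ht, hty⟩ := ih
      refine ⟨afCmp t (afGen (l a) (c a)), hcl t ht _ (hp a), fun y hy => ?_⟩
      rw [List.foldl_append, List.foldl_cons, List.foldl_nil, hty y hy,
        afStep_abs l c a _ (hbd t ht y hy), afAp_cmp]
  obtain ⟨t, ht, hty⟩ := key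
  have hit : ∀ k y, y < 5 →
      (fun z => List.foldl (absStep (afStep l c)) z w)^[k] y = (afAp t)^[k] y ∧
        (afAp t)^[k] y < 5 := by
    intro k
    induction k with
    | zero => intro y hy; exact ⟨rfl, hy⟩
    | succ k ih =>
      intro y hy
      rw [Function.iterate_succ_apply, Function.iterate_succ_apply, hty y hy]
      exact ih _ (hbd t ht y hy)
  refine ⟨4, fun y hy => ?_⟩
  rw [af_foldl_rep, af_foldl_rep, (hit 4 y hy).1, (hit 5 y hy).1]
  exact hap t ht y hy

/-- The run in `Z/5`: the letter `a` acts by `s ↦ l a * s + c a`. -/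
def afRun (l c : α → ZMod 5) (v : ZMod 5) (w : List α) : ZMod 5 :=
  w.foldl (fun s a => l a * s + c a) v

omit [Fintype α] [DecidableEq α] in
theorem afRun_val (l c : α → ZMod 5) (v : ZMod 5) (w : List α) :
    List.foldl (afStep (fun a => (l a).val) (fun a => (c a).val)) v.val w
      = (afRun l c v w).val := by
  induction w generalizing v with
  | nil => rfl
  | cons a w ih =>
    have h : afStep (fun a => (l a).val) (fun a => (c a).val) v.val a = (l a * v + c a).val := by
      show ((l a).val * v.val + (c a).val) % 5 = (l a * v + c a).val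
      rw [ZMod.val_add, ZMod.val_mul]
      omega
    show List.foldl _ (afStep (fun a => (l a).val) (fun a => (c a).val) v.val a) w = _
    rw [h, ih]
    rfl

/-- the run of an automaton with admissible pairs is a statistic of generalized star height at
most one -/
theorem af_stat (pairs : List (ℕ × ℕ)) (T : List (ℕ × ℕ × ℕ × ℕ))
    (h1 : (1, 2, 3, 4) ∈ T)
    (hcl : ∀ t ∈ T, ∀ p ∈ pairs, afCmp t (afGen p.1 p.2) ∈ T)
    (hbd : ∀ t ∈ T, ∀ y, y < 5 → afAp t y < 5)
    (hap : ∀ t ∈ T, ∀ y, y < 5 → (afAp t)^[4] y = (afAp t)^[5] y)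
    (l c : α → ZMod 5) (hp : ∀ a, ((l a).val, (c a).val) ∈ pairs) (v : ZMod 5) :
    StatLe 1 (fun w : List α => afRun l c v w) := by
  intro u
  have h := gsh_run_aper 5 (afStep (fun a => (l a).val) (fun a => (c a).val))
    (af_aper pairs T h1 hcl hbd hap _ _ hp)
    (fun y a _ => Nat.mod_lt _ (by norm_num)) v.val u.val (ZMod.val_lt v)
  refine h.of_iff (fun w => ?_)
  show List.foldl (afStep (fun a => (l a).val) (fun a => (c a).val)) v.val w = u.val
    ↔ afRun l c v w = u
  rw [afRun_val]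
  exact ⟨fun e => ZMod.val_injective 5 e, fun e => by rw [e]⟩

/-! ### The six choices of constants -/

/-- signs for the letters with `l ≠ 1` -/
def afE1 (t : ZMod 5) : ZMod 5 := if t = 0 ∨ t = 1 then 4 else 1
def afE2 (t : ZMod 5) : ZMod 5 := if t = 4 then 1 else 4
def afE3 (t : ZMod 5) : ZMod 5 := if t = 1 ∨ t = 3 then 4 else 1

/-- bits for the letters with `l = 1` -/
def afD1 (t : ZMod 5) : ZMod 5 := if t = 1 ∨ t = 3 then 1 else 0
def afD2 (t : ZMod 5) : ZMod 5 := if t = 2 ∨ t = 3 ∨ t = 4 then 1 else 0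
def afD3 (t : ZMod 5) : ZMod 5 := if t = 4 then 1 else 0

theorem afE_sum : ∀ t : ZMod 5, afE1 t + afE2 t + 2 * afE3 t + 1 + 2 * 1 + 2 * 1 = t := by
  decide +kernel

theorem afD_sum : ∀ t : ZMod 5, 0 + 0 + 2 * 0 + afD1 t + 2 * afD2 t + 2 * afD3 t = t := by
  decide +kernel

theorem afE1_val : ∀ t : ZMod 5, afE1 t = 1 ∨ afE1 t = 4 := by decide +kernel
theorem afE2_val : ∀ t : ZMod 5, afE2 t = 1 ∨ afE2 t = 4 := by decide +kernel
theorem afE3_val : ∀ t : ZMod 5, afE3 t = 1 ∨ afE3 t = 4 := by decide +kernel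
theorem afD1_val : ∀ t : ZMod 5, afD1 t = 0 ∨ afD1 t = 1 := by decide +kernel
theorem afD2_val : ∀ t : ZMod 5, afD2 t = 0 ∨ afD2 t = 1 := by decide +kernel
theorem afD3_val : ∀ t : ZMod 5, afD3 t = 0 ∨ afD3 t = 1 := by decide +kernel

/-- constants of the first kind: `0` on the letters with `l = 1`, a sign on the others -/
def afC (E : ZMod 5 → ZMod 5) (l tau : α → ZMod 5) (a : α) : ZMod 5 :=
  if l a = 1 then 0 else E (tau a)

/-- constants of the second kind: a bit on the letters with `l = 1`, `1` on the others -/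
def afB (D : ZMod 5 → ZMod 5) (l tau : α → ZMod 5) (a : α) : ZMod 5 :=
  if l a = 1 then D (tau a) else 1

omit [Fintype α] [DecidableEq α] in
theorem afC_pairs (E : ZMod 5 → ZMod 5) (hE : ∀ t, E t = 1 ∨ E t = 4) (l tau : α → ZMod 5)
    (hl : ∀ a, l a = 1 ∨ l a = 2 ∨ l a = 3) (a : α) :
    ((l a).val, (afC E l tau a).val) ∈ afP1 := by
  unfold afC
  rcases hl a with h | h | h
  · rw [h, if_pos rfl]; decide
  · rw [h, if_neg (by decide)]
    rcases hE (tau a) with e | e <;> rw [e] <;> decide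
  · rw [h, if_neg (by decide)]
    rcases hE (tau a) with e | e <;> rw [e] <;> decide

omit [Fintype α] [DecidableEq α] in
theorem afB_pairs (D : ZMod 5 → ZMod 5) (hD : ∀ t, D t = 0 ∨ D t = 1) (l tau : α → ZMod 5)
    (hl : ∀ a, l a = 1 ∨ l a = 2 ∨ l a = 3) (a : α) :
    ((l a).val, (afB D l tau a).val) ∈ afP2 := by
  unfold afB
  rcases hl a with h | h | h
  · rw [h, if_pos rfl]
    rcases hD (tau a) with e | e <;> rw [e] <;> decide
  · rw [h, if_neg (by decide)]; decide
  · rw [h, if_neg (by decide)]; decide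

omit [Fintype α] [DecidableEq α] in
theorem af_tau (l tau : α → ZMod 5) (a : α) :
    afC afE1 l tau a + afC afE2 l tau a + 2 * afC afE3 l tau a
      + afB afD1 l tau a + 2 * afB afD2 l tau a + 2 * afB afD3 l tau a = tau a := by
  unfold afC afB
  by_cases h : l a = 1
  · simp only [h, if_true]
    exact afD_sum (tau a)
  · simp only [h, if_false]
    exact afE_sum (tau a)

omit [Fintype α] [DecidableEq α] in
/-- the run with the true constants is the combination of the six runs -/
theorem af_lin (l tau : α → ZMod 5) (w : List α) :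
    ∀ v1 v2 v3 v4 v5 v6 : ZMod 5,
      afRun l tau (v1 + v2 + 2 * v3 + v4 + 2 * v5 + 2 * v6) w
        = afRun l (afC afE1 l tau) v1 w + afRun l (afC afE2 l tau) v2 w
          + 2 * afRun l (afC afE3 l tau) v3 w + afRun l (afB afD1 l tau) v4 w
          + 2 * afRun l (afB afD2 l tau) v5 w + 2 * afRun l (afB afD3 l tau) v6 w := by
  induction w with
  | nil => intro v1 v2 v3 v4 v5 v6; rfl
  | cons a w ih =>
    intro v1 v2 v3 v4 v5 v6
    have e : l a * (v1 + v2 + 2 * v3 + v4 + 2 * v5 + 2 * v6) + tau a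
        = (l a * v1 + afC afE1 l tau a) + (l a * v2 + afC afE2 l tau a)
          + 2 * (l a * v3 + afC afE3 l tau a) + (l a * v4 + afB afD1 l tau a)
          + 2 * (l a * v5 + afB afD2 l tau a) + 2 * (l a * v6 + afB afD3 l tau a) := by
      have h := af_tau l tau a
      linear_combination -h
    show afRun l tau (l a * (v1 + v2 + 2 * v3 + v4 + 2 * v5 + 2 * v6) + tau a) w = _
    rw [e, ih]
    rfl

/-- the statistic formed by the six runs from all starting points -/
def afStat (l tau : α → ZMod 5) (w : List α) :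
    ZMod 5 → ((ZMod 5 × ZMod 5 × ZMod 5) × (ZMod 5 × ZMod 5 × ZMod 5)) :=
  fun v => ((afRun l (afC afE1 l tau) v w, afRun l (afC afE2 l tau) v w,
      afRun l (afC afE3 l tau) v w),
    (afRun l (afB afD1 l tau) v w, afRun l (afB afD2 l tau) v w,
      afRun l (afB afD3 l tau) v w))

theorem afStat_le (l tau : α → ZMod 5) (hl : ∀ a, l a = 1 ∨ l a = 2 ∨ l a = 3) :
    StatLe 1 (afStat l tau (α := α)) := by
  have c1 : ∀ (E : ZMod 5 → ZMod 5), (∀ t, E t = 1 ∨ E t = 4) → ∀ v : ZMod 5,
      StatLe 1 (fun w : List α => afRun l (afC E l tau) v w) := fun E hE v =>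
    af_stat afP1 afT1 (by decide) afT1_closed afT1_bound afT1_aper l _
      (afC_pairs E hE l tau hl) v
  have c2 : ∀ (D : ZMod 5 → ZMod 5), (∀ t, D t = 0 ∨ D t = 1) → ∀ v : ZMod 5,
      StatLe 1 (fun w : List α => afRun l (afB D l tau) v w) := fun D hD v =>
    af_stat afP2 afT2 (by decide) afT2_closed afT2_bound afT2_aper l _
      (afB_pairs D hD l tau hl) v
  exact StatLe.pi (fun v =>
    (((c1 afE1 afE1_val v).prod ((c1 afE2 afE2_val v).prod (c1 afE3 afE3_val v))).prod
      ((c2 afD1 afD1_val v).prod ((c2 afD2 afD2_val v).prod (c2 afD3 afD3_val v)))))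

omit [Fintype α] [DecidableEq α] in
/-- the statistic determines the run with the true constants -/
theorem afStat_det (l tau : α → ZMod 5) (w w' : List α) (h : afStat l tau w = afStat l tau w')
    (u : ZMod 5) : afRun l tau u w = afRun l tau u w' := by
  have hu : (4 * u) + (4 * u) + 2 * (4 * u) + (4 * u) + 2 * (4 * u) + 2 * (4 * u) = u := by
    revert u; decide +kernel
  have h1 := af_lin l tau w (4 * u) (4 * u) (4 * u) (4 * u) (4 * u) (4 * u)
  have h2 := af_lin l tau w' (4 * u) (4 * u) (4 * u) (4 * u) (4 * u) (4 * u)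
  rw [hu] at h1 h2
  have h3 := congrFun h (4 * u)
  unfold afStat at h3
  simp only [Prod.mk.injEq] at h3
  obtain ⟨⟨e1, e2, e3⟩, e4, e5, e6⟩ := h3
  rw [h1, h2, e1, e2, e3, e4, e5, e6]

theorem af_inv1 : ∀ c v : ZMod 5, 1 * (1 * v + -c) + c = v := by decide +kernel
theorem af_inv2 : ∀ c v : ZMod 5, 2 * (3 * v + -(3 * c)) + c = v := by decide +kernel
theorem af_inv3 : ∀ c v : ZMod 5, 3 * (2 * v + -(2 * c)) + c = v := by decide +kernel

/-- the inverse of an affine map without involution is again one -/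
theorem af_inv (s : Equiv.Perm (ZMod 5))
    (h : ∃ l c : ZMod 5, (l = 1 ∨ l = 2 ∨ l = 3) ∧ ∀ v, s v = l * v + c) :
    ∃ l c : ZMod 5, (l = 1 ∨ l = 2 ∨ l = 3) ∧ ∀ v, s⁻¹ v = l * v + c := by
  obtain ⟨l, c, hl, hv⟩ := h
  have key : ∀ l' c' : ZMod 5, (∀ v, l * (l' * v + c') + c = v) → ∀ v, s⁻¹ v = l' * v + c' := by
    intro l' c' hk v
    rw [Equiv.Perm.inv_def, Equiv.symm_apply_eq, hv, hk]
  rcases hl with h | h | h
  · refine ⟨1, -c, Or.inl rfl, key _ _ ?_⟩
    rw [h]; exact af_inv1 c
  · refine ⟨3, -(3 * c), Or.inr (Or.inr rfl), key _ _ ?_⟩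
    rw [h]; exact af_inv2 c
  · refine ⟨2, -(2 * c), Or.inr (Or.inl rfl), key _ _ ?_⟩
    rw [h]; exact af_inv3 c

omit [Fintype α] [DecidableEq α] in
theorem af_prod (σ : α → Equiv.Perm (ZMod 5)) (l tau : α → ZMod 5)
    (hv : ∀ a v, (σ a)⁻¹ v = l a * v + tau a) (w : List α) :
    ∀ v, afRun l tau v w = ((w.map σ).prod)⁻¹ v := by
  induction w with
  | nil => intro v; simp [afRun]
  | cons a w ih =>
    intro v
    show afRun l tau (l a * v + tau a) w = _
    rw [ih, ← hv a v, List.map_cons, List.prod_cons, mul_inv_rev, Equiv.Perm.mul_apply]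

/-- **Affine maps of `Z/5` without involutions.** Let every letter act on `Z/5` by a
permutation of the form `v ↦ l * v + c` with `l ∈ {1, 2, 3}` (an affine map that is not an
involution). Then for every set `P` of permutations, the words whose product lies in `P` form a
language of generalized star height at most one. -/
theorem gsh_affine_five (σ : α → Equiv.Perm (ZMod 5))
    (h : ∀ a, ∃ l c : ZMod 5, (l = 1 ∨ l = 2 ∨ l = 3) ∧ ∀ v, σ a v = l * v + c)
    (P : Set (Equiv.Perm (ZMod 5))) :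
    GSHLe 1 ({w : List α | (w.map σ).prod ∈ P} : Language α) := by
  choose l tau hl hv using fun a => af_inv (σ a) (h a)
  have hdet : ∀ w w' : List α, afStat l tau w = afStat l tau w' →
      (w.map σ).prod = (w'.map σ).prod := by
    intro w w' e
    have hi : ((w.map σ).prod)⁻¹ = ((w'.map σ).prod)⁻¹ := by
      ext u
      rw [← af_prod σ l tau hv w u, ← af_prod σ l tau hv w' u, afStat_det l tau w w' e u]
    exact inv_injective hi
  have h2 := (afStat_le l tau hl).level
    (fun v => ∃ w' : List α, (w'.map σ).prod ∈ P ∧ afStat l tau w' = v)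
  refine h2.of_iff (fun w => ?_)
  show (∃ w' : List α, (w'.map σ).prod ∈ P ∧ afStat l tau w' = afStat l tau w)
    ↔ (w.map σ).prod ∈ P
  constructor
  · rintro ⟨w', hw', e⟩
    rw [← hdet w' w e]
    exact hw'
  · intro hw
    exact ⟨w, hw, rfl⟩

end Vale.Agent.Lib.P329
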