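import Vale.Agent.Lib.P329.Radon
import Vale.Agent.Lib.P329.Excursion

/-!
# Groups with a commutative normal subgroup and an elementary abelian quotient

The counting theorem for weights modulo a prime `q` (`stat_wocc_prime`) feeds the summation over
all linear forms on `(Z/q)^n` of `Radon.lean`.
-/

namespace Vale.Agent.Lib.P329

open Language

variable {α : Type} [Fintype α] [DecidableEq α]

/-- the counting theorem for weights modulo a prime, for single letters and every modulus -/
theorem hcnt_prime (q : ℕ) (hq : q.Prime) : ∀ M : ℕ, 0 < M → ∀ (κ : α → ℕ) (x : α) (r : ℕ),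
    StatLe 1 (fun w : List α => wocc q κ {x} r w % M) := by
  intro M hM κ x r
  have hS : ∀ a ∈ ({x} : Finset α), ∀ b ∈ ({x} : Finset α), κ a % q = κ b % q := by
    intro a ha b hb
    rw [Finset.mem_singleton.mp ha, Finset.mem_singleton.mp hb]
  exact stat_wocc_prime q hq M hM κ {x} hS r

/-- **Commutative by elementary abelian.** Let `q` be a prime and let `N` be a normal subgroup
of finite index of a group `G` whose elements commute pairwise and satisfy `a ^ m = 1` for one
fixed `m > 0`, such that all powers `g ^ q` and all commutators `g * h * g⁻¹ * h⁻¹` lie in `N`.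
Then every language `{w | product of w in P}` has generalized star height at most one. -/
theorem elem_prime (q : ℕ) (hq : q.Prime) {G : Type} [Group G] (N : Subgroup G) [N.Normal]
    [Finite (G ⧸ N)] (hcomm : ∀ a ∈ N, ∀ b ∈ N, a * b = b * a)
    (hpow : ∀ g : G, g ^ q ∈ N) (hab : ∀ g h : G, g * h * g⁻¹ * h⁻¹ ∈ N)
    (m : ℕ) (hm : 0 < m) (hexp : ∀ a ∈ N, a ^ m = 1) (φ : α → G) (P : Set G) :
    GSHLe 1 ({w | (w.map φ).prod ∈ P} : Language α) :=
  have : Fact q.Prime := ⟨hq⟩
  elem_quot q (hcnt_prime q hq) N hcomm hpow hab m hm hexp φ P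

/-- **Finite form.** Every language recognized by a finite group `G` that has a commutative
normal subgroup `N` with `G / N` an elementary abelian `q`-group, `q` a prime, has generalized
star height at most one. -/
theorem elem_prime_finite (q : ℕ) (hq : q.Prime) {G : Type} [Group G] [Finite G]
    (N : Subgroup G) [N.Normal] (hcomm : ∀ a ∈ N, ∀ b ∈ N, a * b = b * a)
    (hpow : ∀ g : G, g ^ q ∈ N) (hab : ∀ g h : G, g * h * g⁻¹ * h⁻¹ ∈ N)
    (φ : α → G) (P : Set G) :
    GSHLe 1 ({w | (w.map φ).prod ∈ P} : Language α) :=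
  elem_prime q hq N hcomm hpow hab (Nat.card G) Nat.card_pos (fun _ _ => pow_card_eq_one') φ P

/-- **Map form.** Let `q` be a prime and `ψ` a map from a group `G` to `(Z/q)^n` with
`ψ (g * h) = ψ g + ψ h`, such that the elements `a` with `ψ a = 0` commute pairwise and satisfy
`a ^ m = 1` for one fixed `m > 0`. Then every language `{w | product of w in P}` has
generalized star height at most one. -/
theorem elem_prime_map (q : ℕ) (hq : q.Prime) {n : ℕ} {G : Type} [Group G]
    (ψ : G → Fin n → ZMod q) (hψ : ∀ g h : G, ψ (g * h) = ψ g + ψ h)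
    (hcomm : ∀ a b : G, ψ a = 0 → ψ b = 0 → a * b = b * a) (m : ℕ) (hm : 0 < m)
    (hexp : ∀ a : G, ψ a = 0 → a ^ m = 1) (φ : α → G) (P : Set G) :
    GSHLe 1 ({w | (w.map φ).prod ∈ P} : Language α) :=
  have : Fact q.Prime := ⟨hq⟩
  elem_abel q (hcnt_prime q hq) ψ hψ hcomm m hm hexp φ P

end Vale.Agent.Lib.P329
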