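import Vale.Agent.Lib.P329.AffFive
import Vale.Agent.Lib.P329.ElemPrime

/-!
# Affine maps of `Z/5`: one element of order four and one involution, and two letters

The group of the affine maps `v ↦ l * v + c` of `Z/5` is the Frobenius group of order `20`.
`AffFive.lean` treats the maps of the letters that avoid the involutions (`l = 4`). Here we
treat the maps of the letters whose values are the identity, one fixed affine map `g` with
`l ∈ {2, 3}` and one fixed involution `r` (`gsh_affine_five_pair`), and deduce that every
language over an alphabet with at most two letters that is recognized by this group has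
generalized star height at most one (`gsh_affine_five_two`).

The automata have the ten states `(v, e)`, `v` in `Z/5` and `e` a bit, coded as `v + 5 * e`,
with base state `(0, 0)`. The letter of `g` acts by `(v, e) ↦ (3 * v + a_e, 0)` and the letter
of `r` by `(v, e) ↦ (4 * v + b_e, 1 - e)`: the constants depend on the bit, the bit is reset by
`g` and flipped by `r`. For the four choices `twC` of the constants `(a_0, a_1, b_0, b_1)` the
automaton is counter-free once the base state is absorbing; the maps generated are listed in
`twT0, …, twT3` and the closure and aperiodicity of the lists are checked by evaluation. The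
true constants `(s, s, t, t)` are a combination of the four choices, and the value of a word
is the same combination of the four runs.
-/

namespace Vale.Agent.Lib.P329

open Language

variable {α : Type} [Fintype α] [DecidableEq α]

/-! ### Closure certificates -/

/-- The map of `{0, …, 9}` coded by a number: the decimal digits are the images of
`1, …, 9` (lowest digit first); the base state `0` goes to `0`. -/
def ncAp (t y : ℕ) : ℕ := if y = 0 then 0 else t / 10 ^ (y - 1) % 10

/-- The code of a map of `{0, …, 9}` (with the base state made absorbing). -/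
def ncGen (f : ℕ → ℕ) : ℕ :=
  f 1 + 10 * (f 2 + 10 * (f 3 + 10 * (f 4 + 10 * (f 5 + 10 * (f 6 + 10 * (f 7
    + 10 * (f 8 + 10 * f 9)))))))

/-- The code of the composite: first `t`, then `g`. -/
def ncCmp (t g : ℕ) : ℕ := ncGen (fun i => ncAp g (ncAp t i))

theorem ncAp_lt (t y : ℕ) : ncAp t y < 10 := by
  unfold ncAp
  split_ifs
  · norm_num
  · exact Nat.mod_lt _ (by norm_num)

theorem ncAp_gen (f : ℕ → ℕ) (hf : ∀ i, i < 10 → f i < 10) (z : ℕ) (hz : z < 10) :
    ncAp (ncGen f) z = if z = 0 then 0 else f z := by
  have h1 := hf 1 (by norm_num)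
  have h2 := hf 2 (by norm_num)
  have h3 := hf 3 (by norm_num)
  have h4 := hf 4 (by norm_num)
  have h5 := hf 5 (by norm_num)
  have h6 := hf 6 (by norm_num)
  have h7 := hf 7 (by norm_num)
  have h8 := hf 8 (by norm_num)
  have h9 := hf 9 (by norm_num)
  unfold ncAp ncGen
  interval_cases z <;> norm_num <;> omega

theorem ncAp_cmp (t g : ℕ) (y : ℕ) (hy : y < 10) : ncAp (ncCmp t g) y = ncAp g (ncAp t y) := by
  unfold ncCmp
  rw [ncAp_gen _ (fun i _ => ncAp_lt g _) y hy]
  by_cases h : y = 0
  · subst h; rfl
  · rw [if_neg h]

omit [Fintype α] [DecidableEq α] in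
/-- **Closure criterion.** If the list `T` of maps of `{0, …, 9}` contains the identity, is
closed under composition with the maps of `Gens`, and consists of maps `t` with
`t ^ k = t ^ (k + 1)`, then every automaton whose letters act, once the base state is
absorbing, by maps of `Gens` is counter-free once its base state is absorbing. -/
theorem nc_aper (k : ℕ) (T Gens : List ℕ) (idc : ℕ)
    (hid : idc ∈ T) (hidv : ∀ y, y < 10 → ncAp idc y = y)
    (hcl : ∀ t ∈ T, ∀ g ∈ Gens, ncCmp t g ∈ T)
    (hap : ∀ t ∈ T, ∀ y, y < 10 → (ncAp t)^[k] y = (ncAp t)^[k + 1] y)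
    (step : ℕ → α → ℕ) (hg : ∀ a, ∃ g ∈ Gens, ∀ z, z < 10 → absStep step z a = ncAp g z) :
    ∀ w : List α, ∃ k : ℕ, ∀ y, y < 10 →
      List.foldl (absStep step) y (List.replicate k w).flatten =
        List.foldl (absStep step) y (List.replicate (k + 1) w).flatten := by
  intro w
  have key : ∃ t ∈ T, ∀ y, y < 10 → List.foldl (absStep step) y w = ncAp t y := by
    induction w using List.reverseRecOn with
    | nil => exact ⟨idc, hid, fun y hy => (hidv y hy).symm⟩
    | append_singleton w a ih =>
      obtain ⟨t, ht, hty⟩ := ih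
      obtain ⟨g, hgm, hgz⟩ := hg a
      refine ⟨ncCmp t g, hcl t ht g hgm, fun y hy => ?_⟩
      rw [List.foldl_append, List.foldl_cons, List.foldl_nil, hty y hy,
        hgz _ (ncAp_lt t y), ncAp_cmp t g y hy]
  obtain ⟨t, ht, hty⟩ := key
  have hit : ∀ j y, y < 10 →
      (fun z => List.foldl (absStep step) z w)^[j] y = (ncAp t)^[j] y ∧
        (ncAp t)^[j] y < 10 := by
    intro j
    induction j with
    | zero => intro y hy; exact ⟨rfl, hy⟩
    | succ j ih =>
      intro y hy
      rw [Function.iterate_succ_apply, Function.iterate_succ_apply, hty y hy]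
      exact ih _ (ncAp_lt t y)
  refine ⟨k, fun y hy => ?_⟩
  rw [af_foldl_rep, af_foldl_rep, (hit k y hy).1, (hit (k + 1) y hy).1]
  exact hap t ht y hy

/-! ### The ten-state automata -/

/-- The action of a letter of kind `k` on the state `s = v + 5 * e`: kind `1` sends `(v, e)` to
`(3 * v + a_e, 0)`, kind `2` sends it to `(4 * v + b_e, 1 - e)`, every other kind fixes it. The
constants are `c = (a_0, a_1, b_0, b_1)`. -/
def twK (c : ℕ × ℕ × ℕ × ℕ) (k : ℕ) (s : ℕ) : ℕ :=
  if k = 1 then (3 * (s % 5) + (if s / 5 = 0 then c.1 else c.2.1)) % 5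
  else if k = 2 then
    (4 * (s % 5) + (if s / 5 = 0 then c.2.2.1 else c.2.2.2)) % 5 + 5 * (1 - s / 5)
  else s

/-- The automaton: the letter `x` acts by its kind. -/
def twStep (c : ℕ × ℕ × ℕ × ℕ) (kind : α → ℕ) (s : ℕ) (x : α) : ℕ := twK c (kind x) s

/-- The four choices of constants. -/
def twC (j : Fin 4) : ℕ × ℕ × ℕ × ℕ :=
  ![(1, 0, 4, 1), (1, 1, 2, 4), (1, 0, 2, 0), (1, 0, 3, 4)] j

/-- The generating maps of the automaton with constants `c`. -/
def twG (c : ℕ × ℕ × ℕ × ℕ) : List ℕ :=
  [ncGen (twK c 0), ncGen (twK c 1), ncGen (twK c 2)]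

/-- the maps generated by the automaton number 0 once the base state is absorbing -/
def twT0 : List ℕ :=
  [987654321, 241303024, 234015678, 234000023, 758606075, 203040314, 765081043, 203000020,
   765000076, 104303010, 413000041, 200030043, 706050685, 130044030, 401038056, 200000020,
   706000070, 130000013, 401000040, 403000040, 805606080, 340000034, 586000058, 200000030,
   700060056, 103000340, 400010031, 400033000, 860055060, 304004003, 508063010, 700000070,
   103000010, 400000040, 860000086, 304000030, 508000050, 300000030, 506000050, 400303040,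
   301000030, 30000003, 650000065, 43000004, 200000000, 700000060, 100030003, 400000010,
   400000030, 806000650, 300040004, 500080068, 300000000, 500066000, 430000030, 300011000,
   3003000, 605005006, 4030040, 103006080, 100000010, 806000080, 500000050, 430000043, 3000000,
   605000060, 4000000, 0, 600000060, 500606050, 608000060, 60000006, 10000001, 56000005,
   700000000, 100000030, 400000000, 800060006, 300000040, 500000080, 500000060, 403000300,
   300000010, 30003, 600050005, 40034, 600000000, 33000, 100000000, 560000060, 44000, 600088000,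
   6006000, 300000003, 1001000, 3000030, 5060050, 400003040, 806000030, 800000080, 560000056,
   6000000, 1000000, 5000000, 303000, 40000004, 80000008, 800000060, 500000000, 400030003, 30,
   600000050, 40, 506000600, 600000080, 60006, 10001, 50065, 66000, 800000000, 30000030, 55000,
   300044000, 600000006, 4004000, 8008000, 6000060, 30000, 1000010, 500006050, 403000000,
   300000060, 8000000, 606000, 50000005, 500060006, 60, 10, 50, 3000300, 40004, 80008, 60000060,
   11000, 600055000, 5005000, 60000, 4000040, 8000080, 3000, 506000000, 80, 6000600, 50005,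
   88000, 5000050, 6000]

/-- the maps generated by the automaton number 1 once the base state is absorbing -/
def twT1 : List ℕ :=
  [987654321, 302413024, 12348956, 2340023, 905869058, 42030314, 65981043, 2030020, 5980059,
   301043010, 4130041, 32000043, 85090968, 41304030, 34016089, 2000020, 5090050, 1300013,
   4010040, 4030040, 906089060, 3400034, 8690086, 2000030, 95000089, 1030340, 14000031, 34003000,
   86908090, 3044003, 98063010, 5000050, 1030010, 4000040, 6900069, 3040030, 8060080, 3000030,
   8090080, 304003040, 3010030, 300003, 9800098, 430004, 2000000, 5000090, 31000003, 4000010,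
   4000030, 6090980, 43000004, 68000096, 3000000, 98009000, 4300030, 13001000, 33000, 9088009,
   30040040, 1039060, 1000010, 6090060, 8000080, 4300043, 30000, 9080090, 40000, 0, 9000090,
   908009080, 9060090, 900009, 100001, 890008, 5000000, 1000030, 4000000, 96000009, 3000040,
   8000060, 8000090, 4030300, 3000010, 30000003, 89000008, 40000034, 9000000, 30003000, 1000000,
   8900090, 40004000, 69006000, 99000, 3000003, 11000, 30030, 90080080, 4003040, 6090030,
   6000060, 8900089, 90000, 10000, 80000, 300003000, 400004, 600006, 6000090, 8000000, 34000003,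
   30, 9000080, 40, 8090900, 9000060, 90000009, 10000001, 80000098, 90009000, 6000000, 300030,
   80008000, 43004000, 9000009, 44000, 66000, 90090, 30000000, 10010, 8009080, 4030000, 3000090,
   60000, 900009000, 800008, 98000009, 90, 10, 80, 30300, 40000004, 60000006, 900090, 10001000,
   89008000, 88000, 90000000, 40040, 60060, 3000, 8090000, 60, 90900, 80000008, 60006000, 80080,
   9000]

/-- the maps generated by the automaton number 2 once the base state is absorbing -/
def twT2 : List ℕ :=
  [987654321, 241303024, 123408956, 234000023, 586909058, 420304203, 659802104, 203000020,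
   598000059, 43202004, 24101002, 320003200, 850908509, 302402403, 401205608, 200000020,
   509000050, 24000002, 12000001, 30202003, 89505008, 23404002, 58606005, 20000200, 950009500,
   400204002, 200102001, 2302300, 905805809, 304200304, 806500402, 500000050, 2000000, 1000000,
   23000002, 58000005, 42000004, 65000006, 202000, 90505009, 21000002, 20303002, 59808005,
   4303000, 2404000, 50000500, 200002000, 100001000, 300203002, 800508005, 200402004, 500605006,
   2002000, 5905900, 200400402, 100200201, 3200003, 908500908, 403000302, 204000805, 0, 5000000,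
   4000000, 6000000, 20000002, 59000005, 32000003, 85000008, 30000003, 40000004, 505000,
   10000001, 56000005, 50909005, 1202000, 3000000, 8909000, 2303000, 5808000, 500005000,
   400004000, 600006000, 200002, 900509005, 200302003, 500805008, 300003, 400004, 5005000,
   200200, 100100, 200300302, 500800805, 400200204, 600500506, 200000, 9500009, 204000204,
   102000102, 300000002, 809000905, 203000400, 508000200, 8000000, 50000005, 95000009, 90000009,
   80000008, 60000006, 101000, 4202000, 6505000, 9000000, 2101000, 5909000, 404000, 300003000,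
   800008000, 500005, 500905009, 900009, 800008, 500500, 400400, 600600, 200000002, 500900905,
   300200203, 800500508, 300000003, 400000004, 500000, 2000002, 1000001, 203000203, 508000508,
   402000402, 605000605, 2, 900000005, 402000200, 201000100, 200000300, 509000800, 4000200,
   2000500, 606000, 3202000, 8505000, 5606000, 303000, 808000, 900009000, 100001, 300300, 800800,
   500000005, 900500509, 900000009, 800000008, 5000005, 4000004, 6000006, 200000200, 509000509,
   302000302, 805000805, 300000300, 400000400, 5, 200000000, 100000000, 302000200, 805000500,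
   204000400, 506000600, 500000900, 2000400, 1000200, 3000200, 8000500, 9505000, 909000, 600006,
   900900, 100000001, 3000003, 8000008, 500000500, 905000905, 900000900, 800000800, 500000000,
   400000000, 600000000, 2000200, 905000500, 203000300, 508000800, 3000300, 4000400, 200, 100,
   2000300, 5000800, 6000500, 9000500, 600000006, 9000009, 100000100, 300000000, 800000000,
   5000500, 509000900, 9000900, 8000800, 500, 400, 600, 5000900, 600000600, 900000000, 1000100,
   300, 800, 6000600, 900]

/-- the maps generated by the automaton number 3 once the base state is absorbing -/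
def twT3 : List ℕ :=
  [987654321, 241303024, 12349567, 234000023, 697505069, 42032031, 76590432, 203000020,
   659000065, 321000032, 302404030, 32002004, 96056057, 13020302, 23400956, 200000020, 605000060,
   302000030, 340000034, 24000002, 567000056, 2303000, 506909050, 2002003, 56006009, 23003001,
   3043042, 40020002, 75060506, 20300203, 65900043, 600000060, 300000030, 304000030, 2000000,
   506000050, 30000003, 590000059, 23000002, 69000006, 31000003, 432000043, 6505000, 3202000,
   403000040, 2002000, 6006005, 3003002, 43003000, 20000004, 65005007, 30032, 5095096, 30020002,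
   90060006, 10030003, 24030403, 20000200, 60500605, 30200030, 34000095, 0, 500000050, 3000000,
   509000050, 6000000, 50000005, 20000002, 400000040, 65000006, 32000003, 4000000, 57000005,
   956000095, 3404000, 202000, 5606000, 905000090, 6006000, 3003000, 3003004, 2, 5005006,
   30000000, 95005000, 20000003, 60000009, 30000001, 34004002, 50056, 20023, 4004003, 20002,
   50060006, 20030003, 30003, 40000000, 70050005, 23000300, 69050905, 60000600, 30000300,
   30400304, 200000, 50600050, 3000020, 59000004, 5000000, 40000004, 60000006, 900000090,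
   34000003, 56000005, 9000000, 1000000, 42000004, 43000004, 303000, 5909000, 606000, 4303000,
   5005000, 3, 5005009, 6, 50000000, 20000000, 4004000, 60000005, 30000002, 4, 50000007,
   59009006, 40043, 20020, 60065, 9009005, 60006, 40030003, 60050005, 50005, 90000000, 10000000,
   20040004, 65000500, 32000200, 30040004, 50000500, 300003, 50900509, 600000, 300000, 40300040,
   20, 5000060, 2000003, 40000009, 90000009, 59000005, 7000000, 96000009, 95000009, 505000,
   9505000, 5, 60000000, 9009000, 30000004, 50000006, 9, 1, 40000002, 40000003, 30030, 90095,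
   60060, 30034, 90050005, 40004, 70000000, 60090009, 34000400, 2000200, 56000600, 50090009,
   40000400, 500005, 200002, 500000, 30000030, 90500090, 60, 30, 4000030, 6000005, 404000,
   50000009, 7, 90000006, 90000005, 50050, 50059, 90009, 3000300, 59000900, 6000600, 43000300,
   90000900, 400004, 600006, 400000, 50000050, 20000020, 50, 9000050, 3000004, 909000, 40040,
   5000500, 95000500, 900009, 900000, 40000040, 60000060, 40, 5000009, 90090, 4000400, 90000090,
   90, 9000900]

/-- the list of maps of the automaton number `j` -/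
def twT (j : Fin 4) : List ℕ := ![twT0, twT1, twT2, twT3] j

theorem twT_id : ∀ j : Fin 4, 987654321 ∈ twT j := by decide +kernel

theorem twT_idv : ∀ y, y < 10 → ncAp 987654321 y = y := by decide +kernel

theorem twT0_closed : ∀ t ∈ twT0, ∀ g ∈ twG (twC 0), ncCmp t g ∈ twT0 := by decide +kernel
theorem twT1_closed : ∀ t ∈ twT1, ∀ g ∈ twG (twC 1), ncCmp t g ∈ twT1 := by decide +kernel
theorem twT2_closed : ∀ t ∈ twT2, ∀ g ∈ twG (twC 2), ncCmp t g ∈ twT2 := by decide +kernel
theorem twT3_closed : ∀ t ∈ twT3, ∀ g ∈ twG (twC 3), ncCmp t g ∈ twT3 := by decide +kernel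

theorem twT_closed (j : Fin 4) : ∀ t ∈ twT j, ∀ g ∈ twG (twC j), ncCmp t g ∈ twT j := by
  fin_cases j
  · exact twT0_closed
  · exact twT1_closed
  · exact twT2_closed
  · exact twT3_closed

theorem twT_aper : ∀ j : Fin 4, ∀ t ∈ twT j, ∀ y, y < 10 →
    (ncAp t)^[9] y = (ncAp t)^[9 + 1] y := by
  decide +kernel

theorem twK_lt : ∀ j : Fin 4, ∀ k, k < 3 → ∀ y, y < 10 → twK (twC j) k y < 10 := by
  decide +kernel

theorem twK_other (c : ℕ × ℕ × ℕ × ℕ) (k : ℕ) (h1 : k ≠ 1) (h2 : k ≠ 2) (s : ℕ) :
    twK c k s = s := by
  unfold twK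
  rw [if_neg h1, if_neg h2]

omit [Fintype α] [DecidableEq α] in
theorem twStep_lt (j : Fin 4) (kind : α → ℕ) (y : ℕ) (x : α) (hy : y < 10) :
    twStep (twC j) kind y x < 10 := by
  unfold twStep
  by_cases h1 : kind x = 1
  · rw [h1]; exact twK_lt j 1 (by norm_num) y hy
  · by_cases h2 : kind x = 2
    · rw [h2]; exact twK_lt j 2 (by norm_num) y hy
    · rw [twK_other _ _ h1 h2]; exact hy

omit [Fintype α] [DecidableEq α] in
/-- each of the four automata is counter-free once its base state is absorbing -/
theorem tw_aper (j : Fin 4) (kind : α → ℕ) :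
    ∀ w : List α, ∃ k : ℕ, ∀ y, y < 10 →
      List.foldl (absStep (twStep (twC j) kind)) y (List.replicate k w).flatten =
        List.foldl (absStep (twStep (twC j) kind)) y (List.replicate (k + 1) w).flatten := by
  refine nc_aper 9 (twT j) (twG (twC j)) _ (twT_id j) twT_idv (twT_closed j)
    (twT_aper j) _ (fun x => ?_)
  have hk : ∀ k : ℕ, k < 3 → twK (twC j) (kind x) = twK (twC j) k →
      ∀ z, z < 10 → absStep (twStep (twC j) kind) z x = ncAp (ncGen (twK (twC j) k)) z := by
    intro k hk3 hk z hz
    rw [ncAp_gen _ (fun i hi => twK_lt j k hk3 i hi) z hz]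
    unfold absStep twStep
    rw [hk]
  by_cases h1 : kind x = 1
  · exact ⟨_, by simp [twG], hk 1 (by norm_num) (by rw [h1])⟩
  · by_cases h2 : kind x = 2
    · exact ⟨_, by simp [twG], hk 2 (by norm_num) (by rw [h2])⟩
    · refine ⟨_, by simp [twG], hk 0 (by norm_num) ?_⟩
      funext s
      rw [twK_other _ _ h1 h2, twK_other _ _ (by norm_num) (by norm_num)]

/-! ### The runs in `Z/5` -/

/-- The action of a letter of kind `k` on `(v, e)`, with constants `c = (a_0, a_1, b_0, b_1)`
in `Z/5`. -/
def zStep (c : ZMod 5 × ZMod 5 × ZMod 5 × ZMod 5) (k : ℕ) (p : ZMod 5 × Bool) : ZMod 5 × Bool :=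
  if k = 1 then (3 * p.1 + (if p.2 then c.2.1 else c.1), false)
  else if k = 2 then (4 * p.1 + (if p.2 then c.2.2.2 else c.2.2.1), !p.2)
  else p

/-- The run of a word. -/
def zRun (c : ZMod 5 × ZMod 5 × ZMod 5 × ZMod 5) (kind : α → ℕ) (p : ZMod 5 × Bool)
    (w : List α) : ZMod 5 × Bool :=
  w.foldl (fun q x => zStep c (kind x) q) p

/-- The four choices of constants, in `Z/5`. -/
def twZ (j : Fin 4) : ZMod 5 × ZMod 5 × ZMod 5 × ZMod 5 :=
  ![(1, 0, 4, 1), (1, 1, 2, 4), (1, 0, 2, 0), (1, 0, 3, 4)] j

/-- The code of the state `(v, e)`. -/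
def twEnc (p : ZMod 5 × Bool) : ℕ := p.1.val + (if p.2 then 5 else 0)

theorem twEnc_lt : ∀ p : ZMod 5 × Bool, twEnc p < 10 := by decide +kernel

theorem twEnc_inj : ∀ p q : ZMod 5 × Bool, twEnc p = twEnc q → p = q := by decide +kernel

theorem tw_enc : ∀ j : Fin 4, ∀ k, k < 3 → ∀ p : ZMod 5 × Bool,
    twK (twC j) k (twEnc p) = twEnc (zStep (twZ j) k p) := by
  decide +kernel

theorem zStep_other (c : ZMod 5 × ZMod 5 × ZMod 5 × ZMod 5) (k : ℕ) (h1 : k ≠ 1) (h2 : k ≠ 2)
    (p : ZMod 5 × Bool) : zStep c k p = p := by
  unfold zStep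
  rw [if_neg h1, if_neg h2]

omit [Fintype α] [DecidableEq α] in
theorem tw_run_enc (j : Fin 4) (kind : α → ℕ) (w : List α) :
    ∀ p : ZMod 5 × Bool,
      List.foldl (twStep (twC j) kind) (twEnc p) w = twEnc (zRun (twZ j) kind p w) := by
  induction w with
  | nil => intro p; rfl
  | cons x w ih =>
    intro p
    have h : twStep (twC j) kind (twEnc p) x = twEnc (zStep (twZ j) (kind x) p) := by
      unfold twStep
      by_cases h1 : kind x = 1
      · rw [h1]; exact tw_enc j 1 (by norm_num) p
      · by_cases h2 : kind x = 2
        · rw [h2]; exact tw_enc j 2 (by norm_num) p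
        · rw [twK_other _ _ h1 h2, zStep_other _ _ h1 h2]
    show List.foldl (twStep (twC j) kind) (twStep (twC j) kind (twEnc p) x) w = _
    rw [h, ih]
    rfl

/-- the run of each of the four automata is a statistic of generalized star height at most
one -/
theorem tw_stat (j : Fin 4) (kind : α → ℕ) (p : ZMod 5 × Bool) :
    StatLe 1 (fun w : List α => zRun (twZ j) kind p w) := by
  intro q
  have h := gsh_run_aper 10 (twStep (twC j) kind) (tw_aper j kind)
    (fun y x hy => twStep_lt j kind y x hy) (twEnc p) (twEnc q) (twEnc_lt p)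
  refine h.of_iff (fun w => ?_)
  show List.foldl (twStep (twC j) kind) (twEnc p) w = twEnc q ↔ zRun (twZ j) kind p w = q
  rw [tw_run_enc]
  exact ⟨fun e => twEnc_inj _ _ e, fun e => by rw [e]⟩

/-- the bit of a run: reset by kind `1`, flipped by kind `2` -/
def eRun (kind : α → ℕ) (e : Bool) (w : List α) : Bool :=
  w.foldl (fun e x => if kind x = 1 then false else if kind x = 2 then !e else e) e

omit [Fintype α] [DecidableEq α] in
theorem zRun_snd (c : ZMod 5 × ZMod 5 × ZMod 5 × ZMod 5) (kind : α → ℕ) (w : List α) :
    ∀ (v : ZMod 5) (e : Bool), (zRun c kind (v, e) w).2 = eRun kind e w := by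
  induction w with
  | nil => intro v e; rfl
  | cons x w ih =>
    intro v e
    show (zRun c kind (zStep c (kind x) (v, e)) w).2
      = eRun kind (if kind x = 1 then false else if kind x = 2 then !e else e) w
    by_cases h1 : kind x = 1
    · simp only [zStep, h1, if_true]
      exact ih _ _
    · by_cases h2 : kind x = 2
      · simp only [zStep, h2, if_true, show ¬ ((2 : ℕ) = 1) by norm_num, if_false]
        exact ih _ _
      · rw [zStep_other _ _ h1 h2, if_neg h1, if_neg h2]
        exact ih _ _

theorem tw_five : (5 : ZMod 5) = 0 := by decide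

omit [Fintype α] [DecidableEq α] in
/-- the run with the true constants `(s, s, t, t)` is a combination of the four runs and of
two runs of the automaton number `0` -/
theorem tw_lin (kind : α → ℕ) (s t : ZMod 5) (w : List α) :
    ∀ (y0 y1 y2 y3 y' y'' : ZMod 5) (e : Bool),
      (zRun (s, s, t, t) kind
          ((3 * s + 4 * t) * y0 + s * y1 + (3 * t) * y2 + (2 * s + 3 * t) * y3 + y' - y'', e)
          w).1
        = (3 * s + 4 * t) * (zRun (twZ 0) kind (y0, e) w).1
          + s * (zRun (twZ 1) kind (y1, e) w).1
          + (3 * t) * (zRun (twZ 2) kind (y2, e) w).1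
          + (2 * s + 3 * t) * (zRun (twZ 3) kind (y3, e) w).1
          + (zRun (twZ 0) kind (y', e) w).1 - (zRun (twZ 0) kind (y'', e) w).1 := by
  have h5 := tw_five
  induction w with
  | nil => intro y0 y1 y2 y3 y' y'' e; rfl
  | cons x w ih =>
    intro y0 y1 y2 y3 y' y'' e
    have hcons : ∀ (c : ZMod 5 × ZMod 5 × ZMod 5 × ZMod 5) (p : ZMod 5 × Bool),
        zRun c kind p (x :: w) = zRun c kind (zStep c (kind x) p) w := fun _ _ => rfl
    simp only [hcons]
    by_cases h1 : kind x = 1
    · cases e with
      | false =>
        have e0 : zStep (s, s, t, t) (kind x)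
            ((3 * s + 4 * t) * y0 + s * y1 + (3 * t) * y2 + (2 * s + 3 * t) * y3 + y' - y'',
              false)
            = ((3 * s + 4 * t) * (3 * y0 + 1) + s * (3 * y1 + 1) + (3 * t) * (3 * y2 + 1)
                + (2 * s + 3 * t) * (3 * y3 + 1) + (3 * y' + 1) - (3 * y'' + 1), false) := by
          simp only [zStep, h1, if_true]
          refine Prod.ext ?_ rfl
          show 3 * ((3 * s + 4 * t) * y0 + s * y1 + (3 * t) * y2 + (2 * s + 3 * t) * y3 + y'
              - y'') + s = _
          linear_combination (-s - 2 * t) * h5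
        rw [e0, ih]
        simp [zStep, h1, twZ]
      | true =>
        have e0 : zStep (s, s, t, t) (kind x)
            ((3 * s + 4 * t) * y0 + s * y1 + (3 * t) * y2 + (2 * s + 3 * t) * y3 + y' - y'',
              true)
            = ((3 * s + 4 * t) * (3 * y0 + 0) + s * (3 * y1 + 1) + (3 * t) * (3 * y2 + 0)
                + (2 * s + 3 * t) * (3 * y3 + 0) + (3 * y' + 0) - (3 * y'' + 0), false) := by
          simp only [zStep, h1, if_true]
          refine Prod.ext ?_ rfl
          show 3 * ((3 * s + 4 * t) * y0 + s * y1 + (3 * t) * y2 + (2 * s + 3 * t) * y3 + y'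
              - y'') + s = _
          ring
        rw [e0, ih]
        simp [zStep, h1, twZ]
    · by_cases h2 : kind x = 2
      · have h21 : ¬ ((2 : ℕ) = 1) := by norm_num
        cases e with
        | false =>
          have e0 : zStep (s, s, t, t) (kind x)
              ((3 * s + 4 * t) * y0 + s * y1 + (3 * t) * y2 + (2 * s + 3 * t) * y3 + y' - y'',
                false)
              = ((3 * s + 4 * t) * (4 * y0 + 4) + s * (4 * y1 + 2) + (3 * t) * (4 * y2 + 2)
                  + (2 * s + 3 * t) * (4 * y3 + 3) + (4 * y' + 4) - (4 * y'' + 4), true) := by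
            simp only [zStep, h2, h21, if_true, if_false]
            refine Prod.ext ?_ rfl
            show 4 * ((3 * s + 4 * t) * y0 + s * y1 + (3 * t) * y2 + (2 * s + 3 * t) * y3 + y'
                - y'') + t = _
            linear_combination (-4 * s - 6 * t) * h5
          rw [e0, ih]
          simp [zStep, h2, twZ]
        | true =>
          have e0 : zStep (s, s, t, t) (kind x)
              ((3 * s + 4 * t) * y0 + s * y1 + (3 * t) * y2 + (2 * s + 3 * t) * y3 + y' - y'',
                true)
              = ((3 * s + 4 * t) * (4 * y0 + 1) + s * (4 * y1 + 4) + (3 * t) * (4 * y2 + 0)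
                  + (2 * s + 3 * t) * (4 * y3 + 4) + (4 * y' + 1) - (4 * y'' + 1), false) := by
            simp only [zStep, h2, h21, if_true, if_false]
            refine Prod.ext ?_ rfl
            show 4 * ((3 * s + 4 * t) * y0 + s * y1 + (3 * t) * y2 + (2 * s + 3 * t) * y3 + y'
                - y'') + t = _
            linear_combination (-3 * s - 3 * t) * h5
          rw [e0, ih]
          simp [zStep, h2, twZ]
      · simp only [zStep_other _ _ h1 h2]
        exact ih y0 y1 y2 y3 y' y'' e

/-- the statistic: the four runs from `(0, 0)` and the runs of the automaton number `0` from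
all `(u, 0)` -/
def twStat (kind : α → ℕ) (w : List α) :
    (Fin 4 → ZMod 5 × Bool) × (ZMod 5 → ZMod 5 × Bool) :=
  (fun j => zRun (twZ j) kind (0, false) w, fun u => zRun (twZ 0) kind (u, false) w)

theorem twStat_le (kind : α → ℕ) : StatLe 1 (twStat kind (α := α)) :=
  (StatLe.pi (fun j => tw_stat j kind (0, false))).prod
    (StatLe.pi (fun u => tw_stat 0 kind (u, false)))

omit [Fintype α] [DecidableEq α] in
theorem twStat_det (kind : α → ℕ) (s t : ZMod 5) (w w' : List α)
    (h : twStat kind w = twStat kind w') (u : ZMod 5) :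
    (zRun (s, s, t, t) kind (u, false) w).1 = (zRun (s, s, t, t) kind (u, false) w').1 := by
  have hu : (3 * s + 4 * t) * 0 + s * 0 + (3 * t) * 0 + (2 * s + 3 * t) * 0 + u - 0 = u := by
    ring
  have h1 := tw_lin kind s t w 0 0 0 0 u 0 false
  have h2 := tw_lin kind s t w' 0 0 0 0 u 0 false
  rw [hu] at h1 h2
  unfold twStat at h
  simp only [Prod.mk.injEq] at h
  obtain ⟨ha, hb⟩ := h
  have a0 := congrFun ha 0
  have a1 := congrFun ha 1
  have a2 := congrFun ha 2
  have a3 := congrFun ha 3
  have bu := congrFun hb u
  rw [h1, h2, a0, a1, a2, a3, bu]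

/-- **Core statement.** For letters of the kinds `0` (identity), `1` (`v ↦ 3 * v + s`) and `2`
(`v ↦ 4 * v + t`), every condition on the affine map computed by a word defines a language of
generalized star height at most one. -/
theorem tw_core (kind : α → ℕ) (s t : ZMod 5) (Q : (ZMod 5 → ZMod 5) → Prop) :
    GSHLe 1 ({w : List α | Q (fun u => (zRun (s, s, t, t) kind (u, false) w).1)}
      : Language α) := by
  have h2 := (twStat_le kind (α := α)).level
    (fun v => ∃ w' : List α, Q (fun u => (zRun (s, s, t, t) kind (u, false) w').1) ∧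
      twStat kind w' = v)
  refine h2.of_iff (fun w => ?_)
  show (∃ w' : List α, Q (fun u => (zRun (s, s, t, t) kind (u, false) w').1) ∧
      twStat kind w' = twStat kind w) ↔ Q (fun u => (zRun (s, s, t, t) kind (u, false) w).1)
  constructor
  · rintro ⟨w', hw', e⟩
    have : (fun u => (zRun (s, s, t, t) kind (u, false) w').1)
        = (fun u => (zRun (s, s, t, t) kind (u, false) w).1) := by
      funext u
      exact twStat_det kind s t w' w e u
    rw [← this]
    exact hw'
  · intro hw
    exact ⟨w, hw, rfl⟩


/-! ### Permutations -/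

theorem tw_inv4 : ∀ d v : ZMod 5, 4 * (4 * v + d) + d = v := by decide +kernel

omit [Fintype α] [DecidableEq α] in
theorem tw_prod (σ : α → Equiv.Perm (ZMod 5)) (kind : α → ℕ) (s t : ZMod 5)
    (hv : ∀ x v e, (σ x)⁻¹ v = (zStep (s, s, t, t) (kind x) (v, e)).1) (w : List α) :
    ∀ v e, (zRun (s, s, t, t) kind (v, e) w).1 = ((w.map σ).prod)⁻¹ v := by
  induction w with
  | nil => intro v e; simp [zRun]
  | cons x w ih =>
    intro v e
    show (zRun (s, s, t, t) kind (zStep (s, s, t, t) (kind x) (v, e)) w).1 = _
    have h := ih (zStep (s, s, t, t) (kind x) (v, e)).1 (zStep (s, s, t, t) (kind x) (v, e)).2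
    rw [Prod.mk.eta] at h
    rw [h, ← hv x v e, List.map_cons, List.prod_cons, mul_inv_rev, Equiv.Perm.mul_apply]

/-- The case where the fixed element of order four is `v ↦ 2 * v + c`. -/
theorem gsh_affine_five_pair2 (σ : α → Equiv.Perm (ZMod 5)) (g r : Equiv.Perm (ZMod 5))
    (hσ : ∀ x, σ x = 1 ∨ σ x = g ∨ σ x = r)
    (hg : ∃ c : ZMod 5, ∀ v, g v = 2 * v + c) (hr : ∃ d : ZMod 5, ∀ v, r v = 4 * v + d)
    (P : Set (Equiv.Perm (ZMod 5))) :
    GSHLe 1 ({w : List α | (w.map σ).prod ∈ P} : Language α) := by
  classical
  obtain ⟨c, hgc⟩ := hg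
  obtain ⟨d, hrd⟩ := hr
  have hgi : ∀ v, g⁻¹ v = 3 * v + -(3 * c) := by
    intro v
    rw [Equiv.Perm.inv_def, Equiv.symm_apply_eq, hgc]
    exact (af_inv2 c v).symm
  have hri : ∀ v, r⁻¹ v = 4 * v + d := by
    intro v
    rw [Equiv.Perm.inv_def, Equiv.symm_apply_eq, hrd]
    exact (tw_inv4 d v).symm
  let kind : α → ℕ := fun x => if σ x = g then 1 else if σ x = r then 2 else 0
  have hv : ∀ x v e, (σ x)⁻¹ v = (zStep (-(3 * c), -(3 * c), d, d) (kind x) (v, e)).1 := by
    intro x v e
    by_cases h1 : σ x = g
    · have hk : kind x = 1 := if_pos h1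
      rw [hk, h1, hgi]
      cases e <;> rfl
    · by_cases h2 : σ x = r
      · have hk : kind x = 2 := by
          show (if σ x = g then 1 else if σ x = r then 2 else 0) = 2
          rw [if_neg h1, if_pos h2]
        rw [hk, h2, hri]
        cases e <;> rfl
      · have hk : kind x = 0 := by
          show (if σ x = g then 1 else if σ x = r then 2 else 0) = 0
          rw [if_neg h1, if_neg h2]
        have h3 : σ x = 1 := by
          rcases hσ x with h | h | h
          · exact h
          · exact absurd h h1
          · exact absurd h h2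
        rw [hk, h3]
        rfl
  have h2 := tw_core kind (-(3 * c)) d
    (fun f => ∃ p ∈ P, ∀ u, p⁻¹ u = f u)
  refine h2.of_iff (fun w => ?_)
  show (∃ p ∈ P, ∀ u, p⁻¹ u = (zRun (-(3 * c), -(3 * c), d, d) kind (u, false) w).1)
    ↔ (w.map σ).prod ∈ P
  constructor
  · rintro ⟨p, hp, hpu⟩
    have : p = (w.map σ).prod := by
      apply inv_injective
      ext u
      rw [hpu u, tw_prod σ kind _ _ hv w u false]
    rw [← this]
    exact hp
  · intro hw
    exact ⟨_, hw, fun u => (tw_prod σ kind _ _ hv w u false).symm⟩

/-- **One element of order four and one involution.** Let the letters act on `Z/5` by the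
identity, by one fixed permutation `g` of the form `v ↦ l * v + c` with `l ∈ {2, 3}`, or by one
fixed permutation `r` of the form `v ↦ 4 * v + d`. Then for every set `P` of permutations, the
words whose product lies in `P` form a language of generalized star height at most one. -/
theorem gsh_affine_five_pair (σ : α → Equiv.Perm (ZMod 5)) (g r : Equiv.Perm (ZMod 5))
    (hσ : ∀ x, σ x = 1 ∨ σ x = g ∨ σ x = r)
    (hg : ∃ l c : ZMod 5, (l = 2 ∨ l = 3) ∧ ∀ v, g v = l * v + c)
    (hr : ∃ d : ZMod 5, ∀ v, r v = 4 * v + d)
    (P : Set (Equiv.Perm (ZMod 5))) :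
    GSHLe 1 ({w : List α | (w.map σ).prod ∈ P} : Language α) := by
  obtain ⟨l, c, hl, hgc⟩ := hg
  rcases hl with hl | hl
  · exact gsh_affine_five_pair2 σ g r hσ ⟨c, by rw [← hl]; exact hgc⟩ hr P
  · -- pass to the inverses and to the reversed words
    obtain ⟨d, hrd⟩ := hr
    have hgi : ∀ v, g⁻¹ v = 2 * v + -(2 * c) := by
      intro v
      rw [Equiv.Perm.inv_def, Equiv.symm_apply_eq, hgc, hl]
      exact (af_inv3 c v).symm
    have hri : ∀ v, r⁻¹ v = 4 * v + d := by
      intro v
      rw [Equiv.Perm.inv_def, Equiv.symm_apply_eq, hrd]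
      exact (tw_inv4 d v).symm
    have hσ' : ∀ x, (σ x)⁻¹ = 1 ∨ (σ x)⁻¹ = g⁻¹ ∨ (σ x)⁻¹ = r⁻¹ := by
      intro x
      rcases hσ x with h | h | h
      · left; rw [h, inv_one]
      · right; left; rw [h]
      · right; right; rw [h]
    have h1 := gsh_affine_five_pair2 (fun x => (σ x)⁻¹) g⁻¹ r⁻¹ hσ' ⟨_, hgi⟩ ⟨_, hri⟩
      {p | p⁻¹ ∈ P}
    refine h1.reverse.of_iff (fun w => ?_)
    have hm := Language.mem_reverse
      (l := ({w : List α | (w.map (fun x => (σ x)⁻¹)).prod ∈ {p | p⁻¹ ∈ P}} : Language α))
      (a := w)
    refine hm.trans ?_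
    show ((w.reverse.map (fun x => (σ x)⁻¹)).prod)⁻¹ ∈ P ↔ (w.map σ).prod ∈ P
    have e : (w.reverse.map (fun x => (σ x)⁻¹)).prod = ((w.map σ).prod)⁻¹ := by
      rw [List.prod_inv_reverse, List.map_reverse, List.map_map]
      rfl
    rw [e, inv_inv]

/-! ### The dihedral part -/

/-- the translation `v ↦ v + i` -/
def d5Tr (i : ZMod 5) : Equiv.Perm (ZMod 5) where
  toFun v := v + i
  invFun v := v - i
  left_inv v := by ring
  right_inv v := by ring

/-- the reflection `v ↦ -v - i` -/
def d5Rf (i : ZMod 5) : Equiv.Perm (ZMod 5) where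
  toFun v := -v - i
  invFun v := -v - i
  left_inv v := by ring
  right_inv v := by ring

/-- the dihedral group of order ten acting on `Z/5` -/
def d5Map : DihedralGroup 5 → Equiv.Perm (ZMod 5)
  | DihedralGroup.r i => d5Tr i
  | DihedralGroup.sr i => d5Rf i

theorem d5Map_mul (a b : DihedralGroup 5) : d5Map (a * b) = d5Map a * d5Map b := by
  rcases a with i | i <;> rcases b with j | j
  · rw [DihedralGroup.r_mul_r]
    ext v
    show v + (i + j) = v + j + i
    ring
  · rw [DihedralGroup.r_mul_sr]
    ext v
    show -v - (j - i) = -v - j + i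
    ring
  · rw [DihedralGroup.sr_mul_r]
    ext v
    show -v - (i + j) = -(v + j) - i
    ring
  · rw [DihedralGroup.sr_mul_sr]
    ext v
    show v + (j - i) = -(-v - j) - i
    ring

/-- the homomorphism -/
def d5Hom : DihedralGroup 5 →* Equiv.Perm (ZMod 5) := MonoidHom.mk' d5Map d5Map_mul

/-- the type of a dihedral element: `0` for rotations, `1` for reflections -/
def d5Psi : DihedralGroup 5 → Fin 1 → ZMod 2
  | DihedralGroup.r _ => fun _ => 0
  | DihedralGroup.sr _ => fun _ => 1

theorem d5Psi_mul (a b : DihedralGroup 5) : d5Psi (a * b) = d5Psi a + d5Psi b := by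
  rcases a with i | i <;> rcases b with j | j
  · rw [DihedralGroup.r_mul_r]; funext _; show (0 : ZMod 2) = 0 + 0; decide
  · rw [DihedralGroup.r_mul_sr]; funext _; show (1 : ZMod 2) = 0 + 1; decide
  · rw [DihedralGroup.sr_mul_r]; funext _; show (1 : ZMod 2) = 1 + 0; decide
  · rw [DihedralGroup.sr_mul_sr]; funext _; show (0 : ZMod 2) = 1 + 1; decide

theorem d5Psi_comm (a b : DihedralGroup 5) (ha : d5Psi a = 0) (hb : d5Psi b = 0) :
    a * b = b * a := by
  rcases a with i | i <;> rcases b with j | j
  · rw [DihedralGroup.r_mul_r, DihedralGroup.r_mul_r, add_comm]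
  · exact absurd (congrFun hb 0) (by show ¬ ((1 : ZMod 2) = 0); decide)
  · exact absurd (congrFun ha 0) (by show ¬ ((1 : ZMod 2) = 0); decide)
  · exact absurd (congrFun ha 0) (by show ¬ ((1 : ZMod 2) = 0); decide)

theorem d5_neg : ∀ v c : ZMod 5, 4 * v + c = -v - -c := by decide +kernel

/-- **The dihedral case.** If every letter acts on `Z/5` by a permutation `v ↦ l * v + c` with
`l ∈ {1, 4}`, the words whose product lies in a given set form a language of generalized star
height at most one (a case of the theorem on groups with a commutative subgroup of index two). -/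
theorem gsh_affine_five_dihedral (σ : α → Equiv.Perm (ZMod 5))
    (h : ∀ x, ∃ l c : ZMod 5, (l = 1 ∨ l = 4) ∧ ∀ v, σ x v = l * v + c)
    (P : Set (Equiv.Perm (ZMod 5))) :
    GSHLe 1 ({w : List α | (w.map σ).prod ∈ P} : Language α) := by
  have hex : ∀ x, ∃ a : DihedralGroup 5, d5Hom a = σ x := by
    intro x
    obtain ⟨l, c, hl, hv⟩ := h x
    rcases hl with hl | hl
    · refine ⟨DihedralGroup.r c, ?_⟩
      ext v
      rw [hv, hl, one_mul]
      rfl
    · refine ⟨DihedralGroup.sr (-c), ?_⟩
      ext v
      rw [hv, hl, d5_neg]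
      rfl
  choose φ hφ using hex
  have h1 := elem_prime_map 2 Nat.prime_two d5Psi d5Psi_mul d5Psi_comm
    (Fintype.card (DihedralGroup 5)) Fintype.card_pos (fun a _ => pow_card_eq_one) φ
    {a | d5Hom a ∈ P}
  refine h1.of_iff (fun w => ?_)
  show d5Hom ((w.map φ).prod) ∈ P ↔ (w.map σ).prod ∈ P
  have e : d5Hom ((w.map φ).prod) = (w.map σ).prod := by
    rw [map_list_prod, List.map_map]
    congr 1
    exact List.map_congr_left (fun x _ => hφ x)
  rw [e]

/-! ### Two letters -/

theorem af_units : ∀ l : ZMod 5, l ≠ 0 → l = 1 ∨ l = 2 ∨ l = 3 ∨ l = 4 := by decide +kernel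

/-- **Two letters.** Let an alphabet with at most two letters `a`, `b` act on `Z/5` by
permutations of the form `v ↦ l * v + c` (`l ≠ 0`): a map of the letters into the Frobenius
group of order `20`. Then for every set `P` of permutations, the words whose product lies in
`P` form a language of generalized star height at most one. -/
theorem gsh_affine_five_two (σ : α → Equiv.Perm (ZMod 5))
    (h : ∀ x, ∃ l c : ZMod 5, l ≠ 0 ∧ ∀ v, σ x v = l * v + c)
    (a b : α) (hab : ∀ x, x = a ∨ x = b) (P : Set (Equiv.Perm (ZMod 5))) :
    GSHLe 1 ({w : List α | (w.map σ).prod ∈ P} : Language α) := by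
  obtain ⟨la, ca, hla, hva⟩ := h a
  obtain ⟨lb, cb, hlb, hvb⟩ := h b
  have ha4 := af_units la hla
  have hb4 := af_units lb hlb
  by_cases h4a : la = 4
  · by_cases hbd : lb = 1 ∨ lb = 4
    · -- both in the dihedral part
      refine gsh_affine_five_dihedral σ (fun x => ?_) P
      rcases hab x with rfl | rfl
      · exact ⟨la, ca, Or.inr h4a, hva⟩
      · exact ⟨lb, cb, hbd, hvb⟩
    · have hb23 : lb = 2 ∨ lb = 3 := by
        rcases hb4 with h | h | h | h
        · exact absurd (Or.inl h) hbd
        · exact Or.inl h
        · exact Or.inr h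
        · exact absurd (Or.inr h) hbd
      refine gsh_affine_five_pair σ (σ b) (σ a) (fun x => ?_) ⟨lb, cb, hb23, hvb⟩
        ⟨ca, by rw [← h4a]; exact hva⟩ P
      rcases hab x with rfl | rfl
      · exact Or.inr (Or.inr rfl)
      · exact Or.inr (Or.inl rfl)
  · have ha123 : la = 1 ∨ la = 2 ∨ la = 3 := by
      rcases ha4 with h | h | h | h
      · exact Or.inl h
      · exact Or.inr (Or.inl h)
      · exact Or.inr (Or.inr h)
      · exact absurd h h4a
    by_cases h4b : lb = 4
    · rcases ha123 with h1 | h23
      · refine gsh_affine_five_dihedral σ (fun x => ?_) P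
        rcases hab x with rfl | rfl
        · exact ⟨la, ca, Or.inl h1, hva⟩
        · exact ⟨lb, cb, Or.inr h4b, hvb⟩
      · refine gsh_affine_five_pair σ (σ a) (σ b) (fun x => ?_) ⟨la, ca, h23, hva⟩
          ⟨cb, by rw [← h4b]; exact hvb⟩ P
        rcases hab x with rfl | rfl
        · exact Or.inr (Or.inl rfl)
        · exact Or.inr (Or.inr rfl)
    · have hb123 : lb = 1 ∨ lb = 2 ∨ lb = 3 := by
        rcases hb4 with h | h | h | h
        · exact Or.inl h
        · exact Or.inr (Or.inl h)
        · exact Or.inr (Or.inr h)
        · exact absurd h h4b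
      refine gsh_affine_five σ (fun x => ?_) P
      rcases hab x with rfl | rfl
      · exact ⟨la, ca, ha123, hva⟩
      · exact ⟨lb, cb, hb123, hvb⟩

end Vale.Agent.Lib.P329
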