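import Vale.Agent.Lib.P329.AffTwo

/-!
# The Frobenius group of order 20: at most two non-identity values

A corollary of `AffFive` and `AffTwo`: if the letters are sent into the group of maps
`v ↦ l * v + c` (`l ≠ 0`) of `Z/5` and their images take at most two values other than the
identity, then every language recognized this way has generalized star height at most one.
The alphabet is any finite alphabet (any number of letters), so this contains the case of an
alphabet with at most two letters (`gsh_affine_five_two`).
-/

namespace Vale.Agent.Lib.P329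

variable {α : Type} [Fintype α] [DecidableEq α]

/-- **At most two non-identity values.** Let `g₁`, `g₂` be permutations of `Z/5` of the form
`v ↦ l * v + c` with `l ≠ 0` (two elements of the Frobenius group of order `20`), and let every
letter act on `Z/5` by the identity, by `g₁` or by `g₂`. Then for every set `P` of permutations,
the words whose product lies in `P` form a language of generalized star height at most one. -/
theorem gsh_affine_five_two_values (σ : α → Equiv.Perm (ZMod 5))
    (g₁ g₂ : Equiv.Perm (ZMod 5))
    (h₁ : ∃ l c : ZMod 5, l ≠ 0 ∧ ∀ v, g₁ v = l * v + c)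
    (h₂ : ∃ l c : ZMod 5, l ≠ 0 ∧ ∀ v, g₂ v = l * v + c)
    (hσ : ∀ x, σ x = 1 ∨ σ x = g₁ ∨ σ x = g₂)
    (P : Set (Equiv.Perm (ZMod 5))) :
    GSHLe 1 ({w : List α | (w.map σ).prod ∈ P} : Language α) := by
  obtain ⟨la, ca, hla, hva⟩ := h₁
  obtain ⟨lb, cb, hlb, hvb⟩ := h₂
  have ha4 := af_units la hla
  have hb4 := af_units lb hlb
  have hone : ∀ v : ZMod 5, (1 : Equiv.Perm (ZMod 5)) v = 1 * v + 0 := by
    intro v
    rw [one_mul, add_zero]
    rfl
  by_cases h4a : la = 4
  · by_cases hbd : lb = 1 ∨ lb = 4
    · -- both in the dihedral part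
      refine gsh_affine_five_dihedral σ (fun x => ?_) P
      rcases hσ x with h | h | h
      · exact ⟨1, 0, Or.inl rfl, by rw [h]; exact hone⟩
      · exact ⟨la, ca, Or.inr h4a, by rw [h]; exact hva⟩
      · exact ⟨lb, cb, hbd, by rw [h]; exact hvb⟩
    · have hb23 : lb = 2 ∨ lb = 3 := by
        rcases hb4 with h | h | h | h
        · exact absurd (Or.inl h) hbd
        · exact Or.inl h
        · exact Or.inr h
        · exact absurd (Or.inr h) hbd
      refine gsh_affine_five_pair σ g₂ g₁ (fun x => ?_) ⟨lb, cb, hb23, hvb⟩
        ⟨ca, by rw [← h4a]; exact hva⟩ P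
      rcases hσ x with h | h | h
      · exact Or.inl h
      · exact Or.inr (Or.inr h)
      · exact Or.inr (Or.inl h)
  · have ha123 : la = 1 ∨ la = 2 ∨ la = 3 := by
      rcases ha4 with h | h | h | h
      · exact Or.inl h
      · exact Or.inr (Or.inl h)
      · exact Or.inr (Or.inr h)
      · exact absurd h h4a
    by_cases h4b : lb = 4
    · rcases ha123 with h1 | h23
      · refine gsh_affine_five_dihedral σ (fun x => ?_) P
        rcases hσ x with h | h | h
        · exact ⟨1, 0, Or.inl rfl, by rw [h]; exact hone⟩
        · exact ⟨la, ca, Or.inl h1, by rw [h]; exact hva⟩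
        · exact ⟨lb, cb, Or.inr h4b, by rw [h]; exact hvb⟩
      · exact gsh_affine_five_pair σ g₁ g₂ hσ ⟨la, ca, h23, hva⟩
          ⟨cb, by rw [← h4b]; exact hvb⟩ P
    · have hb123 : lb = 1 ∨ lb = 2 ∨ lb = 3 := by
        rcases hb4 with h | h | h | h
        · exact Or.inl h
        · exact Or.inr (Or.inl h)
        · exact Or.inr (Or.inr h)
        · exact absurd h h4b
      refine gsh_affine_five σ (fun x => ?_) P
      rcases hσ x with h | h | h
      · exact ⟨1, 0, Or.inl rfl, by rw [h]; exact hone⟩
      · exact ⟨la, ca, ha123, by rw [h]; exact hva⟩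
      · exact ⟨lb, cb, hb123, by rw [h]; exact hvb⟩

end Vale.Agent.Lib.P329
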