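import Vale.Agent.Lib.P329.CountMod3

/-!
# Languages recognized by the alternating group on four points

Every even permutation of `Fin 4` is uniquely `d * ρ ^ j` with `d` in the Klein four-group and
`ρ` a fixed three-cycle. For a word `x₁ ... x_k` with `σ xᵢ = dᵢ * ρ ^ jᵢ` the product is
`(∏ᵢ ρ ^ sᵢ₋₁ dᵢ ρ ^ (-sᵢ₋₁)) * ρ ^ s_k` with the prefix weights `sᵢ = j₁ + ... + jᵢ`; the first
factor lies in the Klein four-group, which is abelian of exponent two, so it only depends on the
parities of the numbers of occurrences of each letter at each prefix weight modulo three.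
-/

namespace Vale.Agent.Lib.P329

open Language

variable {α : Type} [Fintype α] [DecidableEq α]

/-- a three-cycle of `Fin 4` -/
def a4rho : Equiv.Perm (Fin 4) := Equiv.swap 0 1 * Equiv.swap 1 2

/-- the Klein four-group, parametrized by `ZMod 2 × ZMod 2` -/
def a4d (u : ZMod 2 × ZMod 2) : Equiv.Perm (Fin 4) :=
  (if u.1 = 1 then Equiv.swap 0 1 * Equiv.swap 2 3 else 1) *
    (if u.2 = 1 then Equiv.swap 0 2 * Equiv.swap 1 3 else 1)

theorem a4d_add : ∀ u u' : ZMod 2 × ZMod 2, a4d (u + u') = a4d u * a4d u' := by decide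

theorem a4d_zero : a4d 0 = 1 := by decide

theorem a4rho_cube : a4rho ^ 3 = 1 := by decide

theorem a4_conj : ∀ (r : Fin 3) (u : ZMod 2 × ZMod 2), ∃ u' : ZMod 2 × ZMod 2,
    a4rho ^ (r : ℕ) * a4d u = a4d u' * a4rho ^ (r : ℕ) := by decide

theorem a4_decomp : ∀ g : Equiv.Perm (Fin 4), Equiv.Perm.sign g = 1 →
    ∃ (u : ZMod 2 × ZMod 2) (j : Fin 3), g = a4d u * a4rho ^ (j : ℕ) := by decide

theorem a4_two_nsmul : ∀ c : ZMod 2 × ZMod 2, 2 • c = 0 := by decide

theorem a4rho_pow_mod (t : ℕ) : a4rho ^ t = a4rho ^ (t % 3) := by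
  conv_lhs => rw [← Nat.div_add_mod t 3, pow_add, pow_mul, a4rho_cube, one_pow, one_mul]

theorem a4_nsmul_mod (N : ℕ) (c : ZMod 2 × ZMod 2) : (N % 2) • c = N • c := by
  conv_rhs => rw [← Nat.div_add_mod N 2, add_nsmul, mul_comm, mul_nsmul, a4_two_nsmul, zero_add]

/-- conjugation by a power of the three-cycle, on the Klein four-group -/
noncomputable def a4cj (r : Fin 3) (u : ZMod 2 × ZMod 2) : ZMod 2 × ZMod 2 :=
  Classical.choose (a4_conj r u)

theorem a4cj_spec (t : ℕ) (u : ZMod 2 × ZMod 2) :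
    a4rho ^ t * a4d u = a4d (a4cj ⟨t % 3, Nat.mod_lt t (by norm_num)⟩ u) * a4rho ^ t := by
  have h := Classical.choose_spec (a4_conj ⟨t % 3, Nat.mod_lt t (by norm_num)⟩ u)
  rw [a4rho_pow_mod t]
  exact h

omit [Fintype α] in
theorem occ_fst (κ : α → ℕ) (S : Finset α) (r : ℕ) (w : List α) : ∀ st : ℕ × ℕ,
    (w.foldl (occStep κ S r) st).1 = st.1 + (w.map κ).sum := by
  induction w with
  | nil => intro st; simp
  | cons x w ih =>
    intro st
    rw [List.foldl_cons, ih, List.map_cons, List.sum_cons]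
    show st.1 + κ x + (w.map κ).sum = st.1 + (κ x + (w.map κ).sum)
    ring

omit [Fintype α] in
theorem occW_nil (κ : α → ℕ) (S : Finset α) (r : ℕ) : occW κ S r [] = 0 := rfl

omit [Fintype α] in
theorem occW_snoc (κ : α → ℕ) (S : Finset α) (r : ℕ) (w : List α) (y : α) :
    occW κ S r (w ++ [y]) =
      occW κ S r w + if y ∈ S ∧ (w.map κ).sum % 3 = r % 3 then 1 else 0 := by
  unfold occW
  rw [List.foldl_append, List.foldl_cons, List.foldl_nil]
  have h1 := occ_fst κ S r w (0, 0)
  rw [Nat.zero_add] at h1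
  show (if y ∈ S ∧ (w.foldl (occStep κ S r) (0, 0)).1 % 3 = r % 3
      then (w.foldl (occStep κ S r) (0, 0)).2 + 1 else (w.foldl (occStep κ S r) (0, 0)).2) = _
  rw [h1]
  split_ifs <;> rfl

/-- the product of a word of even permutations of `Fin 4`, in terms of the counting statistics -/
theorem a4_prod (σ : α → Equiv.Perm (Fin 4)) (u : α → ZMod 2 × ZMod 2) (κ : α → ℕ)
    (h : ∀ x, σ x = a4d (u x) * a4rho ^ κ x) (w : List α) :
    (w.map σ).prod =
      a4d (∑ x : α, ∑ r : Fin 3, occW κ {x} (r : ℕ) w • a4cj r (u x)) *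
        a4rho ^ (w.map κ).sum := by
  induction w using List.reverseRecOn with
  | nil =>
    simp only [List.map_nil, List.prod_nil, List.sum_nil, pow_zero, mul_one, occW_nil, zero_smul,
      Finset.sum_const_zero, a4d_zero]
  | append_singleton w y ih =>
    have hlt : (w.map κ).sum % 3 < 3 := Nat.mod_lt _ (by norm_num)
    have hsum : (∑ x : α, ∑ r : Fin 3, occW κ {x} (r : ℕ) (w ++ [y]) • a4cj r (u x)) =
        (∑ x : α, ∑ r : Fin 3, occW κ {x} (r : ℕ) w • a4cj r (u x)) +
          a4cj ⟨(w.map κ).sum % 3, hlt⟩ (u y) := by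
      have h1 : ∀ (x : α) (r : Fin 3), occW κ {x} (r : ℕ) (w ++ [y]) • a4cj r (u x) =
          occW κ {x} (r : ℕ) w • a4cj r (u x) +
            (if y = x ∧ r = ⟨(w.map κ).sum % 3, hlt⟩ then a4cj r (u x) else 0) := by
        intro x r
        rw [occW_snoc, add_smul]
        congr 1
        have hr : (r : ℕ) % 3 = (r : ℕ) := Nat.mod_eq_of_lt r.isLt
        by_cases hc : y = x ∧ r = ⟨(w.map κ).sum % 3, hlt⟩
        · rw [if_pos hc, if_pos, one_smul]
          refine ⟨Finset.mem_singleton.mpr hc.1, ?_⟩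
          rw [hr, hc.2]
        · rw [if_neg hc, if_neg, zero_smul]
          rintro ⟨h2, h3⟩
          apply hc
          refine ⟨Finset.mem_singleton.mp h2, ?_⟩
          apply Fin.ext
          show (r : ℕ) = (w.map κ).sum % 3
          rw [← hr, h3]
      simp only [h1, Finset.sum_add_distrib]
      congr 1
      rw [Finset.sum_eq_single y]
      · rw [Finset.sum_eq_single (⟨(w.map κ).sum % 3, hlt⟩ : Fin 3)]
        · rw [if_pos ⟨rfl, rfl⟩]
        · intro r _ hr
          rw [if_neg]
          rintro ⟨-, h3⟩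
          exact hr h3
        · intro hn
          exact absurd (Finset.mem_univ _) hn
      · intro x _ hx
        apply Finset.sum_eq_zero
        intro r _
        rw [if_neg]
        rintro ⟨h2, -⟩
        exact hx h2.symm
      · intro hn
        exact absurd (Finset.mem_univ _) hn
    rw [List.map_append, List.prod_append, List.map_cons, List.map_nil, List.prod_singleton, ih,
      List.map_append, List.sum_append, List.map_cons, List.map_nil, List.sum_singleton, hsum,
      a4d_add, h y, pow_add]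
    have hc := a4cj_spec (w.map κ).sum (u y)
    calc a4d (∑ x : α, ∑ r : Fin 3, occW κ {x} (r : ℕ) w • a4cj r (u x)) *
          a4rho ^ (w.map κ).sum * (a4d (u y) * a4rho ^ κ y)
        = a4d (∑ x : α, ∑ r : Fin 3, occW κ {x} (r : ℕ) w • a4cj r (u x)) *
          (a4rho ^ (w.map κ).sum * a4d (u y)) * a4rho ^ κ y := by
          simp only [mul_assoc]
      _ = a4d (∑ x : α, ∑ r : Fin 3, occW κ {x} (r : ℕ) w • a4cj r (u x)) *
          a4d (a4cj ⟨(w.map κ).sum % 3, hlt⟩ (u y)) *
          (a4rho ^ (w.map κ).sum * a4rho ^ κ y) := by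
          rw [hc]
          simp only [mul_assoc]

omit [DecidableEq α] in
theorem weight_count [DecidableEq α] (κ : α → ℕ) (w : List α) :
    (w.map κ).sum = ∑ a : α, κ a * w.count a := by
  induction w with
  | nil => simp
  | cons x w ih =>
    rw [List.map_cons, List.sum_cons, ih]
    have h1 : ∀ a : α, κ a * (x :: w).count a = κ a * w.count a + (if a = x then κ a else 0) := by
      intro a
      rw [List.count_cons]
      by_cases hax : a = x
      · subst hax
        simp [mul_add]
      · have hxa : ¬ x = a := fun h => hax h.symm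
        simp [hax, hxa]
    simp only [h1, Finset.sum_add_distrib, Finset.sum_ite_eq', Finset.mem_univ, if_true]
    ring

/-- the total weight modulo three is a statistic of generalized star height at most one -/
theorem stat_weight_z3 (κ : α → ℕ) :
    StatLe 1 (fun w : List α => (((w.map κ).sum : ℕ) : ZMod 3)) := by
  have h1 : StatLe 1 (fun w : List α => (fun a : α => ((w.count a : ℕ) : ZMod 3))) :=
    StatLe.pi (fun a => stat_count 3 a)
  have h2 := h1.comp (fun c : α → ZMod 3 => ∑ a : α, (κ a : ZMod 3) * c a)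
  refine h2.congr (fun w => ?_)
  show (∑ a : α, (κ a : ZMod 3) * ((w.count a : ℕ) : ZMod 3)) = (((w.map κ).sum : ℕ) : ZMod 3)
  rw [weight_count κ w]
  push_cast
  rfl

/-- the parity of a prefix-weight letter count, as a statistic with values in `ZMod 2` -/
theorem stat_occ2 (κ : α → ℕ) (x : α) (r : ℕ) :
    StatLe 1 (fun w : List α => ((occW κ {x} r w : ℕ) : ZMod 2)) := by
  have hS : ∀ a ∈ ({x} : Finset α), ∀ b ∈ ({x} : Finset α), κ a % 3 = κ b % 3 := by
    intro a ha b hb
    rw [Finset.mem_singleton.mp ha, Finset.mem_singleton.mp hb]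
  intro v
  refine (stat_occW κ {x} hS r v.val).of_iff (fun w => ?_)
  show occW κ {x} r w % 2 = v.val ↔ ((occW κ {x} r w : ℕ) : ZMod 2) = v
  constructor
  · intro hw
    apply ZMod.val_injective
    rw [ZMod.val_natCast]
    exact hw
  · intro hw
    rw [← hw, ZMod.val_natCast]

/-- **The alternating group on four points.** For every map `σ` from a finite alphabet into the
even permutations of `Fin 4` and every set `P` of permutations, the language of all words
`x₁ x₂ ... x_k` with `σ x₁ * σ x₂ * ... * σ x_k ∈ P` has generalized star height at most one. -/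
theorem alt_four (σ : α → Equiv.Perm (Fin 4)) (hσ : ∀ x, σ x ∈ alternatingGroup (Fin 4))
    (P : Set (Equiv.Perm (Fin 4))) :
    GSHLe 1 ({w | (w.map σ).prod ∈ P} : Language α) := by
  choose u j huj using fun x => a4_decomp (σ x) (Equiv.Perm.mem_alternatingGroup.mp (hσ x))
  have hT : StatLe 1 (fun w : List α =>
      ((((w.map (fun x => (j x : ℕ))).sum : ℕ) : ZMod 3),
        fun (x : α) (r : Fin 3) => ((occW (fun x => (j x : ℕ)) {x} (r : ℕ) w : ℕ) : ZMod 2))) :=
    (stat_weight_z3 (fun x => (j x : ℕ))).prod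
      (StatLe.pi (fun x => StatLe.pi (fun r : Fin 3 => stat_occ2 (fun x => (j x : ℕ)) x (r : ℕ))))
  have hlev := hT.level (fun p : ZMod 3 × (α → Fin 3 → ZMod 2) =>
    a4d (∑ x : α, ∑ r : Fin 3, (p.2 x r).val • a4cj r (u x)) * a4rho ^ p.1.val ∈ P)
  refine hlev.of_iff (fun w => ?_)
  show a4d (∑ x : α, ∑ r : Fin 3,
      (((occW (fun x => (j x : ℕ)) {x} (r : ℕ) w : ℕ) : ZMod 2)).val • a4cj r (u x)) *
      a4rho ^ ((((w.map (fun x => (j x : ℕ))).sum : ℕ) : ZMod 3)).val ∈ P ↔ (w.map σ).prod ∈ P
  rw [a4_prod σ u (fun x => (j x : ℕ)) huj w, ZMod.val_natCast,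
    ← a4rho_pow_mod ((w.map (fun x => (j x : ℕ))).sum)]
  simp only [ZMod.val_natCast, a4_nsmul_mod]

end Vale.Agent.Lib.P329
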