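import Vale.Agent.Lib.P329.GRE

namespace Vale.Agent.Lib.P329

open Language

variable {α : Type} [Fintype α] [DecidableEq α]

/-- words leading from state `y` to state `t` -/
def runL (step : ℕ → α → ℕ) (y t : ℕ) : Language α := {w | List.foldl step y w = t}

/-- words all of whose letters fix the state `y` -/
def fixL (step : ℕ → α → ℕ) (y : ℕ) : Language α := {w | ∀ a ∈ w, step y a = y}

/-- the empty word if `y = t`, nothing otherwise -/
def deltaL (y t : ℕ) : Language α := if y = t then 1 else 0

omit [Fintype α] [DecidableEq α] in
theorem mem_runL (step : ℕ → α → ℕ) (y t : ℕ) (w : List α) :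
    w ∈ runL step y t ↔ List.foldl step y w = t := Iff.rfl

omit [Fintype α] [DecidableEq α] in
theorem mem_fixL (step : ℕ → α → ℕ) (y : ℕ) (w : List α) :
    w ∈ fixL step y ↔ ∀ a ∈ w, step y a = y := Iff.rfl

omit [Fintype α] [DecidableEq α] in
theorem mem_deltaL (y t : ℕ) (w : List α) :
    w ∈ (deltaL y t : Language α) ↔ (w = [] ∧ y = t) := by
  unfold deltaL
  by_cases h : y = t
  · simp [h, Language.mem_one]
  · simp [h, Language.notMem_zero]

omit [Fintype α] [DecidableEq α] in
theorem foldl_fix (step : ℕ → α → ℕ) (y : ℕ) (w : List α) (h : ∀ a ∈ w, step y a = y) :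
    List.foldl step y w = y := by
  induction w with
  | nil => rfl
  | cons a v ih =>
    have ha : step y a = y := h a (by simp)
    simp only [List.foldl_cons, ha]
    exact ih (fun b hb => h b (by simp [hb]))

theorem gsh_fixL (n : ℕ) (step : ℕ → α → ℕ) (y : ℕ) : GSHLe n (fixL step y) := by
  have h := gsh_allIn (α := α) n (Finset.univ.filter (fun a => step y a = y))
  refine h.of_iff (fun w => ?_)
  show (∀ x ∈ w, x ∈ Finset.univ.filter (fun a => step y a = y)) ↔ ∀ a ∈ w, step y a = y
  simp

omit [Fintype α] [DecidableEq α] in
theorem gsh_deltaL (n : ℕ) (y t : ℕ) : GSHLe n (deltaL y t : Language α) := by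
  unfold deltaL
  by_cases h : y = t
  · simp only [h, if_true]
    exact gsh_one n
  · simp only [h, if_false]
    exact gsh_zero n

omit [DecidableEq α] in
/-- decomposition of a run at the first letter that moves the state -/
theorem run_first_leave (step : ℕ → α → ℕ) (y t : ℕ) :
    runL step y t = fixL step y * (deltaL y t
      + ∑ a ∈ Finset.univ.filter (fun a => step y a ≠ y),
          ({[a]} : Language α) * runL step (step y a) t) := by
  apply Language.ext
  intro w
  constructor
  · intro hw
    rw [mem_runL] at hw
    induction w with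
    | nil =>
      rw [Language.mem_mul]
      refine ⟨[], ?_, [], ?_, rfl⟩
      · rw [mem_fixL]
        intro a ha
        simp at ha
      · rw [Language.mem_add]
        left
        rw [mem_deltaL]
        exact ⟨rfl, hw⟩
    | cons a v ih =>
      simp only [List.foldl_cons] at hw
      by_cases ha : step y a = y
      · rw [ha] at hw
        have h1 := ih hw
        rw [Language.mem_mul] at h1
        obtain ⟨f, hf, g, hg, rfl⟩ := h1
        rw [Language.mem_mul]
        refine ⟨a :: f, ?_, g, hg, rfl⟩
        rw [mem_fixL] at hf ⊢
        intro b hb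
        rcases List.mem_cons.mp hb with rfl | hb'
        · exact ha
        · exact hf b hb'
      · rw [Language.mem_mul]
        refine ⟨[], ?_, a :: v, ?_, rfl⟩
        · rw [mem_fixL]
          intro b hb
          simp at hb
        · rw [Language.mem_add]
          right
          rw [mem_sum_iff]
          refine ⟨a, by simp [ha], ?_⟩
          rw [Language.mem_mul]
          exact ⟨[a], rfl, v, hw, rfl⟩
  · intro hw
    rw [Language.mem_mul] at hw
    obtain ⟨f, hf, g, hg, rfl⟩ := hw
    rw [mem_fixL] at hf
    rw [mem_runL, List.foldl_append, foldl_fix step y f hf]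
    rw [Language.mem_add] at hg
    rcases hg with hg | hg
    · rw [mem_deltaL] at hg
      obtain ⟨rfl, rfl⟩ := hg
      rfl
    · rw [mem_sum_iff] at hg
      obtain ⟨a, _, hga⟩ := hg
      rw [Language.mem_mul] at hga
      obtain ⟨u, hu, v, hv, rfl⟩ := hga
      have hu' : u = [a] := hu
      subst hu'
      rw [mem_runL] at hv
      simpa using hv

omit [DecidableEq α] in
/-- decomposition of a run at its first letter -/
theorem run_first_letter (step : ℕ → α → ℕ) (y t : ℕ) :
    runL step y t = deltaL y t
      + ∑ a ∈ Finset.univ, ({[a]} : Language α) * runL step (step y a) t := by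
  apply Language.ext
  intro w
  rw [Language.mem_add, mem_deltaL, mem_sum_iff, mem_runL]
  constructor
  · intro hw
    cases w with
    | nil => exact Or.inl ⟨rfl, hw⟩
    | cons a v =>
      right
      refine ⟨a, Finset.mem_univ a, ?_⟩
      rw [Language.mem_mul]
      exact ⟨[a], rfl, v, hw, rfl⟩
  · rintro (⟨rfl, rfl⟩ | ⟨a, _, hga⟩)
    · rfl
    · rw [Language.mem_mul] at hga
      obtain ⟨u, hu, v, hv, rfl⟩ := hga
      have hu' : u = [a] := hu
      subst hu'
      rw [mem_runL] at hv
      simpa using hv

/-- star-free initial-part languages: from `y` to the first visit of the base state -/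
def Pl (step : ℕ → α → ℕ) : ℕ → ℕ → Language α
  | 0, _ => 0
  | n + 1, y => fixL step y * (∑ a ∈ Finset.univ.filter (fun a => step y a = 0), ({[a]} : Language α)
      + ∑ a ∈ Finset.univ.filter (fun a => y < step y a),
          ({[a]} : Language α) * Pl step n (step y a))

/-- star-free languages: from `y` to `t` without visiting the base state -/
def Ql (step : ℕ → α → ℕ) (t : ℕ) : ℕ → ℕ → Language α
  | 0, _ => 0
  | n + 1, y => fixL step y * (deltaL y t
      + ∑ a ∈ Finset.univ.filter (fun a => y < step y a),
          ({[a]} : Language α) * Ql step t n (step y a))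

theorem gsh_Pl (step : ℕ → α → ℕ) (n y : ℕ) : GSHLe 0 (Pl step n y) := by
  induction n generalizing y with
  | zero => exact gsh_zero 0
  | succ n ih =>
    show GSHLe 0 (fixL step y * (∑ a ∈ Finset.univ.filter (fun a => step y a = 0),
      ({[a]} : Language α) + ∑ a ∈ Finset.univ.filter (fun a => y < step y a),
          ({[a]} : Language α) * Pl step n (step y a)))
    exact (gsh_fixL 0 step y).mul ((gsh_sum _ _ (fun a _ => gsh_letter 0 a)).add
      (gsh_sum _ _ (fun a _ => (gsh_letter 0 a).mul (ih (step y a)))))

theorem gsh_Ql (step : ℕ → α → ℕ) (t n y : ℕ) : GSHLe 0 (Ql step t n y) := by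
  induction n generalizing y with
  | zero => exact gsh_zero 0
  | succ n ih =>
    show GSHLe 0 (fixL step y * (deltaL y t + ∑ a ∈ Finset.univ.filter (fun a => y < step y a),
          ({[a]} : Language α) * Ql step t n (step y a)))
    exact (gsh_fixL 0 step y).mul ((gsh_deltaL 0 y t).add
      (gsh_sum _ _ (fun a _ => (gsh_letter 0 a).mul (ih (step y a)))))

theorem run_eq_PQ (N : ℕ) (step : ℕ → α → ℕ)
    (hmono : ∀ y a, 0 < y → y < N → step y a = 0 ∨ y ≤ step y a)
    (hbound : ∀ y a, y < N → step y a < N) (t : ℕ) :
    ∀ n y, 0 < y → y < N → N ≤ y + n →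
      runL step y t = Pl step n y * runL step 0 t + Ql step t n y := by
  intro n
  induction n with
  | zero =>
    intro y _ hy hN
    omega
  | succ n ih =>
    intro y hy0 hyN hN
    rw [run_first_leave step y t]
    have hsplit : ∑ a ∈ Finset.univ.filter (fun a => step y a ≠ y),
          ({[a]} : Language α) * runL step (step y a) t
        = ∑ a ∈ Finset.univ.filter (fun a => step y a = 0), ({[a]} : Language α) * runL step 0 t
          + ∑ a ∈ Finset.univ.filter (fun a => y < step y a),
            ({[a]} : Language α) * (Pl step n (step y a) * runL step 0 t + Ql step t n (step y a)) := by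
      rw [Finset.sum_filter, Finset.sum_filter, Finset.sum_filter, ← Finset.sum_add_distrib]
      apply Finset.sum_congr rfl
      intro a _
      rcases hmono y a hy0 hyN with h0 | hle
      · have h1 : step y a ≠ y := by omega
        have h2 : ¬ (y < step y a) := by omega
        rw [if_pos h1, if_pos h0, if_neg h2, add_zero, h0]
      · by_cases heq : step y a = y
        · have h1 : ¬ (step y a = 0) := by omega
          have h2 : ¬ (y < step y a) := by omega
          rw [if_neg (fun h => h heq), if_neg h1, if_neg h2, add_zero]
        · have h1 : ¬ (step y a = 0) := by omega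
          have h2 : y < step y a := by omega
          have hih := ih (step y a) (by omega) (hbound y a hyN) (by omega)
          rw [if_pos heq, if_neg h1, if_pos h2, zero_add, hih]
    rw [hsplit]
    show fixL step y * (deltaL y t + (∑ a ∈ Finset.univ.filter (fun a => step y a = 0),
        ({[a]} : Language α) * runL step 0 t
          + ∑ a ∈ Finset.univ.filter (fun a => y < step y a),
            ({[a]} : Language α) * (Pl step n (step y a) * runL step 0 t + Ql step t n (step y a))))
      = fixL step y * (∑ a ∈ Finset.univ.filter (fun a => step y a = 0), ({[a]} : Language α)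
        + ∑ a ∈ Finset.univ.filter (fun a => y < step y a),
          ({[a]} : Language α) * Pl step n (step y a)) * runL step 0 t
        + fixL step y * (deltaL y t + ∑ a ∈ Finset.univ.filter (fun a => y < step y a),
          ({[a]} : Language α) * Ql step t n (step y a))
    simp only [mul_add, add_mul, Finset.sum_add_distrib, Finset.mul_sum, Finset.sum_mul, mul_assoc]
    abel

/-- **Key lemma.** If every letter maps every state other than the base state `0` to `0` or to
a state that is at least as large, then all path languages have generalized star height at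
most `1`. -/
theorem gsh_run (N : ℕ) (step : ℕ → α → ℕ)
    (hmono : ∀ y a, 0 < y → y < N → step y a = 0 ∨ y ≤ step y a)
    (hbound : ∀ y a, y < N → step y a < N) (y t : ℕ) (hy : y < N) :
    GSHLe 1 (runL step y t) := by
  -- the base state
  have hbase : runL step 0 t
      = (∑ a ∈ Finset.univ.filter (fun a => step 0 a = 0), ({[a]} : Language α)
          + ∑ a ∈ Finset.univ.filter (fun a => step 0 a ≠ 0),
              ({[a]} : Language α) * Pl step N (step 0 a)) * runL step 0 t
        + (deltaL 0 t + ∑ a ∈ Finset.univ.filter (fun a => step 0 a ≠ 0),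
              ({[a]} : Language α) * Ql step t N (step 0 a)) := by
    have h1 := run_first_letter step 0 t
    have hsplit : ∑ a ∈ Finset.univ, ({[a]} : Language α) * runL step (step 0 a) t
        = ∑ a ∈ Finset.univ.filter (fun a => step 0 a = 0), ({[a]} : Language α) * runL step 0 t
          + ∑ a ∈ Finset.univ.filter (fun a => step 0 a ≠ 0),
            ({[a]} : Language α) * (Pl step N (step 0 a) * runL step 0 t + Ql step t N (step 0 a)) := by
      rw [Finset.sum_filter, Finset.sum_filter, ← Finset.sum_add_distrib]
      apply Finset.sum_congr rfl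
      intro a _
      by_cases h0 : step 0 a = 0
      · rw [if_pos h0, if_neg (fun h => h h0), add_zero, h0]
      · have hih := run_eq_PQ N step hmono hbound t N (step 0 a) (by omega)
          (hbound 0 a (by omega)) (by omega)
        rw [if_neg h0, if_pos h0, zero_add, hih]
    rw [hsplit] at h1
    conv_lhs => rw [h1]
    simp only [mul_add, add_mul, Finset.sum_add_distrib, Finset.sum_mul, mul_assoc]
    abel
  have hnil : ([] : List α) ∉ (∑ a ∈ Finset.univ.filter (fun a => step 0 a = 0), ({[a]} : Language α)
          + ∑ a ∈ Finset.univ.filter (fun a => step 0 a ≠ 0),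
              ({[a]} : Language α) * Pl step N (step 0 a)) := by
    intro h
    rw [Language.mem_add, mem_sum_iff, mem_sum_iff] at h
    rcases h with ⟨a, _, ha⟩ | ⟨a, _, ha⟩
    · have ha' : ([] : List α) = [a] := ha
      simp at ha'
    · rw [Language.mem_mul] at ha
      obtain ⟨u, hu, v, _, huv⟩ := ha
      have hu' : u = [a] := hu
      subst hu'
      simp at huv
  have harden := (Language.self_eq_mul_add_iff hnil).mp hbase
  have h0 : GSHLe 1 (runL step 0 t) := by
    rw [harden]
    refine GSHLe.mul (GSHLe.kstar ?_) (GSHLe.mono ?_ (Nat.zero_le 1))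
    · exact (gsh_sum _ _ (fun a _ => gsh_letter 0 a)).add
        (gsh_sum _ _ (fun a _ => (gsh_letter 0 a).mul (gsh_Pl step N (step 0 a))))
    · exact (gsh_deltaL 0 0 t).add
        (gsh_sum _ _ (fun a _ => (gsh_letter 0 a).mul (gsh_Ql step t N (step 0 a))))
  by_cases hy0 : y = 0
  · subst hy0
    exact h0
  · rw [run_eq_PQ N step hmono hbound t N y (by omega) hy (by omega)]
    exact (((gsh_Pl step N y).mono (Nat.zero_le 1)).mul h0).add
      ((gsh_Ql step t N y).mono (Nat.zero_le 1))

end Vale.Agent.Lib.P329
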