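import Vale.Agent.Lib.P329.Schutz
import Vale.Agent.Lib.P329.Mono

namespace Vale.Agent.Lib.P329

open Language

variable {α : Type}

/-- The transition maps of the words of an automaton with states `0, …, N - 1` and transition
function `f`. -/
def TrM (N : ℕ) (f : ℕ → α → ℕ) : Type :=
  {F : Fin N → Fin N // ∃ w : List α, ∀ z : Fin N, ((F z : Fin N) : ℕ) = List.foldl f z w}

instance TrM.instFinite (N : ℕ) (f : ℕ → α → ℕ) : Finite (TrM N f) :=
  inferInstanceAs (Finite {F : Fin N → Fin N //
    ∃ w : List α, ∀ z : Fin N, ((F z : Fin N) : ℕ) = List.foldl f z w})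

/-- the transition map of a product of two words: first the left factor, then the right one -/
def TrM.mul' {N : ℕ} {f : ℕ → α → ℕ} (F G : TrM N f) : TrM N f :=
  ⟨fun z => G.1 (F.1 z), by
    obtain ⟨u, hu⟩ := F.2
    obtain ⟨v, hv⟩ := G.2
    refine ⟨u ++ v, fun z => ?_⟩
    rw [List.foldl_append, ← hu z, ← hv (F.1 z)]⟩

/-- the transition map of the empty word -/
def TrM.one' {N : ℕ} {f : ℕ → α → ℕ} : TrM N f :=
  ⟨fun z => z, [], fun _ => rfl⟩

instance TrM.instMonoid (N : ℕ) (f : ℕ → α → ℕ) : Monoid (TrM N f) where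
  mul := TrM.mul'
  one := TrM.one'
  mul_assoc _ _ _ := Subtype.ext rfl
  one_mul _ := Subtype.ext rfl
  mul_one _ := Subtype.ext rfl

theorem TrM.mul_apply {N : ℕ} {f : ℕ → α → ℕ} (F G : TrM N f) (z : Fin N) :
    (F * G).1 z = G.1 (F.1 z) := rfl

theorem TrM.one_apply {N : ℕ} {f : ℕ → α → ℕ} (z : Fin N) :
    (1 : TrM N f).1 z = z := rfl

theorem TrM.pow_apply {N : ℕ} {f : ℕ → α → ℕ} (x : TrM N f) (v : List α)
    (hv : ∀ z : Fin N, ((x.1 z : Fin N) : ℕ) = List.foldl f z v) (n : ℕ) :
    ∀ z : Fin N, (((x ^ n).1 z : Fin N) : ℕ) = List.foldl f z (List.replicate n v).flatten := by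
  induction n with
  | zero =>
    intro z
    rw [pow_zero, TrM.one_apply]
    rfl
  | succ n ih =>
    intro z
    rw [pow_succ', TrM.mul_apply, ih (x.1 z), hv z, List.replicate_succ, List.flatten_cons,
      List.foldl_append]

/-- the transition map of a letter -/
def TrM.letter (N : ℕ) (f : ℕ → α → ℕ) (hb : ∀ y a, y < N → f y a < N) (a : α) : TrM N f :=
  ⟨fun z => ⟨f z a, hb z a z.2⟩, [a], fun _ => rfl⟩

theorem TrM.prod_apply (N : ℕ) (f : ℕ → α → ℕ) (hb : ∀ y a, y < N → f y a < N) (w : List α) :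
    ∀ z : Fin N, ((((w.map (TrM.letter N f hb)).prod).1 z : Fin N) : ℕ) = List.foldl f z w := by
  induction w with
  | nil =>
    intro z
    rw [List.map_nil, List.prod_nil, TrM.one_apply]
    rfl
  | cons a w ih =>
    intro z
    rw [List.map_cons, List.prod_cons, TrM.mul_apply, ih]
    rfl

/-- If the words act aperiodically on the states (the automaton is counter-free), then the
transition monoid is aperiodic. -/
theorem TrM.aperiodic (N : ℕ) (f : ℕ → α → ℕ)
    (haper : ∀ w : List α, ∃ k : ℕ, ∀ y, y < N →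
      List.foldl f y (List.replicate k w).flatten =
        List.foldl f y (List.replicate (k + 1) w).flatten) :
    ∀ x : TrM N f, ∃ n : ℕ, x ^ n = x ^ (n + 1) := by
  intro x
  obtain ⟨v, hv⟩ := x.2
  obtain ⟨k, hk⟩ := haper v
  refine ⟨k, Subtype.ext ?_⟩
  funext z
  apply Fin.ext
  rw [TrM.pow_apply x v hv k z, TrM.pow_apply x v hv (k + 1) z]
  exact hk z z.2

/-- **Counter-free automata recognize star-free languages.** If every word `w` acts on the
states `0, …, N - 1` with `w ^ k = w ^ (k + 1)` for some `k`, then all path languages are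
star-free. -/
theorem gsh_run_of_aper [Fintype α] [DecidableEq α] (N : ℕ) (f : ℕ → α → ℕ)
    (haper : ∀ w : List α, ∃ k : ℕ, ∀ y, y < N →
      List.foldl f y (List.replicate k w).flatten =
        List.foldl f y (List.replicate (k + 1) w).flatten)
    (hb : ∀ y a, y < N → f y a < N) (y t : ℕ) (hy : y < N) : GSHLe 0 (runL f y t) := by
  have : Fintype (TrM N f) := Fintype.ofFinite (TrM N f)
  have hstat : StatLe 0 (fun w : List α => (w.map (TrM.letter N f hb)).prod) :=
    fun p => schutzenberger (TrM.aperiodic N f haper) (TrM.letter N f hb) p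
  have h := hstat.level (fun p : TrM N f => ((p.1 ⟨y, hy⟩ : Fin N) : ℕ) = t)
  refine h.of_iff (fun w => ?_)
  show ((((w.map (TrM.letter N f hb)).prod).1 ⟨y, hy⟩ : Fin N) : ℕ) = t ↔ w ∈ runL f y t
  rw [TrM.prod_apply N f hb w ⟨y, hy⟩, mem_runL]

end Vale.Agent.Lib.P329
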