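import Vale.Agent.Lib.P329.Wreath

/-!
# Scattered subword counts of length at most three

`w.sublists.count u` is the number of occurrences of `u` as a scattered subword of `w`.
We express these numbers, for `u` of length at most three, through weighted sums over the
occurrences of one fixed letter, the weight depending on a counter of the earlier letters
from a fixed set.
-/

namespace Vale.Agent.Lib.P329

variable {A : Type} [DecidableEq A]

/-! `wsum S b f k w` (defined with the wreath automaton) is the sum, over the occurrences of `b`
in `w`, of `f (k + m)` where `m` is the number of letters from `S` strictly before that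
occurrence. Here it is used with values in the natural numbers. -/

@[simp] theorem wsum_nil (S : Finset A) (b : A) (f : ℕ → ℕ) (k : ℕ) :
    wsum S b f k [] = 0 := rfl

theorem wsum_cons (S : Finset A) (b : A) (f : ℕ → ℕ) (k : ℕ) (x : A) (w : List A) :
    wsum S b f k (x :: w)
      = (if x = b then f k else 0) + wsum S b f (if x ∈ S then k + 1 else k) w := rfl

/-- the head is the marked letter and is not counted -/
theorem wsum_cons_mark (S : Finset A) (b : A) (f : ℕ → ℕ) (k : ℕ) (w : List A)
    (hb : b ∉ S) : wsum S b f k (b :: w) = f k + wsum S b f k w := by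
  rw [wsum_cons, if_pos rfl, if_neg hb]

/-- the head is a counted letter different from the marked one -/
theorem wsum_cons_count (S : Finset A) (b : A) (f : ℕ → ℕ) (k : ℕ) (x : A) (w : List A)
    (hx : x ∈ S) (hxb : x ≠ b) : wsum S b f k (x :: w) = wsum S b f (k + 1) w := by
  rw [wsum_cons, if_neg hxb, if_pos hx, Nat.zero_add]

/-- the head is neither marked nor counted -/
theorem wsum_cons_skip (S : Finset A) (b : A) (f : ℕ → ℕ) (k : ℕ) (x : A) (w : List A)
    (hx : x ∉ S) (hxb : x ≠ b) : wsum S b f k (x :: w) = wsum S b f k w := by
  rw [wsum_cons, if_neg hxb, if_neg hx, Nat.zero_add]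

theorem count_nil_sublists' (w : List A) : (List.sublists' w).count [] = 1 := by
  induction w with
  | nil => simp
  | cons x w ih =>
    rw [List.sublists'_cons, List.count_append, ih]
    have h0 : List.count [] (List.map (List.cons x) (List.sublists' w)) = 0 := by
      rw [List.count_eq_zero]
      simp
    omega

theorem count_cons_map (x y : A) (u : List A) (L : List (List A)) :
    (L.map (List.cons x)).count (y :: u) = if x = y then L.count u else 0 := by
  induction L with
  | nil => simp
  | cons v L ih =>
    rw [List.map_cons, List.count_cons, ih, List.count_cons]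
    by_cases h : x = y
    · subst h
      simp
    · simp [h]

/-- the empty word occurs exactly once -/
theorem sc_nil (w : List A) : w.sublists.count [] = 1 := by
  rw [(List.sublists_perm_sublists' w).count_eq]
  exact count_nil_sublists' w

/-- the basic recursion for subword counts -/
theorem sc_cons (x y : A) (u w : List A) :
    (x :: w).sublists.count (y :: u)
      = w.sublists.count (y :: u) + if x = y then w.sublists.count u else 0 := by
  have h1 := (List.sublists_perm_sublists' (x :: w)).count_eq (y :: u)
  have h2 := (List.sublists_perm_sublists' w).count_eq (y :: u)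
  have h3 := (List.sublists_perm_sublists' w).count_eq u
  rw [h1, h2, h3, List.sublists'_cons, List.count_append, count_cons_map]

theorem sc_cons_eq (a : A) (u w : List A) :
    (a :: w).sublists.count (a :: u) = w.sublists.count (a :: u) + w.sublists.count u := by
  rw [sc_cons, if_pos rfl]

theorem sc_cons_ne (x y : A) (h : x ≠ y) (u w : List A) :
    (x :: w).sublists.count (y :: u) = w.sublists.count (y :: u) := by
  rw [sc_cons, if_neg h, Nat.add_zero]

theorem sc_nil_left (y : A) (u : List A) : ([] : List A).sublists.count (y :: u) = 0 := by
  simp

/-- one letter -/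
theorem sc_one (a : A) (w : List A) : w.sublists.count [a] = w.count a := by
  induction w with
  | nil => simp
  | cons x w ih =>
    by_cases h : x = a
    · subst h
      rw [sc_cons_eq, ih, sc_nil, List.count_cons_self]
    · rw [sc_cons_ne x a h, ih, List.count_cons_of_ne h]

theorem choose_two_succ (k : ℕ) : (k + 1).choose 2 = k.choose 2 + k := by
  have h : (k + 1).choose (1 + 1) = k.choose 1 + k.choose (1 + 1) := Nat.choose_succ_succ k 1
  rw [Nat.choose_one_right] at h
  have e : (1 + 1 : ℕ) = 2 := rfl
  rw [e] at h
  omega

theorem choose_three_succ (k : ℕ) : (k + 1).choose 3 = k.choose 3 + k.choose 2 := by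
  have h : (k + 1).choose (2 + 1) = k.choose 2 + k.choose (2 + 1) := Nat.choose_succ_succ k 2
  have e : (2 + 1 : ℕ) = 3 := rfl
  rw [e] at h
  omega

/-- a repeated letter, length two -/
theorem sc_two_same (a : A) (w : List A) : w.sublists.count [a, a] = (w.count a).choose 2 := by
  induction w with
  | nil => simp
  | cons x w ih =>
    by_cases h : x = a
    · subst h
      rw [sc_cons_eq, ih, sc_one, List.count_cons_self, choose_two_succ]
    · rw [sc_cons_ne x a h, ih, List.count_cons_of_ne h]

/-- a repeated letter, length three -/
theorem sc_three_same (a : A) (w : List A) :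
    w.sublists.count [a, a, a] = (w.count a).choose 3 := by
  induction w with
  | nil => simp
  | cons x w ih =>
    by_cases h : x = a
    · subst h
      rw [sc_cons_eq, ih, sc_two_same, List.count_cons_self, choose_three_succ]
    · rw [sc_cons_ne x a h, ih, List.count_cons_of_ne h]

/-- two distinct letters: both orders together count all pairs -/
theorem sc_two_add (a b : A) (hab : a ≠ b) (w : List A) :
    w.sublists.count [a, b] + w.sublists.count [b, a] = w.count a * w.count b := by
  induction w with
  | nil => simp
  | cons x w ih =>
    by_cases h1 : x = a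
    · subst h1
      rw [sc_cons_eq, sc_cons_ne x b hab, sc_one, List.count_cons_self,
        List.count_cons_of_ne hab]
      nlinarith [ih]
    · by_cases h2 : x = b
      · subst h2
        rw [sc_cons_ne x a h1, sc_cons_eq, sc_one, List.count_cons_self,
          List.count_cons_of_ne h1]
        nlinarith [ih]
      · rw [sc_cons_ne x a h1, sc_cons_ne x b h2, List.count_cons_of_ne h1,
          List.count_cons_of_ne h2]
        exact ih

/-- general offset form: the weight is the counter itself -/
theorem wsum_id (a b : A) (hab : a ≠ b) (k : ℕ) (w : List A) :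
    wsum {a} b id k w = k * w.count b + w.sublists.count [a, b] := by
  have hbS : b ∉ ({a} : Finset A) := by
    rw [Finset.mem_singleton]; exact fun e => hab e.symm
  induction w generalizing k with
  | nil => simp
  | cons x w ih =>
    by_cases h1 : x = a
    · subst h1
      rw [wsum_cons_count _ _ _ _ _ _ (Finset.mem_singleton_self x) hab, ih, sc_cons_eq, sc_one,
        List.count_cons_of_ne hab]
      ring
    · by_cases h2 : x = b
      · subst h2
        rw [wsum_cons_mark _ _ _ _ _ hbS, ih, sc_cons_ne x a h1, List.count_cons_self]
        simp only [id]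
        ring
      · have hxS : x ∉ ({a} : Finset A) := by
          rw [Finset.mem_singleton]; exact h1
        rw [wsum_cons_skip _ _ _ _ _ _ hxS h2, ih, sc_cons_ne x a h1, List.count_cons_of_ne h2]

/-- two distinct letters -/
theorem sc_two (a b : A) (hab : a ≠ b) (w : List A) :
    w.sublists.count [a, b] = wsum {a} b id 0 w := by
  rw [wsum_id a b hab]; simp

/-- general offset form: the weight is the number of pairs -/
theorem wsum_choose (a b : A) (hab : a ≠ b) (k : ℕ) (w : List A) :
    wsum {a} b (fun k => k.choose 2) k w
      = k.choose 2 * w.count b + k * w.sublists.count [a, b] + w.sublists.count [a, a, b] := by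
  have hbS : b ∉ ({a} : Finset A) := by
    rw [Finset.mem_singleton]; exact fun e => hab e.symm
  induction w generalizing k with
  | nil => simp
  | cons x w ih =>
    by_cases h1 : x = a
    · subst h1
      rw [wsum_cons_count _ _ _ _ _ _ (Finset.mem_singleton_self x) hab, ih, sc_cons_eq, sc_cons_eq,
        sc_one, List.count_cons_of_ne hab, choose_two_succ]
      ring
    · by_cases h2 : x = b
      · subst h2
        rw [wsum_cons_mark _ _ _ _ _ hbS, ih, sc_cons_ne x a h1, sc_cons_ne x a h1,
          List.count_cons_self]
        ring
      · have hxS : x ∉ ({a} : Finset A) := by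
          rw [Finset.mem_singleton]; exact h1
        rw [wsum_cons_skip _ _ _ _ _ _ hxS h2, ih, sc_cons_ne x a h1, sc_cons_ne x a h1,
          List.count_cons_of_ne h2]

/-- pattern `a a b` -/
theorem sc_aab (a b : A) (hab : a ≠ b) (w : List A) :
    w.sublists.count [a, a, b] = wsum {a} b (fun k => k.choose 2) 0 w := by
  rw [wsum_choose a b hab]; simp

/-- general offset form: the weight is the square of the counter -/
theorem wsum_sq (a b : A) (hab : a ≠ b) (k : ℕ) (w : List A) :
    wsum {a} b (fun k => k * k) k w
      = k * k * w.count b + 2 * k * w.sublists.count [a, b] + wsum {a} b (fun k => k * k) 0 w := by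
  have hbS : b ∉ ({a} : Finset A) := by
    rw [Finset.mem_singleton]; exact fun e => hab e.symm
  induction w generalizing k with
  | nil => simp
  | cons x w ih =>
    by_cases h1 : x = a
    · subst h1
      rw [wsum_cons_count _ _ _ _ _ _ (Finset.mem_singleton_self x) hab,
        wsum_cons_count _ _ _ _ _ _ (Finset.mem_singleton_self x) hab, ih (k + 1), ih (0 + 1),
        sc_cons_eq, sc_one, List.count_cons_of_ne hab]
      ring
    · by_cases h2 : x = b
      · subst h2
        rw [wsum_cons_mark _ _ _ _ _ hbS, wsum_cons_mark _ _ _ _ _ hbS, ih k,
          sc_cons_ne x a h1, List.count_cons_self]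
        ring
      · have hxS : x ∉ ({a} : Finset A) := by
          rw [Finset.mem_singleton]; exact h1
        rw [wsum_cons_skip _ _ _ _ _ _ hxS h2, wsum_cons_skip _ _ _ _ _ _ hxS h2, ih k,
          sc_cons_ne x a h1, List.count_cons_of_ne h2]

/-- pattern `a b a` -/
theorem sc_aba (a b : A) (hab : a ≠ b) (w : List A) :
    w.sublists.count [a, b, a] + wsum {a} b (fun k => k * k) 0 w
      = w.count a * wsum {a} b id 0 w := by
  have hba : b ≠ a := fun e => hab e.symm
  have hbS : b ∉ ({a} : Finset A) := by
    rw [Finset.mem_singleton]; exact hba
  rw [← sc_two a b hab]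
  induction w with
  | nil => simp
  | cons x w ih =>
    by_cases h1 : x = a
    · subst h1
      have h2 := sc_two_add x b hab w
      rw [wsum_cons_count _ _ _ _ _ _ (Finset.mem_singleton_self x) hab, wsum_sq x b hab (0 + 1),
        sc_cons_eq, sc_cons_eq, sc_one, List.count_cons_self]
      nlinarith [ih, h2]
    · by_cases h2 : x = b
      · subst h2
        rw [wsum_cons_mark _ _ _ _ _ hbS, sc_cons_ne x a h1, sc_cons_ne x a h1,
          List.count_cons_of_ne h1]
        simpa using ih
      · have hxS : x ∉ ({a} : Finset A) := by
          rw [Finset.mem_singleton]; exact h1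
        rw [wsum_cons_skip _ _ _ _ _ _ hxS h2, sc_cons_ne x a h1, sc_cons_ne x a h1,
          List.count_cons_of_ne h1]
        exact ih

/-- general offset form for two counted letters: the weight is the number of pairs -/
theorem wsum_pair_choose (a b c : A) (hab : a ≠ b) (hcb : c ≠ b) (hac : a ≠ c) (k : ℕ)
    (w : List A) :
    wsum {a, c} b (fun k => k.choose 2) k w
      = k.choose 2 * w.count b + k * (w.sublists.count [a, b] + w.sublists.count [c, b])
        + wsum {a, c} b (fun k => k.choose 2) 0 w := by
  have hbS : b ∉ ({a, c} : Finset A) := by
    rw [Finset.mem_insert, Finset.mem_singleton]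
    rintro (e | e)
    · exact hab e.symm
    · exact hcb e.symm
  have haS : a ∈ ({a, c} : Finset A) := by simp
  have hcS : c ∈ ({a, c} : Finset A) := by simp
  have hca : c ≠ a := fun e => hac e.symm
  induction w generalizing k with
  | nil => simp
  | cons x w ih =>
    by_cases h1 : x = a
    · subst h1
      rw [wsum_cons_count _ _ _ _ _ _ haS hab, wsum_cons_count _ _ _ _ _ _ haS hab, ih (k + 1),
        ih (0 + 1), sc_cons_eq, sc_cons_ne x c hac, sc_one, List.count_cons_of_ne hab,
        choose_two_succ]
      simp only [Nat.zero_add, Nat.choose_succ_self]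
      ring
    · by_cases h3 : x = c
      · subst h3
        rw [wsum_cons_count _ _ _ _ _ _ hcS hcb, wsum_cons_count _ _ _ _ _ _ hcS hcb, ih (k + 1),
          ih (0 + 1), sc_cons_eq, sc_cons_ne x a hca, sc_one, List.count_cons_of_ne hcb,
          choose_two_succ]
        simp only [Nat.zero_add, Nat.choose_succ_self]
        ring
      · by_cases h2 : x = b
        · subst h2
          rw [wsum_cons_mark _ _ _ _ _ hbS, wsum_cons_mark _ _ _ _ _ hbS, ih k,
            sc_cons_ne x a h1, sc_cons_ne x c h3, List.count_cons_self]
          simp only [Nat.choose_zero_succ]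
          ring
        · have hxS : x ∉ ({a, c} : Finset A) := by
            rw [Finset.mem_insert, Finset.mem_singleton]
            rintro (e | e)
            · exact h1 e
            · exact h3 e
          rw [wsum_cons_skip _ _ _ _ _ _ hxS h2, wsum_cons_skip _ _ _ _ _ _ hxS h2, ih k,
            sc_cons_ne x a h1, sc_cons_ne x c h3, List.count_cons_of_ne h2]

/-- pattern `a b c` with three distinct letters -/
theorem sc_abc (a b c : A) (hab : a ≠ b) (hcb : c ≠ b) (hac : a ≠ c) (w : List A) :
    w.sublists.count [a, b, c] + wsum {a, c} b (fun k => k.choose 2) 0 w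
      = w.count c * wsum {a} b id 0 w + wsum {a} b (fun k => k.choose 2) 0 w
        + wsum {c} b (fun k => k.choose 2) 0 w := by
  have hbS : b ∉ ({a, c} : Finset A) := by
    rw [Finset.mem_insert, Finset.mem_singleton]
    rintro (e | e)
    · exact hab e.symm
    · exact hcb e.symm
  have haS : a ∈ ({a, c} : Finset A) := by simp
  have hcS : c ∈ ({a, c} : Finset A) := by simp
  have hca : c ≠ a := fun e => hac e.symm
  have hbc : b ≠ c := fun e => hcb e.symm
  have hba : b ≠ a := fun e => hab e.symm
  rw [← sc_two a b hab, ← sc_aab a b hab, ← sc_aab c b hcb]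
  induction w with
  | nil => simp
  | cons x w ih =>
    by_cases h1 : x = a
    · subst h1
      have h2 := sc_two_add b c hbc w
      rw [wsum_cons_count _ _ _ _ _ _ haS hab, wsum_pair_choose x b c hab hcb hac (0 + 1),
        sc_cons_eq, sc_cons_eq, sc_cons_eq, sc_cons_ne x c hac, sc_one,
        List.count_cons_of_ne hac]
      simp only [Nat.zero_add, Nat.choose_succ_self]
      nlinarith [ih, h2]
    · by_cases h3 : x = c
      · subst h3
        rw [wsum_cons_count _ _ _ _ _ _ hcS hcb, wsum_pair_choose a b x hab hcb hac (0 + 1),
          sc_cons_ne x a hca, sc_cons_ne x a hca, sc_cons_ne x a hca, sc_cons_eq,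
          List.count_cons_self]
        simp only [Nat.zero_add, Nat.choose_succ_self]
        nlinarith [ih]
      · by_cases h2 : x = b
        · subst h2
          rw [wsum_cons_mark _ _ _ _ _ hbS, sc_cons_ne x a h1, sc_cons_ne x a h1,
            sc_cons_ne x a h1, sc_cons_ne x c h3, List.count_cons_of_ne h3]
          simpa using ih
        · have hxS : x ∉ ({a, c} : Finset A) := by
            rw [Finset.mem_insert, Finset.mem_singleton]
            rintro (e | e)
            · exact h1 e
            · exact h3 e
          rw [wsum_cons_skip _ _ _ _ _ _ hxS h2, sc_cons_ne x a h1, sc_cons_ne x a h1,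
            sc_cons_ne x a h1, sc_cons_ne x c h3, List.count_cons_of_ne h3]
          exact ih

/-- reversal: occurrences of the reversed word in the reversed text -/
theorem sc_reverse (u w : List A) :
    w.reverse.sublists.count u.reverse = w.sublists.count u := by
  rw [List.sublists_reverse, List.count_map_of_injective _ _ List.reverse_injective,
    (List.sublists_perm_sublists' w).count_eq]

/-! The same statements under the names `sub_a`, ..., `sub_reverse`. -/

theorem sub_a (a : A) (w : List A) : w.sublists.count [a] = w.count a := sc_one a w

theorem sub_aa (a : A) (w : List A) : w.sublists.count [a, a] = (w.count a).choose 2 :=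
  sc_two_same a w

theorem sub_aaa (a : A) (w : List A) : w.sublists.count [a, a, a] = (w.count a).choose 3 :=
  sc_three_same a w

theorem sub_ab (a b : A) (hab : a ≠ b) (w : List A) :
    w.sublists.count [a, b] = wsum {a} b id 0 w := sc_two a b hab w

theorem sub_aab (a b : A) (hab : a ≠ b) (w : List A) :
    w.sublists.count [a, a, b] = wsum {a} b (fun k => k.choose 2) 0 w := sc_aab a b hab w

theorem sub_aba (a b : A) (hab : a ≠ b) (w : List A) :
    w.sublists.count [a, b, a] + wsum {a} b (fun k => k * k) 0 w
      = w.count a * wsum {a} b id 0 w := sc_aba a b hab w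

theorem sub_abc (a b c : A) (hab : a ≠ b) (hcb : c ≠ b) (hac : a ≠ c) (w : List A) :
    w.sublists.count [a, b, c] + wsum {a, c} b (fun k => k.choose 2) 0 w
      = w.count c * wsum {a} b id 0 w + wsum {a} b (fun k => k.choose 2) 0 w
        + wsum {c} b (fun k => k.choose 2) 0 w := sc_abc a b c hab hcb hac w

theorem sub_reverse (u w : List A) :
    w.reverse.sublists.count u.reverse = w.sublists.count u := sc_reverse u w

end Vale.Agent.Lib.P329
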