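import Vale.Agent.Lib.P329.GRE

namespace Vale.Agent.Lib.P329

open Language

variable {α : Type} [DecidableEq α] {M : Type} [Monoid M]

/-- The block image of a word: the word is cut after every occurrence of the marker `c`, and
each block `u c` is replaced by the product of the `φ`-images of the letters of `u` (multiplied
on the left by the accumulator for the first block). An unfinished last block is dropped. -/
def blockimg (φ : α → M) (c : α) : M → List α → List M
  | _, [] => []
  | acc, x :: w => if x = c then acc :: blockimg φ c 1 w else blockimg φ c (acc * φ x) w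

/-- Words over `B'` and the marker `c` which are empty or end with the marker. -/
def InBlk (B' : Finset α) (c : α) (w : List α) : Prop :=
  (∀ x ∈ w, x = c ∨ x ∈ B') ∧ (w = [] ∨ ∃ u, w = u ++ [c])

theorem blockimg_nil (φ : α → M) (c : α) (acc : M) : blockimg φ c acc [] = [] := by
  rw [blockimg]

theorem blockimg_cfree_append (φ : α → M) (c : α) (u : List α) (hu : ∀ x ∈ u, x ≠ c)
    (acc : M) (w : List α) :
    blockimg φ c acc (u ++ w) = blockimg φ c (acc * (u.map φ).prod) w := by
  induction u generalizing acc with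
  | nil => simp
  | cons x u ih =>
    have hx : x ≠ c := hu x (by simp)
    have hu' : ∀ y ∈ u, y ≠ c := fun y hy => hu y (by simp [hy])
    show blockimg φ c acc (x :: (u ++ w)) = _
    rw [blockimg, if_neg hx, ih hu', List.map_cons, List.prod_cons, mul_assoc]

theorem blockimg_block (φ : α → M) (c : α) (u : List α) (hu : ∀ x ∈ u, x ≠ c)
    (acc : M) (w : List α) :
    blockimg φ c acc (u ++ c :: w) = (acc * (u.map φ).prod) :: blockimg φ c 1 w := by
  rw [blockimg_cfree_append φ c u hu, blockimg, if_pos rfl]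

theorem InBlk.nil (B' : Finset α) (c : α) : InBlk B' c [] :=
  ⟨by simp, Or.inl rfl⟩

theorem InBlk.block {B' : Finset α} {c : α} {u w : List α} (hu : ∀ x ∈ u, x ∈ B')
    (hw : InBlk B' c w) : InBlk B' c (u ++ c :: w) := by
  refine ⟨?_, Or.inr ?_⟩
  · intro x hx
    rw [List.mem_append, List.mem_cons] at hx
    rcases hx with hx | hx | hx
    · exact Or.inr (hu x hx)
    · exact Or.inl hx
    · exact hw.1 x hx
  · rcases hw.2 with h | ⟨v, h⟩
    · subst h
      exact ⟨u, rfl⟩
    · subst h
      exact ⟨u ++ c :: v, by simp⟩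

theorem InBlk.append {B' : Finset α} {c : α} {w1 w2 : List α} (h1 : InBlk B' c w1)
    (h2 : InBlk B' c w2) : InBlk B' c (w1 ++ w2) := by
  refine ⟨?_, ?_⟩
  · intro x hx
    rcases List.mem_append.mp hx with hx | hx
    · exact h1.1 x hx
    · exact h2.1 x hx
  · rcases h2.2 with h | ⟨u, h⟩
    · subst h
      rw [List.append_nil]
      exact h1.2
    · subst h
      exact Or.inr ⟨w1 ++ u, by simp⟩

theorem InBlk.decomp {B' : Finset α} {c : α} {w : List α} (hw : InBlk B' c w) :
    w = [] ∨ ∃ u w', (∀ x ∈ u, x ∈ B') ∧ w = u ++ c :: w' ∧ InBlk B' c w' := by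
  rcases hw.2 with h | ⟨u0, hu0⟩
  · exact Or.inl h
  · right
    have hcw : c ∈ w := by
      rw [hu0]
      simp
    obtain ⟨u, w', hw', hcu⟩ := List.eq_append_cons_of_mem hcw
    refine ⟨u, w', ?_, hw', ?_, ?_⟩
    · intro x hx
      have hxw : x ∈ w := by
        rw [hw']
        simp [hx]
      rcases hw.1 x hxw with h | h
      · subst h
        exact absurd hx hcu
      · exact h
    · intro x hx
      have hxw : x ∈ w := by
        rw [hw']
        simp [hx]
      exact hw.1 x hxw
    · rcases List.eq_nil_or_concat w' with h | ⟨L, b, h⟩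
      · exact Or.inl h
      · right
        refine ⟨L, ?_⟩
        have h2 : (u ++ c :: L) ++ [b] = u0 ++ [c] := by
          rw [← hu0, hw', h]
          simp
        have h3 : [b] = [c] := List.append_inj_right' h2 rfl
        have h4 : b = c := by
          injection h3
        rw [h, h4, List.concat_eq_append]

theorem InBlk.induction {B' : Finset α} {c : α} (P : List α → Prop) (h0 : P [])
    (h1 : ∀ u w', (∀ x ∈ u, x ∈ B') → InBlk B' c w' → P w' → P (u ++ c :: w')) :
    ∀ w, InBlk B' c w → P w := by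
  suffices H : ∀ n (w : List α), w.length ≤ n → InBlk B' c w → P w from
    fun w hw => H _ w le_rfl hw
  intro n
  induction n with
  | zero =>
    intro w hl hw
    have hw0 : w = [] := List.length_eq_zero_iff.mp (Nat.le_zero.mp hl)
    subst hw0
    exact h0
  | succ n ih =>
    intro w hl hw
    rcases hw.decomp with h | ⟨u, w', hu, h, hw'⟩
    · subst h
      exact h0
    · subst h
      apply h1 u w' hu hw'
      apply ih w' _ hw'
      simp only [List.length_append, List.length_cons] at hl
      omega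

theorem blockimg_append (φ : α → M) (c : α) (B' : Finset α) (hc : c ∉ B') (w1 w2 : List α)
    (hw1 : InBlk B' c w1) :
    blockimg φ c 1 (w1 ++ w2) = blockimg φ c 1 w1 ++ blockimg φ c 1 w2 := by
  refine InBlk.induction (B' := B') (c := c)
    (fun w1 => blockimg φ c 1 (w1 ++ w2) = blockimg φ c 1 w1 ++ blockimg φ c 1 w2) ?_ ?_ w1 hw1
  · show blockimg φ c 1 ([] ++ w2) = blockimg φ c 1 [] ++ blockimg φ c 1 w2
    rw [blockimg_nil]
    rfl
  · intro u w' hu hw' ih
    have hu' : ∀ x ∈ u, x ≠ c := fun x hx hxc => hc (hxc ▸ hu x hx)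
    show blockimg φ c 1 (u ++ c :: w' ++ w2) = blockimg φ c 1 (u ++ c :: w') ++ blockimg φ c 1 w2
    rw [List.append_assoc, List.cons_append, blockimg_block φ c u hu',
      blockimg_block φ c u hu', ih]
    rfl

theorem InBlk.eq_nil_of_blockimg {B' : Finset α} {c : α} (φ : α → M) (hc : c ∉ B')
    {w : List α} (hw : InBlk B' c w) (h : blockimg φ c 1 w = []) : w = [] := by
  rcases hw.decomp with h0 | ⟨u, w', hu, h0, hw'⟩
  · exact h0
  · subst h0
    have hu' : ∀ x ∈ u, x ≠ c := fun x hx hxc => hc (hxc ▸ hu x hx)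
    rw [blockimg_block φ c u hu'] at h
    exact absurd h (List.cons_ne_nil _ _)

theorem blockimg_split (φ : α → M) (c : α) (B' : Finset α) (hc : c ∉ B') (v1 v2 : List M) :
    ∀ w, InBlk B' c w → blockimg φ c 1 w = v1 ++ v2 →
      ∃ w1 w2, w = w1 ++ w2 ∧ InBlk B' c w1 ∧ InBlk B' c w2 ∧
        blockimg φ c 1 w1 = v1 ∧ blockimg φ c 1 w2 = v2 := by
  induction v1 with
  | nil =>
    intro w hw h
    exact ⟨[], w, rfl, InBlk.nil B' c, hw, blockimg_nil φ c 1, by simpa using h⟩
  | cons t v1 ih =>
    intro w hw h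
    rcases hw.decomp with h0 | ⟨u, w', hu, h0, hw'⟩
    · subst h0
      rw [blockimg_nil] at h
      exact absurd h.symm (by simp)
    · subst h0
      have hu' : ∀ x ∈ u, x ≠ c := fun x hx hxc => hc (hxc ▸ hu x hx)
      rw [blockimg_block φ c u hu', List.cons_append] at h
      have h1 : 1 * (u.map φ).prod = t := (List.cons.inj h).1
      have h2 : blockimg φ c 1 w' = v1 ++ v2 := (List.cons.inj h).2
      obtain ⟨w1, w2, h3, hw1, hw2, hb1, hb2⟩ := ih w' hw' h2
      subst h3
      refine ⟨u ++ c :: w1, w2, by simp, InBlk.block hu hw1, hw2, ?_, hb2⟩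
      rw [blockimg_block φ c u hu', hb1, h1]

/-- the set of block words is star-free -/
theorem gsh_inBlk [Fintype α] (B' : Finset α) (c : α) :
    GSHLe 0 ({w | InBlk B' c w} : Language α) := by
  have h1 : GSHLe 0 ({w | ∀ x ∈ w, x ∈ insert c B'} : Language α) := gsh_allIn 0 (insert c B')
  have h2 : GSHLe 0 ((1 : Language α) + ⊤ * {[c]}) :=
    (gsh_one 0).add ((gsh_top 0).mul (gsh_letter 0 c))
  refine GSHLe.and h1 h2 (fun w => ?_)
  show InBlk B' c w ↔ ((∀ x ∈ w, x ∈ insert c B') ∧ w ∈ (1 : Language α) + ⊤ * {[c]})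
  rw [Language.mem_add, Language.mem_one, Language.mem_mul]
  unfold InBlk
  constructor
  · rintro ⟨h, h'⟩
    refine ⟨fun x hx => ?_, ?_⟩
    · rw [Finset.mem_insert]
      exact h x hx
    · rcases h' with h' | ⟨u, hu⟩
      · exact Or.inl h'
      · exact Or.inr ⟨u, trivial, [c], rfl, hu.symm⟩
  · rintro ⟨h, h'⟩
    refine ⟨fun x hx => ?_, ?_⟩
    · have h3 := h x hx
      rw [Finset.mem_insert] at h3
      exact h3
    · rcases h' with h' | ⟨u, _, v, hv, huv⟩
      · exact Or.inl h'
      · have hv' : v = [c] := hv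
        subst hv'
        exact Or.inr ⟨u, huv.symm⟩

theorem sigma_sf_aux [Fintype α] (φ : α → M) (c : α) (B' : Finset α) (hc : c ∉ B')
    (hB : ∀ t : M, GSHLe 0 ({u | (∀ x ∈ u, x ∈ B') ∧ (u.map φ).prod = t} : Language α))
    (e : GRE M) (he : e.height ≤ 0) :
    GSHLe 0 ({w | InBlk B' c w ∧ blockimg φ c 1 w ∈ e.lang} : Language α) := by
  induction e with
  | zero =>
    refine (gsh_zero 0).of_iff (fun w => ?_)
    constructor
    · intro h
      exact absurd h (Language.notMem_zero w)
    · rintro ⟨_, h⟩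
      exact absurd h (Language.notMem_zero _)
  | one =>
    refine (gsh_one 0).of_iff (fun w => ?_)
    show w ∈ (1 : Language α) ↔ (InBlk B' c w ∧ blockimg φ c 1 w ∈ (1 : Language M))
    rw [Language.mem_one, Language.mem_one]
    constructor
    · intro h
      subst h
      exact ⟨InBlk.nil B' c, blockimg_nil φ c 1⟩
    · rintro ⟨h1, h2⟩
      exact h1.eq_nil_of_blockimg φ hc h2
  | letter t =>
    have h1 := (hB t).mul (gsh_letter 0 c)
    refine h1.of_iff (fun w => ?_)
    refine Iff.trans Language.mem_mul ?_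
    show (∃ a, ((∀ x ∈ a, x ∈ B') ∧ (a.map φ).prod = t) ∧ ∃ b, b = [c] ∧ a ++ b = w) ↔
      (InBlk B' c w ∧ blockimg φ c 1 w = [t])
    constructor
    · rintro ⟨a, ⟨ha1, ha2⟩, b, hb, hab⟩
      subst hb
      subst hab
      have ha' : ∀ x ∈ a, x ≠ c := fun x hx hxc => hc (hxc ▸ ha1 x hx)
      refine ⟨InBlk.block ha1 (InBlk.nil B' c), ?_⟩
      rw [blockimg_block φ c a ha', blockimg_nil, one_mul, ha2]
    · rintro ⟨hw, h⟩
      rcases hw.decomp with h0 | ⟨u, w', hu, h0, hw'⟩
      · subst h0
        rw [blockimg_nil] at h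
        exact absurd h.symm (by simp)
      · subst h0
        have hu' : ∀ x ∈ u, x ≠ c := fun x hx hxc => hc (hxc ▸ hu x hx)
        rw [blockimg_block φ c u hu'] at h
        have h1 : 1 * (u.map φ).prod = t := (List.cons.inj h).1
        have h2 : blockimg φ c 1 w' = [] := (List.cons.inj h).2
        have h3 : w' = [] := hw'.eq_nil_of_blockimg φ hc h2
        subst h3
        rw [one_mul] at h1
        exact ⟨u, ⟨hu, h1⟩, [c], rfl, rfl⟩
  | union p q ihp ihq =>
    have hp : p.height ≤ 0 := le_trans (le_max_left _ _) he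
    have hq : q.height ≤ 0 := le_trans (le_max_right _ _) he
    refine ((ihp hp).add (ihq hq)).of_iff (fun w => ?_)
    refine Iff.trans (Language.mem_add _ _ _) ?_
    show ((InBlk B' c w ∧ blockimg φ c 1 w ∈ p.lang) ∨
        (InBlk B' c w ∧ blockimg φ c 1 w ∈ q.lang)) ↔
      (InBlk B' c w ∧ blockimg φ c 1 w ∈ p.lang + q.lang)
    rw [Language.mem_add]
    tauto
  | concat p q ihp ihq =>
    have hp : p.height ≤ 0 := le_trans (le_max_left _ _) he
    have hq : q.height ≤ 0 := le_trans (le_max_right _ _) he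
    refine ((ihp hp).mul (ihq hq)).of_iff (fun w => ?_)
    refine Iff.trans Language.mem_mul ?_
    show (∃ a, (InBlk B' c a ∧ blockimg φ c 1 a ∈ p.lang) ∧
        ∃ b, (InBlk B' c b ∧ blockimg φ c 1 b ∈ q.lang) ∧ a ++ b = w) ↔
      (InBlk B' c w ∧ blockimg φ c 1 w ∈ p.lang * q.lang)
    rw [Language.mem_mul]
    constructor
    · rintro ⟨a, ⟨ha1, ha2⟩, b, ⟨hb1, hb2⟩, hab⟩
      subst hab
      exact ⟨InBlk.append ha1 hb1, _, ha2, _, hb2, (blockimg_append φ c B' hc a b ha1).symm⟩
    · rintro ⟨hw, v1, hv1, v2, hv2, hv⟩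
      obtain ⟨w1, w2, h0, hw1, hw2, hb1, hb2⟩ := blockimg_split φ c B' hc v1 v2 w hw hv.symm
      subst h0
      refine ⟨w1, ⟨hw1, ?_⟩, w2, ⟨hw2, ?_⟩, rfl⟩
      · rw [hb1]
        exact hv1
      · rw [hb2]
        exact hv2
  | compl p ih =>
    have hp : p.height ≤ 0 := he
    refine GSHLe.and (gsh_inBlk B' c) (ih hp).compl (fun w => ?_)
    show (InBlk B' c w ∧ ¬ (blockimg φ c 1 w ∈ p.lang)) ↔
      (InBlk B' c w ∧ ¬ (InBlk B' c w ∧ blockimg φ c 1 w ∈ p.lang))
    tauto
  | star p ih =>
    exfalso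
    have h : p.height + 1 ≤ 0 := he
    omega

/-- Block substitution preserves star-freeness: if, for every `t`, the set of words over `B'`
with `φ`-value `t` is star-free, then the set of block words whose block image lies in a
star-free language `K` over `M` is star-free. -/
theorem sigma_sf [Fintype α] (φ : α → M) (c : α) (B' : Finset α) (hc : c ∉ B')
    (hB : ∀ t : M, GSHLe 0 ({u | (∀ x ∈ u, x ∈ B') ∧ (u.map φ).prod = t} : Language α))
    (K : Language M) (hK : GSHLe 0 K) :
    GSHLe 0 ({w | InBlk B' c w ∧ blockimg φ c 1 w ∈ K} : Language α) := by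
  obtain ⟨e, he, h⟩ := hK
  subst h
  exact sigma_sf_aux φ c B' hc hB e he

/-- The value of a block word is the product of the values of its blocks. -/
theorem prod_blockimg (φ : α → M) (c : α) (B' : Finset α) (hc : c ∉ B') (w : List α)
    (hw : InBlk B' c w) :
    (w.map φ).prod = ((blockimg φ c 1 w).map (fun t => t * φ c)).prod := by
  refine InBlk.induction (B' := B') (c := c)
    (fun w => (w.map φ).prod = ((blockimg φ c 1 w).map (fun t => t * φ c)).prod) ?_ ?_ w hw
  · show (([] : List α).map φ).prod = ((blockimg φ c 1 []).map (fun t => t * φ c)).prod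
    rw [blockimg_nil]
    rfl
  · intro u w' hu hw' ih
    have hu' : ∀ x ∈ u, x ≠ c := fun x hx hxc => hc (hxc ▸ hu x hx)
    show ((u ++ c :: w').map φ).prod =
      ((blockimg φ c 1 (u ++ c :: w')).map (fun t => t * φ c)).prod
    rw [blockimg_block φ c u hu', List.map_append, List.prod_append, List.map_cons,
      List.prod_cons, List.map_cons, List.prod_cons, ih, one_mul, mul_assoc]

end Vale.Agent.Lib.P329
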