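import Vale.Agent.Lib.P329.GRE

/-!
# Cascades: a star-free condition on top of a height-one automaton

Let `step` be a deterministic automaton on a finite state set `Q` all of whose path languages
`{w | w.foldl step q = q'}` have generalized star height at most one (for instance a finite group
all of whose recognized languages have height at most one, acting on itself). Annotate every
letter of a word with the state in which the automaton reads it (`annot`). Then for every
star-free language `K'` over the annotated alphabet `α × Q` the language of all words whose
annotation lies in `K'` has generalized star height at most one (`gsh_annot`). In the language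
of wreath products: the languages recognized by `M ≀ N` with `M` aperiodic, when all languages
recognized by `N` have height at most one.
-/

namespace Vale.Agent.Lib.P329

open Language

variable {α : Type}

/-- The annotation of a word by the states of a deterministic automaton: the letter at each
position is paired with the state in which the automaton, started in `q`, reads it. -/
def annot {Q : Type} (step : Q → α → Q) : Q → List α → List (α × Q)
  | _, [] => []
  | q, x :: w => (x, q) :: annot step (step q x) w

theorem annot_nil {Q : Type} (step : Q → α → Q) (q : Q) : annot step q [] = [] := rfl

theorem annot_cons {Q : Type} (step : Q → α → Q) (q : Q) (x : α) (w : List α) :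
    annot step q (x :: w) = (x, q) :: annot step (step q x) w := rfl

theorem annot_length {Q : Type} (step : Q → α → Q) (w : List α) :
    ∀ q, (annot step q w).length = w.length := by
  induction w with
  | nil => intro q; rfl
  | cons x w ih =>
    intro q
    rw [annot_cons, List.length_cons, List.length_cons, ih]

theorem annot_append {Q : Type} (step : Q → α → Q) (u v : List α) :
    ∀ q, annot step q (u ++ v) = annot step q u ++ annot step (u.foldl step q) v := by
  induction u with
  | nil => intro q; rfl
  | cons x u ih =>
    intro q
    rw [List.cons_append, annot_cons, annot_cons, ih, List.foldl_cons, List.cons_append]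

theorem annot_split {Q : Type} (step : Q → α → Q) (q : Q) (w : List α) (a b : List (α × Q))
    (h : annot step q w = a ++ b) :
    ∃ u v, w = u ++ v ∧ annot step q u = a ∧ annot step (u.foldl step q) v = b := by
  have hw : annot step q (w.take a.length ++ w.drop a.length) = a ++ b := by
    rw [List.take_append_drop]
    exact h
  rw [annot_append] at hw
  have hlen : (annot step q (w.take a.length)).length = a.length := by
    rw [annot_length, List.length_take]
    have h1 := congrArg List.length h
    rw [annot_length, List.length_append] at h1
    omega
  have h2 := List.append_inj hw hlen
  exact ⟨w.take a.length, w.drop a.length, (List.take_append_drop _ _).symm, h2.1, h2.2⟩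

theorem gsh_annot_aux {Q : Type} [Fintype Q] (step : Q → α → Q)
    (hrun : ∀ q q' : Q, GSHLe 1 ({w | w.foldl step q = q'} : Language α)) :
    ∀ e : GRE (α × Q), e.height = 0 → ∀ q : Q,
      GSHLe 1 ({w | annot step q w ∈ e.lang} : Language α) := by
  classical
  intro e
  induction e with
  | zero =>
    intro _ q
    refine (gsh_zero 1).of_iff (fun w => ?_)
    constructor
    · intro h
      exact absurd h (Language.notMem_zero w)
    · intro h
      exact absurd (show annot step q w ∈ (0 : Language (α × Q)) from h) (Language.notMem_zero _)
  | one =>
    intro _ q
    refine (gsh_one 1).of_iff (fun w => ?_)
    show w ∈ (1 : Language α) ↔ annot step q w ∈ (1 : Language (α × Q))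
    rw [Language.mem_one, Language.mem_one]
    cases w with
    | nil => exact ⟨fun _ => rfl, fun _ => rfl⟩
    | cons x w =>
      constructor
      · intro h
        exact absurd h (List.cons_ne_nil _ _)
      · intro h
        rw [annot_cons] at h
        exact absurd h (List.cons_ne_nil _ _)
  | letter a =>
    intro _ q
    obtain ⟨x, q'⟩ := a
    by_cases hq : q' = q
    · subst hq
      refine (gsh_letter 1 x).of_iff (fun w => ?_)
      show w = [x] ↔ annot step q' w = [(x, q')]
      cases w with
      | nil =>
        constructor
        · intro h
          exact absurd h.symm (List.cons_ne_nil _ _)
        · intro h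
          rw [annot_nil] at h
          exact absurd h.symm (List.cons_ne_nil _ _)
      | cons y w =>
        cases w with
        | nil =>
          rw [annot_cons, annot_nil]
          constructor
          · intro h
            have hy : y = x := by
              have := List.head_eq_of_cons_eq h
              exact this
            rw [hy]
          · intro h
            have hy : (y, q') = (x, q') := List.head_eq_of_cons_eq h
            have hy' : y = x := congrArg Prod.fst hy
            rw [hy']
        | cons z w =>
          constructor
          · intro h
            have := congrArg List.length h
            simp at this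
          · intro h
            have := congrArg List.length h
            rw [annot_cons, annot_cons] at this
            simp at this
    · refine (gsh_zero 1).of_iff (fun w => ?_)
      constructor
      · intro h
        exact absurd h (Language.notMem_zero w)
      · intro h
        exfalso
        have h' : annot step q w = [(x, q')] := h
        cases w with
        | nil =>
          rw [annot_nil] at h'
          exact absurd h'.symm (List.cons_ne_nil _ _)
        | cons y w =>
          rw [annot_cons] at h'
          have hy : (y, q) = (x, q') := List.head_eq_of_cons_eq h'
          exact hq (congrArg Prod.snd hy).symm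
  | union p r ihp ihr =>
    intro h q
    have h' : max p.height r.height = 0 := h
    have hp : p.height = 0 := by
      have := le_max_left p.height r.height
      omega
    have hr : r.height = 0 := by
      have := le_max_right p.height r.height
      omega
    refine ((ihp hp q).add (ihr hr q)).of_iff (fun w => ?_)
    exact Iff.rfl
  | concat p r ihp ihr =>
    intro h q
    have h' : max p.height r.height = 0 := h
    have hp : p.height = 0 := by
      have := le_max_left p.height r.height
      omega
    have hr : r.height = 0 := by
      have := le_max_right p.height r.height
      omega
    let L1 : Q → Language α := fun q' => {w | annot step q w ∈ p.lang}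
    let L2 : Q → Language α := fun q' => {w | w.foldl step q = q'}
    let L3 : Q → Language α := fun q' => {w | annot step q' w ∈ r.lang}
    have hL : ∀ q' : Q, GSHLe 1 ((L1 q' ⊓ L2 q') * L3 q') := fun q' =>
      ((ihp hp q).inf (hrun q q')).mul (ihr hr q')
    refine (gsh_exists _ hL).of_iff (fun w => ?_)
    show (∃ q' : Q, w ∈ (L1 q' ⊓ L2 q') * L3 q') ↔ annot step q w ∈ p.lang * r.lang
    constructor
    · rintro ⟨q', hw⟩
      rw [Language.mem_mul] at hw
      obtain ⟨u, hu, v, hv, rfl⟩ := hw
      rw [Language.mem_inf] at hu
      obtain ⟨hu1, hu2⟩ := hu
      have hu1' : annot step q u ∈ p.lang := hu1
      have hu2' : u.foldl step q = q' := hu2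
      have hv' : annot step q' v ∈ r.lang := hv
      rw [annot_append, hu2', Language.mem_mul]
      exact ⟨_, hu1', _, hv', rfl⟩
    · intro hw
      rw [Language.mem_mul] at hw
      obtain ⟨a, ha, b, hb, hab⟩ := hw
      obtain ⟨u, v, rfl, hu, hv⟩ := annot_split step q w a b hab.symm
      refine ⟨u.foldl step q, ?_⟩
      rw [Language.mem_mul]
      refine ⟨u, ?_, v, ?_, rfl⟩
      · rw [Language.mem_inf]
        refine ⟨?_, rfl⟩
        show annot step q u ∈ p.lang
        rw [hu]
        exact ha
      · show annot step (u.foldl step q) v ∈ r.lang
        rw [hv]
        exact hb
  | compl p ih =>
    intro h q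
    have hp : p.height = 0 := h
    refine (ih hp q).compl.of_iff (fun w => ?_)
    exact Iff.rfl
  | star p _ =>
    intro h
    exact absurd h (Nat.succ_ne_zero _)

/-- **Cascade closure.** If all path languages of the automaton `step` have generalized star
height at most one, then so does the language of all words whose annotation by the states of
`step` lies in a given star-free language over the annotated alphabet. -/
theorem gsh_annot {Q : Type} [Fintype Q] (step : Q → α → Q)
    (hrun : ∀ q q' : Q, GSHLe 1 ({w | w.foldl step q = q'} : Language α))
    (K' : Language (α × Q)) (hK' : GSHLe 0 K') (q0 : Q) :
    GSHLe 1 ({w | annot step q0 w ∈ K'} : Language α) := by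
  obtain ⟨e, he, rfl⟩ := hK'
  exact gsh_annot_aux step hrun e (Nat.le_zero.mp he) q0

theorem foldl_mul_prod {G : Type} [Monoid G] (φ : α → G) (w : List α) :
    ∀ g : G, w.foldl (fun g x => g * φ x) g = g * (w.map φ).prod := by
  induction w with
  | nil => intro g; simp
  | cons x w ih =>
    intro g
    rw [List.foldl_cons, ih, List.map_cons, List.prod_cons, mul_assoc]

/-- Cascade closure over a group: a star-free condition on the word annotated by its prefix
products in a finite group all of whose languages (through `φ`) have height at most one. -/
theorem gsh_annot_group {G : Type} [Group G] [Fintype G] (φ : α → G)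
    (hG : ∀ P : Set G, GSHLe 1 ({w | (w.map φ).prod ∈ P} : Language α))
    (K' : Language (α × G)) (hK' : GSHLe 0 K') (g0 : G) :
    GSHLe 1 ({w | annot (fun g x => g * φ x) g0 w ∈ K'} : Language α) := by
  refine gsh_annot (fun g x => g * φ x) (fun q q' => ?_) K' hK' g0
  refine (hG {q⁻¹ * q'}).of_iff (fun w => ?_)
  show (w.map φ).prod = q⁻¹ * q' ↔ w.foldl (fun g x => g * φ x) q = q'
  rw [foldl_mul_prod]
  constructor
  · intro h
    rw [h, mul_inv_cancel_left]
  · intro h
    rw [← h, inv_mul_cancel_left]

end Vale.Agent.Lib.P329
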