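import Vale.Agent.Lib.P329.PosSum
import Mathlib.GroupTheory.Nilpotent

/-!
# Two letters in a group of nilpotency class at most four

Let `x`, `y` be the images of two letters `a`, `b` (all other letters being sent to `1`) in a
group whose lower central series vanishes after four steps. Collecting the letters `a` to the
right gives
`image of w = c₁ ^ P₁₀ * c₂ ^ P₂₀ * c₃ ^ P₃₀ * c₄ ^ P₁₁ * c₅ ^ P₂₁ * c₆ ^ P₁₂ * y ^ #b * x ^ #a`,
where `c₁ = [x, y]`, `c₂ = [x, c₁]`, `c₃ = [x, c₂]`, `c₄ = [y, c₁]`, `c₅ = [y, c₂]`,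
`c₆ = [y, c₄]` commute with each other and `P_ij` is the sum over the occurrences of `b` of
`C(A, i) * C(B, j)`, `A` and `B` being the numbers of earlier `a` and `b`.
-/

namespace Vale.Agent.Lib.P329

open scoped commutatorElement

variable {α : Type} [DecidableEq α]

section core4

variable {G A : Type} [Group G] [CommGroup A]

/-- product over the occurrences of `b` of a function of the numbers of earlier `a`, `b` -/
def pprod (a b : α) (E : ℕ → ℕ → A) : ℕ → ℕ → List α → A
  | _, _, [] => 1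
  | X, Y, z :: w => (if z = b then E X Y else 1)
      * pprod a b E (if z = a then X + 1 else X) (if z = b then Y + 1 else Y) w

theorem pprod_cons (a b : α) (E : ℕ → ℕ → A) (X Y : ℕ) (z : α) (w : List α) :
    pprod a b E X Y (z :: w) = (if z = b then E X Y else 1)
      * pprod a b E (if z = a then X + 1 else X) (if z = b then Y + 1 else Y) w := rfl

theorem pprod_mul (a b : α) (E E' : ℕ → ℕ → A) (w : List α) :
    ∀ X Y : ℕ, pprod a b (fun X Y => E X Y * E' X Y) X Y w
      = pprod a b E X Y w * pprod a b E' X Y w := by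
  induction w with
  | nil =>
    intro X Y
    show (1 : A) = 1 * 1
    rw [mul_one]
  | cons z v ih =>
    intro X Y
    rw [pprod_cons, pprod_cons, pprod_cons, ih]
    by_cases hz : z = b
    · simp only [if_pos hz]
      exact mul_mul_mul_comm _ _ _ _
    · simp only [if_neg hz, one_mul]

theorem pprod_pow (a b : α) (c : A) (e : ℕ → ℕ → ℕ) (w : List α) :
    ∀ X Y : ℕ, pprod a b (fun X Y => c ^ e X Y) X Y w = c ^ psum a b b e X Y w := by
  induction w with
  | nil =>
    intro X Y
    show (1 : A) = c ^ 0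
    rw [pow_zero]
  | cons z v ih =>
    intro X Y
    rw [pprod_cons, psum_cons, ih, pow_add]
    by_cases hz : z = b
    · simp only [if_pos hz]
    · simp only [if_neg hz, pow_zero]

variable (ι : A →* G) (ad : G → A →* A)

/-- the conjugate of `c` by `y ^ Y * x ^ X` -/
def qf (x y : G) (c : A) (X Y : ℕ) : A :=
  c * ad x c ^ X * ad x (ad x c) ^ X.choose 2 * ad y c ^ Y * ad y (ad x c) ^ (X * Y)
    * ad y (ad y c) ^ Y.choose 2

/-- the correction produced by moving one `y` to the left of `x ^ X` behind `y ^ Y` -/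
def ef (x y : G) (c : A) (X Y : ℕ) : A :=
  c ^ X * ad x c ^ X.choose 2 * ad x (ad x c) ^ X.choose 3 * ad y c ^ (X * Y)
    * ad y (ad x c) ^ (X.choose 2 * Y) * ad y (ad y c) ^ (X * Y.choose 2)

theorem iota_conj (hι : ∀ g c, ι (ad g c) = ⁅g, ι c⁆) (g : G) (c : A) :
    ι (ad g c * c) = g * ι c * g⁻¹ := by
  rw [map_mul, hι, commutatorElement_def]
  group

theorem qf_succ_x (h3 : ∀ g1 g2 g3 c, ad g1 (ad g2 (ad g3 c)) = 1) (x y : G) (c : A) (X : ℕ) :
    ad x (qf ad x y c X 0) * qf ad x y c X 0 = qf ad x y c (X + 1) 0 := by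
  unfold qf
  simp only [Nat.choose_zero_succ, mul_zero, pow_zero, mul_one, map_mul, map_pow, h3, one_pow]
  rw [choose_two_succ, pow_succ, pow_add]
  simp only [mul_comm, mul_left_comm, mul_assoc]

theorem qf_succ_y (h3 : ∀ g1 g2 g3 c, ad g1 (ad g2 (ad g3 c)) = 1) (x y : G) (c : A)
    (X Y : ℕ) : ad y (qf ad x y c X Y) * qf ad x y c X Y = qf ad x y c X (Y + 1) := by
  unfold qf
  simp only [map_mul, map_pow, h3, one_pow, mul_one]
  rw [choose_two_succ, Nat.mul_succ, pow_succ, pow_add, pow_add]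
  simp only [mul_comm, mul_left_comm, mul_assoc]

theorem iota_qf (hι : ∀ g c, ι (ad g c) = ⁅g, ι c⁆)
    (h3 : ∀ g1 g2 g3 c, ad g1 (ad g2 (ad g3 c)) = 1) (x y : G) (c : A) (hc : ι c = ⁅x, y⁆)
    (X Y : ℕ) : ι (qf ad x y c X Y) = (y ^ Y * x ^ X) * ⁅x, y⁆ * (y ^ Y * x ^ X)⁻¹ := by
  induction Y with
  | zero =>
    induction X with
    | zero =>
      have e : qf ad x y c 0 0 = c := by
        unfold qf
        simp
      rw [e, hc]
      simp
    | succ X ih =>
      rw [← qf_succ_x ad h3, iota_conj ι ad hι, ih, pow_succ']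
      group
  | succ Y ih =>
    rw [← qf_succ_y ad h3, iota_conj ι ad hι, ih, pow_succ']
    group

theorem ef_succ (x y : G) (c : A) (X Y : ℕ) :
    ef ad x y c (X + 1) Y = qf ad x y c X Y * ef ad x y c X Y := by
  unfold ef qf
  rw [choose_two_succ, choose_three_succ, Nat.succ_mul, Nat.add_mul, Nat.succ_mul]
  simp only [pow_add, pow_one]
  simp only [mul_comm, mul_left_comm, mul_assoc]

/-- moving one `y` to the left of `x ^ X` -/
theorem collect_step (hι : ∀ g c, ι (ad g c) = ⁅g, ι c⁆)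
    (h3 : ∀ g1 g2 g3 c, ad g1 (ad g2 (ad g3 c)) = 1) (x y : G) (c : A) (hc : ι c = ⁅x, y⁆)
    (X Y : ℕ) : y ^ Y * x ^ X * y = ι (ef ad x y c X Y) * y ^ (Y + 1) * x ^ X := by
  induction X with
  | zero =>
    have e : ef ad x y c 0 Y = 1 := by
      unfold ef
      simp
    rw [e, map_one, pow_zero, mul_one, mul_one, one_mul, pow_succ]
  | succ X ih =>
    have e1 : y ^ Y * x ^ (X + 1) * y
        = ((y ^ Y * x ^ X) * ⁅x, y⁆ * (y ^ Y * x ^ X)⁻¹) * (y ^ Y * x ^ X * y) * x := by
      rw [pow_succ, commutatorElement_def]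
      group
    rw [e1, ← iota_qf ι ad hι h3 x y c hc X Y, ih, ef_succ, map_mul, pow_succ x X]
    simp only [mul_assoc]

/-- the collection formula -/
theorem collect_formula (hι : ∀ g c, ι (ad g c) = ⁅g, ι c⁆)
    (h3 : ∀ g1 g2 g3 c, ad g1 (ad g2 (ad g3 c)) = 1) (g : α → G) (a b : α) (hab : a ≠ b)
    (c : A) (hc : ι c = ⁅g a, g b⁆) (hg : ∀ z, z ≠ a → z ≠ b → g z = 1) (w : List α) :
    ∀ X Y : ℕ, g b ^ Y * g a ^ X * (w.map g).prod
      = ι (pprod a b (ef ad (g a) (g b) c) X Y w) * g b ^ (Y + w.count b)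
        * g a ^ (X + w.count a) := by
  induction w with
  | nil =>
    intro X Y
    simp [pprod]
  | cons z v ih =>
    intro X Y
    rw [List.map_cons, List.prod_cons, pprod_cons]
    by_cases hza : z = a
    · subst hza
      have hzb : z ≠ b := hab
      rw [List.count_cons_self, List.count_cons_of_ne hzb]
      simp only [↓reduceIte, if_neg hzb]
      have e1 : g b ^ Y * g z ^ X * (g z * (v.map g).prod)
          = g b ^ Y * g z ^ (X + 1) * (v.map g).prod := by
        rw [pow_succ]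
        simp only [mul_assoc]
      have e2 : X + (v.count z + 1) = (X + 1) + v.count z := by omega
      rw [e1, ih (X + 1) Y, one_mul, e2]
    · by_cases hzb : z = b
      · subst hzb
        rw [List.count_cons_self, List.count_cons_of_ne hza]
        simp only [↓reduceIte, if_neg hza]
        have e1 : g z ^ Y * g a ^ X * (g z * (v.map g).prod)
            = ι (ef ad (g a) (g z) c X Y) * (g z ^ (Y + 1) * g a ^ X * (v.map g).prod) := by
          have h := collect_step ι ad hι h3 (g a) (g z) c hc X Y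
          calc g z ^ Y * g a ^ X * (g z * (v.map g).prod)
              = (g z ^ Y * g a ^ X * g z) * (v.map g).prod := by simp only [mul_assoc]
            _ = ι (ef ad (g a) (g z) c X Y) * (g z ^ (Y + 1) * g a ^ X * (v.map g).prod) := by
                rw [h]
                simp only [mul_assoc]
        have e2 : Y + (v.count z + 1) = (Y + 1) + v.count z := by omega
        rw [e1, ih X (Y + 1), map_mul, e2]
        simp only [mul_assoc]
      · rw [List.count_cons_of_ne hza, List.count_cons_of_ne hzb, hg z hza hzb]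
        simp only [if_neg hza, if_neg hzb]
        rw [one_mul, one_mul]
        exact ih X Y

/-- the image of a word is determined by the numbers of `a` and `b` and by six sums over the
occurrences of `b`, all modulo `m` -/
theorem collect_det (hι : ∀ g c, ι (ad g c) = ⁅g, ι c⁆)
    (h3 : ∀ g1 g2 g3 c, ad g1 (ad g2 (ad g3 c)) = 1) (g : α → G) (a b : α) (hab : a ≠ b)
    (c : A) (hc : ι c = ⁅g a, g b⁆) (hg : ∀ z, z ≠ a → z ≠ b → g z = 1)
    (m : ℕ) (hG : ∀ u : G, u ^ m = 1) (hA : ∀ u : A, u ^ m = 1) (w w' : List α)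
    (ha : w.count a % m = w'.count a % m) (hb : w.count b % m = w'.count b % m)
    (h1 : psum a b b (fun X _ => X) 0 0 w % m = psum a b b (fun X _ => X) 0 0 w' % m)
    (h2 : psum a b b (fun X _ => X.choose 2) 0 0 w % m
      = psum a b b (fun X _ => X.choose 2) 0 0 w' % m)
    (h3' : psum a b b (fun X _ => X.choose 3) 0 0 w % m
      = psum a b b (fun X _ => X.choose 3) 0 0 w' % m)
    (h4 : psum a b b (fun X Y => X * Y) 0 0 w % m = psum a b b (fun X Y => X * Y) 0 0 w' % m)
    (h5 : psum a b b (fun X Y => X.choose 2 * Y) 0 0 w % m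
      = psum a b b (fun X Y => X.choose 2 * Y) 0 0 w' % m)
    (h6 : psum a b b (fun X Y => X * Y.choose 2) 0 0 w % m
      = psum a b b (fun X Y => X * Y.choose 2) 0 0 w' % m) :
    (w.map g).prod = (w'.map g).prod := by
  have key : ∀ v : List α, (v.map g).prod
      = ι (c ^ (psum a b b (fun X _ => X) 0 0 v % m)
          * ad (g a) c ^ (psum a b b (fun X _ => X.choose 2) 0 0 v % m)
          * ad (g a) (ad (g a) c) ^ (psum a b b (fun X _ => X.choose 3) 0 0 v % m)
          * ad (g b) c ^ (psum a b b (fun X Y => X * Y) 0 0 v % m)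
          * ad (g b) (ad (g a) c) ^ (psum a b b (fun X Y => X.choose 2 * Y) 0 0 v % m)
          * ad (g b) (ad (g b) c) ^ (psum a b b (fun X Y => X * Y.choose 2) 0 0 v % m))
        * g b ^ (v.count b % m) * g a ^ (v.count a % m) := by
    intro v
    have h := collect_formula ι ad hι h3 g a b hab c hc hg v 0 0
    rw [pow_zero, pow_zero, one_mul, one_mul, zero_add, zero_add] at h
    rw [h]
    have e : pprod a b (ef ad (g a) (g b) c) 0 0 v
        = c ^ (psum a b b (fun X _ => X) 0 0 v)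
          * ad (g a) c ^ (psum a b b (fun X _ => X.choose 2) 0 0 v)
          * ad (g a) (ad (g a) c) ^ (psum a b b (fun X _ => X.choose 3) 0 0 v)
          * ad (g b) c ^ (psum a b b (fun X Y => X * Y) 0 0 v)
          * ad (g b) (ad (g a) c) ^ (psum a b b (fun X Y => X.choose 2 * Y) 0 0 v)
          * ad (g b) (ad (g b) c) ^ (psum a b b (fun X Y => X * Y.choose 2) 0 0 v) := by
      unfold ef
      rw [pprod_mul, pprod_mul, pprod_mul, pprod_mul, pprod_mul, pprod_pow, pprod_pow, pprod_pow,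
        pprod_pow, pprod_pow, pprod_pow]
    rw [e, ← pow_eq_pow_mod _ (hG (g b)), ← pow_eq_pow_mod _ (hG (g a)),
      ← pow_eq_pow_mod _ (hA _), ← pow_eq_pow_mod _ (hA _), ← pow_eq_pow_mod _ (hA _),
      ← pow_eq_pow_mod _ (hA _), ← pow_eq_pow_mod _ (hA _), ← pow_eq_pow_mod _ (hA _)]
  rw [key w, key w', ha, hb, h1, h2, h3', h4, h5, h6]

end core4

section nilp4

variable {G : Type} [Group G]

theorem comm_mem_next (L : Subgroup G) (c : G) (hc : c ∈ L) (g : G) :
    ⁅g, c⁆ ∈ ⁅L, (⊤ : Subgroup G)⁆ := by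
  rw [← commutatorElement_inv]
  exact Subgroup.inv_mem _ (Subgroup.commutator_mem_commutator hc (Subgroup.mem_top g))

/-- two letters in a group whose lower central series vanishes after four steps: the image of
a word is determined by the numbers of `a` and `b` and by six sums over the occurrences of
`b`, all modulo the order of the group -/
theorem class_four_det (h : Subgroup.lowerCentralSeries (⊤ : Subgroup G) 4 = ⊥)
    (g : α → G) (a b : α) (hab : a ≠ b) (hg : ∀ z, z ≠ a → z ≠ b → g z = 1) (w w' : List α)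
    (ha : w.count a % Nat.card G = w'.count a % Nat.card G)
    (hb : w.count b % Nat.card G = w'.count b % Nat.card G)
    (h1 : psum a b b (fun X _ => X) 0 0 w % Nat.card G
      = psum a b b (fun X _ => X) 0 0 w' % Nat.card G)
    (h2 : psum a b b (fun X _ => X.choose 2) 0 0 w % Nat.card G
      = psum a b b (fun X _ => X.choose 2) 0 0 w' % Nat.card G)
    (h3 : psum a b b (fun X _ => X.choose 3) 0 0 w % Nat.card G
      = psum a b b (fun X _ => X.choose 3) 0 0 w' % Nat.card G)
    (h4 : psum a b b (fun X Y => X * Y) 0 0 w % Nat.card G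
      = psum a b b (fun X Y => X * Y) 0 0 w' % Nat.card G)
    (h5 : psum a b b (fun X Y => X.choose 2 * Y) 0 0 w % Nat.card G
      = psum a b b (fun X Y => X.choose 2 * Y) 0 0 w' % Nat.card G)
    (h6 : psum a b b (fun X Y => X * Y.choose 2) 0 0 w % Nat.card G
      = psum a b b (fun X Y => X * Y.choose 2) 0 0 w' % Nat.card G) :
    (w.map g).prod = (w'.map g).prod := by
  have hL4 : ⁅⁅⁅⁅(⊤ : Subgroup G), (⊤ : Subgroup G)⁆, (⊤ : Subgroup G)⁆, (⊤ : Subgroup G)⁆,
      (⊤ : Subgroup G)⁆ = ⊥ := h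
  have h12 : ⁅⁅(⊤ : Subgroup G), (⊤ : Subgroup G)⁆,
      ⁅⁅(⊤ : Subgroup G), (⊤ : Subgroup G)⁆, (⊤ : Subgroup G)⁆⁆ = ⊥ := by
    refine Subgroup.commutator_commutator_eq_bot_of_rotate ?_ hL4
    rw [Subgroup.commutator_comm (⊤ : Subgroup G)
      ⁅⁅(⊤ : Subgroup G), (⊤ : Subgroup G)⁆, (⊤ : Subgroup G)⁆]
    exact hL4
  have hcomm12 : ∀ c d : G, c ∈ ⁅(⊤ : Subgroup G), (⊤ : Subgroup G)⁆ →
      d ∈ ⁅⁅(⊤ : Subgroup G), (⊤ : Subgroup G)⁆, (⊤ : Subgroup G)⁆ → c * d = d * c := by
    intro c d hc hd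
    have h4 : ⁅c, d⁆ ∈ ⁅⁅(⊤ : Subgroup G), (⊤ : Subgroup G)⁆,
        ⁅⁅(⊤ : Subgroup G), (⊤ : Subgroup G)⁆, (⊤ : Subgroup G)⁆⁆ :=
      Subgroup.commutator_mem_commutator hc hd
    rw [h12, Subgroup.mem_bot] at h4
    exact commutatorElement_eq_one_iff_mul_comm.mp h4
  have h21 : ⁅⁅(⊤ : Subgroup G), (⊤ : Subgroup G)⁆, (⊤ : Subgroup G)⁆
      ≤ ⁅(⊤ : Subgroup G), (⊤ : Subgroup G)⁆ := Subgroup.commutator_le_left _ _
  let k : Set G := insert ⁅g a, g b⁆
    ((⁅⁅(⊤ : Subgroup G), (⊤ : Subgroup G)⁆, (⊤ : Subgroup G)⁆ : Subgroup G) : Set G)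
  have hk1 : ∀ u ∈ k, u ∈ ⁅(⊤ : Subgroup G), (⊤ : Subgroup G)⁆ := by
    intro u hu
    rcases hu with hu | hu
    · rw [hu]
      exact Subgroup.commutator_mem_commutator (Subgroup.mem_top _) (Subgroup.mem_top _)
    · exact h21 hu
  have hkc : ∀ u ∈ k, ∀ v ∈ k, u * v = v * u := by
    intro u hu v hv
    rcases hu with hu | hu
    · rcases hv with hv | hv
      · rw [hu, hv]
      · exact hcomm12 u v (hk1 u (Or.inl hu)) hv
    · exact (hcomm12 v u (hk1 v hv) hu).symm
  have hcl : Subgroup.closure k ≤ ⁅(⊤ : Subgroup G), (⊤ : Subgroup G)⁆ :=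
    (Subgroup.closure_le _).mpr hk1
  have hIC : IsMulCommutative ↥(Subgroup.closure k) := Subgroup.isMulCommutative_closure hkc
  let _ : CommGroup ↥(Subgroup.closure k) :=
    { (inferInstance : Group ↥(Subgroup.closure k)) with
      mul_comm := fun u v => hIC.is_comm.comm u v }
  let ι : ↥(Subgroup.closure k) →* G := (Subgroup.closure k).subtype
  have hmem : ∀ (u : G) (c : ↥(Subgroup.closure k)), ⁅u, (c : G)⁆ ∈ Subgroup.closure k :=
    fun u c => Subgroup.subset_closure (Or.inr (comm_mem_next _ _ (hcl c.2) u))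
  let ad : G → ↥(Subgroup.closure k) →* ↥(Subgroup.closure k) := fun u =>
    { toFun := fun c => ⟨⁅u, (c : G)⁆, hmem u c⟩
      map_one' := Subtype.ext (commutatorElement_one_right u)
      map_mul' := fun c d => Subtype.ext (by
        show ⁅u, (c : G) * (d : G)⁆ = ⁅u, (c : G)⁆ * ⁅u, (d : G)⁆
        have hc := hcomm12 c ⁅u, (d : G)⁆ (hcl c.2) (comm_mem_next _ _ (hcl d.2) u)
        have e : ⁅u, (c : G) * (d : G)⁆ = ⁅u, (c : G)⁆ * ((c : G) * ⁅u, (d : G)⁆ * (c : G)⁻¹) := by
          simp only [commutatorElement_def]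
          group
        rw [e, hc, mul_inv_cancel_right]) }
  have h3' : ∀ (g1 g2 g3 : G) (c : ↥(Subgroup.closure k)), ad g1 (ad g2 (ad g3 c)) = 1 := by
    intro g1 g2 g3 c
    apply Subtype.ext
    show ⁅g1, ⁅g2, ⁅g3, (c : G)⁆⁆⁆ = 1
    have m1 := comm_mem_next _ _ (hcl c.2) g3
    have m2 := comm_mem_next _ _ m1 g2
    have m3 := comm_mem_next _ _ m2 g1
    rw [hL4, Subgroup.mem_bot] at m3
    exact m3
  exact collect_det ι ad (fun _ _ => rfl) h3' g a b hab
    ⟨⁅g a, g b⁆, Subgroup.subset_closure (Or.inl rfl)⟩ rfl hg (Nat.card G)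
    (fun _ => pow_card_eq_one')
    (fun u => Subtype.ext (by rw [Subgroup.coe_pow]; exact pow_card_eq_one'))
    w w' ha hb h1 h2 h3 h4 h5 h6

end nilp4

end Vale.Agent.Lib.P329
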