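import Vale.Agent.Lib.P329.MetaStat

/-!
# One letter outside an abelian normal subgroup

Let `N` be an abelian normal subgroup of a finite group `G` and let `φ` send every letter except
one letter `a` into `N`. The image of a word is then the product, over the occurrences of the
other letters `z`, of the conjugates of `φ z` by `φ a ^ (number of earlier a)`, times a power of
`φ a`. The conjugates lie in `N` and commute, so the image is determined by the numbers, modulo
the order of `G`, of the occurrences of `z` preceded by a given number of `a` modulo the order of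
`G`. These are statistics of generalized star height at most one for every modulus.
-/

namespace Vale.Agent.Lib.P329

open Language

variable {α : Type} [DecidableEq α]

/-- a product over the occurrences of `z` of products of powers -/
theorem mprodAux_prod_pow {A : Type} [CommMonoid A] {ι : Type} (R : Finset ι) (z : α)
    (d : ι → A) (ind : ι → (α → ℕ) → ℕ) (w : List α) :
    ∀ n : α → ℕ, mprodAux (fun y n => if y = z then ∏ r ∈ R, d r ^ ind r n else 1) n w
      = ∏ r ∈ R, d r ^ msumAux z (ind r) n w := by
  induction w with
  | nil =>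
    intro n
    show (1 : A) = ∏ r ∈ R, d r ^ 0
    simp
  | cons y v ih =>
    intro n
    rw [mprodAux_cons, ih]
    have e : ∀ r ∈ R, d r ^ msumAux z (ind r) n (y :: v)
        = d r ^ (if y = z then ind r n else 0) * d r ^ msumAux z (ind r) (bump n y) v := by
      intro r _
      rw [msumAux_cons, pow_add]
    rw [Finset.prod_congr rfl e, Finset.prod_mul_distrib]
    congr 1
    by_cases hy : y = z
    · simp only [if_pos hy]
    · simp only [if_neg hy, pow_zero, Finset.prod_const_one]

/-- the image of a word when all letters except `a` are sent into a commutative group `A`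
mapped to `G` -/
theorem clock_prod {G A : Type} [Group G] [CommGroup A] (ι : A →* G) (a : α) (φ : α → G)
    (F : α → (α → ℕ) → A) (hFa : ∀ n, F a n = 1)
    (hF : ∀ y n, y ≠ a → ι (F y n) = φ a ^ n a * φ y * (φ a ^ n a)⁻¹) (w : List α) :
    ∀ n : α → ℕ, φ a ^ n a * (w.map φ).prod
      = ι (mprodAux F n w) * φ a ^ (n a + w.count a) := by
  induction w with
  | nil =>
    intro n
    show φ a ^ n a * 1 = ι 1 * φ a ^ (n a + 0)
    rw [mul_one, map_one, one_mul, Nat.add_zero]
  | cons y v ih =>
    intro n
    rw [List.map_cons, List.prod_cons, mprodAux_cons, map_mul]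
    by_cases hy : y = a
    · rw [hy, hFa, map_one, one_mul, List.count_cons_self]
      have h := ih (bump n a)
      rw [bump_self] at h
      rw [← mul_assoc, ← pow_succ, h]
      congr 2
      omega
    · have h := ih (bump n y)
      rw [bump_ne n (fun h' => hy h'.symm)] at h
      rw [hF y n hy, List.count_cons_of_ne hy, mul_assoc (φ a ^ n a * φ y * (φ a ^ n a)⁻¹),
        ← h]
      group

variable [Fintype α]

/-- **One letter outside an abelian normal subgroup.** Let `N` be an abelian normal subgroup of
a finite group `G`. If a map `φ` from the letters into `G` sends every letter other than one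
letter `a` into `N`, then every language recognized by `G` through `φ` has generalized star
height at most one. -/
theorem gsh_one_clock {G : Type} [Group G] [Finite G] (N : Subgroup G) [hNn : N.Normal]
    (hN : ∀ x ∈ N, ∀ y ∈ N, x * y = y * x) (a : α) (φ : α → G)
    (hφ : ∀ x, x ≠ a → φ x ∈ N) (P : Set G) :
    GSHLe 1 ({w | (w.map φ).prod ∈ P} : Language α) := by
  let _ : CommGroup ↥N :=
    { (inferInstance : Group ↥N) with
      mul_comm := fun x y => Subtype.ext (hN x x.2 y y.2) }
  have hq0 : 0 < Nat.card G := Nat.card_pos
  have : NeZero (Nat.card G) := ⟨hq0.ne'⟩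
  let D : α → ℕ → ↥N := fun z r =>
    if h : z = a then 1 else ⟨φ a ^ r * φ z * (φ a ^ r)⁻¹, hNn.conj_mem _ (hφ z h) _⟩
  have hDa : ∀ r, D a r = 1 := fun r => dif_pos rfl
  have hD : ∀ z r, z ≠ a → ((D z r : ↥N) : G) = φ a ^ r * φ z * (φ a ^ r)⁻¹ := by
    intro z r hz
    show (((if h : z = a then (1 : ↥N)
      else ⟨φ a ^ r * φ z * (φ a ^ r)⁻¹, hNn.conj_mem _ (hφ z h) _⟩) : ↥N) : G) = _
    rw [dif_neg hz]
  have hDmod : ∀ z r, D z (r % Nat.card G) = D z r := by
    intro z r
    by_cases hz : z = a
    · rw [hz, hDa, hDa]
    · apply Subtype.ext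
      rw [hD z _ hz, hD z _ hz, pow_mod_natCard]
  have hpow : ∀ (d : ↥N) (c c' : ℕ), c % Nat.card G = c' % Nat.card G → d ^ c = d ^ c' := by
    intro d c c' h
    apply Subtype.ext
    rw [Subgroup.coe_pow, Subgroup.coe_pow, ← pow_mod_natCard (d : G) c,
      ← pow_mod_natCard (d : G) c', h]
  -- the formula
  have hform : ∀ w : List α, (w.map φ).prod
      = ((∏ z : α, ∏ r ∈ Finset.range (Nat.card G),
          D z r ^ msum z (fun n => if n a % Nat.card G = r then 1 else 0) w : ↥N) : G)
        * φ a ^ w.count a := by
    intro w
    have h1 := clock_prod N.subtype a φ (fun y n => D y (n a)) (fun n => hDa _)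
      (fun y n hy => hD y (n a) hy) w (fun _ => 0)
    rw [pow_zero, one_mul, Nat.zero_add] at h1
    rw [h1]
    congr 1
    show ((mprodAux (fun y n => D y (n a)) (fun _ => 0) w : ↥N) : G) = _
    congr 1
    rw [mprodAux_split]
    refine Finset.prod_congr rfl (fun z _ => ?_)
    have e : ∀ (y : α) (n : α → ℕ), (if y = z then D z (n a) else 1)
        = if y = z then ∏ r ∈ Finset.range (Nat.card G),
            D z r ^ (if n a % Nat.card G = r then 1 else 0) else 1 := by
      intro y n
      by_cases hy : y = z
      · rw [if_pos hy, if_pos hy,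
          Finset.prod_eq_single_of_mem (n a % Nat.card G)
            (Finset.mem_range.mpr (Nat.mod_lt _ hq0))
            (fun r _ hr => by rw [if_neg (fun h => hr h.symm), pow_zero]),
          if_pos rfl, pow_one, hDmod]
      · rw [if_neg hy, if_neg hy]
    rw [mprodAux_congr (A := ↥N) _ _ e (fun _ => 0) w]
    exact mprodAux_prod_pow (Finset.range (Nat.card G)) z (D z)
      (fun r n => if n a % Nat.card G = r then 1 else 0) w (fun _ => 0)
  -- the statistics
  have hdet : DetBy (fun w w' : List α =>
      ((w.count a : ℕ) : ZMod (Nat.card G)) = ((w'.count a : ℕ) : ZMod (Nat.card G))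
      ∧ ∀ (z : α) (r : Fin (Nat.card G)), z ≠ a →
        ((wsum {a} z (fun k => if k % Nat.card G = r.val then 1 else 0) 0 w : ℕ)
            : ZMod (Nat.card G))
          = ((wsum {a} z (fun k => if k % Nat.card G = r.val then 1 else 0) 0 w' : ℕ)
            : ZMod (Nat.card G))) := by
    refine (DetBy.of_stat (stat_count (Nat.card G) a)).and
      (DetBy.forall (fun z => DetBy.forall (fun r => ?_)))
    by_cases hz : z = a
    · exact (DetBy.trivial True trivial).mono (fun w w' _ h => absurd hz h)
    · exact (DetBy.of_stat (wsum_stat {a} z (notMem_one hz) (Nat.card G)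
        (fun k => if k % Nat.card G = r.val then 1 else 0) (Nat.card G) hq0
        (fun k => by rw [Nat.add_mod_right]))).mono (fun w w' h _ => h)
  refine gsh_of_detBy hdet _ (fun w w' hQ => ?_)
  obtain ⟨hc, hs⟩ := hQ
  have e : (w.map φ).prod = (w'.map φ).prod := by
    rw [hform w, hform w']
    have hcount : w.count a % Nat.card G = w'.count a % Nat.card G :=
      (ZMod.natCast_eq_natCast_iff' _ _ _).mp hc
    rw [← pow_mod_natCard (φ a) (w.count a), ← pow_mod_natCard (φ a) (w'.count a), hcount]
    congr 2
    refine Finset.prod_congr rfl (fun z _ => Finset.prod_congr rfl (fun r hr => ?_))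
    by_cases hz : z = a
    · rw [hz, hDa, one_pow, one_pow]
    · apply hpow
      have h := hs z ⟨r, Finset.mem_range.mp hr⟩ hz
      rw [wsum_single, wsum_single] at h
      exact (ZMod.natCast_eq_natCast_iff' _ _ _).mp h
  show (w.map φ).prod ∈ P ↔ (w'.map φ).prod ∈ P
  rw [e]

end Vale.Agent.Lib.P329
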