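import Vale.Agent.Lib.P329.GRE

namespace Vale.Agent.Lib.P329

/-- `HeightOneGroup G`: over every finite alphabet `β`, every language recognized by the group
`G` (through any map `φ` from the letters into `G`, i.e. any monoid morphism from the words into
`G`, and any accepting set `P ⊆ G`) has generalized star height at most `1`. -/
def HeightOneGroup (G : Type) [Group G] : Prop :=
  ∀ (β : Type) [Fintype β] [DecidableEq β] (φ : β → G) (P : Set G),
    GSHLe 1 ({w | (w.map φ).prod ∈ P} : Language β)

/-- Subgroups: if `H` embeds into `G` and `G` is a height-one group, so is `H`. -/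
theorem HeightOneGroup.of_injective {G H : Type} [Group G] [Group H] (f : H →* G)
    (hf : Function.Injective f) (hG : HeightOneGroup G) : HeightOneGroup H := by
  intro β _ _ φ P
  refine (hG β (fun x => f (φ x)) (f '' P)).of_iff (fun w => ?_)
  have hprod : (w.map (fun x => f (φ x))).prod = f ((w.map φ).prod) := by
    induction w with
    | nil => simp
    | cons x w ih => simp [ih]
  show (w.map (fun x => f (φ x))).prod ∈ f '' P ↔ (w.map φ).prod ∈ P
  rw [hprod]
  exact hf.mem_set_image

/-- Quotients: if `G` maps onto `H` and `G` is a height-one group, so is `H`. -/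
theorem HeightOneGroup.of_surjective {G H : Type} [Group G] [Group H] (f : G →* H)
    (hf : Function.Surjective f) (hG : HeightOneGroup G) : HeightOneGroup H := by
  intro β _ _ φ P
  choose ψ hψ using fun x => hf (φ x)
  refine (hG β ψ (f ⁻¹' P)).of_iff (fun w => ?_)
  have hprod : f ((w.map ψ).prod) = (w.map φ).prod := by
    induction w with
    | nil => simp
    | cons x w ih => simp [ih, hψ]
  show (w.map ψ).prod ∈ f ⁻¹' P ↔ (w.map φ).prod ∈ P
  rw [Set.mem_preimage, hprod]

/-- Direct products: the product of two finite height-one groups is a height-one group. -/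
theorem HeightOneGroup.prod {G H : Type} [Group G] [Group H] [Finite G] [Finite H]
    (hG : HeightOneGroup G) (hH : HeightOneGroup H) : HeightOneGroup (G × H) := by
  classical
  intro β _ _ φ P
  have := Fintype.ofFinite G
  have := Fintype.ofFinite H
  have h1 : StatLe 1 (fun w : List β => (w.map (fun x => (φ x).1)).prod) :=
    fun v => (hG β (fun x => (φ x).1) {v}).of_iff (fun _ => Iff.rfl)
  have h2 : StatLe 1 (fun w : List β => (w.map (fun x => (φ x).2)).prod) :=
    fun v => (hH β (fun x => (φ x).2) {v}).of_iff (fun _ => Iff.rfl)
  have h := (h1.prod h2).level (fun p => p ∈ P)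
  refine h.of_iff (fun w => ?_)
  have hprod : (w.map φ).prod =
      ((w.map (fun x => (φ x).1)).prod, (w.map (fun x => (φ x).2)).prod) := by
    induction w with
    | nil => rfl
    | cons x w ih => simp [ih, Prod.ext_iff]
  show ((w.map (fun x => (φ x).1)).prod, (w.map (fun x => (φ x).2)).prod) ∈ P ↔
    (w.map φ).prod ∈ P
  rw [hprod]

/-- A finite group is a height-one group as soon as, over every finite alphabet, its product
map is a statistic with level sets of generalized star height at most one. -/
theorem HeightOneGroup.of_stat {G : Type} [Group G] [Finite G]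
    (h : ∀ (β : Type) [Fintype β] [DecidableEq β] (φ : β → G),
      StatLe 1 (fun w : List β => (w.map φ).prod)) : HeightOneGroup G := by
  intro β _ _ φ P
  have := Fintype.ofFinite G
  exact (h β φ).level (fun g => g ∈ P)

end Vale.Agent.Lib.P329
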