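import Vale.Agent.Lib.P329.Wreath

namespace Vale.Agent.Lib.P329

open Language

variable {α : Type} [DecidableEq α]

theorem mod_shift (q r j : ℕ) (hr : r < q) : ((q - r) % q + j) % q = 0 ↔ j % q = r := by
  have h1 : ((q - r) % q + j) % q = (q - r + j) % q := by
    rw [Nat.add_mod, Nat.mod_mod, ← Nat.add_mod]
  rw [h1]
  constructor
  · intro h
    have h2 : q - r + j ≡ 0 [MOD q] := by
      show _ % q = 0 % q
      rw [h, Nat.zero_mod]
    have h3 := h2.add_right r
    have e : q - r + j + r = j + q := by omega
    rw [e, zero_add] at h3
    have h4 : (j + q) % q = r % q := h3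
    rw [Nat.add_mod_right, Nat.mod_eq_of_lt hr] at h4
    exact h4
  · intro h
    have h2 : j ≡ r [MOD q] := by
      show j % q = r % q
      rw [h, Nat.mod_eq_of_lt hr]
    have h3 := h2.add_left (q - r)
    have e : q - r + r = q := by omega
    rw [e] at h3
    have h4 : (q - r + j) % q = q % q := h3
    rw [h4, Nat.mod_self]

/-- `occAt` as a weighted sum -/
theorem occAt_aux (S : Finset α) (b : α) (q r : ℕ) (w : List α) : ∀ k : ℕ,
    (List.range w.length).countP (fun i =>
      decide (w[i]? = some b ∧ (k + List.countP (fun x => decide (x ∈ S)) (w.take i)) % q = r % q))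
    = wsum S b (fun j => if j % q = r % q then 1 else 0) k w := by
  induction w with
  | nil =>
    intro k
    rfl
  | cons x v ih =>
    intro k
    rw [List.length_cons, List.range_succ_eq_map, List.countP_cons, List.countP_map]
    show _ = (if x = b then (if k % q = r % q then 1 else 0) else 0)
      + wsum S b (fun j => if j % q = r % q then 1 else 0) (if x ∈ S then k + 1 else k) v
    have hfun : ((fun i => decide ((x :: v)[i]? = some b
          ∧ (k + List.countP (fun x => decide (x ∈ S)) (List.take i (x :: v))) % q = r % q))
          ∘ Nat.succ)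
        = (fun i => decide (v[i]? = some b
          ∧ ((if x ∈ S then k + 1 else k) + List.countP (fun x => decide (x ∈ S)) (List.take i v)) % q
            = r % q)) := by
      funext i
      simp only [Function.comp, Nat.succ_eq_add_one, List.getElem?_cons_succ, List.take_succ_cons]
      by_cases hx : x ∈ S
      · have hc : ∀ l : List α, List.countP (fun x => decide (x ∈ S)) (x :: l)
            = List.countP (fun x => decide (x ∈ S)) l + 1 :=
          fun l => List.countP_cons_of_pos (by simpa using hx)
        have e : k + (List.countP (fun x => decide (x ∈ S)) (List.take i v) + 1)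
            = k + 1 + List.countP (fun x => decide (x ∈ S)) (List.take i v) := by ring
        simp only [hc, if_pos hx, e]
      · have hc : ∀ l : List α, List.countP (fun x => decide (x ∈ S)) (x :: l)
            = List.countP (fun x => decide (x ∈ S)) l :=
          fun l => List.countP_cons_of_neg (by simpa using hx)
        simp only [hc, if_neg hx]
    rw [hfun, ih]
    rw [add_comm]
    congr 1
    by_cases hxb : x = b
    · subst hxb
      by_cases hk : k % q = r % q
      · simp [hk]
      · simp [hk]
    · have : ¬ (some x = some b) := fun h => hxb (Option.some.inj h)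
      simp [hxb]

theorem occAt_eq_wsum (S : Finset α) (b : α) (q r : ℕ) (w : List α) :
    occAt S b q r w = wsum S b (fun j => if j % q = r % q then 1 else 0) 0 w := by
  have h := occAt_aux S b q r w 0
  simp only [zero_add] at h
  exact h

theorem wsum_shift (S : Finset α) (b : α) (q r : ℕ) (hq : 0 < q) (w : List α) :
    wsum S b (fun j => if j % q = r % q then 1 else 0) 0 w
      = wsum S b (fun j => if j % q = 0 then 1 else 0) ((q - r % q) % q) w := by
  apply wsum_congr
  intro j
  have hr : r % q < q := Nat.mod_lt r hq
  have h := mod_shift q (r % q) j hr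
  show (if (0 + j) % q = r % q then 1 else 0) = (if ((q - r % q) % q + j) % q = 0 then 1 else 0)
  rw [zero_add]
  by_cases hj : j % q = r % q
  · rw [if_pos hj, if_pos (h.mpr hj)]
  · rw [if_neg hj, if_neg (fun hc => hj (h.mp hc))]

variable [Fintype α]

/-- **Prefix-counter counting theorem.** -/
theorem gsh_occAt (S : Finset α) (b : α) (hb : b ∉ S) (q m : ℕ) (hq : 0 < q) (hm : 0 < m)
    (r k : ℕ) : GSHLe 1 ({w | occAt S b q r w % m = k % m} : Language α) := by
  have hlt : (q - r % q) % q < q * m :=
    lt_of_lt_of_le (Nat.mod_lt _ hq) (Nat.le_mul_of_pos_right q hm)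
  have h := gsh_wsum_core S b hb q m hq hm ((q - r % q) % q) hlt k
  refine h.of_iff (fun w => ?_)
  show wsum S b (fun j => if j % q = 0 then 1 else 0) ((q - r % q) % q) w % m = k % m
    ↔ occAt S b q r w % m = k % m
  rw [occAt_eq_wsum, wsum_shift S b q r hq w]

end Vale.Agent.Lib.P329
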