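import Vale.Agent.Lib.P329.Hub
import Vale.Agent.Lib.P329.Three

/-!
# Counting marked letters by the weight of the earlier letters modulo three

Letters carry weights `κ x`. For a set `S` of marked letters whose weights agree modulo three,
`occW κ S r w` is the number of positions of `w` carrying a letter of `S` at which the total
weight of the preceding letters is congruent to `r` modulo three. Its parity is a statistic of
generalized star height at most one (`stat_occW`).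

The proof tracks the word by a few small automata whose letters act on the states other than
the base state by strictly increasing maps (so the hub lemma `gsh_run_op` applies), and shows
by an explicit finite invariant that their final states determine the parity.
-/

namespace Vale.Agent.Lib.P329

open Language

variable {α : Type} [Fintype α] [DecidableEq α]

/-- one step of the counting fold: the state is (total weight so far, number of counted
positions so far) -/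
def occStep (κ : α → ℕ) (S : Finset α) (r : ℕ) (st : ℕ × ℕ) (x : α) : ℕ × ℕ :=
  (st.1 + κ x, if x ∈ S ∧ st.1 % 3 = r % 3 then st.2 + 1 else st.2)

/-- the number of positions of `w` that carry a letter of `S` and are preceded by letters of
total weight congruent to `r` modulo three -/
def occW (κ : α → ℕ) (S : Finset α) (r : ℕ) (w : List α) : ℕ :=
  (w.foldl (occStep κ S r) (0, 0)).2

/-- the kind of a letter: `3` for the letters of `S`, the weight residue otherwise -/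
def ltype (κ : α → ℕ) (S : Finset α) (x : α) : ℕ := if x ∈ S then 3 else κ x % 3

omit [Fintype α] in
theorem ltype_lt (κ : α → ℕ) (S : Finset α) (x : α) : ltype κ S x < 4 := by
  unfold ltype
  have h3 : κ x % 3 < 3 := Nat.mod_lt _ (by norm_num)
  split_ifs
  · omega
  · omega

/-- the automaton step given by a table indexed by state and letter kind -/
def tstep (κ : α → ℕ) (S : Finset α) (T : ℕ → ℕ → ℕ) (y : ℕ) (x : α) : ℕ := T y (ltype κ S x)

omit [Fintype α] in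
theorem foldl_tstep_lt (κ : α → ℕ) (S : Finset α) (T : ℕ → ℕ → ℕ) (N : ℕ)
    (hb : ∀ t, t < 4 → ∀ y, y < N → T y t < N) :
    ∀ (w : List α) (y : ℕ), y < N → List.foldl (tstep κ S T) y w < N := by
  intro w
  induction w with
  | nil =>
    intro y hy
    exact hy
  | cons x v ih =>
    intro y hy
    rw [List.foldl_cons]
    exact ih _ (hb _ (ltype_lt κ S x) y hy)

/-- the final state of a table automaton with order preserving letters is a statistic of
generalized star height at most one -/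
theorem stat_table (κ : α → ℕ) (S : Finset α) (T : ℕ → ℕ → ℕ) (N : ℕ) (hN : 0 < N)
    (hop : ∀ t, t < 4 → ∀ y, y < N → ∀ y', y' < N → 0 < y → y < y' → T y t ≠ 0 → T y' t ≠ 0 →
      T y t < T y' t)
    (hb : ∀ t, t < 4 → ∀ y, y < N → T y t < N) (y0 : ℕ) (hy0 : y0 < N) :
    StatLe 1 (fun w : List α =>
      (⟨List.foldl (tstep κ S T) y0 w % N, Nat.mod_lt _ hN⟩ : Fin N)) := by
  intro v
  have h := gsh_run_op N (tstep κ S T)
    (fun y y' a h0 hyy hy' h1 h2 =>
      hop _ (ltype_lt κ S a) y (by omega) y' hy' h0 hyy h1 h2)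
    (fun y a hy => hb _ (ltype_lt κ S a) y hy) y0 v.val hy0
  refine h.of_iff (fun w => ?_)
  have hlt := foldl_tstep_lt κ S T N hb w y0 hy0
  show List.foldl (tstep κ S T) y0 w = v.val
    ↔ (⟨List.foldl (tstep κ S T) y0 w % N, Nat.mod_lt _ hN⟩ : Fin N) = v
  rw [Fin.ext_iff]
  show _ ↔ List.foldl (tstep κ S T) y0 w % N = v.val
  rw [Nat.mod_eq_of_lt hlt]

/-- the counting step on residues: weight modulo three and count modulo two -/
def absT (kb ρ Wm cm t : ℕ) : ℕ × ℕ :=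
  ((Wm + (if t = 3 then kb else t)) % 3, if t = 3 ∧ Wm = ρ then (cm + 1) % 2 else cm)

omit [Fintype α] in
theorem occStep_abs (κ : α → ℕ) (S : Finset α) (kb : ℕ) (hkb : ∀ x ∈ S, κ x % 3 = kb) (r : ℕ)
    (st : ℕ × ℕ) (x : α) :
    ((occStep κ S r st x).1 % 3, (occStep κ S r st x).2 % 2)
      = absT kb (r % 3) (st.1 % 3) (st.2 % 2) (ltype κ S x) := by
  have h3 : κ x % 3 < 3 := Nat.mod_lt _ (by norm_num)
  apply Prod.ext
  · show (st.1 + κ x) % 3
      = (st.1 % 3 + (if ltype κ S x = 3 then kb else ltype κ S x)) % 3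
    unfold ltype
    by_cases hx : x ∈ S
    · rw [if_pos hx, if_pos rfl, Nat.add_mod, hkb x hx]
    · rw [if_neg hx, if_neg (by omega)]
      omega
  · show (if x ∈ S ∧ st.1 % 3 = r % 3 then st.2 + 1 else st.2) % 2
      = (if ltype κ S x = 3 ∧ st.1 % 3 = r % 3 then (st.2 % 2 + 1) % 2 else st.2 % 2)
    unfold ltype
    by_cases hx : x ∈ S
    · by_cases hc : st.1 % 3 = r % 3
      · rw [if_pos ⟨hx, hc⟩, if_pos ⟨by rw [if_pos hx], hc⟩]
        omega
      · rw [if_neg (fun h => hc h.2), if_neg (fun h => hc h.2)]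
    · rw [if_neg (fun h => hx h.1), if_neg]
      intro h
      rw [if_neg hx] at h
      omega

/-! ### Marked letters of weight one or two: a four state automaton -/

/-- the rotation `0 → 1 → 2 → 0` fixing `3` -/
def rotP (y : ℕ) : ℕ := if y = 0 then 1 else if y = 1 then 2 else if y = 2 then 0 else y

/-- the rotation `0 → 2 → 1 → 0` fixing `3` -/
def rotN (y : ℕ) : ℕ := if y = 0 then 2 else if y = 2 then 1 else if y = 1 then 0 else y

/-- the rotation `0 → 2 → 3 → 0` fixing `1` -/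
def rotB (y : ℕ) : ℕ := if y = 0 then 2 else if y = 2 then 3 else if y = 3 then 0 else y

/-- the token automaton on four states -/
def T4 (kb y t : ℕ) : ℕ :=
  if t = 0 then y else if t = 3 then rotB y else if t = kb then rotP y else rotN y

/-- the total weight modulo three -/
def TW (kb a t : ℕ) : ℕ := (a + (if t = 3 then kb else t)) % 3

/-- the parity of the number of marked letters -/
def TP (p t : ℕ) : ℕ := if t = 3 then (p + 1) % 2 else p

/-- the table of predicted parities, indexed by `tok * 6 + a * 2 + p` -/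
def Htab (kb ρ : ℕ) : List ℕ :=
  if kb = 1 then
    (if ρ = 0 then [1, 0, 0, 1, 1, 0, 1, 0, 1, 0, 0, 1, 0, 1, 1, 0, 1, 0, 0, 1, 0, 1, 0, 1]
     else if ρ = 1 then [1, 0, 1, 0, 0, 1, 0, 1, 1, 0, 1, 0, 1, 0, 0, 1, 1, 0, 0, 1, 0, 1, 0, 1]
     else [0, 1, 1, 0, 1, 0, 1, 0, 0, 1, 1, 0, 1, 0, 1, 0, 0, 1, 0, 1, 0, 1, 0, 1])
  else
    (if ρ = 0 then [1, 0, 1, 0, 0, 1, 1, 0, 0, 1, 1, 0, 0, 1, 1, 0, 1, 0, 0, 1, 0, 1, 0, 1]
     else if ρ = 1 then [0, 1, 1, 0, 1, 0, 1, 0, 1, 0, 0, 1, 1, 0, 0, 1, 1, 0, 0, 1, 0, 1, 0, 1]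
     else [1, 0, 0, 1, 1, 0, 0, 1, 1, 0, 1, 0, 1, 0, 1, 0, 0, 1, 0, 1, 0, 1, 0, 1])

/-- the parity predicted from the three tracked states -/
def Hval (kb ρ tok a p : ℕ) : ℕ := (Htab kb ρ).getD (tok * 6 + a * 2 + p) 0

/-- the invariant linking the tracked states with the residues of the counting fold -/
abbrev InvA (kb ρ tok a p Wm cm : ℕ) : Prop :=
  tok < 4 ∧ a < 3 ∧ p < 2 ∧ Wm = a ∧ cm = Hval kb ρ tok a p

theorem invA_stepF : ∀ (kb : Fin 3), 0 < kb.val → ∀ (ρ : Fin 3) (t tok : Fin 4) (a : Fin 3)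
    (p cm : Fin 2), InvA kb.val ρ.val tok.val a.val p.val a.val cm.val →
      InvA kb.val ρ.val (T4 kb.val tok.val t.val) (TW kb.val a.val t.val) (TP p.val t.val)
        (absT kb.val ρ.val a.val cm.val t.val).1 (absT kb.val ρ.val a.val cm.val t.val).2 := by
  decide +kernel

theorem invA_step (kb : ℕ) (hkb3 : kb < 3) (hkb0 : 0 < kb) (ρ : ℕ) (hρ : ρ < 3) (t : ℕ)
    (ht : t < 4) (tok : ℕ) (htok : tok < 4) (a : ℕ) (ha : a < 3) (p : ℕ) (hp : p < 2) (cm : ℕ)
    (hcm : cm < 2) (h : InvA kb ρ tok a p a cm) :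
    InvA kb ρ (T4 kb tok t) (TW kb a t) (TP p t) (absT kb ρ a cm t).1 (absT kb ρ a cm t).2 :=
  invA_stepF ⟨kb, hkb3⟩ hkb0 ⟨ρ, hρ⟩ ⟨t, ht⟩ ⟨tok, htok⟩ ⟨a, ha⟩ ⟨p, hp⟩ ⟨cm, hcm⟩ h

theorem invA_initF : ∀ (kb : Fin 3), 0 < kb.val → ∀ ρ : Fin 3, InvA kb.val ρ.val 3 0 0 0 0 := by
  decide +kernel

theorem invA_init (kb : ℕ) (hkb3 : kb < 3) (hkb0 : 0 < kb) (ρ : ℕ) (hρ : ρ < 3) :
    InvA kb ρ 3 0 0 0 0 :=
  invA_initF ⟨kb, hkb3⟩ hkb0 ⟨ρ, hρ⟩

theorem hop_T4F : ∀ (kb : Fin 3), 0 < kb.val → ∀ (t y y' : Fin 4), 0 < y.val → y.val < y'.val →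
    T4 kb.val y.val t.val ≠ 0 → T4 kb.val y'.val t.val ≠ 0 →
      T4 kb.val y.val t.val < T4 kb.val y'.val t.val := by
  decide +kernel

theorem hop_T4 (kb : ℕ) (hkb3 : kb < 3) (hkb0 : 0 < kb) : ∀ t, t < 4 → ∀ y, y < 4 →
    ∀ y', y' < 4 → 0 < y → y < y' → T4 kb y t ≠ 0 → T4 kb y' t ≠ 0 → T4 kb y t < T4 kb y' t :=
  fun t ht y hy y' hy' => hop_T4F ⟨kb, hkb3⟩ hkb0 ⟨t, ht⟩ ⟨y, hy⟩ ⟨y', hy'⟩

theorem hb_T4F : ∀ (kb : Fin 3), 0 < kb.val → ∀ (t y : Fin 4), T4 kb.val y.val t.val < 4 := by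
  decide +kernel

theorem hb_T4 (kb : ℕ) (hkb3 : kb < 3) (hkb0 : 0 < kb) : ∀ t, t < 4 → ∀ y, y < 4 →
    T4 kb y t < 4 :=
  fun t ht y hy => hb_T4F ⟨kb, hkb3⟩ hkb0 ⟨t, ht⟩ ⟨y, hy⟩

theorem hop_TWF : ∀ (kb : Fin 3) (t : Fin 4) (y y' : Fin 3), 0 < y.val → y.val < y'.val →
    TW kb.val y.val t.val ≠ 0 → TW kb.val y'.val t.val ≠ 0 →
      TW kb.val y.val t.val < TW kb.val y'.val t.val := by
  decide +kernel

theorem hop_TW (kb : ℕ) (hkb3 : kb < 3) : ∀ t, t < 4 → ∀ y, y < 3 →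
    ∀ y', y' < 3 → 0 < y → y < y' → TW kb y t ≠ 0 → TW kb y' t ≠ 0 → TW kb y t < TW kb y' t :=
  fun t ht y hy y' hy' => hop_TWF ⟨kb, hkb3⟩ ⟨t, ht⟩ ⟨y, hy⟩ ⟨y', hy'⟩

theorem hb_TW (kb t y : ℕ) : TW kb y t < 3 := Nat.mod_lt _ (by norm_num)

theorem hop_TPF : ∀ (t : Fin 4) (y y' : Fin 2), 0 < y.val → y.val < y'.val →
    TP y.val t.val ≠ 0 → TP y'.val t.val ≠ 0 → TP y.val t.val < TP y'.val t.val := by
  decide +kernel

theorem hop_TP : ∀ t, t < 4 → ∀ y, y < 2 → ∀ y', y' < 2 → 0 < y →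
    y < y' → TP y t ≠ 0 → TP y' t ≠ 0 → TP y t < TP y' t :=
  fun t ht y hy y' hy' => hop_TPF ⟨t, ht⟩ ⟨y, hy⟩ ⟨y', hy'⟩

theorem hb_TPF : ∀ (t : Fin 4) (y : Fin 2), TP y.val t.val < 2 := by
  decide +kernel

theorem hb_TP : ∀ t, t < 4 → ∀ y, y < 2 → TP y t < 2 :=
  fun t ht y hy => hb_TPF ⟨t, ht⟩ ⟨y, hy⟩

omit [Fintype α] in
theorem jointA (κ : α → ℕ) (S : Finset α) (kb : ℕ) (hkb3 : kb < 3) (hkb0 : 0 < kb)
    (hkb : ∀ x ∈ S, κ x % 3 = kb) (r : ℕ) :
    ∀ (w : List α) (tok a p : ℕ) (st : ℕ × ℕ),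
      InvA kb (r % 3) tok a p (st.1 % 3) (st.2 % 2) →
      InvA kb (r % 3) (List.foldl (tstep κ S (T4 kb)) tok w)
        (List.foldl (tstep κ S (TW kb)) a w) (List.foldl (tstep κ S TP) p w)
        ((List.foldl (occStep κ S r) st w).1 % 3) ((List.foldl (occStep κ S r) st w).2 % 2) := by
  intro w
  induction w with
  | nil =>
    intro tok a p st h
    exact h
  | cons x v ih =>
    intro tok a p st h
    simp only [List.foldl_cons]
    apply ih
    have hab := occStep_abs κ S kb hkb r st x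
    have h1 : (occStep κ S r st x).1 % 3
        = (absT kb (r % 3) (st.1 % 3) (st.2 % 2) (ltype κ S x)).1 := congrArg Prod.fst hab
    have h2 : (occStep κ S r st x).2 % 2
        = (absT kb (r % 3) (st.1 % 3) (st.2 % 2) (ltype κ S x)).2 := congrArg Prod.snd hab
    rw [h1, h2]
    obtain ⟨ht, ha, hp, hW, hc⟩ := h
    have hcm : st.2 % 2 < 2 := Nat.mod_lt _ (by norm_num)
    have hstep := invA_step kb hkb3 hkb0 (r % 3) (Nat.mod_lt _ (by norm_num)) (ltype κ S x)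
      (ltype_lt κ S x) tok ht a ha p hp (st.2 % 2) hcm ⟨ht, ha, hp, rfl, hc⟩
    rw [hW]
    exact hstep

theorem stat_occW_A (κ : α → ℕ) (S : Finset α) (kb : ℕ) (hkb3 : kb < 3) (hkb0 : 0 < kb)
    (hkb : ∀ x ∈ S, κ x % 3 = kb) (r : ℕ) :
    StatLe 1 (fun w : List α => occW κ S r w % 2) := by
  have s1 := stat_table κ S (T4 kb) 4 (by norm_num) (hop_T4 kb hkb3 hkb0) (hb_T4 kb hkb3 hkb0)
    3 (by norm_num)
  have s2 := stat_table κ S (TW kb) 3 (by norm_num) (hop_TW kb hkb3)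
    (fun t _ y _ => hb_TW kb t y) 0 (by norm_num)
  have s3 := stat_table κ S TP 2 (by norm_num) hop_TP hb_TP 0 (by norm_num)
  have s := (s1.prod (s2.prod s3)).comp
    (fun v : Fin 4 × Fin 3 × Fin 2 => Hval kb (r % 3) v.1.val v.2.1.val v.2.2.val)
  refine s.congr (fun w => ?_)
  have hj := jointA κ S kb hkb3 hkb0 hkb r w 3 0 0 (0, 0)
    (invA_init kb hkb3 hkb0 (r % 3) (Nat.mod_lt _ (by norm_num)))
  have l1 := foldl_tstep_lt κ S (T4 kb) 4 (hb_T4 kb hkb3 hkb0) w 3 (by norm_num)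
  have l2 := foldl_tstep_lt κ S (TW kb) 3 (fun t _ y _ => hb_TW kb t y) w 0 (by norm_num)
  have l3 := foldl_tstep_lt κ S TP 2 hb_TP w 0 (by norm_num)
  show Hval kb (r % 3) (List.foldl (tstep κ S (T4 kb)) 3 w % 4)
      (List.foldl (tstep κ S (TW kb)) 0 w % 3) (List.foldl (tstep κ S TP) 0 w % 2)
    = occW κ S r w % 2
  rw [Nat.mod_eq_of_lt l1, Nat.mod_eq_of_lt l2, Nat.mod_eq_of_lt l3]
  exact hj.2.2.2.2.symm

/-! ### Marked letters of weight zero: an automaton on six states -/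

/-- the shift of an unmarked letter in the six state automaton -/
def dval (t : ℕ) : ℕ := if t = 1 then 1 else if t = 2 then 5 else 0

/-- the six state automaton: unmarked letters shift, marked letters add `3` on multiples of
`3` -/
def T6 (z t : ℕ) : ℕ :=
  if t = 3 then (if z % 3 = 0 then (z + 3) % 6 else z) else (z + dval t) % 6

/-- the shift counter modulo six -/
def TD (d t : ℕ) : ℕ := (d + dval t) % 6

/-- the invariant for marked letters of weight zero -/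
abbrev InvB (ρ z d Wm cm : ℕ) : Prop :=
  z < 6 ∧ d < 6 ∧ Wm = d % 3 ∧ z = ((6 - ρ) % 6 + d + 3 * cm) % 6
    ∧ cm = (if z = ((6 - ρ) % 6 + d) % 6 then 0 else 1)

theorem invB_stepF : ∀ (ρ : Fin 3) (t : Fin 4) (z d : Fin 6) (cm : Fin 2),
    InvB ρ.val z.val d.val (d.val % 3) cm.val →
      InvB ρ.val (T6 z.val t.val) (TD d.val t.val) (absT 0 ρ.val (d.val % 3) cm.val t.val).1
        (absT 0 ρ.val (d.val % 3) cm.val t.val).2 := by
  decide +kernel

theorem invB_step (ρ : ℕ) (hρ : ρ < 3) (t : ℕ) (ht : t < 4) (z : ℕ) (hz : z < 6) (d : ℕ)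
    (hd : d < 6) (cm : ℕ) (hcm : cm < 2) (h : InvB ρ z d (d % 3) cm) :
    InvB ρ (T6 z t) (TD d t) (absT 0 ρ (d % 3) cm t).1 (absT 0 ρ (d % 3) cm t).2 :=
  invB_stepF ⟨ρ, hρ⟩ ⟨t, ht⟩ ⟨z, hz⟩ ⟨d, hd⟩ ⟨cm, hcm⟩ h

theorem invB_initF : ∀ ρ : Fin 3, InvB ρ.val ((6 - ρ.val) % 6) 0 0 0 := by
  decide +kernel

theorem invB_init (ρ : ℕ) (hρ : ρ < 3) : InvB ρ ((6 - ρ) % 6) 0 0 0 := invB_initF ⟨ρ, hρ⟩

theorem hop_T6F : ∀ (t : Fin 4) (y y' : Fin 6), 0 < y.val → y.val < y'.val →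
    T6 y.val t.val ≠ 0 → T6 y'.val t.val ≠ 0 → T6 y.val t.val < T6 y'.val t.val := by
  decide +kernel

theorem hop_T6 : ∀ t, t < 4 → ∀ y, y < 6 → ∀ y', y' < 6 → 0 < y →
    y < y' → T6 y t ≠ 0 → T6 y' t ≠ 0 → T6 y t < T6 y' t :=
  fun t ht y hy y' hy' => hop_T6F ⟨t, ht⟩ ⟨y, hy⟩ ⟨y', hy'⟩

theorem hb_T6F : ∀ (t : Fin 4) (y : Fin 6), T6 y.val t.val < 6 := by
  decide +kernel

theorem hb_T6 : ∀ t, t < 4 → ∀ y, y < 6 → T6 y t < 6 :=
  fun t ht y hy => hb_T6F ⟨t, ht⟩ ⟨y, hy⟩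

theorem hop_TDF : ∀ (t : Fin 4) (y y' : Fin 6), 0 < y.val → y.val < y'.val →
    TD y.val t.val ≠ 0 → TD y'.val t.val ≠ 0 → TD y.val t.val < TD y'.val t.val := by
  decide +kernel

theorem hop_TD : ∀ t, t < 4 → ∀ y, y < 6 → ∀ y', y' < 6 → 0 < y →
    y < y' → TD y t ≠ 0 → TD y' t ≠ 0 → TD y t < TD y' t :=
  fun t ht y hy y' hy' => hop_TDF ⟨t, ht⟩ ⟨y, hy⟩ ⟨y', hy'⟩

theorem hb_TD (t y : ℕ) : TD y t < 6 := Nat.mod_lt _ (by norm_num)

omit [Fintype α] in
theorem jointB (κ : α → ℕ) (S : Finset α) (hkb : ∀ x ∈ S, κ x % 3 = 0) (r : ℕ) :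
    ∀ (w : List α) (z d : ℕ) (st : ℕ × ℕ),
      InvB (r % 3) z d (st.1 % 3) (st.2 % 2) →
      InvB (r % 3) (List.foldl (tstep κ S T6) z w) (List.foldl (tstep κ S TD) d w)
        ((List.foldl (occStep κ S r) st w).1 % 3) ((List.foldl (occStep κ S r) st w).2 % 2) := by
  intro w
  induction w with
  | nil =>
    intro z d st h
    exact h
  | cons x v ih =>
    intro z d st h
    simp only [List.foldl_cons]
    apply ih
    have hab := occStep_abs κ S 0 hkb r st x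
    have h1 : (occStep κ S r st x).1 % 3
        = (absT 0 (r % 3) (st.1 % 3) (st.2 % 2) (ltype κ S x)).1 := congrArg Prod.fst hab
    have h2 : (occStep κ S r st x).2 % 2
        = (absT 0 (r % 3) (st.1 % 3) (st.2 % 2) (ltype κ S x)).2 := congrArg Prod.snd hab
    rw [h1, h2]
    obtain ⟨hz, hd, hW, hzz, hc⟩ := h
    have hcm : st.2 % 2 < 2 := Nat.mod_lt _ (by norm_num)
    have hstep := invB_step (r % 3) (Nat.mod_lt _ (by norm_num)) (ltype κ S x)
      (ltype_lt κ S x) z hz d hd (st.2 % 2) hcm ⟨hz, hd, rfl, hzz, hc⟩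
    rw [hW]
    exact hstep

theorem stat_occW_B (κ : α → ℕ) (S : Finset α) (hkb : ∀ x ∈ S, κ x % 3 = 0) (r : ℕ) :
    StatLe 1 (fun w : List α => occW κ S r w % 2) := by
  have hz0 : (6 - r % 3) % 6 < 6 := Nat.mod_lt _ (by norm_num)
  have s1 := stat_table κ S T6 6 (by norm_num) hop_T6 hb_T6 ((6 - r % 3) % 6) hz0
  have s2 := stat_table κ S TD 6 (by norm_num) hop_TD (fun t _ y _ => hb_TD t y) 0 (by norm_num)
  have s := (s1.prod s2).comp
    (fun v : Fin 6 × Fin 6 => if v.1.val = ((6 - r % 3) % 6 + v.2.val) % 6 then 0 else 1)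
  refine s.congr (fun w => ?_)
  have hj := jointB κ S hkb r w ((6 - r % 3) % 6) 0 (0, 0)
    (invB_init (r % 3) (Nat.mod_lt _ (by norm_num)))
  have l1 := foldl_tstep_lt κ S T6 6 hb_T6 w ((6 - r % 3) % 6) hz0
  have l2 := foldl_tstep_lt κ S TD 6 (fun t _ y _ => hb_TD t y) w 0 (by norm_num)
  show (if List.foldl (tstep κ S T6) ((6 - r % 3) % 6) w % 6
        = ((6 - r % 3) % 6 + List.foldl (tstep κ S TD) 0 w % 6) % 6 then 0 else 1)
    = occW κ S r w % 2
  rw [Nat.mod_eq_of_lt l1, Nat.mod_eq_of_lt l2]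
  exact hj.2.2.2.2.symm

/-! ### The counting theorem -/

/-- **Counting theorem.** If the letters of `S` have the same weight modulo three, then the
parity of the number of positions carrying a letter of `S` preceded by letters of total weight congruent
to `r` modulo three is a statistic of generalized star height at most one. -/
theorem stat_occW (κ : α → ℕ) (S : Finset α) (hS : ∀ x ∈ S, ∀ y ∈ S, κ x % 3 = κ y % 3)
    (r : ℕ) : StatLe 1 (fun w : List α => occW κ S r w % 2) := by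
  obtain ⟨kb, hkb3, hkb⟩ : ∃ kb, kb < 3 ∧ ∀ x ∈ S, κ x % 3 = kb := by
    rcases S.eq_empty_or_nonempty with rfl | ⟨x0, hx0⟩
    · exact ⟨0, by norm_num, fun x hx => absurd hx (Finset.notMem_empty x)⟩
    · exact ⟨κ x0 % 3, Nat.mod_lt _ (by norm_num), fun x hx => hS x hx x0 hx0⟩
  by_cases h0 : kb = 0
  · subst h0
    exact stat_occW_B κ S hkb r
  · exact stat_occW_A κ S kb hkb3 (by omega) hkb r

/-! ### The total weight -/

omit [Fintype α] in
theorem foldl_TW (κ : α → ℕ) : ∀ (w : List α) (a : ℕ),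
    List.foldl (tstep κ ∅ (TW 0)) a w % 3 = (a + (w.map κ).sum) % 3 := by
  intro w
  induction w with
  | nil =>
    intro a
    simp
  | cons x v ih =>
    intro a
    rw [List.foldl_cons, ih, List.map_cons, List.sum_cons]
    have h3 : κ x % 3 < 3 := Nat.mod_lt _ (by norm_num)
    have e : tstep κ ∅ (TW 0) a x = (a + κ x % 3) % 3 := by
      unfold tstep TW ltype
      rw [if_neg (Finset.notMem_empty x), if_neg (by omega)]
    rw [e]
    omega

/-- the total weight modulo three is a statistic of generalized star height at most one -/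
theorem stat_weight (κ : α → ℕ) : StatLe 1 (fun w : List α => (w.map κ).sum % 3) := by
  have s := (stat_table κ ∅ (TW 0) 3 (by norm_num) (hop_TW 0 (by norm_num))
    (fun t _ y _ => hb_TW 0 t y) 0 (by norm_num)).comp (fun v : Fin 3 => v.val)
  refine s.congr (fun w => ?_)
  show List.foldl (tstep κ ∅ (TW 0)) 0 w % 3 = (w.map κ).sum % 3
  rw [foldl_TW, Nat.zero_add]

end Vale.Agent.Lib.P329
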