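import Mathlib

namespace Vale.Agent.Lib.P329

/-- Generalized regular expressions over the alphabet `α`: the constants `0` and `1`, the
letters, union, concatenation, complement and Kleene star. -/
inductive GRE (α : Type) : Type
  | zero : GRE α
  | one : GRE α
  | letter : α → GRE α
  | union : GRE α → GRE α → GRE α
  | concat : GRE α → GRE α → GRE α
  | compl : GRE α → GRE α
  | star : GRE α → GRE α

/-- The language denoted by a generalized regular expression. The complement is taken in the
set of all words over `α`. -/
def GRE.lang {α : Type} : GRE α → Language α
  | GRE.zero => 0
  | GRE.one => 1
  | GRE.letter a => {[a]}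
  | GRE.union p q => p.lang + q.lang
  | GRE.concat p q => p.lang * q.lang
  | GRE.compl p => (p.lang)ᶜ
  | GRE.star p => KStar.kstar p.lang

/-- The star height of a generalized regular expression. -/
def GRE.height {α : Type} : GRE α → ℕ
  | GRE.zero => 0
  | GRE.one => 0
  | GRE.letter _ => 0
  | GRE.union p q => max p.height q.height
  | GRE.concat p q => max p.height q.height
  | GRE.compl p => p.height
  | GRE.star p => p.height + 1

/-- `GSHLe n L`: the language `L` is denoted by a generalized regular expression of star height
at most `n`, i.e. `L` has generalized star height at most `n`. -/
def GSHLe {α : Type} (n : ℕ) (L : Language α) : Prop :=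
  ∃ e : GRE α, e.height ≤ n ∧ e.lang = L

/-- `occAt S b q r w`: the number of positions `i` of the word `w` that carry the letter `b` and
are such that the number of letters from `S` among the first `i` letters of `w` is congruent to
`r` modulo `q`. -/
def occAt {α : Type} [DecidableEq α] (S : Finset α) (b : α) (q r : ℕ) (w : List α) : ℕ :=
  (List.range w.length).countP (fun i =>
    decide (w[i]? = some b ∧ (List.countP (fun x => decide (x ∈ S)) (w.take i)) % q = r % q))

end Vale.Agent.Lib.P329
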