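import Mathlib

/-!
# Elementary abelian quotients

A normal subgroup `N` of a group `G` such that `G ⧸ N` is finite, commutative and of prime
exponent `q` is the kernel of a morphism from `G` to a power of the cyclic group of order `q`.
-/

namespace Vale.Agent.Lib.P329

/-- a finite additive commutative group of prime exponent embeds in a power of `ZMod q` -/
theorem exists_add_emb {A : Type} [AddCommGroup A] [Finite A] (q : ℕ) [Fact q.Prime]
    (h : ∀ a : A, q • a = 0) :
    ∃ (n : ℕ) (f : A →+ (Fin n → ZMod q)), Function.Injective f := by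
  let inst : Module (ZMod q) A := AddCommGroup.zmodModule h
  have hfin : Module.Finite (ZMod q) A := Module.Finite.of_finite
  have hfree : Module.Free (ZMod q) A := Module.Free.of_divisionRing (ZMod q) A
  let b := @Module.finBasis (ZMod q) A _ _ inst hfree _ hfin
  let e := b.equivFun
  exact ⟨Module.finrank (ZMod q) A, e.toLinearMap.toAddMonoidHom, e.injective⟩

/-- a finite commutative group of prime exponent embeds in a power of the cyclic group of
order `q` -/
theorem exists_mul_emb {Q : Type} [CommGroup Q] [Finite Q] (q : ℕ) [Fact q.Prime]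
    (h : ∀ a : Q, a ^ q = 1) :
    ∃ (n : ℕ) (f : Q →* Multiplicative (Fin n → ZMod q)), Function.Injective f := by
  have hA : ∀ a : Additive Q, q • a = 0 := by
    intro a
    exact h a.toMul
  obtain ⟨n, f, hf⟩ := exists_add_emb (A := Additive Q) q hA
  refine ⟨n,
    { toFun := fun x => Multiplicative.ofAdd (f (Additive.ofMul x))
      map_one' := ?_
      map_mul' := ?_ }, ?_⟩
  · show Multiplicative.ofAdd (f (Additive.ofMul (1 : Q))) = 1
    rw [ofMul_one, map_zero]
    rfl
  · intro a b
    show Multiplicative.ofAdd (f (Additive.ofMul (a * b)))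
      = Multiplicative.ofAdd (f (Additive.ofMul a)) * Multiplicative.ofAdd (f (Additive.ofMul b))
    rw [ofMul_mul, map_add]
    rfl
  · intro a b hab
    have h1 : f (Additive.ofMul a) = f (Additive.ofMul b) := hab
    exact hf h1

theorem exists_hom_elem {G : Type} [Group G] (N : Subgroup G) [N.Normal] (q : ℕ) (hq : q.Prime)
    [Finite (G ⧸ N)] (hpow : ∀ g : G, g ^ q ∈ N) (hcomm : ∀ g h : G, g * h * g⁻¹ * h⁻¹ ∈ N) :
    ∃ (n : ℕ) (ψ : G →* Multiplicative (Fin n → ZMod q)), ψ.ker = N := by
  classical
  have : Fact q.Prime := ⟨hq⟩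
  have hc : ∀ a b : G ⧸ N, a * b = b * a := by
    intro a b
    induction a using QuotientGroup.induction_on with
    | H g =>
      induction b using QuotientGroup.induction_on with
      | H h =>
        have h1 : ((g * h * g⁻¹ * h⁻¹ : G) : G ⧸ N) = 1 :=
          (QuotientGroup.eq_one_iff _).mpr (hcomm g h)
        rw [QuotientGroup.mk_mul, QuotientGroup.mk_mul, QuotientGroup.mk_mul,
          QuotientGroup.mk_inv, QuotientGroup.mk_inv] at h1
        calc (g : G ⧸ N) * (h : G ⧸ N)
            = (g : G ⧸ N) * (h : G ⧸ N) * (g : G ⧸ N)⁻¹ * (h : G ⧸ N)⁻¹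
                * ((h : G ⧸ N) * (g : G ⧸ N)) := by group
          _ = (h : G ⧸ N) * (g : G ⧸ N) := by rw [h1, one_mul]
  let instC : CommGroup (G ⧸ N) := { (inferInstance : Group (G ⧸ N)) with mul_comm := hc }
  have hexp : ∀ a : G ⧸ N, a ^ q = 1 := by
    intro a
    induction a using QuotientGroup.induction_on with
    | H g =>
      have h1 : ((g ^ q : G) : G ⧸ N) = 1 := (QuotientGroup.eq_one_iff _).mpr (hpow g)
      rw [QuotientGroup.mk_pow] at h1
      exact h1
  obtain ⟨n, f, hf⟩ := @exists_mul_emb (G ⧸ N) instC _ q _ hexp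
  refine ⟨n,
    { toFun := fun g => f (g : G ⧸ N)
      map_one' := ?_
      map_mul' := ?_ }, ?_⟩
  · show f ((1 : G) : G ⧸ N) = 1
    rw [QuotientGroup.mk_one]
    exact map_one f
  · intro g h
    show f ((g * h : G) : G ⧸ N) = f (g : G ⧸ N) * f (h : G ⧸ N)
    rw [QuotientGroup.mk_mul]
    exact map_mul f _ _
  · ext g
    rw [MonoidHom.mem_ker]
    show f (g : G ⧸ N) = 1 ↔ g ∈ N
    rw [← QuotientGroup.eq_one_iff g]
    constructor
    · intro h
      apply hf
      rw [h]
      exact (map_one f).symm
    · intro h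
      rw [h]
      exact map_one f

end Vale.Agent.Lib.P329
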