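import Vale.Agent.Lib.P329.Radon
import Vale.Agent.Lib.P329.LevelCount

/-!
# Groups with a commutative normal subgroup and an elementary abelian 3-group as quotient

The counting theorem for weights modulo three (`stat_occW_modm`) feeds the summation over all
linear forms on `(Z/3)^n` of `Radon.lean`.
-/

namespace Vale.Agent.Lib.P329

open Language

variable {α : Type} [Fintype α] [DecidableEq α]

omit [Fintype α] in
theorem wocc_three (κ : α → ℕ) (S : Finset α) (r : ℕ) (w : List α) :
    wocc 3 κ S r w = occW κ S r w := rfl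

/-- the counting theorem for weights modulo three, for single letters and every modulus -/
theorem hcnt_three : ∀ M : ℕ, 0 < M → ∀ (κ : α → ℕ) (x : α) (r : ℕ),
    StatLe 1 (fun w : List α => wocc 3 κ {x} r w % M) := by
  intro M hM κ x r
  have hS : ∀ a ∈ ({x} : Finset α), ∀ b ∈ ({x} : Finset α), κ a % 3 = κ b % 3 := by
    intro a ha b hb
    rw [Finset.mem_singleton.mp ha, Finset.mem_singleton.mp hb]
  exact stat_occW_modm M hM κ {x} hS r

/-- **Commutative by elementary abelian of exponent three.** Let `N` be a normal subgroup of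
finite index of a group `G` whose elements commute pairwise and satisfy `a ^ m = 1` for one
fixed `m > 0`, such that all cubes `g ^ 3` and all commutators `g * h * g⁻¹ * h⁻¹` lie in `N`.
Then every language `{w | product of w in P}` has generalized star height at most one. -/
theorem elem_three {G : Type} [Group G] (N : Subgroup G) [N.Normal] [Finite (G ⧸ N)]
    (hcomm : ∀ a ∈ N, ∀ b ∈ N, a * b = b * a)
    (h3 : ∀ g : G, g ^ 3 ∈ N) (hab : ∀ g h : G, g * h * g⁻¹ * h⁻¹ ∈ N)
    (m : ℕ) (hm : 0 < m) (hexp : ∀ a ∈ N, a ^ m = 1) (φ : α → G) (P : Set G) :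
    GSHLe 1 ({w | (w.map φ).prod ∈ P} : Language α) :=
  have : Fact (Nat.Prime 3) := ⟨Nat.prime_three⟩
  elem_quot 3 hcnt_three N hcomm h3 hab m hm hexp φ P

/-- **Finite form.** Every language recognized by a finite group `G` that has a commutative
normal subgroup `N` with `G / N` an elementary abelian 3-group has generalized star height at
most one. -/
theorem elem_three_finite {G : Type} [Group G] [Finite G] (N : Subgroup G) [N.Normal]
    (hcomm : ∀ a ∈ N, ∀ b ∈ N, a * b = b * a)
    (h3 : ∀ g : G, g ^ 3 ∈ N) (hab : ∀ g h : G, g * h * g⁻¹ * h⁻¹ ∈ N)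
    (φ : α → G) (P : Set G) :
    GSHLe 1 ({w | (w.map φ).prod ∈ P} : Language α) :=
  elem_three N hcomm h3 hab (Nat.card G) Nat.card_pos (fun _ _ => pow_card_eq_one') φ P

/-- **Map form.** Let `ψ` be a map from a group `G` to `(Z/3)^n` with `ψ (g * h) = ψ g + ψ h`,
such that the elements `a` with `ψ a = 0` commute pairwise and satisfy `a ^ m = 1` for one
fixed `m > 0`. Then every language `{w | product of w in P}` has generalized star height at
most one. -/
theorem elem_three_map {n : ℕ} {G : Type} [Group G] (ψ : G → Fin n → ZMod 3)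
    (hψ : ∀ g h : G, ψ (g * h) = ψ g + ψ h)
    (hcomm : ∀ a b : G, ψ a = 0 → ψ b = 0 → a * b = b * a) (m : ℕ) (hm : 0 < m)
    (hexp : ∀ a : G, ψ a = 0 → a ^ m = 1) (φ : α → G) (P : Set G) :
    GSHLe 1 ({w | (w.map φ).prod ∈ P} : Language α) :=
  have : Fact (Nat.Prime 3) := ⟨Nat.prime_three⟩
  elem_abel 3 hcnt_three ψ hψ hcomm m hm hexp φ P

end Vale.Agent.Lib.P329
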