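import Vale.Agent.Lib.P329.VisitsCount

/-!
# The excursion automaton over the weight counter modulo a prime

Letters carry weights `κ x`; the residue of a state is the total weight read so far modulo a
prime `q`. The automaton `bstep q κ O I` has the `2 * q` states `ρ + q * b` with a residue
`ρ < q` and a bit `b`: `0` is the base gate, `q` the second gate, `ρ` (`0 < ρ < q`) a dead walk
and `ρ + q` a live walk. A letter of nonzero weight read at a gate starts a live walk if it lies
in `O` and a dead walk otherwise; a live walk that returns to residue `0` with a letter of `I`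
ends in the second gate, every other return ends in the base gate. If `O` and `I` are disjoint,
the automaton is counter-free once the base gate is made absorbing (`exc_aper`).
-/

namespace Vale.Agent.Lib.P329

open Language

variable {α : Type} [DecidableEq α]

/-- the excursion automaton -/
def bstep (q : ℕ) (κ : α → ℕ) (O I : Finset α) (s : ℕ) (z : α) : ℕ :=
  if s % q = 0 then
    (if κ z % q = 0 then s else κ z % q + q * (if z ∈ O then 1 else 0))
  else
    (if (s % q + κ z) % q = 0 then (if s / q = 1 ∧ z ∈ I then q else 0)
     else (s % q + κ z) % q + q * (s / q))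

theorem bstep_gate0 (q : ℕ) (κ : α → ℕ) (O I : Finset α) (s : ℕ) (z : α) (h1 : s % q = 0)
    (h2 : κ z % q = 0) : bstep q κ O I s z = s := by
  unfold bstep
  rw [if_pos h1, if_pos h2]

theorem bstep_gate1 (q : ℕ) (κ : α → ℕ) (O I : Finset α) (s : ℕ) (z : α) (h1 : s % q = 0)
    (h2 : κ z % q ≠ 0) :
    bstep q κ O I s z = κ z % q + q * (if z ∈ O then 1 else 0) := by
  unfold bstep
  rw [if_pos h1, if_neg h2]

theorem bstep_move (q : ℕ) (κ : α → ℕ) (O I : Finset α) (s : ℕ) (z : α) (h1 : s % q ≠ 0)
    (h2 : (s % q + κ z) % q ≠ 0) :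
    bstep q κ O I s z = (s % q + κ z) % q + q * (s / q) := by
  unfold bstep
  rw [if_neg h1, if_neg h2]

theorem bstep_arr (q : ℕ) (κ : α → ℕ) (O I : Finset α) (s : ℕ) (z : α) (h1 : s % q ≠ 0)
    (h2 : (s % q + κ z) % q = 0) :
    bstep q κ O I s z = if s / q = 1 ∧ z ∈ I then q else 0 := by
  unfold bstep
  rw [if_neg h1, if_pos h2]

theorem bstep_lt (q : ℕ) (hq : 0 < q) (κ : α → ℕ) (O I : Finset α) (s : ℕ) (z : α)
    (hs : s < 2 * q) : bstep q κ O I s z < 2 * q := by
  have hdiv : s / q < 2 := Nat.div_lt_of_lt_mul (by omega)
  by_cases h1 : s % q = 0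
  · by_cases h2 : κ z % q = 0
    · rw [bstep_gate0 q κ O I s z h1 h2]
      exact hs
    · rw [bstep_gate1 q κ O I s z h1 h2]
      have h3 : κ z % q < q := Nat.mod_lt _ hq
      split_ifs <;> omega
  · by_cases h2 : (s % q + κ z) % q = 0
    · rw [bstep_arr q κ O I s z h1 h2]
      split_ifs <;> omega
    · rw [bstep_move q κ O I s z h1 h2]
      have h3 : (s % q + κ z) % q < q := Nat.mod_lt _ hq
      have h4 := pair_lt q 2 _ _ h3 hdiv
      omega

/-- the residue follows the weight counter -/
theorem bstep_res (q : ℕ) (_hq : 0 < q) (κ : α → ℕ) (O I : Finset α) (s : ℕ) (z : α) :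
    bstep q κ O I s z % q = (s % q + κ z) % q := by
  by_cases h1 : s % q = 0
  · by_cases h2 : κ z % q = 0
    · rw [bstep_gate0 q κ O I s z h1 h2, h1, Nat.zero_add, h2]
    · rw [bstep_gate1 q κ O I s z h1 h2, Nat.add_mul_mod_self_left, Nat.mod_mod, h1,
        Nat.zero_add]
  · by_cases h2 : (s % q + κ z) % q = 0
    · rw [bstep_arr q κ O I s z h1 h2, h2]
      split_ifs
      · exact Nat.mod_self q
      · exact Nat.zero_mod q
    · rw [bstep_move q κ O I s z h1 h2, Nat.add_mul_mod_self_left, Nat.mod_mod]

theorem foldl_bstep_res (q : ℕ) (hq : 0 < q) (κ : α → ℕ) (O I : Finset α) (u : List α) :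
    ∀ s, List.foldl (bstep q κ O I) s u % q = (s % q + (u.map κ).sum) % q := by
  induction u with
  | nil =>
    intro s
    show s % q = (s % q + 0) % q
    rw [Nat.add_zero, Nat.mod_mod]
  | cons a u ih =>
    intro s
    rw [List.foldl_cons, ih, bstep_res q hq, List.map_cons, List.sum_cons, Nat.mod_add_mod,
      Nat.add_assoc]

/-- on the dead states the automaton is the weight counter -/
theorem bstep_dead (q : ℕ) (κ : α → ℕ) (O I : Finset α) (s : ℕ) (z : α) (hs0 : s ≠ 0)
    (hs : s < q) : bstep q κ O I s z = cstep q κ s z := by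
  have h1 : s % q = s := Nat.mod_eq_of_lt hs
  have h0 : s / q = 0 := Nat.div_eq_of_lt hs
  have h1' : s % q ≠ 0 := by omega
  by_cases h2 : (s % q + κ z) % q = 0
  · rw [bstep_arr q κ O I s z h1' h2, if_neg (by omega)]
    show 0 = (s + κ z) % q
    rw [← h1, h2]
  · rw [bstep_move q κ O I s z h1' h2, h0, h1]
    show (s + κ z) % q + q * 0 = (s + κ z) % q
    omega

theorem foldl_abs_dead (q : ℕ) (hq : 0 < q) (κ : α → ℕ) (O I : Finset α) (u : List α) :
    ∀ s, s < q → List.foldl (absStep (bstep q κ O I)) s u
      = List.foldl (absStep (cstep q κ)) s u := by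
  induction u with
  | nil =>
    intro s _
    rfl
  | cons a u ih =>
    intro s hs
    rw [List.foldl_cons, List.foldl_cons]
    by_cases hs0 : s = 0
    · subst hs0
      rw [absStep_zero, absStep_zero]
      exact ih 0 hs
    · rw [absStep_pos _ hs0, absStep_pos _ hs0, bstep_dead q κ O I s a hs0 hs]
      exact ih _ (cstep_lt q hq κ s a)

/-- a dead state stays dead -/
theorem foldl_abs_dead_lt (q : ℕ) (hq : 0 < q) (κ : α → ℕ) (O I : Finset α) (u : List α)
    (s : ℕ) (hs : s < q) : List.foldl (absStep (bstep q κ O I)) s u < q := by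
  rw [foldl_abs_dead q hq κ O I u s hs]
  exact foldl_abs_bound q _ (fun y a _ => cstep_lt q hq κ y a) u s hs

/-- letters of weight zero do not move a live state -/
theorem foldl_abs_live_zero (q : ℕ) (hq : 0 < q) (κ : α → ℕ) (O I : Finset α) (u : List α)
    (hu : ∀ a ∈ u, κ a % q = 0) (s : ℕ) (hs1 : q ≤ s) (hs2 : s < 2 * q) :
    List.foldl (absStep (bstep q κ O I)) s u = s := by
  induction u with
  | nil => rfl
  | cons a u ih =>
    have ha : κ a % q = 0 := hu a (List.mem_cons_self ..)
    have hs0 : s ≠ 0 := by omega
    have hdiv : s / q = 1 := by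
      have h1 : s / q < 2 := Nat.div_lt_of_lt_mul (by omega)
      have h2 : 0 < s / q := Nat.div_pos hs1 hq
      omega
    have hstep : bstep q κ O I s a = s := by
      by_cases h1 : s % q = 0
      · exact bstep_gate0 q κ O I s a h1 ha
      · have h2 : (s % q + κ a) % q = s % q := by
          rw [Nat.add_mod, ha, Nat.add_zero, Nat.mod_mod, Nat.mod_mod]
        rw [bstep_move q κ O I s a h1 (by rw [h2]; exact h1), h2, hdiv]
        have e := Nat.mod_add_div s q
        rw [hdiv] at e
        omega
    rw [List.foldl_cons, absStep_pos _ hs0, hstep]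
    exact ih (fun b hb => hu b (List.mem_cons_of_mem _ hb))

/-- a word of nonzero weight has a first letter of nonzero weight -/
theorem first_nz (q : ℕ) (κ : α → ℕ) (u : List α) (h : (u.map κ).sum % q ≠ 0) :
    ∃ u0 z u1, u = u0 ++ z :: u1 ∧ (∀ a ∈ u0, κ a % q = 0) ∧ κ z % q ≠ 0 := by
  induction u with
  | nil =>
    exfalso
    apply h
    show 0 % q = 0
    exact Nat.zero_mod q
  | cons a u ih =>
    by_cases ha : κ a % q = 0
    · have h' : (u.map κ).sum % q ≠ 0 := by
        intro h0
        apply h
        rw [List.map_cons, List.sum_cons, Nat.add_mod, ha, h0]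
        show 0 % q = 0
        exact Nat.zero_mod q
      obtain ⟨u0, z, u1, e, h1, h2⟩ := ih h'
      refine ⟨a :: u0, z, u1, ?_, ?_, h2⟩
      · rw [e]
        rfl
      · intro b hb
        rcases List.mem_cons.mp hb with rfl | hb'
        · exact ha
        · exact h1 b hb'
    · exact ⟨[], a, u, rfl, fun b hb => absurd hb (List.not_mem_nil), ha⟩

/-- multiples of a residue prime to `q` reach every residue -/
theorem exists_hit (q : ℕ) (hq : q.Prime) (W : ℕ) (hW : W % q ≠ 0) (ρ τ : ℕ) (hρ : ρ < q) :
    ∃ j, (ρ + j * W) % q = τ % q := by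
  have hcop : Nat.Coprime W q := by
    have hnd : ¬ q ∣ W := fun hd => hW (Nat.mod_eq_zero_of_dvd hd)
    exact ((Nat.Prime.coprime_iff_not_dvd hq).mpr hnd).symm
  obtain ⟨t, _, ht⟩ := Nat.exists_mul_mod_eq_one_of_coprime hcop hq.one_lt
  refine ⟨t * (τ + (q - ρ)), ?_⟩
  have h1 : W * t ≡ 1 [MOD q] := by
    show W * t % q = 1 % q
    rw [ht, Nat.mod_eq_of_lt hq.one_lt]
  have e : t * (τ + (q - ρ)) * W = (τ + (q - ρ)) * (W * t) := by ring
  have h2 : ρ + t * (τ + (q - ρ)) * W ≡ ρ + (τ + (q - ρ)) * 1 [MOD q] := by
    rw [e]
    exact Nat.ModEq.add_left ρ (Nat.ModEq.mul_left _ h1)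
  have e2 : ρ + (τ + (q - ρ)) * 1 = τ + q := by omega
  rw [e2] at h2
  have h3 : (ρ + t * (τ + (q - ρ)) * W) % q = (τ + q) % q := h2
  rw [h3, Nat.add_mod_right]

/-- **The excursion automaton is a hub automaton.** For a prime `q` and disjoint sets `O`, `I`
of letters, the excursion automaton is counter-free once its base gate `0` is made absorbing. -/
theorem exc_aper (q : ℕ) (hq : q.Prime) (κ : α → ℕ) (O I : Finset α) (hOI : Disjoint O I) :
    ∀ w : List α, ∃ k : ℕ, ∀ y, y < 2 * q →
      List.foldl (absStep (bstep q κ O I)) y (List.replicate k w).flatten =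
        List.foldl (absStep (bstep q κ O I)) y (List.replicate (k + 1) w).flatten := by
  intro u
  have hq0 : 0 < q := hq.pos
  have hb : ∀ y a, y < 2 * q → bstep q κ O I y a < 2 * q :=
    fun y a hy => bstep_lt q hq0 κ O I y a hy
  refine ⟨2 * q, fun y hy => ?_⟩
  rw [foldl_replicate_flatten, foldl_replicate_flatten]
  refine iterate_stable (2 * q) (fun z => List.foldl (absStep (bstep q κ O I)) z u)
    (fun z hz => foldl_abs_bound (2 * q) _ hb u z hz) ?_ y hy
  intro s hs p hp hper
  show List.foldl (absStep (bstep q κ O I)) s u = s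
  -- iterates stay in range
  have hrange : ∀ j, (fun z => List.foldl (absStep (bstep q κ O I)) z u)^[j] s < 2 * q := by
    intro j
    induction j with
    | zero => exact hs
    | succ j ih =>
      rw [Function.iterate_succ_apply']
      exact foldl_abs_bound (2 * q) _ hb u _ ih
  -- dead states stay dead under iteration
  have hdead : ∀ j z, z < q →
      (fun z => List.foldl (absStep (bstep q κ O I)) z u)^[j] z < q := by
    intro j
    induction j with
    | zero =>
      intro z hz
      exact hz
    | succ j ih =>
      intro z hz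
      rw [Function.iterate_succ_apply]
      exact ih _ (foldl_abs_dead_lt q hq0 κ O I u z hz)
  by_cases hsq : s < q
  · -- a dead periodic point: the weight counter
    have hco : ∀ j z, z < q → (fun z => List.foldl (absStep (bstep q κ O I)) z u)^[j] z
        = (fun z => List.foldl (absStep (cstep q κ)) z u)^[j] z := by
      intro j
      induction j with
      | zero =>
        intro z _
        rfl
      | succ j ih =>
        intro z hz
        rw [Function.iterate_succ_apply, Function.iterate_succ_apply,
          ih _ (foldl_abs_dead_lt q hq0 κ O I u z hz)]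
        show (fun z => List.foldl (absStep (cstep q κ)) z u)^[j]
            (List.foldl (absStep (bstep q κ O I)) z u) = _
        rw [foldl_abs_dead q hq0 κ O I u z hz]
    obtain ⟨k0, hk0⟩ := counter_aper q hq κ u
    have h1 := hk0 s hsq
    rw [foldl_replicate_flatten, foldl_replicate_flatten] at h1
    have hper' : (fun z => List.foldl (absStep (cstep q κ)) z u)^[p] s = s := by
      rw [← hco p s hsq]
      exact hper
    have hfix := periodic_fixed (fun z => List.foldl (absStep (cstep q κ)) z u) k0 p s hp h1 hper'
    rw [foldl_abs_dead q hq0 κ O I u s hsq]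
    exact hfix
  · -- a live periodic point
    have hsq' : q ≤ s := by omega
    have hal : ∀ j, q ≤ (fun z => List.foldl (absStep (bstep q κ O I)) z u)^[j] s := by
      intro j
      by_contra hcon
      have hlt : (fun z => List.foldl (absStep (bstep q κ O I)) z u)^[j] s < q := by omega
      have h1 : (fun z => List.foldl (absStep (bstep q κ O I)) z u)^[p * j] s = s := by
        rw [Function.iterate_mul]
        exact Function.iterate_fixed hper j
      have hle : j ≤ p * j := Nat.le_mul_of_pos_left j hp
      have h2 := hdead (p * j - j) _ hlt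
      rw [← Function.iterate_add_apply, Nat.sub_add_cancel hle, h1] at h2
      omega
    have hform : ∀ j, (fun z => List.foldl (absStep (bstep q κ O I)) z u)^[j] s
        = (s % q + j * (u.map κ).sum) % q + q := by
      intro j
      have h1 := hal j
      have h2 := hrange j
      have e := foldl_replicate_flatten (absStep (bstep q κ O I)) u j s
      rw [← e] at h1 h2 ⊢
      have hne : List.foldl (absStep (bstep q κ O I)) s (List.replicate j u).flatten ≠ 0 := by
        omega
      rw [foldl_abs_eq _ _ s hne] at h1 h2 ⊢
      have hres := foldl_bstep_res q hq0 κ O I (List.replicate j u).flatten s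
      rw [sum_map_replicate] at hres
      have hdiv : List.foldl (bstep q κ O I) s (List.replicate j u).flatten / q = 1 := by
        have h3 : List.foldl (bstep q κ O I) s (List.replicate j u).flatten / q < 2 :=
          Nat.div_lt_of_lt_mul (by omega)
        have h4 : 0 < List.foldl (bstep q κ O I) s (List.replicate j u).flatten / q :=
          Nat.div_pos h1 hq0
        omega
      have e2 := Nat.mod_add_div (List.foldl (bstep q κ O I) s (List.replicate j u).flatten) q
      rw [hdiv, hres] at e2
      omega
    have hsdiv : s = s % q + q := by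
      have h3 : s / q < 2 := Nat.div_lt_of_lt_mul (by omega)
      have h4 : 0 < s / q := Nat.div_pos hsq' hq0
      have e2 := Nat.mod_add_div s q
      have h5 : s / q = 1 := by omega
      rw [h5] at e2
      omega
    by_cases hW : (u.map κ).sum % q = 0
    · have h1 := hform 1
      rw [Function.iterate_one, Nat.one_mul] at h1
      rw [h1, Nat.add_mod, hW, Nat.add_zero, Nat.mod_mod, Nat.mod_mod]
      exact hsdiv.symm
    · exfalso
      obtain ⟨u0, z, u1, hu, hu0, hz⟩ := first_nz q κ u hW
      have hsr : s % q < q := Nat.mod_lt _ hq0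
      -- the letter z is read at the second gate
      have hzO : z ∈ O := by
        obtain ⟨j0, hj0⟩ := exists_hit q hq _ hW (s % q) 0 hsr
        rw [Nat.zero_mod] at hj0
        have h1 := hform j0
        rw [hj0, Nat.zero_add] at h1
        have h2 := hal (j0 + 1)
        rw [Function.iterate_succ_apply', h1] at h2
        by_contra hzO
        have h3 : List.foldl (absStep (bstep q κ O I)) q u < q := by
          rw [hu, List.foldl_append, foldl_abs_live_zero q hq0 κ O I u0 hu0 q (le_refl q)
            (by omega), List.foldl_cons, absStep_pos _ (by omega : q ≠ 0),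
            bstep_gate1 q κ O I q z (Nat.mod_self q) hz, if_neg hzO]
          exact foldl_abs_dead_lt q hq0 κ O I u1 _ (by
            have := Nat.mod_lt (κ z) hq0
            omega)
        omega
      -- the letter z also ends a live walk
      have hzI : z ∈ I := by
        have hk : κ z % q < q := Nat.mod_lt _ hq0
        obtain ⟨j1, hj1⟩ := exists_hit q hq _ hW (s % q) (q - κ z % q) hsr
        rw [Nat.mod_eq_of_lt (by omega : q - κ z % q < q)] at hj1
        have h1 := hform j1
        rw [hj1] at h1
        have h2 := hal (j1 + 1)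
        rw [Function.iterate_succ_apply', h1] at h2
        by_contra hzI
        have hmod : (q - κ z % q + q) % q = q - κ z % q := by
          rw [Nat.add_mod_right, Nat.mod_eq_of_lt (by omega)]
        have harr : ((q - κ z % q + q) % q + κ z) % q = 0 := by
          rw [hmod, Nat.add_mod, Nat.mod_eq_of_lt (by omega : q - κ z % q < q)]
          have e : q - κ z % q + κ z % q = q := by omega
          rw [e, Nat.mod_self]
        have h3 : List.foldl (absStep (bstep q κ O I)) (q - κ z % q + q) u < q := by
          rw [hu, List.foldl_append, foldl_abs_live_zero q hq0 κ O I u0 hu0 _ (by omega)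
            (by omega), List.foldl_cons, absStep_pos _ (by omega),
            bstep_arr q κ O I _ z (by rw [hmod]; omega) harr, if_neg (fun h => hzI h.2),
            foldl_abs_zero]
          exact hq0
        omega
      exact (Finset.disjoint_left.mp hOI) hzO hzI

end Vale.Agent.Lib.P329
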