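import Vale.Agent.Lib.P329.ExcAut
import Vale.Agent.Lib.P329.ExtThree

/-!
# Counting marked letters by the weight of the earlier letters modulo a prime

Letters carry weights `κ x`. For a prime `q` and a set `S` of marked letters whose weights agree
modulo `q`, `wocc q κ S r w` is the number of positions of `w` carrying a letter of `S` at which
the total weight of the preceding letters is congruent to `r` modulo `q`. Its residue modulo
every `m ≥ 1` is a statistic of generalized star height at most one (`stat_wocc_prime`).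

For marked letters of nonzero weight `kb`, two visit-counting automata over excursion automata
compute the difference `wocc (r + kb) - wocc r` modulo any modulus (`stat_wocc_dif`); the `q`
differences and the total number of marked letters determine `q * wocc r` modulo `q * m`.
-/

namespace Vale.Agent.Lib.P329

open Language

variable {α : Type} [DecidableEq α]

/-! ### The counting fold -/

theorem woc_fst (q : ℕ) (κ : α → ℕ) (S : Finset α) (r : ℕ) (w : List α) :
    ∀ st : ℕ × ℕ, (w.foldl (wocStep q κ S r) st).1 = st.1 + (w.map κ).sum := by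
  induction w with
  | nil =>
    intro st
    rfl
  | cons x w ih =>
    intro st
    rw [List.foldl_cons, ih, List.map_cons, List.sum_cons]
    show st.1 + κ x + (w.map κ).sum = st.1 + (κ x + (w.map κ).sum)
    rw [Nat.add_assoc]

theorem wocc_nil (q : ℕ) (κ : α → ℕ) (S : Finset α) (r : ℕ) : wocc q κ S r [] = 0 := rfl

theorem wocc_snoc (q : ℕ) (κ : α → ℕ) (S : Finset α) (r : ℕ) (w : List α) (y : α) :
    wocc q κ S r (w ++ [y])
      = wocc q κ S r w + if y ∈ S ∧ (w.map κ).sum % q = r % q then 1 else 0 := by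
  unfold wocc
  rw [List.foldl_append, List.foldl_cons, List.foldl_nil]
  have h1 : (w.foldl (wocStep q κ S r) (0, 0)).1 = (w.map κ).sum := by
    have h := woc_fst q κ S r w (0, 0)
    simpa using h
  show (if y ∈ S ∧ (w.foldl (wocStep q κ S r) (0, 0)).1 % q = r % q
      then (w.foldl (wocStep q κ S r) (0, 0)).2 + 1 else (w.foldl (wocStep q κ S r) (0, 0)).2) = _
  rw [h1]
  split_ifs <;> rfl

theorem wocc_congr (q : ℕ) (κ : α → ℕ) (S : Finset α) (r r' : ℕ) (h : r % q = r' % q)
    (w : List α) : wocc q κ S r w = wocc q κ S r' w := by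
  have e : wocStep q κ S r = wocStep q κ S r' := by
    funext st x
    simp only [wocStep, h]
  unfold wocc
  rw [e]

theorem pdiv (q k c : ℕ) (hk : k < q) : (k + q * c) / q = c := by
  have hq : 0 < q := by omega
  rw [Nat.add_mul_div_left _ _ hq, Nat.div_eq_of_lt hk, Nat.zero_add]

theorem mem_nzSet [Fintype α] (q : ℕ) (κ : α → ℕ) (a : α) : a ∈ nzSet q κ ↔ κ a % q ≠ 0 := by
  unfold nzSet
  rw [Finset.mem_filter]
  exact ⟨fun h => h.2, fun h => ⟨Finset.mem_univ a, h⟩⟩

/-! ### The invariant of the two level automata -/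

/-- the invariant linking the states `a`, `b` of the two level automata with the total weight
`W` and the two counts `co` (marked letters read at the gate) and `ci` (marked letters that
enter the gate) -/
def ExcInv (q m r0 : ℕ) (a b W co ci : ℕ) : Prop :=
  a < 2 * q * m ∧ b < 2 * q * m ∧ a % (2 * q) % q = (r0 + W) % q ∧
  b % (2 * q) % q = (r0 + W) % q ∧
  ((r0 + W) % q ≠ 0 → a % (2 * q) / q + b % (2 * q) / q = 1) ∧
  ((co : ZMod m) + ((a / (2 * q) : ℕ) : ZMod m) + (if a % (2 * q) = 0 then 1 else 0)
    = (ci : ZMod m) + ((b / (2 * q) : ℕ) : ZMod m) + (if b % (2 * q) = 0 then 1 else 0)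
      + (if (r0 + W) % q ≠ 0 ∧ a % (2 * q) / q = 1 then 1 else 0))

variable [Fintype α]

theorem excInv_step (q m : ℕ) (hq : 0 < q) (κ : α → ℕ) (S : Finset α) (kb : ℕ)
    (hkb : ∀ x ∈ S, κ x % q = kb) (hkb0 : kb ≠ 0) (r0 : ℕ) (a b W co ci : ℕ) (x : α)
    (h : ExcInv q m r0 a b W co ci) :
    ExcInv q m r0 (visitStep (2 * q) m (bstep q κ S (nzSet q κ \ S)) (nzSet q κ) a x)
      (visitStep (2 * q) m (bstep q κ (nzSet q κ \ S) S) (nzSet q κ) b x) (W + κ x)
      (co + if x ∈ S ∧ (r0 + W) % q = 0 then 1 else 0)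
      (ci + if x ∈ S ∧ ((r0 + W) % q + κ x) % q = 0 then 1 else 0) := by
  obtain ⟨ha, hb, ra, rb, hmode, hiv⟩ := h
  have hN : 0 < 2 * q := by omega
  have hbA : ∀ y z, y < 2 * q → bstep q κ S (nzSet q κ \ S) y z < 2 * q :=
    fun y z hy => bstep_lt q hq κ _ _ y z hy
  have hbB : ∀ y z, y < 2 * q → bstep q κ (nzSet q κ \ S) S y z < 2 * q :=
    fun y z hy => bstep_lt q hq κ _ _ y z hy
  have am := visitStep_mod (2 * q) m _ (nzSet q κ) hbA hN a x
  have ad := visitStep_div (2 * q) m _ (nzSet q κ) hbA hN a x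
  have bm := visitStep_mod (2 * q) m _ (nzSet q κ) hbB hN b x
  have bd := visitStep_div (2 * q) m _ (nzSet q κ) hbB hN b x
  have ha' := visitStep_lt (2 * q) m _ (nzSet q κ) hbA a x ha
  have hb' := visitStep_lt (2 * q) m _ (nzSet q κ) hbB b x hb
  have hres : (r0 + (W + κ x)) % q = ((r0 + W) % q + κ x) % q := by
    rw [Nat.mod_add_mod, Nat.add_assoc]
  have hρq : (r0 + W) % q < q := Nat.mod_lt _ hq
  have hkq : κ x % q < q := Nat.mod_lt _ hq
  refine ⟨ha', hb', ?_, ?_, ?_, ?_⟩
  · rw [am, bstep_res q hq, ra, hres]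
  · rw [bm, bstep_res q hq, rb, hres]
  · -- the modes
    rw [hres, am, bm]
    intro hne
    by_cases hρ : (r0 + W) % q = 0
    · have hk : κ x % q ≠ 0 := by
        intro h0
        apply hne
        rw [hρ, Nat.zero_add]
        exact h0
      have hxZ : x ∈ nzSet q κ := (mem_nzSet q κ x).mpr hk
      rw [bstep_gate1 q κ _ _ _ x (by rw [ra]; exact hρ) hk,
        bstep_gate1 q κ _ _ _ x (by rw [rb]; exact hρ) hk, pdiv q _ _ hkq, pdiv q _ _ hkq]
      by_cases hxS : x ∈ S
      · rw [if_pos hxS, if_neg (fun h => (Finset.mem_sdiff.mp h).2 hxS)]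
      · rw [if_neg hxS, if_pos (Finset.mem_sdiff.mpr ⟨hxZ, hxS⟩)]
    · rw [bstep_move q κ _ _ _ x (by rw [ra]; exact hρ) (by rw [ra]; exact hne),
        bstep_move q κ _ _ _ x (by rw [rb]; exact hρ) (by rw [rb]; exact hne),
        pdiv q _ _ (Nat.mod_lt _ hq), pdiv q _ _ (Nat.mod_lt _ hq)]
      exact hmode hρ
  · -- the counts
    rw [hres, am, ad, bm, bd]
    by_cases hρ : (r0 + W) % q = 0
    · by_cases hk : κ x % q = 0
      · -- a letter of weight zero at a gate
        have hxS : x ∉ S := fun h => hkb0 (by rw [← hkb x h]; exact hk)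
        have hxZ : x ∉ nzSet q κ := notMem_nzSet q κ x hk
        rw [bstep_gate0 q κ _ _ _ x (by rw [ra]; exact hρ) hk,
          bstep_gate0 q κ _ _ _ x (by rw [rb]; exact hρ) hk]
        simp [hρ, hk, hxS, hxZ] at hiv ⊢
        linear_combination hiv
      · -- a letter of nonzero weight leaves a gate
        have hxZ : x ∈ nzSet q κ := (mem_nzSet q κ x).mpr hk
        rw [bstep_gate1 q κ _ _ _ x (by rw [ra]; exact hρ) hk,
          bstep_gate1 q κ _ _ _ x (by rw [rb]; exact hρ) hk, pdiv q _ _ hkq]
        by_cases hxS : x ∈ S <;> by_cases ha0 : a % (2 * q) = 0 <;>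
          by_cases hb0 : b % (2 * q) = 0 <;>
          simp [hxS, ha0, hb0, hxZ, hρ, hk] at hiv ⊢ <;>
          linear_combination hiv
    · have hal0 : a % (2 * q) ≠ 0 := by
        intro h0
        rw [h0, Nat.zero_mod] at ra
        exact hρ ra.symm
      have hbl0 : b % (2 * q) ≠ 0 := by
        intro h0
        rw [h0, Nat.zero_mod] at rb
        exact hρ rb.symm
      have hm1 := hmode hρ
      by_cases hρ' : ((r0 + W) % q + κ x) % q = 0
      · -- a walk returns to residue zero
        have hk : κ x % q ≠ 0 := by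
          intro h0
          apply hρ
          rw [Nat.add_mod, h0, Nat.add_zero, Nat.mod_mod, Nat.mod_mod] at hρ'
          exact hρ'
        have hxZ : x ∈ nzSet q κ := (mem_nzSet q κ x).mpr hk
        rw [bstep_arr q κ _ _ _ x (by rw [ra]; exact hρ) (by rw [ra]; exact hρ'),
          bstep_arr q κ _ _ _ x (by rw [rb]; exact hρ) (by rw [rb]; exact hρ')]
        have hq0 : q ≠ 0 := by omega
        have hρ2 : (r0 + W + κ x) % q = 0 := by
          rw [← Nat.mod_add_mod]
          exact hρ'
        by_cases hμ : a % (2 * q) / q = 1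
        · have hν : b % (2 * q) / q = 0 := by
            generalize a % (2 * q) / q = u at hm1 hμ
            generalize b % (2 * q) / q = v at hm1
            omega
          by_cases hxS : x ∈ S <;>
            simp [hμ, hν, hxS, hxZ, hρ, hρ', hρ2, hq0, hal0, hbl0] at hiv ⊢ <;>
            linear_combination hiv
        · have hν : b % (2 * q) / q = 1 := by
            generalize a % (2 * q) / q = u at hm1 hμ
            generalize b % (2 * q) / q = v at hm1
            omega
          by_cases hxS : x ∈ S <;>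
            simp [hμ, hν, hxS, hxZ, hρ, hρ', hρ2, hq0, hal0, hbl0] at hiv ⊢ <;>
            linear_combination hiv
      · -- a walk goes on
        have hlt : ((r0 + W) % q + κ x) % q < q := Nat.mod_lt _ hq
        rw [bstep_move q κ _ _ _ x (by rw [ra]; exact hρ) (by rw [ra]; exact hρ'),
          bstep_move q κ _ _ _ x (by rw [rb]; exact hρ) (by rw [rb]; exact hρ'), ra, rb,
          pdiv q _ _ hlt]
        have hρ2 : ¬ (r0 + W + κ x) % q = 0 := by
          rw [← Nat.mod_add_mod]
          exact hρ'
        by_cases hμ : a % (2 * q) / q = 1 <;>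
          simp [hμ, hρ, hρ', hρ2, hal0, hbl0] at hiv ⊢ <;>
          linear_combination hiv

end Vale.Agent.Lib.P329
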