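import Vale.Agent.Lib.P329.WalkStat
import Vale.Agent.Lib.P329.ClassFour

/-!
# Nilpotency class four over two letters

The eight quantities of `class_four_det` are functions of statistics of generalized star height
at most one. Seven of them are letter counts, weighted sums over the occurrences of one letter
of a function of the number of earlier occurrences of the other letter, and telescoping
combinations of these. The eighth, the sum over the occurrences of `b` of
`C(X, 2) * Y` (`X`, `Y` the numbers of earlier `a` and `b`), is obtained from the walk statistic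
`stat_walk` for the function `t ↦ (t + 1) ^ 4 - t ^ 4` of `X - Y`, through the identity `key48`.
-/

namespace Vale.Agent.Lib.P329

open Language

variable {α : Type} [DecidableEq α]

theorem nat_sq_choose (k : ℕ) : k * k = 2 * k.choose 2 + k := by
  induction k with
  | zero => rfl
  | succ k ih =>
    rw [choose_two_succ]
    have e : (k + 1) * (k + 1) = k * k + 2 * k + 1 := by ring
    rw [e, ih]
    ring

theorem nat_cube_choose (k : ℕ) : k ^ 3 = 6 * k.choose 3 + 6 * k.choose 2 + k := by
  induction k with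
  | zero => rfl
  | succ k ih =>
    rw [choose_three_succ, choose_two_succ]
    have e : (k + 1) ^ 3 = k ^ 3 + 3 * (k * k) + 3 * k + 1 := by ring
    rw [e, ih, nat_sq_choose k]
    ring

/-- the key identity: `48` times the sum of `C(X, 2) * Y` over the occurrences of `b` in terms
of the walk sum for `t ↦ (t + 1) ^ 4 - t ^ 4`, the letter counts and four simpler sums -/
theorem key48 {R : Type} [CommRing R] (a b : α) (hab : a ≠ b) (w : List α) :
    48 * ((psum a b b (fun X Y => X.choose 2 * Y) 0 0 w : ℕ) : R)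
      = ((w.count a : R) - (w.count b : R)) ^ 4
        - (psum a b a (fun X Y : ℕ => ((X : R) - (Y : R) + 1) ^ 4 - ((X : R) - (Y : R)) ^ 4)
            0 0 w
          + psum a b b (fun X Y : ℕ => ((X : R) - (Y : R) + 1) ^ 4 - ((X : R) - (Y : R)) ^ 4)
            0 0 w)
        + 48 * ((psum a b b (fun X _ => X.choose 3) 0 0 w : ℕ) : R)
        + 48 * ((psum a b b (fun X _ => X.choose 2) 0 0 w : ℕ) : R)
        + 16 * ((psum a b b (fun X _ => X) 0 0 w : ℕ) : R)
        + 48 * ((psum a b b (fun X Y => X * Y.choose 2) 0 0 w : ℕ) : R)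
        - 2 * (w.count b : R) ^ 2 * ((w.count b : R) - 1) ^ 2
        - 4 * (w.count b : R) * ((w.count b : R) - 1) := by
  have t1 := psum_tele a b hab (fun X Y : ℕ => ((X : R) - (Y : R)) ^ 4)
    (fun X Y : ℕ => ((X : R) - (Y : R) + 1) ^ 4 - ((X : R) - (Y : R)) ^ 4)
    (fun X Y : ℕ => ((X : R) - (Y : R) - 1) ^ 4 - ((X : R) - (Y : R)) ^ 4)
    (fun A B => by push_cast; ring) (fun A B => by push_cast; ring) w 0 0
  have t2 := psum_tele a b hab
    (fun _ Y : ℕ => 2 * (Y : R) ^ 2 * ((Y : R) - 1) ^ 2 + 4 * (Y : R) * ((Y : R) - 1))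
    (fun _ _ : ℕ => (0 : R))
    (fun _ Y : ℕ => 8 * (Y : R) ^ 3 - (-8) * (Y : R))
    (fun A B => by rw [add_zero]) (fun A B => by push_cast; ring) w 0 0
  rw [psum_zero] at t2
  simp only [Nat.zero_add, Nat.cast_zero] at t1 t2
  have e : (fun X Y : ℕ => ((X : R) - (Y : R) - 1) ^ 4 - ((X : R) - (Y : R)) ^ 4)
      = fun X Y : ℕ => (((X : R) - (Y : R) + 1) ^ 4 - ((X : R) - (Y : R)) ^ 4)
        + (((-48 : R) * ((X.choose 3 : ℕ) : R) + ((-48 : R) * ((X.choose 2 : ℕ) : R)
          + ((-16 : R) * ((X : ℕ) : R) + ((48 : R) * ((X.choose 2 * Y : ℕ) : R)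
            + (-48 : R) * ((X * Y.choose 2 : ℕ) : R)))))
          + (8 * (Y : R) ^ 3 - (-8) * (Y : R))) := by
    funext X Y
    have hx2 : (X : R) ^ 2 = 2 * ((X.choose 2 : ℕ) : R) + (X : R) := by
      have h := congrArg (Nat.cast : ℕ → R) (nat_sq_choose X)
      rw [Nat.cast_mul, Nat.cast_add, Nat.cast_mul, Nat.cast_ofNat] at h
      rw [sq]
      exact h
    have hx3 : (X : R) ^ 3 = 6 * ((X.choose 3 : ℕ) : R) + 6 * ((X.choose 2 : ℕ) : R)
        + (X : R) := by
      have h := congrArg (Nat.cast : ℕ → R) (nat_cube_choose X)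
      rw [Nat.cast_pow, Nat.cast_add, Nat.cast_add, Nat.cast_mul, Nat.cast_mul,
        Nat.cast_ofNat] at h
      exact h
    have hy2 : (Y : R) ^ 2 = 2 * ((Y.choose 2 : ℕ) : R) + (Y : R) := by
      have h := congrArg (Nat.cast : ℕ → R) (nat_sq_choose Y)
      rw [Nat.cast_mul, Nat.cast_add, Nat.cast_mul, Nat.cast_ofNat] at h
      rw [sq]
      exact h
    rw [Nat.cast_mul, Nat.cast_mul]
    linear_combination (-8 : R) * hx3 + 24 * (Y : R) * hx2 - 24 * (X : R) * hy2
  rw [e, psum_add, psum_add, psum_add, psum_add, psum_add, psum_add, psum_mul, psum_mul,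
    psum_mul, psum_mul, psum_mul, ← psum_cast, ← psum_cast, ← psum_cast, ← psum_cast,
    ← psum_cast] at t1
  linear_combination (-1 : R) * t1 + t2

/-- the sum of `X * Y` over the occurrences of `b` -/
theorem e4_eq (a b : α) (hab : a ≠ b) (w : List α) :
    w.count a * (w.count b).choose 2
      = wsum {b} a (fun k => k.choose 2) 0 w + psum a b b (fun X Y => X * Y) 0 0 w := by
  have t := psum_tele a b hab (fun X Y => X * Y.choose 2) (fun _ Y => Y.choose 2)
    (fun X Y => X * Y) (fun A B => by ring) (fun A B => by rw [choose_two_succ]; ring) w 0 0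
  rw [psum_right a b (fun k => k.choose 2) w 0 0] at t
  simp only [Nat.zero_add, Nat.zero_mul] at t
  exact t

/-- the sum of `X * C(Y, 2)` over the occurrences of `b` -/
theorem e6_eq (a b : α) (hab : a ≠ b) (w : List α) :
    w.count a * (w.count b).choose 3
      = wsum {b} a (fun k => k.choose 3) 0 w
        + psum a b b (fun X Y => X * Y.choose 2) 0 0 w := by
  have t := psum_tele a b hab (fun X Y => X * Y.choose 3) (fun _ Y => Y.choose 3)
    (fun X Y => X * Y.choose 2) (fun A B => by ring)
    (fun A B => by rw [choose_three_succ]; ring) w 0 0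
  rw [psum_right a b (fun k => k.choose 3) w 0 0] at t
  simp only [Nat.zero_add, Nat.zero_mul] at t
  exact t

theorem cast_mod48 (m x y : ℕ) (h : ((x : ℕ) : ZMod (48 * m)) = ((y : ℕ) : ZMod (48 * m))) :
    x % m = y % m := by
  have h1 : x ≡ y [MOD 48 * m] := (ZMod.natCast_eq_natCast_iff _ _ _).mp h
  exact Nat.ModEq.of_mul_left 48 h1

theorem cast_mul_mod48 (m x y : ℕ)
    (h : (48 : ZMod (48 * m)) * ((x : ℕ) : ZMod (48 * m)) = 48 * ((y : ℕ) : ZMod (48 * m))) :
    x % m = y % m := by
  have h0 : ((48 * x : ℕ) : ZMod (48 * m)) = ((48 * y : ℕ) : ZMod (48 * m)) := by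
    rw [Nat.cast_mul, Nat.cast_mul, Nat.cast_ofNat]
    exact h
  have h1 : 48 * x ≡ 48 * y [MOD 48 * m] := (ZMod.natCast_eq_natCast_iff _ _ _).mp h0
  exact Nat.ModEq.mul_left_cancel' (by norm_num) h1

variable [Fintype α]

/-- a language saturated by the fibres of a statistic of generalized star height at most one
with finitely many values has generalized star height at most one -/
theorem gsh_of_det {β : Type} [Fintype β] {T : List α → β} (hT : StatLe 1 T) (L : Language α)
    (hL : ∀ w w' : List α, T w = T w' → (w ∈ L ↔ w' ∈ L)) : GSHLe 1 L := by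
  have h2 := hT.level (fun v => ∃ w' ∈ L, T w' = v)
  refine h2.of_iff (fun w => ?_)
  show (∃ w' ∈ L, T w' = T w) ↔ w ∈ L
  constructor
  · rintro ⟨w', hw', e⟩
    exact (hL w' w e).mp hw'
  · intro hw
    exact ⟨w, hw, rfl⟩

/-- a statistic of generalized star height at most one that determines the eight quantities of
`class_four_det` modulo `m` -/
theorem four_stat (m : ℕ) (hm : 0 < m) (a b : α) (hab : a ≠ b) :
    ∃ (β : Type) (_ : Fintype β) (T : List α → β), StatLe 1 T ∧
      ∀ w w' : List α, T w = T w' →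
        w.count a % m = w'.count a % m
        ∧ w.count b % m = w'.count b % m
        ∧ psum a b b (fun X _ => X) 0 0 w % m = psum a b b (fun X _ => X) 0 0 w' % m
        ∧ psum a b b (fun X _ => X.choose 2) 0 0 w % m
            = psum a b b (fun X _ => X.choose 2) 0 0 w' % m
        ∧ psum a b b (fun X _ => X.choose 3) 0 0 w % m
            = psum a b b (fun X _ => X.choose 3) 0 0 w' % m
        ∧ psum a b b (fun X Y => X * Y) 0 0 w % m = psum a b b (fun X Y => X * Y) 0 0 w' % m
        ∧ psum a b b (fun X Y => X.choose 2 * Y) 0 0 w % m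
            = psum a b b (fun X Y => X.choose 2 * Y) 0 0 w' % m
        ∧ psum a b b (fun X Y => X * Y.choose 2) 0 0 w % m
            = psum a b b (fun X Y => X * Y.choose 2) 0 0 w' % m := by
  have hM : 0 < 48 * m := by omega
  have : NeZero (48 * m) := ⟨hM.ne'⟩
  have hb : b ∉ ({a} : Finset α) := fun h => hab (Finset.mem_singleton.mp h).symm
  have ha : a ∉ ({b} : Finset α) := fun h => hab (Finset.mem_singleton.mp h)
  have sA := stat_count (48 * m) a
  have sB := stat_count (48 * m) b
  have s1 : StatLe 1 (fun w : List α =>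
      ((psum a b b (fun X _ => X) 0 0 w : ℕ) : ZMod (48 * m))) :=
    (stat_wid (48 * m) {a} b hb).congr
      (fun w => congrArg (Nat.cast : ℕ → ZMod (48 * m)) (psum_left a b id w 0 0).symm)
  have s2 : StatLe 1 (fun w : List α =>
      ((psum a b b (fun X _ => X.choose 2) 0 0 w : ℕ) : ZMod (48 * m))) :=
    (stat_wch (48 * m) {a} b hb).congr
      (fun w => congrArg (Nat.cast : ℕ → ZMod (48 * m))
        (psum_left a b (fun k => k.choose 2) w 0 0).symm)
  have s3 : StatLe 1 (fun w : List α =>
      ((psum a b b (fun X _ => X.choose 3) 0 0 w : ℕ) : ZMod (48 * m))) :=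
    (wsum_stat {a} b hb (48 * m) (fun k => k.choose 3) (6 * (48 * m)) (by omega)
      (choose_three_periodic (48 * m) hM)).congr
      (fun w => congrArg (Nat.cast : ℕ → ZMod (48 * m))
        (psum_left a b (fun k => k.choose 3) w 0 0).symm)
  have sW2 := stat_wch (48 * m) {b} a ha
  have sW3 := wsum_stat {b} a ha (48 * m) (fun k => k.choose 3) (6 * (48 * m)) (by omega)
    (choose_three_periodic (48 * m) hM)
  have sC2 := stat_count_fun (48 * m) b (fun k => k.choose 2) (2 * (48 * m)) (by omega)
    (choose_two_periodic (48 * m))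
  have sC3 := stat_count_fun (48 * m) b (fun k => k.choose 3) (6 * (48 * m)) (by omega)
    (choose_three_periodic (48 * m) hM)
  have sG : StatLe 1 (fun w : List α =>
      psum a b a (fun X Y : ℕ => ((X : ZMod (48 * m)) - (Y : ZMod (48 * m)) + 1) ^ 4
          - ((X : ZMod (48 * m)) - (Y : ZMod (48 * m))) ^ 4) 0 0 w
        + psum a b b (fun X Y : ℕ => ((X : ZMod (48 * m)) - (Y : ZMod (48 * m)) + 1) ^ 4
          - ((X : ZMod (48 * m)) - (Y : ZMod (48 * m))) ^ 4) 0 0 w) :=
    stat_walk (48 * m) (48 * m) a b hab (fun t => (t + 1) ^ 4 - t ^ 4)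
  have hT := sA.prod (sB.prod (s1.prod (s2.prod (s3.prod (sW2.prod (sW3.prod
    (sC2.prod (sC3.prod sG))))))))
  refine ⟨_, inferInstance, _, hT, fun w w' h => ?_⟩
  simp only [Prod.mk.injEq] at h
  obtain ⟨hA, hB, h1, h2, h3, hW2, hW3, hC2, hC3, hG⟩ := h
  have h4 : ((psum a b b (fun X Y => X * Y) 0 0 w : ℕ) : ZMod (48 * m))
      = ((psum a b b (fun X Y => X * Y) 0 0 w' : ℕ) : ZMod (48 * m)) := by
    have i := congrArg (Nat.cast : ℕ → ZMod (48 * m)) (e4_eq a b hab w)
    have i' := congrArg (Nat.cast : ℕ → ZMod (48 * m)) (e4_eq a b hab w')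
    rw [Nat.cast_mul, Nat.cast_add] at i i'
    rw [hA, hC2, hW2] at i
    linear_combination i' - i
  have h6 : ((psum a b b (fun X Y => X * Y.choose 2) 0 0 w : ℕ) : ZMod (48 * m))
      = ((psum a b b (fun X Y => X * Y.choose 2) 0 0 w' : ℕ) : ZMod (48 * m)) := by
    have i := congrArg (Nat.cast : ℕ → ZMod (48 * m)) (e6_eq a b hab w)
    have i' := congrArg (Nat.cast : ℕ → ZMod (48 * m)) (e6_eq a b hab w')
    rw [Nat.cast_mul, Nat.cast_add] at i i'
    rw [hA, hC3, hW3] at i
    linear_combination i' - i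
  have h5 : (48 : ZMod (48 * m)) * ((psum a b b (fun X Y => X.choose 2 * Y) 0 0 w : ℕ)
        : ZMod (48 * m))
      = 48 * ((psum a b b (fun X Y => X.choose 2 * Y) 0 0 w' : ℕ) : ZMod (48 * m)) := by
    have k := key48 (R := ZMod (48 * m)) a b hab w
    have k' := key48 (R := ZMod (48 * m)) a b hab w'
    rw [hA, hB, hG, h3, h2, h1, h6] at k
    exact k.trans k'.symm
  exact ⟨cast_mod48 m _ _ hA, cast_mod48 m _ _ hB, cast_mod48 m _ _ h1, cast_mod48 m _ _ h2,
    cast_mod48 m _ _ h3, cast_mod48 m _ _ h4, cast_mul_mod48 m _ _ h5, cast_mod48 m _ _ h6⟩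

omit [Fintype α] in
theorem prod_one_letter {G : Type} [Group G] (a : α) (φ : α → G) (hφ : ∀ z, z ≠ a → φ z = 1)
    (w : List α) : (w.map φ).prod = φ a ^ w.count a := by
  induction w with
  | nil => simp
  | cons x w ih =>
    rw [List.map_cons, List.prod_cons, ih]
    by_cases hx : x = a
    · subst hx
      rw [List.count_cons_self, pow_succ']
    · rw [hφ x hx, one_mul, List.count_cons_of_ne hx]

/-- **Nilpotency class four over two letters.** If a map from the letters into a finite
nilpotent group of class at most four sends every letter other than `a` and `b` to the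
identity, then every language it recognizes has generalized star height at most one. -/
theorem gsh_class_four_two {G : Type} [Group G] [Finite G] [Group.IsNilpotent G]
    (hG : Group.nilpotencyClass G ≤ 4) (a b : α) (φ : α → G)
    (hφ : ∀ z, z ≠ a → z ≠ b → φ z = 1) (P : Set G) :
    GSHLe 1 ({w | (w.map φ).prod ∈ P} : Language α) := by
  have h4 : Subgroup.lowerCentralSeries (⊤ : Subgroup G) 4 = ⊥ :=
    Subgroup.lowerCentralSeries_eq_bot_iff_nilpotencyClass_le.mpr hG
  by_cases hab : a = b
  · subst hab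
    have : NeZero (Nat.card G) := ⟨Nat.card_pos.ne'⟩
    have h := (stat_count (Nat.card G) a).level
      (fun v : ZMod (Nat.card G) => φ a ^ v.val ∈ P)
    refine h.of_iff (fun w => ?_)
    show φ a ^ ((w.count a : ℕ) : ZMod (Nat.card G)).val ∈ P ↔ (w.map φ).prod ∈ P
    rw [prod_one_letter a φ (fun z hz => hφ z hz hz) w, ZMod.val_natCast, pow_mod_natCard]
  · obtain ⟨β, hβ, T, hT, hdet⟩ := four_stat (Nat.card G) Nat.card_pos a b hab
    refine gsh_of_det hT _ (fun w w' h => ?_)
    obtain ⟨e1, e2, e3, e4, e5, e6, e7, e8⟩ := hdet w w' h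
    show (w.map φ).prod ∈ P ↔ (w'.map φ).prod ∈ P
    rw [class_four_det h4 φ a b hab hφ w w' e1 e2 e3 e4 e5 e6 e7 e8]

end Vale.Agent.Lib.P329
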