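import Vale.Agent.Lib.P329.Defs

namespace Vale.Agent.Lib.P329

open Language

variable {α : Type}

theorem GSHLe.mono {n k : ℕ} {L : Language α} (h : GSHLe n L) (hnk : n ≤ k) : GSHLe k L := by
  obtain ⟨e, he, hL⟩ := h
  exact ⟨e, le_trans he hnk, hL⟩

theorem GSHLe.of_iff {n : ℕ} {L M : Language α} (h : GSHLe n L) (e : ∀ w, w ∈ L ↔ w ∈ M) :
    GSHLe n M := by
  have hLM : L = M := Language.ext e
  rw [← hLM]
  exact h

theorem gsh_zero (n : ℕ) : GSHLe n (0 : Language α) := ⟨GRE.zero, Nat.zero_le _, rfl⟩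

theorem gsh_one (n : ℕ) : GSHLe n (1 : Language α) := ⟨GRE.one, Nat.zero_le _, rfl⟩

theorem gsh_letter (n : ℕ) (a : α) : GSHLe n ({[a]} : Language α) :=
  ⟨GRE.letter a, Nat.zero_le _, rfl⟩

theorem GSHLe.add {n : ℕ} {L M : Language α} (hL : GSHLe n L) (hM : GSHLe n M) :
    GSHLe n (L + M) := by
  obtain ⟨e, he, rfl⟩ := hL
  obtain ⟨f, hf, rfl⟩ := hM
  exact ⟨GRE.union e f, max_le he hf, rfl⟩

theorem GSHLe.mul {n : ℕ} {L M : Language α} (hL : GSHLe n L) (hM : GSHLe n M) :
    GSHLe n (L * M) := by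
  obtain ⟨e, he, rfl⟩ := hL
  obtain ⟨f, hf, rfl⟩ := hM
  exact ⟨GRE.concat e f, max_le he hf, rfl⟩

theorem GSHLe.compl {n : ℕ} {L : Language α} (hL : GSHLe n L) : GSHLe n Lᶜ := by
  obtain ⟨e, he, rfl⟩ := hL
  exact ⟨GRE.compl e, he, rfl⟩

theorem GSHLe.kstar {L : Language α} (hL : GSHLe 0 L) : GSHLe 1 (KStar.kstar L) := by
  obtain ⟨e, he, rfl⟩ := hL
  refine ⟨GRE.star e, ?_, rfl⟩
  show e.height + 1 ≤ 1
  omega

theorem gsh_top (n : ℕ) : GSHLe n (⊤ : Language α) := by
  have h : GSHLe n ((0 : Language α)ᶜ) := (gsh_zero n).compl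
  refine h.of_iff (fun w => ?_)
  constructor
  · intro _
    trivial
  · intro _ hw
    exact Language.notMem_zero w hw

theorem GSHLe.inf {n : ℕ} {L M : Language α} (hL : GSHLe n L) (hM : GSHLe n M) :
    GSHLe n (L ⊓ M) := by
  have h : GSHLe n ((Lᶜ + Mᶜ)ᶜ) := (hL.compl.add hM.compl).compl
  refine h.of_iff (fun w => ?_)
  rw [Language.mem_inf]
  show ¬ (w ∈ Lᶜ + Mᶜ) ↔ _
  rw [Language.mem_add]
  show ¬ (¬ (w ∈ L) ∨ ¬ (w ∈ M)) ↔ _
  tauto

theorem GSHLe.and {n : ℕ} {L M K : Language α} (hL : GSHLe n L) (hM : GSHLe n M)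
    (e : ∀ w, w ∈ K ↔ (w ∈ L ∧ w ∈ M)) : GSHLe n K := by
  refine (hL.inf hM).of_iff (fun w => ?_)
  rw [Language.mem_inf]
  exact (e w).symm

theorem mem_sum_iff {ι : Type} (s : Finset ι) (L : ι → Language α) (w : List α) :
    w ∈ ∑ i ∈ s, L i ↔ ∃ i ∈ s, w ∈ L i := by
  classical
  induction s using Finset.induction_on with
  | empty => simp [Language.notMem_zero]
  | insert a s ha ih =>
    rw [Finset.sum_insert ha, Language.mem_add, ih]
    simp

theorem gsh_sum {ι : Type} {n : ℕ} (s : Finset ι) (L : ι → Language α)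
    (h : ∀ i ∈ s, GSHLe n (L i)) : GSHLe n (∑ i ∈ s, L i) := by
  classical
  induction s using Finset.induction_on with
  | empty => simpa using gsh_zero n
  | insert a s ha ih =>
    rw [Finset.sum_insert ha]
    exact (h a (Finset.mem_insert_self a s)).add
      (ih (fun i hi => h i (Finset.mem_insert_of_mem hi)))

/-- finite unions -/
theorem gsh_exists {ι : Type} [Fintype ι] {n : ℕ} (L : ι → Language α)
    (h : ∀ i, GSHLe n (L i)) : GSHLe n ({w | ∃ i, w ∈ L i} : Language α) := by
  have h1 : GSHLe n (∑ i ∈ Finset.univ, L i) := gsh_sum _ _ (fun i _ => h i)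
  refine h1.of_iff (fun w => ?_)
  rw [mem_sum_iff]
  constructor
  · rintro ⟨i, _, hi⟩
    exact ⟨i, hi⟩
  · rintro ⟨i, hi⟩
    exact ⟨i, Finset.mem_univ i, hi⟩

/-- finite intersections -/
theorem gsh_forall {ι : Type} [Fintype ι] {n : ℕ} (L : ι → Language α)
    (h : ∀ i, GSHLe n (L i)) : GSHLe n ({w | ∀ i, w ∈ L i} : Language α) := by
  have h0 : GSHLe n ({w | ∃ i, w ∈ (L i)ᶜ} : Language α) :=
    gsh_exists (fun i => (L i)ᶜ) (fun i => (h i).compl)
  refine h0.compl.of_iff (fun w => ?_)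
  show ¬ (∃ i, ¬ (w ∈ L i)) ↔ ∀ i, w ∈ L i
  constructor
  · intro hw i
    by_contra hc
    exact hw ⟨i, hc⟩
  · rintro hw ⟨i, hc⟩
    exact hc (hw i)

/-- the words all of whose letters lie in `B` form a star-free language -/
theorem gsh_allIn [Fintype α] [DecidableEq α] (n : ℕ) (B : Finset α) :
    GSHLe n ({w | ∀ x ∈ w, x ∈ B} : Language α) := by
  have h1 : GSHLe n (((⊤ : Language α) * (∑ a ∈ Bᶜ, ({[a]} : Language α)) * ⊤)ᶜ) :=
    (((gsh_top n).mul (gsh_sum _ _ (fun a _ => gsh_letter n a))).mul (gsh_top n)).compl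
  refine h1.of_iff (fun w => ?_)
  show ¬ (w ∈ (⊤ : Language α) * (∑ a ∈ Bᶜ, ({[a]} : Language α)) * ⊤) ↔ ∀ x ∈ w, x ∈ B
  constructor
  · intro hw x hx
    by_contra hxB
    apply hw
    obtain ⟨s, t, rfl⟩ := List.append_of_mem hx
    rw [Language.mem_mul]
    refine ⟨s ++ [x], ?_, t, trivial, by simp⟩
    rw [Language.mem_mul]
    refine ⟨s, trivial, [x], ?_, rfl⟩
    rw [mem_sum_iff]
    exact ⟨x, by simpa using hxB, rfl⟩
  · intro hw hmem
    rw [Language.mem_mul] at hmem
    obtain ⟨u, hu, t, _, rfl⟩ := hmem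
    rw [Language.mem_mul] at hu
    obtain ⟨s, _, v, hv, rfl⟩ := hu
    rw [mem_sum_iff] at hv
    obtain ⟨x, hx, hvx⟩ := hv
    have hvx' : v = [x] := hvx
    subst hvx'
    have : x ∈ B := hw x (by simp)
    exact (Finset.mem_compl.mp hx) this

/-- reversal of expressions -/
def GRE.rev : GRE α → GRE α
  | GRE.zero => GRE.zero
  | GRE.one => GRE.one
  | GRE.letter a => GRE.letter a
  | GRE.union p q => GRE.union p.rev q.rev
  | GRE.concat p q => GRE.concat q.rev p.rev
  | GRE.compl p => GRE.compl p.rev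
  | GRE.star p => GRE.star p.rev

theorem GRE.height_rev (e : GRE α) : e.rev.height = e.height := by
  induction e with
  | zero => rfl
  | one => rfl
  | letter a => rfl
  | union p q ihp ihq => simp [GRE.rev, GRE.height, ihp, ihq]
  | concat p q ihp ihq => simp [GRE.rev, GRE.height, ihp, ihq, max_comm]
  | compl p ih => simp [GRE.rev, GRE.height, ih]
  | star p ih => simp [GRE.rev, GRE.height, ih]

theorem GRE.lang_rev (e : GRE α) : e.rev.lang = e.lang.reverse := by
  induction e with
  | zero => rfl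
  | one => exact (Language.reverse_one).symm
  | letter a =>
    ext w
    show w = [a] ↔ w.reverse = [a]
    constructor
    · rintro rfl
      rfl
    · intro h
      have := congrArg List.reverse h
      simpa using this
  | union p q ihp ihq =>
    show p.rev.lang + q.rev.lang = (p.lang + q.lang).reverse
    rw [ihp, ihq, Language.reverse_add]
  | concat p q ihp ihq =>
    show q.rev.lang * p.rev.lang = (p.lang * q.lang).reverse
    rw [ihp, ihq, Language.reverse_mul]
  | compl p ih =>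
    show (p.rev.lang)ᶜ = ((p.lang)ᶜ).reverse
    rw [ih]
    rfl
  | star p ih =>
    show KStar.kstar p.rev.lang = (KStar.kstar p.lang).reverse
    rw [ih, Language.reverse_kstar]

theorem GSHLe.reverse {n : ℕ} {L : Language α} (hL : GSHLe n L) : GSHLe n L.reverse := by
  obtain ⟨e, he, rfl⟩ := hL
  exact ⟨e.rev, by rw [GRE.height_rev]; exact he, GRE.lang_rev e⟩

/-- A word statistic all of whose level sets have generalized star height at most `n`. -/
def StatLe (n : ℕ) {β : Type} (f : List α → β) : Prop :=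
  ∀ v : β, GSHLe n ({w | f w = v} : Language α)

theorem StatLe.comp {n : ℕ} {β γ : Type} [Fintype β] {f : List α → β} (hf : StatLe n f)
    (g : β → γ) : StatLe n (fun w => g (f w)) := by
  classical
  intro v
  have h1 : GSHLe n ({w | ∃ u : β, w ∈ ((if g u = v then {w | f w = u} else 0 : Language α))}
      : Language α) := by
    apply gsh_exists
    intro u
    by_cases hu : g u = v
    · simp only [hu]
      exact hf u
    · simp only [hu]
      exact gsh_zero n
  refine h1.of_iff (fun w => ?_)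
  show (∃ u : β, w ∈ ((if g u = v then {w | f w = u} else 0 : Language α))) ↔ g (f w) = v
  constructor
  · rintro ⟨u, hu⟩
    by_cases hg : g u = v
    · simp only [hg] at hu
      have hu' : f w = u := hu
      rw [hu']
      exact hg
    · simp only [hg] at hu
      exact absurd hu (Language.notMem_zero w)
  · intro hw
    refine ⟨f w, ?_⟩
    simp only [hw]
    show f w = f w
    rfl

theorem StatLe.prod {n : ℕ} {β γ : Type} {f : List α → β} {g : List α → γ} (hf : StatLe n f)
    (hg : StatLe n g) : StatLe n (fun w => (f w, g w)) := by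
  intro v
  refine GSHLe.and (hf v.1) (hg v.2) (fun w => ?_)
  show (f w, g w) = v ↔ (f w = v.1 ∧ g w = v.2)
  constructor
  · intro h
    rw [← h]
    exact ⟨rfl, rfl⟩
  · rintro ⟨h1, h2⟩
    exact Prod.ext h1 h2

theorem StatLe.pi {n : ℕ} {ι : Type} [Fintype ι] {β : ι → Type} {f : ∀ i, List α → β i}
    (hf : ∀ i, StatLe n (f i)) : StatLe n (fun w => (fun i => f i w : ∀ i, β i)) := by
  intro v
  have h1 := gsh_forall (fun i => ({w | f i w = v i} : Language α)) (fun i => hf i (v i))
  refine h1.of_iff (fun w => ?_)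
  show (∀ i, f i w = v i) ↔ (fun i => f i w) = v
  constructor
  · intro h
    funext i
    exact h i
  · intro h i
    rw [← h]

theorem StatLe.level {n : ℕ} {β : Type} {f : List α → β} (hf : StatLe n f) (P : β → Prop)
    [Fintype β] : GSHLe n ({w | P (f w)} : Language α) := by
  classical
  have h := (hf.comp (fun u => decide (P u))) true
  refine h.of_iff (fun w => ?_)
  show decide (P (f w)) = true ↔ P (f w)
  simp

end Vale.Agent.Lib.P329
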