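import Mathlib

namespace Vale.Agent.Lib.P329

variable {α : Type}

/-- Maps on `ℕ` that fix `0`, preserve `[0, N)` and are strictly increasing wherever they are
nonzero on the nonzero states. -/
def OpMap (N : ℕ) (F : ℕ → ℕ) : Prop :=
  F 0 = 0 ∧ (∀ y, y < N → F y < N) ∧
    ∀ y y', 0 < y → y < y' → y' < N → F y ≠ 0 → F y' ≠ 0 → F y < F y'

theorem OpMap.id (N : ℕ) : OpMap N (fun y => y) :=
  ⟨rfl, fun _ hy => hy, fun _ _ _ h _ _ _ => h⟩

theorem OpMap.comp {N : ℕ} {F G : ℕ → ℕ} (hF : OpMap N F) (hG : OpMap N G) :
    OpMap N (fun y => G (F y)) := by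
  obtain ⟨hF0, hFb, hFo⟩ := hF
  obtain ⟨hG0, hGb, hGo⟩ := hG
  refine ⟨?_, fun y hy => hGb _ (hFb y hy), ?_⟩
  · show G (F 0) = 0
    rw [hF0, hG0]
  · intro y y' hy hyy' hy' h1 h2
    have hFy : F y ≠ 0 := by
      intro h
      apply h1
      show G (F y) = 0
      rw [h, hG0]
    have hFy' : F y' ≠ 0 := by
      intro h
      apply h2
      show G (F y') = 0
      rw [h, hG0]
    have hlt : F y < F y' := hFo y y' hy hyy' hy' hFy hFy'
    exact hGo (F y) (F y') (Nat.pos_of_ne_zero hFy) hlt (hFb y' hy') h1 h2

theorem opMap_foldl (N : ℕ) (f : ℕ → α → ℕ) (h0 : ∀ a, f 0 a = 0)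
    (hb : ∀ y a, y < N → f y a < N)
    (hop : ∀ y y' a, 0 < y → y < y' → y' < N → f y a ≠ 0 → f y' a ≠ 0 → f y a < f y' a)
    (w : List α) : OpMap N (fun y => List.foldl f y w) := by
  induction w with
  | nil => exact OpMap.id N
  | cons a w ih =>
    have ha : OpMap N (fun y => f y a) :=
      ⟨h0 a, fun y hy => hb y a hy, fun y y' => hop y y' a⟩
    exact OpMap.comp ha ih

/-- An orbit of an order-preserving map is stationary from time `N` on. -/
theorem OpMap.seq_stable {N : ℕ} {F : ℕ → ℕ} (hF : OpMap N F) (s : ℕ → ℕ)
    (hss : ∀ i, s (i + 1) = F (s i)) (hs0 : s 0 < N) : s N = s (N + 1) := by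
  obtain ⟨hF0, hFb, hFo⟩ := hF
  have hsb : ∀ i, s i < N := by
    intro i
    induction i with
    | zero => exact hs0
    | succ i ih =>
      rw [hss]
      exact hFb _ ih
  have hz : ∀ i, s i = 0 → s (i + 1) = 0 := by
    intro i hi
    rw [hss, hi, hF0]
  obtain ⟨n, hn⟩ : ∃ n, N = n + 1 := Nat.exists_eq_succ_of_ne_zero (by omega)
  subst hn
  rcases Nat.eq_zero_or_pos (s 0) with h00 | hpos
  · have hall : ∀ i, s i = 0 := by
      intro i
      induction i with
      | zero => exact h00
      | succ i ih => exact hz i ih
    rw [hall, hall]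
  rcases lt_trichotomy (s 1) (s 0) with hlt | heq | hgt
  · have E : ∀ i, s (i + 1) = 0 ∨ (s (i + 1) < s i ∧ s (i + 1) + i + 1 ≤ s 0) := by
      intro i
      induction i with
      | zero =>
        right
        have e : s (0 + 1) = s 1 := rfl
        rw [e]
        exact ⟨hlt, by omega⟩
      | succ i ih =>
        rcases ih with h | ⟨h1, h2⟩
        · left
          exact hz _ h
        · by_cases h3 : s (i + 1 + 1) = 0
          · left
            exact h3
          · right
            have h4 : s (i + 1) ≠ 0 := fun h => h3 (hz _ h)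
            have h5 : F (s (i + 1)) ≠ 0 := by
              rw [← hss]
              exact h3
            have h6 : F (s i) ≠ 0 := by
              rw [← hss]
              exact h4
            have h7 := hFo (s (i + 1)) (s i) (Nat.pos_of_ne_zero h4) h1 (hsb i) h5 h6
            rw [← hss, ← hss] at h7
            exact ⟨h7, by omega⟩
    have hE := E n
    have hb1 := hsb 0
    have hn1 : s (n + 1) = 0 := by
      rcases hE with h | ⟨_, h2⟩
      · exact h
      · omega
    rw [hn1, hz _ hn1]
  · have hall : ∀ i, s i = s 0 := by
      intro i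
      induction i with
      | zero => rfl
      | succ i ih =>
        rw [hss, ih, ← hss]
        exact heq
    rw [hall (n + 1), hall (n + 1 + 1)]
  · have D : ∀ i, s (i + 1) = 0 ∨ (0 < s i ∧ s i < s (i + 1) ∧ i + 1 ≤ s i) := by
      intro i
      induction i with
      | zero =>
        right
        have e : s (0 + 1) = s 1 := rfl
        rw [e]
        exact ⟨hpos, hgt, by omega⟩
      | succ i ih =>
        rcases ih with h | ⟨h1, h2, h3⟩
        · left
          exact hz _ h
        · by_cases h4 : s (i + 1 + 1) = 0
          · left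
            exact h4
          · right
            have h5 : F (s (i + 1)) ≠ 0 := by
              rw [← hss]
              exact h4
            have h6 : F (s i) ≠ 0 := by
              rw [← hss]
              omega
            have h7 := hFo (s i) (s (i + 1)) h1 h2 (hsb (i + 1)) h6 h5
            rw [← hss, ← hss] at h7
            exact ⟨by omega, h7, by omega⟩
    have hD := D n
    have hb1 := hsb n
    have hn1 : s (n + 1) = 0 := by
      rcases hD with h | ⟨_, _, h3⟩
      · exact h
      · omega
    rw [hn1, hz _ hn1]

theorem foldl_replicate_flatten (f : ℕ → α → ℕ) (w : List α) (k : ℕ) (y : ℕ) :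
    List.foldl f y (List.replicate k w).flatten = (fun z => List.foldl f z w)^[k] y := by
  induction k generalizing y with
  | zero => rfl
  | succ k ih =>
    rw [List.replicate_succ, List.flatten_cons, List.foldl_append, ih,
      Function.iterate_succ_apply]

/-- If every letter fixes `0`, preserves `[0, N)` and acts on the nonzero states as a strictly
increasing map wherever its value is nonzero, then the action of every word `w` satisfies
`w ^ N = w ^ (N + 1)` on `[0, N)`. -/
theorem op_aper (N : ℕ) (f : ℕ → α → ℕ) (h0 : ∀ a, f 0 a = 0)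
    (hb : ∀ y a, y < N → f y a < N)
    (hop : ∀ y y' a, 0 < y → y < y' → y' < N → f y a ≠ 0 → f y' a ≠ 0 → f y a < f y' a)
    (w : List α) :
    ∀ y, y < N → List.foldl f y (List.replicate N w).flatten =
      List.foldl f y (List.replicate (N + 1) w).flatten := by
  intro y hy
  rw [foldl_replicate_flatten, foldl_replicate_flatten]
  exact OpMap.seq_stable (opMap_foldl N f h0 hb hop w)
    (fun i => (fun z => List.foldl f z w)^[i] y)
    (fun i => Function.iterate_succ_apply' _ i y) hy

/-- The same with the base state `0` made absorbing: the hypothesis of the hub criterion for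
automata whose letters act on the nonzero states as strictly increasing maps off `0`. -/
theorem op_aper_abs (N : ℕ) (step : ℕ → α → ℕ)
    (hop : ∀ y y' a, 0 < y → y < y' → y' < N → step y a ≠ 0 → step y' a ≠ 0 →
      step y a < step y' a)
    (hbound : ∀ y a, y < N → step y a < N) :
    ∀ w : List α, ∃ k : ℕ, ∀ y, y < N →
      List.foldl (fun y a => if y = 0 then 0 else step y a) y (List.replicate k w).flatten =
        List.foldl (fun y a => if y = 0 then 0 else step y a) y
          (List.replicate (k + 1) w).flatten := by
  intro w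
  refine ⟨N, op_aper N (fun y a => if y = 0 then 0 else step y a) ?_ ?_ ?_ w⟩
  · intro a
    exact if_pos rfl
  · intro y a hy
    show (if y = 0 then 0 else step y a) < N
    split_ifs with h
    · omega
    · exact hbound y a hy
  · intro y y' a hy hyy' hy' h1 h2
    have e1 : (if y = 0 then 0 else step y a) = step y a := if_neg (by omega)
    have e2 : (if y' = 0 then 0 else step y' a) = step y' a := if_neg (by omega)
    show (if y = 0 then 0 else step y a) < (if y' = 0 then 0 else step y' a)
    rw [e1, e2]
    have h1' : step y a ≠ 0 := by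
      rw [← e1]
      exact h1
    have h2' : step y' a ≠ 0 := by
      rw [← e2]
      exact h2
    exact hop y y' a hy hyy' hy' h1' h2'

end Vale.Agent.Lib.P329
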