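import Vale.Agent.Lib.P329.AperRun
import Vale.Agent.Lib.P329.OpAper

namespace Vale.Agent.Lib.P329

open Language

variable {α : Type} [Fintype α] [DecidableEq α]

/-- The transition function with the base state `0` made absorbing. -/
def absStep (step : ℕ → α → ℕ) (y : ℕ) (a : α) : ℕ := if y = 0 then 0 else step y a

omit [Fintype α] [DecidableEq α] in
theorem absStep_zero (step : ℕ → α → ℕ) (a : α) : absStep step 0 a = 0 := if_pos rfl

omit [Fintype α] [DecidableEq α] in
theorem absStep_pos (step : ℕ → α → ℕ) {y : ℕ} (hy : y ≠ 0) (a : α) :
    absStep step y a = step y a := if_neg hy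

omit [Fintype α] [DecidableEq α] in
theorem absStep_bound (N : ℕ) (step : ℕ → α → ℕ) (hbound : ∀ y a, y < N → step y a < N)
    (y : ℕ) (a : α) (hy : y < N) : absStep step y a < N := by
  unfold absStep
  split_ifs with h
  · omega
  · exact hbound y a hy

omit [Fintype α] [DecidableEq α] in
theorem foldl_abs_zero (step : ℕ → α → ℕ) (w : List α) :
    List.foldl (absStep step) 0 w = 0 := by
  induction w with
  | nil => rfl
  | cons a w ih => rw [List.foldl_cons, absStep_zero, ih]

omit [Fintype α] [DecidableEq α] in
theorem foldl_abs_bound (N : ℕ) (step : ℕ → α → ℕ) (hbound : ∀ y a, y < N → step y a < N)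
    (w : List α) : ∀ y, y < N → List.foldl (absStep step) y w < N := by
  induction w with
  | nil =>
    intro y hy
    exact hy
  | cons a w ih =>
    intro y hy
    rw [List.foldl_cons]
    exact ih _ (absStep_bound N step hbound y a hy)

omit [Fintype α] [DecidableEq α] in
/-- as long as the absorbed run is away from the base state, it agrees with the run -/
theorem foldl_abs_eq (step : ℕ → α → ℕ) (w : List α) :
    ∀ y, List.foldl (absStep step) y w ≠ 0 →
      List.foldl (absStep step) y w = List.foldl step y w := by
  induction w with
  | nil =>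
    intro y _
    rfl
  | cons a w ih =>
    intro y h
    rw [List.foldl_cons] at h
    by_cases hy : y = 0
    · subst hy
      rw [absStep_zero, foldl_abs_zero] at h
      exact absurd rfl h
    · rw [absStep_pos step hy] at h
      rw [List.foldl_cons, List.foldl_cons, absStep_pos step hy]
      exact ih _ h

omit [Fintype α] [DecidableEq α] in
/-- an absorbed run that ends in the base state has a first letter that leads into it -/
theorem first_hit (step : ℕ → α → ℕ) (w : List α) :
    ∀ y, y ≠ 0 → List.foldl (absStep step) y w = 0 →
      ∃ u a v, w = u ++ a :: v ∧ List.foldl (absStep step) y u ≠ 0 ∧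
        step (List.foldl (absStep step) y u) a = 0 := by
  induction w with
  | nil =>
    intro y hy h
    exact absurd h hy
  | cons a w ih =>
    intro y hy h
    rw [List.foldl_cons, absStep_pos step hy] at h
    by_cases h0 : step y a = 0
    · exact ⟨[], a, w, rfl, hy, h0⟩
    · obtain ⟨u, b, v, hw, hu, hb⟩ := ih (step y a) h0 h
      refine ⟨a :: u, b, v, ?_, ?_, ?_⟩
      · rw [hw]
        rfl
      · rw [List.foldl_cons, absStep_pos step hy]
        exact hu
      · rw [List.foldl_cons, absStep_pos step hy]
        exact hb

/-- from `y` to the first visit of the base state -/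
def firstHit (N : ℕ) (step : ℕ → α → ℕ) (y : ℕ) : Language α :=
  ∑ s ∈ (Finset.range N).filter (fun s => s ≠ 0),
    ∑ a ∈ Finset.univ.filter (fun a => step s a = 0),
      runL (absStep step) y s * ({[a]} : Language α)

/-- from `y` to `t` without visiting the base state -/
def avoidL (step : ℕ → α → ℕ) (y t : ℕ) : Language α :=
  if t = 0 then 0 else runL (absStep step) y t

omit [DecidableEq α] in
theorem mem_firstHit (N : ℕ) (step : ℕ → α → ℕ) (y : ℕ) (w : List α) :
    w ∈ firstHit N step y ↔ ∃ s, s < N ∧ s ≠ 0 ∧ ∃ a, step s a = 0 ∧
      ∃ u, List.foldl (absStep step) y u = s ∧ w = u ++ [a] := by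
  unfold firstHit
  rw [mem_sum_iff]
  constructor
  · rintro ⟨s, hs, hw⟩
    rw [Finset.mem_filter, Finset.mem_range] at hs
    rw [mem_sum_iff] at hw
    obtain ⟨a, ha, hw⟩ := hw
    rw [Finset.mem_filter] at ha
    rw [Language.mem_mul] at hw
    obtain ⟨u, hu, v, hv, huv⟩ := hw
    have hv' : v = [a] := hv
    subst hv'
    rw [mem_runL] at hu
    exact ⟨s, hs.1, hs.2, a, ha.2, u, hu, huv.symm⟩
  · rintro ⟨s, hsN, hs0, a, ha, u, hu, hw⟩
    refine ⟨s, ?_, ?_⟩
    · rw [Finset.mem_filter, Finset.mem_range]
      exact ⟨hsN, hs0⟩
    · rw [mem_sum_iff]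
      refine ⟨a, ?_, ?_⟩
      · rw [Finset.mem_filter]
        exact ⟨Finset.mem_univ a, ha⟩
      · rw [Language.mem_mul]
        exact ⟨u, hu, [a], rfl, hw.symm⟩

omit [DecidableEq α] in
/-- decomposition of a run from a state other than the base state at its first visit of the
base state -/
theorem run_eq_FA (N : ℕ) (step : ℕ → α → ℕ) (hbound : ∀ y a, y < N → step y a < N)
    (y t : ℕ) (hy0 : y ≠ 0) (hyN : y < N) :
    runL step y t = firstHit N step y * runL step 0 t + avoidL step y t := by
  apply Language.ext
  intro w
  rw [Language.mem_add, Language.mem_mul, mem_runL]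
  constructor
  · intro hw
    by_cases h0 : List.foldl (absStep step) y w = 0
    · left
      obtain ⟨u, a, v, hwu, hu, ha⟩ := first_hit step w y hy0 h0
      subst hwu
      refine ⟨u ++ [a], ?_, v, ?_, by simp⟩
      · rw [mem_firstHit]
        exact ⟨_, foldl_abs_bound N step hbound u y hyN, hu, a, ha, u, rfl, rfl⟩
      · rw [mem_runL]
        rw [List.foldl_append, List.foldl_cons, ← foldl_abs_eq step u y hu, ha] at hw
        exact hw
    · right
      have h1 := foldl_abs_eq step w y h0
      have ht : t ≠ 0 := by
        rw [← hw, ← h1]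
        exact h0
      unfold avoidL
      rw [if_neg ht, mem_runL, h1, hw]
  · rintro (⟨p, hp, v, hv, hpv⟩ | hw)
    · subst hpv
      rw [mem_firstHit] at hp
      obtain ⟨s, _, hs0, a, ha, u, hu, hp⟩ := hp
      subst hp
      rw [mem_runL] at hv
      have hu' : List.foldl step y u = s := by
        rw [← foldl_abs_eq step u y (by rw [hu]; exact hs0)]
        exact hu
      rw [List.foldl_append, List.foldl_append, hu', List.foldl_cons, List.foldl_nil, ha]
      exact hv
    · unfold avoidL at hw
      by_cases ht : t = 0
      · rw [if_pos ht] at hw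
        exact absurd hw (Language.notMem_zero w)
      · rw [if_neg ht, mem_runL] at hw
        rw [← foldl_abs_eq step w y (by rw [hw]; exact ht)]
        exact hw

/-- **Hub criterion.** Let the states be `0, …, N - 1` with base state `0`. If the automaton
obtained by making the base state absorbing is counter-free (every word `w` acts with
`w ^ k = w ^ (k + 1)` for some `k`), then all path languages of the original automaton have
generalized star height at most `1`. -/
theorem gsh_run_aper (N : ℕ) (step : ℕ → α → ℕ)
    (haper : ∀ w : List α, ∃ k : ℕ, ∀ y, y < N →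
      List.foldl (absStep step) y (List.replicate k w).flatten =
        List.foldl (absStep step) y (List.replicate (k + 1) w).flatten)
    (hbound : ∀ y a, y < N → step y a < N) (y t : ℕ) (hy : y < N) :
    GSHLe 1 (runL step y t) := by
  have hN : 0 < N := by omega
  have hrun : ∀ y s, y < N → GSHLe 0 (runL (absStep step) y s) := fun y s hyN =>
    gsh_run_of_aper N (absStep step) haper (absStep_bound N step hbound) y s hyN
  have hFH : ∀ y, y < N → GSHLe 0 (firstHit N step y) := by
    intro y hyN
    unfold firstHit
    exact gsh_sum _ _ (fun s _ => gsh_sum _ _ (fun a _ => (hrun y s hyN).mul (gsh_letter 0 a)))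
  have hAV : ∀ y t, y < N → GSHLe 0 (avoidL step y t) := by
    intro y t hyN
    unfold avoidL
    split_ifs with h
    · exact gsh_zero 0
    · exact hrun y t hyN
  -- the base state
  have hbase : runL step 0 t
      = (∑ a ∈ Finset.univ.filter (fun a => step 0 a = 0), ({[a]} : Language α)
          + ∑ a ∈ Finset.univ.filter (fun a => step 0 a ≠ 0),
              ({[a]} : Language α) * firstHit N step (step 0 a)) * runL step 0 t
        + (deltaL 0 t + ∑ a ∈ Finset.univ.filter (fun a => step 0 a ≠ 0),
              ({[a]} : Language α) * avoidL step (step 0 a) t) := by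
    have h1 := run_first_letter step 0 t
    have hsplit : ∑ a ∈ Finset.univ, ({[a]} : Language α) * runL step (step 0 a) t
        = ∑ a ∈ Finset.univ.filter (fun a => step 0 a = 0), ({[a]} : Language α) * runL step 0 t
          + ∑ a ∈ Finset.univ.filter (fun a => step 0 a ≠ 0),
            ({[a]} : Language α) * (firstHit N step (step 0 a) * runL step 0 t
              + avoidL step (step 0 a) t) := by
      rw [Finset.sum_filter, Finset.sum_filter, ← Finset.sum_add_distrib]
      apply Finset.sum_congr rfl
      intro a _
      by_cases h0 : step 0 a = 0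
      · rw [if_pos h0, if_neg (fun h => h h0), add_zero, h0]
      · have hih := run_eq_FA N step hbound (step 0 a) t h0 (hbound 0 a hN)
        rw [if_neg h0, if_pos h0, zero_add, hih]
    rw [hsplit] at h1
    conv_lhs => rw [h1]
    simp only [mul_add, add_mul, Finset.sum_add_distrib, Finset.sum_mul, mul_assoc]
    abel
  have hnil : ([] : List α) ∉ (∑ a ∈ Finset.univ.filter (fun a => step 0 a = 0),
        ({[a]} : Language α)
          + ∑ a ∈ Finset.univ.filter (fun a => step 0 a ≠ 0),
              ({[a]} : Language α) * firstHit N step (step 0 a)) := by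
    intro h
    rw [Language.mem_add, mem_sum_iff, mem_sum_iff] at h
    rcases h with ⟨a, _, ha⟩ | ⟨a, _, ha⟩
    · have ha' : ([] : List α) = [a] := ha
      simp at ha'
    · rw [Language.mem_mul] at ha
      obtain ⟨u, hu, v, _, huv⟩ := ha
      have hu' : u = [a] := hu
      subst hu'
      simp at huv
  have harden := (Language.self_eq_mul_add_iff hnil).mp hbase
  have h0 : GSHLe 1 (runL step 0 t) := by
    rw [harden]
    refine GSHLe.mul (GSHLe.kstar ?_) (GSHLe.mono ?_ (Nat.zero_le 1))
    · exact (gsh_sum _ _ (fun a _ => gsh_letter 0 a)).add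
        (gsh_sum _ _ (fun a _ => (gsh_letter 0 a).mul (hFH (step 0 a) (hbound 0 a hN))))
    · exact (gsh_deltaL 0 0 t).add
        (gsh_sum _ _ (fun a _ => (gsh_letter 0 a).mul (hAV (step 0 a) t (hbound 0 a hN))))
  by_cases hy0 : y = 0
  · subst hy0
    exact h0
  · rw [run_eq_FA N step hbound y t hy0 hy]
    exact (((hFH y hy).mono (Nat.zero_le 1)).mul h0).add ((hAV y t hy).mono (Nat.zero_le 1))

/-- **Hub lemma, order-preserving version.** If every letter acts on the states other than
the base state `0` as a strictly increasing map wherever its value is not the base state, then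
all path languages have generalized star height at most `1`. -/
theorem gsh_run_op (N : ℕ) (step : ℕ → α → ℕ)
    (hop : ∀ y y' a, 0 < y → y < y' → y' < N → step y a ≠ 0 → step y' a ≠ 0 →
      step y a < step y' a)
    (hbound : ∀ y a, y < N → step y a < N) (y t : ℕ) (hy : y < N) :
    GSHLe 1 (runL step y t) :=
  gsh_run_aper N step (op_aper_abs N step hop hbound) hbound y t hy

end Vale.Agent.Lib.P329
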