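import Vale.Agent.Lib.P329.Mono

/-!
# Word problems of permutation groups generated by increasing cycles through a base point

If every letter acts on `{0, ..., n}` as a permutation that sends every point other than `0`
either to `0` or to a point that is at least as large (so it is a cycle `(0 c₁ c₂ ... c_r)` with
`c₁ < c₂ < ... < c_r`, fixing all other points), then for every permutation `π` the language of
the words whose product is `π` has generalized star height at most one. Star transpositions
`(0 c)` are the basic example; they generate the full symmetric group.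
-/

namespace Vale.Agent.Lib.P329

open Language

variable {α : Type} [Fintype α] [DecidableEq α]

/-- the token automaton of a family of permutations of `Fin (n + 1)`, on the states `0, ..., n`
(states outside this range are fixed) -/
def permStep (n : ℕ) (σ : α → Equiv.Perm (Fin (n + 1))) (y : ℕ) (x : α) : ℕ :=
  if h : y < n + 1 then (σ x ⟨y, h⟩).val else y

omit [Fintype α] [DecidableEq α] in
theorem permStep_val (n : ℕ) (σ : α → Equiv.Perm (Fin (n + 1))) (y : Fin (n + 1)) (x : α) :
    permStep n σ y.val x = (σ x y).val := by
  unfold permStep
  rw [dif_pos y.isLt]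

omit [Fintype α] [DecidableEq α] in
/-- running the token automaton on `w` from `y` applies the letters of `w` from left to right -/
theorem foldl_permStep (n : ℕ) (σ : α → Equiv.Perm (Fin (n + 1))) (w : List α) :
    ∀ y : Fin (n + 1),
      List.foldl (permStep n σ) y.val w = ((w.reverse.map σ).prod y).val := by
  induction w with
  | nil =>
    intro y
    simp
  | cons x v ih =>
    intro y
    rw [List.foldl_cons, permStep_val, ih (σ x y), List.reverse_cons, List.map_append,
      List.prod_append]
    simp

/-- **Permutations that are monotone off the base point.** If each `σ x` sends every `y ≠ 0` to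
`0` or to some point `≥ y`, then for every permutation `π` the language of all words
`x₁ x₂ ... x_k` with `σ x₁ * σ x₂ * ... * σ x_k = π` has generalized star height at most one. -/
theorem perm_gsh (n : ℕ) (σ : α → Equiv.Perm (Fin (n + 1)))
    (hσ : ∀ (x : α) (y : Fin (n + 1)), y ≠ 0 → σ x y = 0 ∨ y ≤ σ x y)
    (π : Equiv.Perm (Fin (n + 1))) :
    GSHLe 1 ({w | (w.map σ).prod = π} : Language α) := by
  have hmono : ∀ y a, 0 < y → y < n + 1 → permStep n σ y a = 0 ∨ y ≤ permStep n σ y a := by
    intro y a hy0 hy
    have hne : (⟨y, hy⟩ : Fin (n + 1)) ≠ 0 := by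
      intro h
      have h' := congrArg Fin.val h
      simp at h'
      omega
    have e : permStep n σ y a = (σ a ⟨y, hy⟩).val := permStep_val n σ ⟨y, hy⟩ a
    rcases hσ a ⟨y, hy⟩ hne with h | h
    · left
      rw [e, h]
      rfl
    · right
      rw [e]
      exact h
  have hbound : ∀ y a, y < n + 1 → permStep n σ y a < n + 1 := by
    intro y a hy
    have e : permStep n σ y a = (σ a ⟨y, hy⟩).val := permStep_val n σ ⟨y, hy⟩ a
    rw [e]
    exact (σ a ⟨y, hy⟩).isLt
  have hK : GSHLe 1 ({w | ∀ y : Fin (n + 1), w ∈ runL (permStep n σ) y.val (π y).val}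
      : Language α) :=
    gsh_forall _ (fun y => gsh_run (n + 1) (permStep n σ) hmono hbound y.val (π y).val y.isLt)
  refine hK.reverse.of_iff (fun w => ?_)
  have e : w ∈ Language.reverse
        ({w | ∀ y : Fin (n + 1), w ∈ runL (permStep n σ) y.val (π y).val} : Language α)
      ↔ (∀ y : Fin (n + 1), List.foldl (permStep n σ) y.val w.reverse = (π y).val) :=
    Language.mem_reverse
  refine e.trans ?_
  show (∀ y : Fin (n + 1), List.foldl (permStep n σ) y.val w.reverse = (π y).val)
    ↔ (w.map σ).prod = π
  constructor
  · intro h
    ext y
    have hy := h y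
    rw [foldl_permStep, List.reverse_reverse] at hy
    exact hy
  · intro h y
    rw [foldl_permStep, List.reverse_reverse, h]

/-- **Star transpositions.** Let every letter `x` act as the transposition of `0` and `c x`
(the identity when `c x = 0`). Then for every permutation `π` of `{0, ..., n}` the language of
the words whose product of transpositions equals `π` has generalized star height at most one. -/
theorem star_gsh (n : ℕ) (c : α → Fin (n + 1)) (π : Equiv.Perm (Fin (n + 1))) :
    GSHLe 1 ({w | (w.map (fun x => Equiv.swap (0 : Fin (n + 1)) (c x))).prod = π}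
      : Language α) := by
  refine perm_gsh n (fun x => Equiv.swap (0 : Fin (n + 1)) (c x)) ?_ π
  intro x y hy
  show Equiv.swap (0 : Fin (n + 1)) (c x) y = 0 ∨ y ≤ Equiv.swap (0 : Fin (n + 1)) (c x) y
  by_cases hyc : y = c x
  · left
    rw [hyc, Equiv.swap_apply_right]
  · right
    rw [Equiv.swap_apply_of_ne_of_ne hy hyc]

/-- the product of the letter permutations is a statistic of generalized star height at most
one, so every language recognized by the morphism `w ↦ (w.map σ).prod` has generalized star
height at most one -/
theorem perm_gsh_set (n : ℕ) (σ : α → Equiv.Perm (Fin (n + 1)))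
    (hσ : ∀ (x : α) (y : Fin (n + 1)), y ≠ 0 → σ x y = 0 ∨ y ≤ σ x y)
    (P : Set (Equiv.Perm (Fin (n + 1)))) :
    GSHLe 1 ({w | (w.map σ).prod ∈ P} : Language α) := by
  have hstat : StatLe 1 (fun w : List α => (w.map σ).prod) := fun π => perm_gsh n σ hσ π
  exact hstat.level (fun π => π ∈ P)

theorem star_gsh_set (n : ℕ) (c : α → Fin (n + 1)) (P : Set (Equiv.Perm (Fin (n + 1)))) :
    GSHLe 1 ({w | (w.map (fun x => Equiv.swap (0 : Fin (n + 1)) (c x))).prod ∈ P}
      : Language α) := by
  have hstat : StatLe 1 (fun w : List α =>
      (w.map (fun x => Equiv.swap (0 : Fin (n + 1)) (c x))).prod) := fun π => star_gsh n c π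
  exact hstat.level (fun π => π ∈ P)

end Vale.Agent.Lib.P329
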