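import Vale.Agent.Lib.P329.Hub
import Vale.Agent.Lib.P329.Star
import Vale.Agent.Lib.P329.Three

/-!
# Hub lemma for leveled order-preserving automata

States `0, …, N - 1` with base state `0` and a level function on the other states. If, away
from the base state, no letter decreases the level and every letter is strictly increasing
between states of one level that it keeps on that level, then the automaton with the base state
made absorbing is counter-free, so all path languages have generalized star height at most one.
The second half specializes this to token automata of permutations.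
-/

namespace Vale.Agent.Lib.P329

open Language

variable {α : Type}

/-- Maps on `ℕ` that fix `0`, preserve `[0, N)`, never decrease the level of a nonzero state
(unless they send it to `0`) and are strictly increasing on the states of a level that stay on
that level. -/
def LevMap (N : ℕ) (lev : ℕ → ℕ) (F : ℕ → ℕ) : Prop :=
  F 0 = 0 ∧ (∀ y, y < N → F y < N) ∧
    (∀ y, 0 < y → y < N → F y ≠ 0 → lev y ≤ lev (F y)) ∧
    ∀ y y', 0 < y → y < y' → y' < N → lev y = lev y' → F y ≠ 0 → F y' ≠ 0 →
      lev (F y) = lev y → lev (F y') = lev y → F y < F y'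

theorem LevMap.id (N : ℕ) (lev : ℕ → ℕ) : LevMap N lev (fun y => y) :=
  ⟨rfl, fun _ hy => hy, fun _ _ _ _ => le_refl _, fun _ _ _ h _ _ _ _ _ _ => h⟩

theorem LevMap.comp {N : ℕ} {lev : ℕ → ℕ} {F G : ℕ → ℕ} (hF : LevMap N lev F)
    (hG : LevMap N lev G) : LevMap N lev (fun y => G (F y)) := by
  obtain ⟨hF0, hFb, hFl, hFo⟩ := hF
  obtain ⟨hG0, hGb, hGl, hGo⟩ := hG
  have hne : ∀ y, G (F y) ≠ 0 → F y ≠ 0 := by
    intro y h1 h
    apply h1
    rw [h, hG0]
  refine ⟨?_, fun y hy => hGb _ (hFb y hy), ?_, ?_⟩
  · show G (F 0) = 0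
    rw [hF0, hG0]
  · intro y hy hyN h1
    have h2 : F y ≠ 0 := hne y h1
    exact le_trans (hFl y hy hyN h2) (hGl (F y) (Nat.pos_of_ne_zero h2) (hFb y hyN) h1)
  · intro y y' hy hyy' hy' hl h1 h2 h3 h4
    have hyN : y < N := lt_trans hyy' hy'
    have hFy : F y ≠ 0 := hne y h1
    have hFy' : F y' ≠ 0 := hne y' h2
    have a1 : lev y ≤ lev (F y) := hFl y hy hyN hFy
    have a2 : lev (F y) ≤ lev (G (F y)) :=
      hGl (F y) (Nat.pos_of_ne_zero hFy) (hFb y hyN) h1
    have a3 : lev y' ≤ lev (F y') := hFl y' (lt_trans hy hyy') hy' hFy'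
    have a4 : lev (F y') ≤ lev (G (F y')) :=
      hGl (F y') (Nat.pos_of_ne_zero hFy') (hFb y' hy') h2
    have h3' : lev (G (F y)) = lev y := h3
    have h4' : lev (G (F y')) = lev y := h4
    have b1 : lev (F y) = lev y := by omega
    have b2 : lev (F y') = lev y := by omega
    have hlt : F y < F y' := hFo y y' hy hyy' hy' hl hFy hFy' b1 b2
    exact hGo (F y) (F y') (Nat.pos_of_ne_zero hFy) hlt (hFb y' hy') (by omega) h1 h2
      (by omega) (by omega)

theorem levMap_foldl (N : ℕ) (lev : ℕ → ℕ) (f : ℕ → α → ℕ) (h0 : ∀ a, f 0 a = 0)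
    (hb : ∀ y a, y < N → f y a < N)
    (hl : ∀ y a, 0 < y → y < N → f y a ≠ 0 → lev y ≤ lev (f y a))
    (hop : ∀ y y' a, 0 < y → y < y' → y' < N → lev y = lev y' → f y a ≠ 0 → f y' a ≠ 0 →
      lev (f y a) = lev y → lev (f y' a) = lev y → f y a < f y' a)
    (w : List α) : LevMap N lev (fun y => List.foldl f y w) := by
  induction w with
  | nil => exact LevMap.id N lev
  | cons a w ih =>
    have ha : LevMap N lev (fun y => f y a) :=
      ⟨h0 a, fun y hy => hb y a hy, fun y => hl y a, fun y y' => hop y y' a⟩
    exact LevMap.comp ha ih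

/-- An orbit of a leveled order-preserving map is stationary from time `N` on. -/
theorem LevMap.seq_stable {N : ℕ} {lev : ℕ → ℕ} {F : ℕ → ℕ} (hF : LevMap N lev F) (s : ℕ → ℕ)
    (hss : ∀ i, s (i + 1) = F (s i)) (hs0 : s 0 < N) : s N = s (N + 1) := by
  obtain ⟨hF0, hFb, hFl, hFo⟩ := hF
  have hsb : ∀ i, s i < N := by
    intro i
    induction i with
    | zero => exact hs0
    | succ i ih =>
      rw [hss]
      exact hFb _ ih
  have hz : ∀ i, s i = 0 → s (i + 1) = 0 := by
    intro i hi
    rw [hss, hi, hF0]
  have hzz : ∀ i, s i = 0 → ∀ k, s (i + k) = 0 := by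
    intro i hi k
    induction k with
    | zero => exact hi
    | succ k ih => exact hz _ ih
  by_cases hex : ∃ i, i ≤ N ∧ s i = 0
  · obtain ⟨i, hiN, hi⟩ := hex
    have e1 := hzz i hi (N - i)
    have e2 := hzz i hi (N + 1 - i)
    have f1 : i + (N - i) = N := by omega
    have f2 : i + (N + 1 - i) = N + 1 := by omega
    rw [f1] at e1
    rw [f2] at e2
    rw [e1, e2]
  · have hnz : ∀ i, i ≤ N → s i ≠ 0 := fun i hi h => hex ⟨i, hi, h⟩
    -- pigeonhole
    have hmaps : ∀ i ∈ Finset.range (N + 1), s i ∈ Finset.Ico 1 N := by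
      intro i hi
      rw [Finset.mem_range] at hi
      rw [Finset.mem_Ico]
      have h1 := hnz i (by omega)
      have h2 := hsb i
      omega
    have hcard : (Finset.Ico 1 N).card < (Finset.range (N + 1)).card := by
      rw [Nat.card_Ico, Finset.card_range]
      omega
    obtain ⟨i0, hi0, j0, hj0, hne, heq⟩ :=
      Finset.exists_ne_map_eq_of_card_lt_of_maps_to hcard hmaps
    rw [Finset.mem_range] at hi0 hj0
    have key : ∀ i j, i < j → j ≤ N → s i = s j → s N = s (N + 1) := by
      intro i j hij hjN hsij
      -- levels are monotone along the orbit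
      have hstep : ∀ k, k < N → lev (s k) ≤ lev (s (k + 1)) := by
        intro k hk
        have h1 := hnz k (by omega)
        have h2 := hnz (k + 1) (by omega)
        rw [hss] at h2 ⊢
        exact hFl (s k) (Nat.pos_of_ne_zero h1) (hsb k) h2
      have hmono : ∀ b, b ≤ N → ∀ a, a ≤ b → lev (s a) ≤ lev (s b) := by
        intro b
        induction b with
        | zero =>
          intro _ a ha
          have : a = 0 := by omega
          rw [this]
        | succ b ih =>
          intro hb a ha
          rcases Nat.lt_or_ge a (b + 1) with h | h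
          · exact le_trans (ih (by omega) a (by omega)) (hstep b (by omega))
          · have : a = b + 1 := by omega
            rw [this]
      have hlevc : ∀ k, i ≤ k → k ≤ j → lev (s k) = lev (s i) := by
        intro k hik hkj
        have h1 := hmono k (by omega) i hik
        have h2 := hmono j hjN k hkj
        rw [← hsij] at h2
        omega
      rcases lt_trichotomy (s i) (s (i + 1)) with hlt | heq1 | hgt
      · exfalso
        have D : ∀ k, i + k + 1 ≤ j → s (i + k) < s (i + k + 1) ∧ s i < s (i + k + 1) := by
          intro k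
          induction k with
          | zero =>
            intro _
            exact ⟨hlt, hlt⟩
          | succ k ih =>
            intro hk
            obtain ⟨d1, d2⟩ := ih (by omega)
            have l1 := hlevc (i + k) (by omega) (by omega)
            have l2 := hlevc (i + k + 1) (by omega) (by omega)
            have l3 := hlevc (i + k + 1 + 1) (by omega) (by omega)
            have n0 := hnz (i + k) (by omega)
            have n1 := hnz (i + k + 1) (by omega)
            have n2 := hnz (i + k + 1 + 1) (by omega)
            have e1 : F (s (i + k)) = s (i + k + 1) := (hss (i + k)).symm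
            have e2 : F (s (i + k + 1)) = s (i + k + 1 + 1) := (hss (i + k + 1)).symm
            have h7 := hFo (s (i + k)) (s (i + k + 1)) (Nat.pos_of_ne_zero n0) d1
              (hsb (i + k + 1)) (by rw [l1, l2]) (by rw [e1]; exact n1) (by rw [e2]; exact n2)
              (by rw [e1, l1, l2]) (by rw [e2, l3, l1])
            rw [e1, e2] at h7
            have e3 : i + (k + 1) = i + k + 1 := by omega
            rw [e3]
            exact ⟨h7, lt_trans d2 h7⟩
        have hD := (D (j - i - 1) (by omega)).2
        have e4 : i + (j - i - 1) + 1 = j := by omega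
        rw [e4, hsij] at hD
        exact lt_irrefl _ hD
      · have hall : ∀ k, s (i + k) = s i := by
          intro k
          induction k with
          | zero => rfl
          | succ k ih =>
            have e3 : i + (k + 1) = i + k + 1 := by omega
            rw [e3, hss, ih, ← hss]
            exact heq1.symm
        have e1 := hall (N - i)
        have e2 := hall (N + 1 - i)
        have f1 : i + (N - i) = N := by omega
        have f2 : i + (N + 1 - i) = N + 1 := by omega
        rw [f1] at e1
        rw [f2] at e2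
        rw [e1, e2]
      · exfalso
        have D : ∀ k, i + k + 1 ≤ j → s (i + k + 1) < s (i + k) ∧ s (i + k + 1) < s i := by
          intro k
          induction k with
          | zero =>
            intro _
            exact ⟨hgt, hgt⟩
          | succ k ih =>
            intro hk
            obtain ⟨d1, d2⟩ := ih (by omega)
            have l1 := hlevc (i + k) (by omega) (by omega)
            have l2 := hlevc (i + k + 1) (by omega) (by omega)
            have l3 := hlevc (i + k + 1 + 1) (by omega) (by omega)
            have n0 := hnz (i + k) (by omega)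
            have n1 := hnz (i + k + 1) (by omega)
            have n2 := hnz (i + k + 1 + 1) (by omega)
            have e1 : F (s (i + k)) = s (i + k + 1) := (hss (i + k)).symm
            have e2 : F (s (i + k + 1)) = s (i + k + 1 + 1) := (hss (i + k + 1)).symm
            have h7 := hFo (s (i + k + 1)) (s (i + k)) (Nat.pos_of_ne_zero n1) d1
              (hsb (i + k)) (by rw [l1, l2]) (by rw [e2]; exact n2) (by rw [e1]; exact n1)
              (by rw [e2, l3, l2]) (by rw [e1])
            rw [e1, e2] at h7
            have e3 : i + (k + 1) = i + k + 1 := by omega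
            rw [e3]
            exact ⟨h7, lt_trans h7 d2⟩
        have hD := (D (j - i - 1) (by omega)).2
        have e4 : i + (j - i - 1) + 1 = j := by omega
        rw [e4, hsij] at hD
        exact lt_irrefl _ hD
    rcases lt_or_gt_of_ne hne with h | h
    · exact key i0 j0 h (by omega) heq
    · exact key j0 i0 h (by omega) heq.symm

/-- leveled order-preserving automata with absorbing state `0` are counter-free -/
theorem lev_aper (N : ℕ) (lev : ℕ → ℕ) (f : ℕ → α → ℕ) (h0 : ∀ a, f 0 a = 0)
    (hb : ∀ y a, y < N → f y a < N)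
    (hl : ∀ y a, 0 < y → y < N → f y a ≠ 0 → lev y ≤ lev (f y a))
    (hop : ∀ y y' a, 0 < y → y < y' → y' < N → lev y = lev y' → f y a ≠ 0 → f y' a ≠ 0 →
      lev (f y a) = lev y → lev (f y' a) = lev y → f y a < f y' a)
    (w : List α) :
    ∀ y, y < N → List.foldl f y (List.replicate N w).flatten =
      List.foldl f y (List.replicate (N + 1) w).flatten := by
  intro y hy
  rw [foldl_replicate_flatten, foldl_replicate_flatten]
  exact LevMap.seq_stable (levMap_foldl N lev f h0 hb hl hop w)
    (fun i => (fun z => List.foldl f z w)^[i] y)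
    (fun i => Function.iterate_succ_apply' _ i y) hy

theorem lev_aper_abs (N : ℕ) (lev : ℕ → ℕ) (step : ℕ → α → ℕ)
    (hl : ∀ y a, 0 < y → y < N → step y a ≠ 0 → lev y ≤ lev (step y a))
    (hop : ∀ y y' a, 0 < y → y < y' → y' < N → lev y = lev y' → step y a ≠ 0 →
      step y' a ≠ 0 → lev (step y a) = lev y → lev (step y' a) = lev y → step y a < step y' a)
    (hbound : ∀ y a, y < N → step y a < N) :
    ∀ w : List α, ∃ k : ℕ, ∀ y, y < N →
      List.foldl (absStep step) y (List.replicate k w).flatten =
        List.foldl (absStep step) y (List.replicate (k + 1) w).flatten := by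
  intro w
  refine ⟨N, lev_aper N lev (absStep step) (absStep_zero step)
    (fun y a hy => absStep_bound N step hbound y a hy) ?_ ?_ w⟩
  · intro y a hy hyN h1
    rw [absStep_pos step (by omega)] at h1 ⊢
    exact hl y a hy hyN h1
  · intro y y' a hy hyy' hy' hlv h1 h2 h3 h4
    rw [absStep_pos step (by omega)] at h1 h3 ⊢
    rw [absStep_pos step (by omega)] at h2 h4 ⊢
    exact hop y y' a hy hyy' hy' hlv h1 h2 h3 h4

variable [Fintype α] [DecidableEq α]

/-- **Hub lemma, leveled order-preserving version.** -/
theorem gsh_run_lev (N : ℕ) (step : ℕ → α → ℕ) (lev : ℕ → ℕ)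
    (hl : ∀ y a, 0 < y → y < N → step y a ≠ 0 → lev y ≤ lev (step y a))
    (hop : ∀ y y' a, 0 < y → y < y' → y' < N → lev y = lev y' → step y a ≠ 0 →
      step y' a ≠ 0 → lev (step y a) = lev y → lev (step y' a) = lev y → step y a < step y' a)
    (hbound : ∀ y a, y < N → step y a < N) (y t : ℕ) (hy : y < N) :
    GSHLe 1 (runL step y t) :=
  gsh_run_aper N step (lev_aper_abs N lev step hl hop hbound) hbound y t hy

/-- no point other than the base point `0` is sent to a point of lower level, unless it is sent
to the base point -/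
def LevCondA {n : ℕ} (lev : Fin (n + 1) → ℕ) (π : Equiv.Perm (Fin (n + 1))) : Prop :=
  ∀ y : Fin (n + 1), y ≠ 0 → π y ≠ 0 → lev y ≤ lev (π y)

/-- on the points of one level that stay on this level the permutation is increasing -/
def LevCondB {n : ℕ} (lev : Fin (n + 1) → ℕ) (π : Equiv.Perm (Fin (n + 1))) : Prop :=
  ∀ y y' : Fin (n + 1), y ≠ 0 → y < y' → lev y = lev y' → π y ≠ 0 → π y' ≠ 0 →
    lev (π y) = lev y → lev (π y') = lev y → π y < π y'

instance LevCondA.instDecidable {n : ℕ} (lev : Fin (n + 1) → ℕ)
    (π : Equiv.Perm (Fin (n + 1))) : Decidable (LevCondA lev π) := by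
  unfold LevCondA
  infer_instance

instance LevCondB.instDecidable {n : ℕ} (lev : Fin (n + 1) → ℕ)
    (π : Equiv.Perm (Fin (n + 1))) : Decidable (LevCondB lev π) := by
  unfold LevCondB
  infer_instance

/-- the leveled order-preserving condition for one permutation of `Fin (n + 1)`, base `0` -/
def LevCond {n : ℕ} (lev : Fin (n + 1) → ℕ) (π : Equiv.Perm (Fin (n + 1))) : Prop :=
  LevCondA lev π ∧ LevCondB lev π

instance LevCond.instDecidable {n : ℕ} (lev : Fin (n + 1) → ℕ) (π : Equiv.Perm (Fin (n + 1))) :
    Decidable (LevCond lev π) := by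
  unfold LevCond
  infer_instance

/-- **Permutations that are leveled order-preserving off the base point**: the product of the
letter permutations is a statistic of generalized star height at most one. -/
theorem perm_stat_lev (n : ℕ) (σ : α → Equiv.Perm (Fin (n + 1))) (lev : Fin (n + 1) → ℕ)
    (h : ∀ x, LevCond lev (σ x)) : StatLe 1 (fun w : List α => (w.map σ).prod) := by
  intro π
  let levN : ℕ → ℕ := fun y => if hy : y < n + 1 then lev ⟨y, hy⟩ else 0
  have hlevN : ∀ (y : ℕ) (hy : y < n + 1), levN y = lev ⟨y, hy⟩ := fun y hy => dif_pos hy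
  have hval : ∀ (y : ℕ) (hy : y < n + 1) (a : α),
      permStep n σ y a = (σ a ⟨y, hy⟩).val := fun y hy a => permStep_val n σ ⟨y, hy⟩ a
  have hne0 : ∀ (y : ℕ) (hy : y < n + 1), 0 < y → (⟨y, hy⟩ : Fin (n + 1)) ≠ 0 := by
    intro y hy hy0 hh
    have h' := congrArg Fin.val hh
    simp at h'
    omega
  have hnz : ∀ (z : Fin (n + 1)), z.val ≠ 0 → z ≠ 0 := by
    intro z hz hh
    apply hz
    rw [hh]
    rfl
  have hbound : ∀ y a, y < n + 1 → permStep n σ y a < n + 1 := by
    intro y a hy
    rw [hval y hy a]
    exact (σ a ⟨y, hy⟩).isLt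
  have hl : ∀ y a, 0 < y → y < n + 1 → permStep n σ y a ≠ 0 →
      levN y ≤ levN (permStep n σ y a) := by
    intro y a hy0 hy h1
    rw [hval y hy a] at h1 ⊢
    rw [hlevN y hy, hlevN _ (σ a ⟨y, hy⟩).isLt]
    exact (h a).1 ⟨y, hy⟩ (hne0 y hy hy0) (hnz _ h1)
  have hop : ∀ y y' a, 0 < y → y < y' → y' < n + 1 → levN y = levN y' →
      permStep n σ y a ≠ 0 → permStep n σ y' a ≠ 0 → levN (permStep n σ y a) = levN y →
      levN (permStep n σ y' a) = levN y → permStep n σ y a < permStep n σ y' a := by
    intro y y' a hy0 hyy' hy' hlv h1 h2 h3 h4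
    have hy : y < n + 1 := lt_trans hyy' hy'
    rw [hval y hy a] at h1 h3 ⊢
    rw [hval y' hy' a] at h2 h4 ⊢
    rw [hlevN y hy, hlevN y' hy'] at hlv
    rw [hlevN y hy, hlevN _ (σ a ⟨y, hy⟩).isLt] at h3
    rw [hlevN y hy, hlevN _ (σ a ⟨y', hy'⟩).isLt] at h4
    exact (h a).2 ⟨y, hy⟩ ⟨y', hy'⟩ (hne0 y hy hy0) hyy' hlv (hnz _ h1) (hnz _ h2) h3 h4
  have hK : GSHLe 1 ({w | ∀ y : Fin (n + 1), w ∈ runL (permStep n σ) y.val (π y).val}
      : Language α) :=
    gsh_forall _ (fun y =>
      gsh_run_lev (n + 1) (permStep n σ) levN hl hop hbound y.val (π y).val y.isLt)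
  refine hK.reverse.of_iff (fun w => ?_)
  have e : w ∈ Language.reverse
        ({w | ∀ y : Fin (n + 1), w ∈ runL (permStep n σ) y.val (π y).val} : Language α)
      ↔ (∀ y : Fin (n + 1), List.foldl (permStep n σ) y.val w.reverse = (π y).val) :=
    Language.mem_reverse
  refine e.trans ?_
  show (∀ y : Fin (n + 1), List.foldl (permStep n σ) y.val w.reverse = (π y).val)
    ↔ (w.map σ).prod = π
  constructor
  · intro h
    ext y
    have hy := h y
    rw [foldl_permStep, List.reverse_reverse] at hy
    exact hy
  · intro h y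
    rw [foldl_permStep, List.reverse_reverse, h]

omit [Fintype α] [DecidableEq α] in
theorem prod_conj {G : Type} [Group G] (ρ : G) (σ : α → G) (w : List α) :
    (w.map (fun x => ρ * σ x * ρ⁻¹)).prod = ρ * (w.map σ).prod * ρ⁻¹ := by
  induction w with
  | nil => simp
  | cons x w ih =>
    rw [List.map_cons, List.prod_cons, ih, List.map_cons, List.prod_cons]
    group

/-- the same after relabeling the points by a permutation `ρ` -/
theorem perm_stat_lev_conj (n : ℕ) (σ : α → Equiv.Perm (Fin (n + 1)))
    (ρ : Equiv.Perm (Fin (n + 1))) (lev : Fin (n + 1) → ℕ)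
    (h : ∀ x, LevCond lev (ρ * σ x * ρ⁻¹)) : StatLe 1 (fun w : List α => (w.map σ).prod) := by
  have h1 := perm_stat_lev n (fun x => ρ * σ x * ρ⁻¹) lev h
  have h2 := h1.comp (fun P => ρ⁻¹ * P * ρ)
  refine h2.congr (fun w => ?_)
  show ρ⁻¹ * (w.map (fun x => ρ * σ x * ρ⁻¹)).prod * ρ = (w.map σ).prod
  rw [prod_conj]
  group

end Vale.Agent.Lib.P329
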