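import Vale.Agent.Lib.P329.Hub
import Vale.Agent.Lib.P329.Three

/-!
# Level automata

A level automaton has states `(level, local state)` with levels in `ℤ / m` and seven local
states: the gate `0`, and the states `1, 2, 3` (residue one) and `4, 5, 6` (residue two), each
remembering the letter that left the gate (`a`, `s` or `A`). Letters come in four classes:
`0` (no effect), `1` (`a`, weight one), `2` (`A`, weight two) and `3` (`s`, the marked letters).
The level changes only when the gate is entered, and then by one step up or down.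

With the base state `(0, gate)` made absorbing the automaton is counter-free for every `m`
(`lv_aper`), so by the hub criterion the final state is a statistic of generalized star height
at most one (`stat_level`).
-/

namespace Vale.Agent.Lib.P329

open Language

/-- residue of a local state -/
def lres (y : ℕ) : ℕ := if y = 0 then 0 else if y ≤ 3 then 1 else 2

/-- the remembered letter of a local state: `0` for `a`, `1` for `s`, `2` for `A` -/
def lmem (y : ℕ) : ℕ := (y + 2) % 3

/-- the mode of a variant: in mode `0` the marked letters are loops -/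
def mdv (v : ℕ) : ℕ := if v ≤ 1 then 0 else 1

/-- local transitions -/
def lsT (md : ℕ) (y : ℕ) (c : Fin 4) : ℕ :=
  if c.val = 0 then y
  else if c.val = 3 ∧ md = 0 then y
  else if c.val = 2 then (if y = 0 then 6 else if y ≤ 3 then 0 else y - 3)
  else (if y = 0 then (if c.val = 3 then 2 else 1) else if y ≤ 3 then y + 3 else 0)

/-- the level change on entering the gate, by remembered letter `x` and entering letter `y`
(`0` for `a`, `1` for `s`, `2` for `A`); the code `1` is a step up and `2` a step down -/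
def cT (v : ℕ) (x y : ℕ) : ℕ :=
  if v ≤ 1 then 1
  else if v = 2 then
    (if x = 1 then (if y = 0 then 2 else if y = 1 then 1 else 0)
     else (if y = 0 then 1 else if y = 1 then 0 else 2))
  else
    (if x = 1 then (if y = 0 then 0 else 1)
     else (if y = 0 then 1 else 2))

/-- the level change code of a transition -/
def ldT (v : ℕ) (y : ℕ) (c : Fin 4) : ℕ :=
  if c.val = 0 then 0
  else if c.val = 3 ∧ v ≤ 1 then (if y = 0 ∧ v = 1 then 1 else 0)
  else if c.val = 2 then (if 1 ≤ y ∧ y ≤ 3 then cT v (lmem y) 2 else 0)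
  else (if 4 ≤ y then cT v (lmem y) (if c.val = 3 then 1 else 0) else 0)

/-- the level automaton with `m` levels: the state `7 * k + y` is level `k`, local state `y` -/
def lvStep (m v : ℕ) (st : ℕ) (c : Fin 4) : ℕ :=
  7 * ((st / 7 + (if ldT v (st % 7) c = 2 then m - 1 else ldT v (st % 7) c)) % m)
    + lsT (mdv v) (st % 7) c

/-- the weight of a letter class in mode `md` -/
def lwt (md : ℕ) (c : Fin 4) : ℕ := if c.val = 3 then (if md = 0 then 0 else 1) else c.val

/-! ### One step facts -/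

theorem lsT_lt : ∀ md : Fin 2, ∀ y : Fin 7, ∀ c : Fin 4, lsT md.val y.val c < 7 := by decide

theorem ldT_lt : ∀ v : Fin 4, ∀ y : Fin 7, ∀ c : Fin 4, ldT v.val y.val c < 3 := by decide

theorem ldT_gate : ∀ v : Fin 4, ∀ y : Fin 7, ∀ c : Fin 4,
    ldT v.val y.val c ≠ 0 → lsT (mdv v.val) y.val c = 0 := by decide

theorem lres_step : ∀ md : Fin 2, ∀ y : Fin 7, ∀ c : Fin 4,
    lres (lsT md.val y.val c) = (lres y.val + lwt md.val c) % 3 := by decide

theorem lres_zero : ∀ y : Fin 7, lres y.val = 0 → y.val = 0 := by decide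

theorem lstate_ext : ∀ y z : Fin 7, y.val ≠ 0 → z.val ≠ 0 → lres y.val = lres z.val →
    lmem y.val = lmem z.val → y.val = z.val := by decide

theorem lmerge_step : ∀ md : Fin 2, ∀ y z : Fin 7, ∀ c : Fin 4,
    lres y.val = lres z.val → y.val ≠ 0 → z.val ≠ 0 →
      (lsT md.val y.val c = lsT md.val z.val c
        ∨ (lres (lsT md.val y.val c) = lres (lsT md.val z.val c)
            ∧ lmem (lsT md.val y.val c) = lmem y.val ∧ lmem (lsT md.val z.val c) = lmem z.val
            ∧ lsT md.val y.val c ≠ 0 ∧ lsT md.val z.val c ≠ 0)) := by decide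

/-- the charge of a local state in the variants `2` and `3` -/
def lch (v : ℕ) (y : ℕ) : ℕ := if y = 0 then 0 else if lmem y = 1 then (if v = 2 then 1 else 2) else 0

theorem ltriple_step : ∀ v : Fin 4, ∀ p q r : Fin 7, ∀ c : Fin 4, 2 ≤ v.val →
    lres p.val ≠ lres q.val → lres p.val ≠ lres r.val → lres q.val ≠ lres r.val →
      (ldT v.val p.val c + ldT v.val q.val c + ldT v.val r.val c
        + lch v.val (lsT (mdv v.val) p.val c) + lch v.val (lsT (mdv v.val) q.val c)
        + lch v.val (lsT (mdv v.val) r.val c)) % 3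
      = (lwt (mdv v.val) c + lch v.val p.val + lch v.val q.val + lch v.val r.val) % 3 := by
  decide

theorem lrank_step : ∀ v : Fin 4, ∀ y : Fin 7, ∀ c : Fin 4, v.val ≤ 1 →
    ldT v.val y.val c ≠ 2 ∧
      (if y.val = 0 then 0 else 1)
        ≤ 2 * ldT v.val y.val c + (if lsT (mdv v.val) y.val c = 0 then 0 else 1) := by
  decide

theorem mdv_lt (v : ℕ) : mdv v < 2 := by
  unfold mdv
  split_ifs <;> omega

/-! ### The lifted automaton with integer levels -/

/-- the integer value of a level change code -/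
def iot (e : ℕ) : ℤ := if e = 2 then -1 else (e : ℤ)

theorem iot_cases (e : ℕ) (he : e < 3) :
    (e = 0 ∧ iot e = 0) ∨ (e = 1 ∧ iot e = 1) ∨ (e = 2 ∧ iot e = -1) := by
  interval_cases e <;> simp [iot]

/-- one step of the lifted automaton -/
def zstep (v : ℕ) (p : ℤ × ℕ) (c : Fin 4) : ℤ × ℕ :=
  (p.1 + iot (ldT v p.2 c), lsT (mdv v) p.2 c)

/-- the run of the lifted automaton -/
def zrun (v : ℕ) (p : ℤ × ℕ) (u : List (Fin 4)) : ℤ × ℕ := List.foldl (zstep v) p u

theorem zrun_nil (v : ℕ) (p : ℤ × ℕ) : zrun v p [] = p := rfl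

theorem zrun_cons (v : ℕ) (p : ℤ × ℕ) (c : Fin 4) (u : List (Fin 4)) :
    zrun v p (c :: u) = zrun v (zstep v p c) u := rfl

theorem zrun_append (v : ℕ) (p : ℤ × ℕ) (u w : List (Fin 4)) :
    zrun v p (u ++ w) = zrun v (zrun v p u) w := List.foldl_append ..

/-- the local state after a word -/
def lr (v : ℕ) (y : ℕ) (u : List (Fin 4)) : ℕ := (zrun v (0, y) u).2

/-- the level drift of a word -/
def dr (v : ℕ) (y : ℕ) (u : List (Fin 4)) : ℤ := (zrun v (0, y) u).1

theorem zrun_shift (v : ℕ) (u : List (Fin 4)) : ∀ (k a : ℤ) (y : ℕ),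
    zrun v (k + a, y) u = ((zrun v (k, y) u).1 + a, (zrun v (k, y) u).2) := by
  induction u with
  | nil =>
    intro k a y
    rfl
  | cons c u ih =>
    intro k a y
    rw [zrun_cons, zrun_cons]
    have h : zstep v (k + a, y) c = (k + iot (ldT v y c) + a, lsT (mdv v) y c) := by
      show (k + a + iot (ldT v y c), lsT (mdv v) y c) = _
      congr 1
      ring
    rw [h, ih]
    rfl

theorem zrun_eq (v : ℕ) (u : List (Fin 4)) (k : ℤ) (y : ℕ) :
    zrun v (k, y) u = (k + dr v y u, lr v y u) := by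
  have h := zrun_shift v u 0 k y
  rw [zero_add] at h
  rw [h]
  exact Prod.ext (add_comm _ _) rfl

theorem lr_nil (v y : ℕ) : lr v y [] = y := rfl

theorem dr_nil (v y : ℕ) : dr v y [] = 0 := rfl

theorem lr_cons (v y : ℕ) (c : Fin 4) (u : List (Fin 4)) :
    lr v y (c :: u) = lr v (lsT (mdv v) y c) u := by
  unfold lr
  rw [zrun_cons]
  have h : zstep v (0, y) c = (0 + iot (ldT v y c), lsT (mdv v) y c) := rfl
  rw [h, zrun_shift]

theorem dr_cons (v y : ℕ) (c : Fin 4) (u : List (Fin 4)) :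
    dr v y (c :: u) = iot (ldT v y c) + dr v (lsT (mdv v) y c) u := by
  unfold dr
  rw [zrun_cons]
  have h : zstep v (0, y) c = (0 + iot (ldT v y c), lsT (mdv v) y c) := rfl
  rw [h, zrun_shift]
  ring

theorem lr_append (v y : ℕ) (u w : List (Fin 4)) :
    lr v y (u ++ w) = lr v (lr v y u) w := by
  show (zrun v (0, y) (u ++ w)).2 = _
  rw [zrun_append, zrun_eq v u 0 y, zrun_eq v w]

theorem dr_append (v y : ℕ) (u w : List (Fin 4)) :
    dr v y (u ++ w) = dr v y u + dr v (lr v y u) w := by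
  show (zrun v (0, y) (u ++ w)).1 = _
  rw [zrun_append, zrun_eq v u 0 y, zrun_eq v w]
  show 0 + dr v y u + dr v (lr v y u) w = _
  ring

theorem lr_lt (v : ℕ) (u : List (Fin 4)) : ∀ y, y < 7 → lr v y u < 7 := by
  induction u with
  | nil =>
    intro y hy
    exact hy
  | cons c u ih =>
    intro y hy
    rw [lr_cons]
    exact ih _ (lsT_lt ⟨mdv v, mdv_lt v⟩ ⟨y, hy⟩ c)

/-- the total weight of a word modulo three -/
def lnu (md : ℕ) (u : List (Fin 4)) : ℕ := ((u.map (lwt md)).sum) % 3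

theorem lres_lr (v : ℕ) (u : List (Fin 4)) : ∀ y, y < 7 →
    lres (lr v y u) = (lres y + lnu (mdv v) u) % 3 := by
  induction u with
  | nil =>
    intro y hy
    have h : lres y < 3 := by
      unfold lres
      split_ifs <;> omega
    show lres y = (lres y + 0 % 3) % 3
    omega
  | cons c u ih =>
    intro y hy
    have h1 : lres (lsT (mdv v) y c) = (lres y + lwt (mdv v) c) % 3 :=
      lres_step ⟨mdv v, mdv_lt v⟩ ⟨y, hy⟩ c
    rw [lr_cons, ih _ (lsT_lt ⟨mdv v, mdv_lt v⟩ ⟨y, hy⟩ c), h1]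
    unfold lnu
    rw [List.map_cons, List.sum_cons]
    omega

/-- between two levels of a run every level is entered at the gate -/
theorem zrun_ivt (v : ℕ) (hv : v < 4) (u : List (Fin 4)) : ∀ (k : ℤ) (y : ℕ), y < 7 → ∀ j : ℤ,
    ((k < j ∧ j ≤ (zrun v (k, y) u).1) ∨ ((zrun v (k, y) u).1 ≤ j ∧ j < k)) →
    ∃ u1 u2, u = u1 ++ u2 ∧ zrun v (k, y) u1 = (j, 0) := by
  induction u with
  | nil =>
    intro k y hy j h
    rw [zrun_nil] at h
    omega
  | cons c u ih =>
    intro k y hy j h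
    rw [zrun_cons] at h
    have he : ldT v y c < 3 := ldT_lt ⟨v, hv⟩ ⟨y, hy⟩ c
    have hls : lsT (mdv v) y c < 7 := lsT_lt ⟨mdv v, mdv_lt v⟩ ⟨y, hy⟩ c
    have hst : zstep v (k, y) c = (k + iot (ldT v y c), lsT (mdv v) y c) := rfl
    rw [hst] at h
    by_cases hj : j = k + iot (ldT v y c)
    · have hne : ldT v y c ≠ 0 := by
        intro h0
        rw [h0] at hj
        have : iot 0 = 0 := rfl
        rw [this] at hj
        omega
      have hg := ldT_gate ⟨v, hv⟩ ⟨y, hy⟩ c hne
      refine ⟨[c], u, rfl, ?_⟩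
      show zstep v (k, y) c = (j, 0)
      rw [hst, hj]
      exact Prod.ext rfl hg
    · have h' : (k + iot (ldT v y c) < j ∧ j ≤ (zrun v (k + iot (ldT v y c), lsT (mdv v) y c) u).1)
          ∨ ((zrun v (k + iot (ldT v y c), lsT (mdv v) y c) u).1 ≤ j
              ∧ j < k + iot (ldT v y c)) := by
        rcases iot_cases _ he with ⟨_, h0⟩ | ⟨_, h0⟩ | ⟨_, h0⟩ <;> rw [h0] at hj h ⊢ <;> omega
      obtain ⟨u1, u2, hu, h1⟩ := ih _ _ hls j h'
      refine ⟨c :: u1, u2, by rw [hu]; rfl, ?_⟩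
      rw [zrun_cons, hst]
      exact h1

/-! ### The local dynamics of a word -/

theorem lres_lt (y : ℕ) : lres y < 3 := by
  unfold lres
  split_ifs <;> omega

theorem lmerge (v : ℕ) (u : List (Fin 4)) : ∀ y z, y < 7 → z < 7 → lres y = lres z → y ≠ 0 →
    z ≠ 0 → (lr v y u = lr v z u ∨ (lres (lr v y u) = lres (lr v z u) ∧ lmem (lr v y u) = lmem y
      ∧ lmem (lr v z u) = lmem z ∧ lr v y u ≠ 0 ∧ lr v z u ≠ 0)) := by
  induction u with
  | nil =>
    intro y z _ _ h hy0 hz0
    right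
    exact ⟨h, rfl, rfl, hy0, hz0⟩
  | cons c u ih =>
    intro y z hy hz h hy0 hz0
    rw [lr_cons, lr_cons]
    have hs : lsT (mdv v) y c = lsT (mdv v) z c
        ∨ (lres (lsT (mdv v) y c) = lres (lsT (mdv v) z c)
            ∧ lmem (lsT (mdv v) y c) = lmem y ∧ lmem (lsT (mdv v) z c) = lmem z
            ∧ lsT (mdv v) y c ≠ 0 ∧ lsT (mdv v) z c ≠ 0) :=
      lmerge_step ⟨mdv v, mdv_lt v⟩ ⟨y, hy⟩ ⟨z, hz⟩ c h hy0 hz0
    have hly : lsT (mdv v) y c < 7 := lsT_lt ⟨mdv v, mdv_lt v⟩ ⟨y, hy⟩ c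
    have hlz : lsT (mdv v) z c < 7 := lsT_lt ⟨mdv v, mdv_lt v⟩ ⟨z, hz⟩ c
    rcases hs with h1 | ⟨h1, h2, h3, h4, h5⟩
    · left
      rw [h1]
    · rcases ih _ _ hly hlz h1 h4 h5 with h6 | ⟨h6, h7, h8, h9, h10⟩
      · left
        exact h6
      · right
        exact ⟨h6, h7.trans h2, h8.trans h3, h9, h10⟩

/-- a word of weight zero acts as an idempotent on the local states -/
theorem lr_idem (v : ℕ) (u : List (Fin 4)) (hnu : lnu (mdv v) u = 0) (y : ℕ) (hy : y < 7) :
    lr v (lr v y u) u = lr v y u := by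
  have hres : lres (lr v y u) = lres y := by
    rw [lres_lr v u y hy, hnu]
    have := lres_lt y
    omega
  have hl := lr_lt v u y hy
  by_cases hy0 : y = 0
  · subst hy0
    have h0 : lr v 0 u = 0 := lres_zero ⟨lr v 0 u, hl⟩ hres
    rw [h0]
    exact h0
  · have hy1 : lr v y u ≠ 0 := by
      intro h
      rw [h] at hres
      exact hy0 (lres_zero ⟨y, hy⟩ hres.symm)
    rcases lmerge v u y (lr v y u) hy hl hres.symm hy0 hy1 with h | ⟨h1, _, h3, h4, h5⟩
    · exact h.symm
    · exact lstate_ext ⟨lr v (lr v y u) u, lr_lt v u _ hl⟩ ⟨lr v y u, hl⟩ h5 h4 h1.symm h3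

/-- a word of nonzero weight leads to the gate within two rounds -/
theorem lr_gate (v : ℕ) (u : List (Fin 4)) (hnu : lnu (mdv v) u ≠ 0) (y : ℕ) (hy : y < 7) :
    y = 0 ∨ lr v y u = 0 ∨ lr v (lr v y u) u = 0 := by
  have hl := lr_lt v u y hy
  have hl2 := lr_lt v u _ hl
  have h1 := lres_lr v u y hy
  have h2 := lres_lr v u _ hl
  have h3 := lres_lt y
  have h4 : lnu (mdv v) u < 3 := Nat.mod_lt _ (by norm_num)
  by_cases ha : lres y = 0
  · left
    exact lres_zero ⟨y, hy⟩ ha
  · by_cases hb : lres (lr v y u) = 0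
    · right
      left
      exact lres_zero ⟨lr v y u, hl⟩ hb
    · right
      right
      refine lres_zero ⟨lr v (lr v y u) u, hl2⟩ ?_
      show lres (lr v (lr v y u) u) = 0
      have ha' : lres y = 1 ∨ lres y = 2 := by omega
      have hd' : lnu (mdv v) u = 1 ∨ lnu (mdv v) u = 2 := by omega
      rcases ha' with ha' | ha' <;> rcases hd' with hd' | hd' <;> rw [ha', hd'] at h1 <;>
        rw [h1, hd'] at h2 <;> omega

theorem lnu_append (md : ℕ) (u w : List (Fin 4)) :
    lnu md (u ++ w) = (lnu md u + lnu md w) % 3 := by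
  unfold lnu
  rw [List.map_append, List.sum_append]
  omega

theorem lr_cube (v : ℕ) (u : List (Fin 4)) : lr v 0 (u ++ u ++ u) = 0 := by
  have hl := lr_lt v (u ++ u ++ u) 0 (by norm_num)
  refine lres_zero ⟨lr v 0 (u ++ u ++ u), hl⟩ ?_
  show lres (lr v 0 (u ++ u ++ u)) = 0
  rw [lres_lr v _ 0 (by norm_num), lnu_append, lnu_append]
  have h4 : lnu (mdv v) u < 3 := Nat.mod_lt _ (by norm_num)
  have h0 : lres 0 = 0 := rfl
  omega

theorem iot_mod (e : ℕ) (he : e < 3) : iot e % 3 = (e : ℤ) % 3 := by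
  interval_cases e <;> rfl

theorem ltriple (v : ℕ) (hv : v < 4) (hv2 : 2 ≤ v) (u : List (Fin 4)) : ∀ p q r, p < 7 → q < 7 →
    r < 7 → lres p ≠ lres q → lres p ≠ lres r → lres q ≠ lres r →
    (dr v p u + dr v q u + dr v r u + lch v (lr v p u) + lch v (lr v q u) + lch v (lr v r u)) % 3
      = ((lnu (mdv v) u : ℤ) + lch v p + lch v q + lch v r) % 3 := by
  induction u with
  | nil =>
    intro p q r _ _ _ _ _ _
    rfl
  | cons c u ih =>
    intro p q r hp hq hr h1 h2 h3
    have hs : (ldT v p c + ldT v q c + ldT v r c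
        + lch v (lsT (mdv v) p c) + lch v (lsT (mdv v) q c) + lch v (lsT (mdv v) r c)) % 3
        = (lwt (mdv v) c + lch v p + lch v q + lch v r) % 3 :=
      ltriple_step ⟨v, hv⟩ ⟨p, hp⟩ ⟨q, hq⟩ ⟨r, hr⟩ c hv2 h1 h2 h3
    have hlp : lsT (mdv v) p c < 7 := lsT_lt ⟨mdv v, mdv_lt v⟩ ⟨p, hp⟩ c
    have hlq : lsT (mdv v) q c < 7 := lsT_lt ⟨mdv v, mdv_lt v⟩ ⟨q, hq⟩ c
    have hlr : lsT (mdv v) r c < 7 := lsT_lt ⟨mdv v, mdv_lt v⟩ ⟨r, hr⟩ c
    have rp : lres (lsT (mdv v) p c) = (lres p + lwt (mdv v) c) % 3 :=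
      lres_step ⟨mdv v, mdv_lt v⟩ ⟨p, hp⟩ c
    have rq : lres (lsT (mdv v) q c) = (lres q + lwt (mdv v) c) % 3 :=
      lres_step ⟨mdv v, mdv_lt v⟩ ⟨q, hq⟩ c
    have rr : lres (lsT (mdv v) r c) = (lres r + lwt (mdv v) c) % 3 :=
      lres_step ⟨mdv v, mdv_lt v⟩ ⟨r, hr⟩ c
    have bp := lres_lt p
    have bq := lres_lt q
    have br := lres_lt r
    have hih := ih _ _ _ hlp hlq hlr (by omega) (by omega) (by omega)
    have ep := iot_mod _ (ldT_lt ⟨v, hv⟩ ⟨p, hp⟩ c)
    have eq := iot_mod _ (ldT_lt ⟨v, hv⟩ ⟨q, hq⟩ c)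
    have er := iot_mod _ (ldT_lt ⟨v, hv⟩ ⟨r, hr⟩ c)
    rw [dr_cons, dr_cons, dr_cons, lr_cons, lr_cons, lr_cons]
    have hn : lnu (mdv v) (c :: u) = (lwt (mdv v) c + lnu (mdv v) u) % 3 := by
      unfold lnu
      rw [List.map_cons, List.sum_cons]
      omega
    rw [hn]
    have ep' : iot (ldT v p c) % 3 = ((ldT v p c : ℕ) : ℤ) % 3 := ep
    have eq' : iot (ldT v q c) % 3 = ((ldT v q c : ℕ) : ℤ) % 3 := eq
    have er' : iot (ldT v r c) % 3 = ((ldT v r c : ℕ) : ℤ) % 3 := er
    omega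

theorem lrank (v : ℕ) (hv : v ≤ 1) (u : List (Fin 4)) : ∀ y, y < 7 →
    (if y = 0 then (0 : ℤ) else 1) ≤ 2 * dr v y u + (if lr v y u = 0 then 0 else 1) := by
  induction u with
  | nil =>
    intro y _
    rw [dr_nil, lr_nil]
    omega
  | cons c u ih =>
    intro y hy
    have hs : ldT v y c ≠ 2 ∧ (if y = 0 then 0 else 1)
        ≤ 2 * ldT v y c + (if lsT (mdv v) y c = 0 then 0 else 1) :=
      lrank_step ⟨v, by omega⟩ ⟨y, hy⟩ c hv
    have hly : lsT (mdv v) y c < 7 := lsT_lt ⟨mdv v, mdv_lt v⟩ ⟨y, hy⟩ c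
    have hih := ih _ hly
    rw [dr_cons, lr_cons]
    have hi : iot (ldT v y c) = (ldT v y c : ℕ) := by
      unfold iot
      rw [if_neg hs.1]
    rw [hi]
    obtain ⟨_, hs2⟩ := hs
    split_ifs at hs2 hih ⊢ <;> omega

/-- three rounds of a word of nonzero weight return to the gate with a nonzero drift -/
theorem dr_cube_ne (v : ℕ) (hv : v < 4) (u : List (Fin 4)) (hnu : lnu (mdv v) u ≠ 0) :
    dr v 0 (u ++ u ++ u) ≠ 0 := by
  have h4 : lnu (mdv v) u < 3 := Nat.mod_lt _ (by norm_num)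
  have hl1 := lr_lt v u 0 (by norm_num)
  have hl2 := lr_lt v u _ hl1
  have r1 := lres_lr v u 0 (by norm_num)
  have r2 := lres_lr v u _ hl1
  have h0 : lres 0 = 0 := rfl
  have hc := lr_cube v u
  rw [lr_append, lr_append] at hc
  rw [dr_append, dr_append, lr_append]
  by_cases hv2 : 2 ≤ v
  · have ht := ltriple v hv hv2 u 0 (lr v 0 u) (lr v (lr v 0 u) u) (by norm_num) hl1 hl2
      (by omega) (by omega) (by omega)
    rw [hc] at ht
    intro hD
    omega
  · have k1 := lrank v (by omega) u 0 (by norm_num)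
    have k2 := lrank v (by omega) u _ hl1
    have k3 := lrank v (by omega) u _ hl2
    rw [hc] at k3
    have n1 : lr v 0 u ≠ 0 := by
      intro h
      rw [h] at r1
      omega
    have n2 : lr v (lr v 0 u) u ≠ 0 := by
      intro h
      rw [h] at r2
      omega
    rw [if_pos rfl, if_neg n1] at k1
    rw [if_neg n1, if_neg n2] at k2
    rw [if_neg n2, if_pos rfl] at k3
    omega

/-! ### Projection to `m` levels -/

/-- the state of the automaton with `m` levels under a lifted state -/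
def pr (m : ℕ) (p : ℤ × ℕ) : ℕ := 7 * (p.1 % (m : ℤ)).toNat + p.2

theorem toNat_emod_add (k d : ℤ) (n m : ℕ) (hm : 0 < m) (h : (d - (n : ℤ)) % (m : ℤ) = 0) :
    ((k + d) % (m : ℤ)).toNat = ((k % (m : ℤ)).toNat + n) % m := by
  have hm' : (0 : ℤ) < m := by exact_mod_cast hm
  have h1 : 0 ≤ (k + d) % (m : ℤ) := Int.emod_nonneg _ (by omega)
  have h2 : 0 ≤ k % (m : ℤ) := Int.emod_nonneg _ (by omega)
  have key : (k + d) % (m : ℤ) = (k % (m : ℤ) + n) % (m : ℤ) := by
    rw [Int.emod_eq_emod_iff_emod_sub_eq_zero]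
    have h3 : k + d - (k % (m : ℤ) + n) = (d - n) + (m : ℤ) * (k / (m : ℤ)) := by
      have := Int.emod_add_mul_ediv k (m : ℤ)
      linarith
    rw [h3, Int.add_mul_emod_self_left]
    exact h
  have h4 : (((k + d) % (m : ℤ)).toNat : ℤ) = ((((k % (m : ℤ)).toNat + n) % m : ℕ) : ℤ) := by
    rw [Int.toNat_of_nonneg h1]
    push_cast
    rw [Int.toNat_of_nonneg h2]
    exact key
  exact_mod_cast h4

theorem pr_step (m v : ℕ) (hm : 0 < m) (hv : v < 4) (k : ℤ) (y : ℕ) (hy : y < 7) (c : Fin 4) :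
    pr m (zstep v (k, y) c) = lvStep m v (pr m (k, y)) c := by
  have he : ldT v y c < 3 := ldT_lt ⟨v, hv⟩ ⟨y, hy⟩ c
  have hd : (7 * (k % (m : ℤ)).toNat + y) / 7 = (k % (m : ℤ)).toNat := by omega
  have hmod : (7 * (k % (m : ℤ)).toNat + y) % 7 = y := by omega
  show 7 * ((k + iot (ldT v y c)) % (m : ℤ)).toNat + lsT (mdv v) y c
    = 7 * (((7 * (k % (m : ℤ)).toNat + y) / 7
        + (if ldT v ((7 * (k % (m : ℤ)).toNat + y) % 7) c = 2 then m - 1
            else ldT v ((7 * (k % (m : ℤ)).toNat + y) % 7) c)) % m)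
      + lsT (mdv v) ((7 * (k % (m : ℤ)).toNat + y) % 7) c
  rw [hd, hmod]
  congr 2
  apply toNat_emod_add _ _ _ _ hm
  rcases iot_cases _ he with ⟨h0, h1⟩ | ⟨h0, h1⟩ | ⟨h0, h1⟩
  · rw [h1, h0, if_neg (by norm_num)]
    simp
  · rw [h1, h0, if_neg (by norm_num)]
    simp
  · rw [h1, h0, if_pos rfl]
    have : ((m - 1 : ℕ) : ℤ) = (m : ℤ) - 1 := by
      have : 1 ≤ m := hm
      push_cast [Nat.cast_sub this]
      ring
    rw [this]
    have h5 : (-1 - ((m : ℤ) - 1)) = (m : ℤ) * (-1) := by ring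
    rw [h5, Int.mul_emod_right]

theorem pr_run (m v : ℕ) (hm : 0 < m) (hv : v < 4) (u : List (Fin 4)) : ∀ (k : ℤ) (y : ℕ),
    y < 7 → pr m (zrun v (k, y) u) = List.foldl (lvStep m v) (pr m (k, y)) u := by
  induction u with
  | nil =>
    intro k y _
    rfl
  | cons c u ih =>
    intro k y hy
    rw [zrun_cons, List.foldl_cons, ← pr_step m v hm hv k y hy c]
    exact ih _ _ (lsT_lt ⟨mdv v, mdv_lt v⟩ ⟨y, hy⟩ c)

theorem pr_gate (m : ℕ) (q : ℤ) : pr m ((m : ℤ) * q, 0) = 0 := by
  show 7 * (((m : ℤ) * q) % (m : ℤ)).toNat + 0 = 0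
  rw [Int.mul_emod_right]
  rfl

theorem pr_surj (m : ℕ) (σ : ℕ) (hσ : σ < 7 * m) : pr m (((σ / 7 : ℕ) : ℤ), σ % 7) = σ := by
  have h1 : σ / 7 < m := by omega
  show 7 * (((σ / 7 : ℕ) : ℤ) % (m : ℤ)).toNat + σ % 7 = σ
  have h2 : (((σ / 7 : ℕ) : ℤ) % (m : ℤ)) = ((σ / 7 : ℕ) : ℤ) :=
    Int.emod_eq_of_lt (by positivity) (by exact_mod_cast h1)
  rw [h2, Int.toNat_natCast]
  omega

/-! ### Absorbed runs -/

theorem abs_dead (step : ℕ → Fin 4 → ℕ) (σ : ℕ) (u1 u2 : List (Fin 4))
    (h : List.foldl step σ u1 = 0) : List.foldl (absStep step) σ (u1 ++ u2) = 0 := by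
  rw [List.foldl_append]
  by_cases h0 : List.foldl (absStep step) σ u1 = 0
  · rw [h0, foldl_abs_zero]
  · have h1 := foldl_abs_eq step u1 σ h0
    rw [h1] at h0
    exact absurd h h0

theorem foldl_rep {β : Type} (f : ℕ → β → ℕ) (u : List β) (k : ℕ) : ∀ σ : ℕ,
    List.foldl f σ (List.replicate k u).flatten = (fun τ => List.foldl f τ u)^[k] σ := by
  induction k with
  | zero =>
    intro σ
    rfl
  | succ k ih =>
    intro σ
    rw [List.replicate_succ, List.flatten_cons, List.foldl_append, ih,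
      Function.iterate_succ_apply]

/-- an absorbed run is dead or follows the lifted run -/
theorem lv_iter (m v : ℕ) (hm : 0 < m) (hv : v < 4) (k : ℤ) (y : ℕ) (hy : y < 7)
    (w : List (Fin 4)) :
    List.foldl (absStep (lvStep m v)) (pr m (k, y)) w = 0
      ∨ List.foldl (absStep (lvStep m v)) (pr m (k, y)) w = pr m (k + dr v y w, lr v y w) := by
  by_cases h0 : List.foldl (absStep (lvStep m v)) (pr m (k, y)) w = 0
  · left
    exact h0
  · right
    rw [foldl_abs_eq (lvStep m v) w _ h0, ← pr_run m v hm hv w k y hy, zrun_eq]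

theorem zrun_rep (v : ℕ) (x : List (Fin 4)) (y : ℕ) (hfix : lr v y x = y) (n : ℕ) : ∀ k : ℤ,
    zrun v (k, y) (List.replicate n x).flatten = (k + n * dr v y x, y) := by
  induction n with
  | zero =>
    intro k
    show (k, y) = _
    simp
  | succ n ih =>
    intro k
    rw [List.replicate_succ, List.flatten_cons, zrun_append, zrun_eq v x k y, hfix, ih]
    refine Prod.ext ?_ rfl
    show k + dr v y x + n * dr v y x = k + ((n + 1 : ℕ) : ℤ) * dr v y x
    push_cast
    ring

/-- a closed lifted run with a nonzero drift: `m` rounds pass through the base state -/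
theorem lv_die (m v : ℕ) (hm : 0 < m) (hv : v < 4) (x : List (Fin 4)) (k : ℤ) (y : ℕ)
    (hy : y < 7) (hfix : lr v y x = y) (hD : dr v y x ≠ 0) :
    List.foldl (absStep (lvStep m v)) (pr m (k, y)) (List.replicate m x).flatten = 0 := by
  have hm' : (0 : ℤ) < m := by exact_mod_cast hm
  have hrun := zrun_rep v x y hfix m k
  have e1 := Int.emod_add_mul_ediv k (m : ℤ)
  have e2 := Int.emod_nonneg k (by omega : (m : ℤ) ≠ 0)
  have e3 := Int.emod_lt_of_pos k hm'
  have f1 := Int.emod_add_mul_ediv (k - 1) (m : ℤ)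
  have f2 := Int.emod_nonneg (k - 1) (by omega : (m : ℤ) ≠ 0)
  have f3 := Int.emod_lt_of_pos (k - 1) hm'
  obtain ⟨q, hq⟩ : ∃ q : ℤ, (k < (m : ℤ) * q ∧ (m : ℤ) * q ≤ k + m * dr v y x)
      ∨ (k + m * dr v y x ≤ (m : ℤ) * q ∧ (m : ℤ) * q < k) := by
    rcases lt_or_gt_of_ne hD with hneg | hpos
    · refine ⟨(k - 1) / (m : ℤ), Or.inr ⟨?_, ?_⟩⟩
      · have : (m : ℤ) * dr v y x ≤ -(m : ℤ) := by nlinarith
        linarith
      · linarith
    · refine ⟨k / (m : ℤ) + 1, Or.inl ⟨?_, ?_⟩⟩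
      · linarith
      · have : (m : ℤ) ≤ (m : ℤ) * dr v y x := by nlinarith
        linarith
  have hq' : (k < (m : ℤ) * q ∧ (m : ℤ) * q ≤ (zrun v (k, y) (List.replicate m x).flatten).1)
      ∨ ((zrun v (k, y) (List.replicate m x).flatten).1 ≤ (m : ℤ) * q ∧ (m : ℤ) * q < k) := by
    rw [hrun]
    exact hq
  obtain ⟨u1, u2, hu, h1⟩ := zrun_ivt v hv _ k y hy _ hq'
  rw [hu]
  apply abs_dead
  rw [← pr_run m v hm hv u1 k y hy, h1]
  exact pr_gate m q

/-- a closed lifted run without drift: the absorbed run returns or is dead -/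
theorem lv_fix (m v : ℕ) (hm : 0 < m) (hv : v < 4) (x : List (Fin 4)) (k : ℤ) (y : ℕ)
    (hy : y < 7) (hfix : lr v y x = y) (hD : dr v y x = 0) :
    List.foldl (absStep (lvStep m v)) (pr m (k, y)) x = 0
      ∨ List.foldl (absStep (lvStep m v)) (pr m (k, y)) x = pr m (k, y) := by
  rcases lv_iter m v hm hv k y hy x with h | h
  · left
    exact h
  · right
    rw [h, hfix, hD, add_zero]

/-! ### The level automaton is counter-free after absorption -/

theorem iter_dead (F : ℕ → ℕ) (hF : F 0 = 0) (σ : ℕ) (a b : ℕ) (hab : a ≤ b) (h : F^[a] σ = 0) :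
    F^[b] σ = 0 := by
  obtain ⟨c, rfl⟩ := Nat.exists_eq_add_of_le hab
  rw [Nat.add_comm, Function.iterate_add_apply, h]
  exact Function.iterate_fixed hF c

theorem iter_cube (F : ℕ → ℕ) (n : ℕ) : ∀ τ, (fun t => F (F (F t)))^[n] τ = F^[3 * n] τ := by
  induction n with
  | zero =>
    intro τ
    rfl
  | succ n ih =>
    intro τ
    rw [Function.iterate_succ_apply, ih]
    have h : 3 * (n + 1) = 3 * n + 3 := by ring
    rw [h, Function.iterate_add_apply]
    rfl

theorem lv_aper (m v : ℕ) (hm : 0 < m) (hv : v < 4) (u : List (Fin 4)) :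
    ∃ K : ℕ, ∀ σ, σ < 7 * m →
      List.foldl (absStep (lvStep m v)) σ (List.replicate K u).flatten =
        List.foldl (absStep (lvStep m v)) σ (List.replicate (K + 1) u).flatten := by
  refine ⟨3 * m + 3, fun σ hσ => ?_⟩
  rw [foldl_rep, foldl_rep]
  have hF0 : (fun τ => List.foldl (absStep (lvStep m v)) τ u) 0 = 0 := foldl_abs_zero _ _
  generalize hFdef : (fun τ => List.foldl (absStep (lvStep m v)) τ u) = F at hF0 ⊢
  have hFa : ∀ τ, List.foldl (absStep (lvStep m v)) τ u = F τ := by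
    intro τ
    rw [← hFdef]
  have dead : ∀ a, a ≤ 3 * m + 3 → F^[a] σ = 0 → F^[3 * m + 3] σ = F^[3 * m + 3 + 1] σ := by
    intro a ha h
    rw [iter_dead F hF0 σ a _ ha h, iter_dead F hF0 σ a _ (by omega) h]
  have hy : σ % 7 < 7 := Nat.mod_lt _ (by norm_num)
  have hσ' := pr_surj m σ hσ
  generalize ((σ / 7 : ℕ) : ℤ) = k at hσ'
  generalize σ % 7 = y at hσ' hy
  have kill : ∀ k' : ℤ, lnu (mdv v) u ≠ 0 → F^[3 * m] (pr m (k', 0)) = 0 := by
    intro k' hnu
    have h2 := lv_die m v hm hv (u ++ u ++ u) k' 0 (by norm_num) (lr_cube v u)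
      (dr_cube_ne v hv u hnu)
    rw [foldl_rep] at h2
    have h3 : (fun τ => List.foldl (absStep (lvStep m v)) τ (u ++ u ++ u))
        = fun t => F (F (F t)) := by
      funext t
      rw [List.foldl_append, List.foldl_append, hFa, hFa, hFa]
    rw [h3, iter_cube] at h2
    exact h2
  by_cases hnu : lnu (mdv v) u = 0
  · rcases lv_iter m v hm hv k y hy u with h | h
    · rw [hσ', hFa] at h
      exact dead 1 (by omega) h
    · rw [hσ', hFa] at h
      have hl := lr_lt v u y hy
      have hid := lr_idem v u hnu y hy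
      by_cases hD : dr v (lr v y u) u = 0
      · rcases lv_fix m v hm hv u (k + dr v y u) (lr v y u) hl hid hD with h2 | h2
        · rw [← h, hFa] at h2
          exact dead 2 (by omega) h2
        · rw [← h, hFa] at h2
          have h3 : ∀ n, F^[n] (F σ) = F σ := Function.iterate_fixed h2
          have h4 : ∀ n, F^[n + 1] σ = F σ := by
            intro n
            rw [Function.iterate_succ_apply]
            exact h3 n
          have e1 : 3 * m + 3 = (3 * m + 2) + 1 := by omega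
          rw [h4 (3 * m + 3), e1, h4 (3 * m + 2)]
      · have h2 := lv_die m v hm hv u (k + dr v y u) (lr v y u) hl hid hD
        rw [← h, foldl_rep, hFdef] at h2
        have h3 : F^[m + 1] σ = 0 := by
          rw [Function.iterate_succ_apply]
          exact h2
        exact dead (m + 1) (by omega) h3
  · rcases lr_gate v u hnu y hy with h0 | h0 | h0
    · have h3 : F^[3 * m] σ = 0 := by
        rw [← hσ', h0]
        exact kill k hnu
      exact dead (3 * m) (by omega) h3
    · rcases lv_iter m v hm hv k y hy u with h | h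
      · rw [hσ', hFa] at h
        exact dead 1 (by omega) h
      · rw [hσ', hFa, h0] at h
        have h3 : F^[3 * m + 1] σ = 0 := by
          rw [Function.iterate_succ_apply, h]
          exact kill _ hnu
        exact dead (3 * m + 1) (by omega) h3
    · rcases lv_iter m v hm hv k y hy (u ++ u) with h | h
      · rw [hσ', List.foldl_append, hFa, hFa] at h
        exact dead 2 (by omega) h
      · rw [hσ', List.foldl_append, hFa, hFa, lr_append, h0] at h
        have h3 : F^[3 * m + 2] σ = 0 := by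
          rw [Function.iterate_succ_apply, Function.iterate_succ_apply, h]
          exact kill _ hnu
        exact dead (3 * m + 2) (by omega) h3

/-! ### The final state as a statistic -/

theorem lvStep_lt (m v : ℕ) (hm : 0 < m) (st : ℕ) (c : Fin 4) : lvStep m v st c < 7 * m := by
  have h1 : lsT (mdv v) (st % 7) c < 7 :=
    lsT_lt ⟨mdv v, mdv_lt v⟩ ⟨st % 7, Nat.mod_lt _ (by norm_num)⟩ c
  have h2 : (st / 7 + (if ldT v (st % 7) c = 2 then m - 1 else ldT v (st % 7) c)) % m < m :=
    Nat.mod_lt _ hm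
  unfold lvStep
  omega

variable {α : Type} [Fintype α] [DecidableEq α]

omit [Fintype α] [DecidableEq α] in
theorem lv_foldl_lt (m v : ℕ) (hm : 0 < m) (f : α → Fin 4) (w : List α) : ∀ σ, σ < 7 * m →
    List.foldl (fun st x => lvStep m v st (f x)) σ w < 7 * m := by
  induction w with
  | nil =>
    intro σ hσ
    exact hσ
  | cons x w ih =>
    intro σ _
    rw [List.foldl_cons]
    exact ih _ (lvStep_lt m v hm σ (f x))

/-- the final state of a level automaton is a statistic of generalized star height at most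
one -/
theorem stat_level (m v : ℕ) (hm : 0 < m) (hv : v < 4) (f : α → Fin 4) (y0 : ℕ)
    (hy0 : y0 < 7 * m) :
    StatLe 1 (fun w : List α =>
      (⟨List.foldl (fun st x => lvStep m v st (f x)) y0 w % (7 * m),
        Nat.mod_lt _ (by omega)⟩ : Fin (7 * m))) := by
  intro t
  have hab : ∀ (w : List α) (σ : ℕ),
      List.foldl (absStep (fun st x => lvStep m v st (f x))) σ w
        = List.foldl (absStep (lvStep m v)) σ (w.map f) := by
    intro w σ
    rw [List.foldl_map]
    rfl
  have haper : ∀ w : List α, ∃ K : ℕ, ∀ σ, σ < 7 * m →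
      List.foldl (absStep (fun st x => lvStep m v st (f x))) σ (List.replicate K w).flatten =
        List.foldl (absStep (fun st x => lvStep m v st (f x))) σ
          (List.replicate (K + 1) w).flatten := by
    intro w
    obtain ⟨K, hK⟩ := lv_aper m v hm hv (w.map f)
    refine ⟨K, fun σ hσ => ?_⟩
    rw [hab, hab, List.map_flatten, List.map_flatten, List.map_replicate, List.map_replicate]
    exact hK σ hσ
  have h := gsh_run_aper (7 * m) (fun st x => lvStep m v st (f x)) haper
    (fun y a _ => lvStep_lt m v hm y (f a)) y0 t.val hy0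
  refine h.of_iff (fun w => ?_)
  have hlt := lv_foldl_lt m v hm f w y0 hy0
  show List.foldl (fun st x => lvStep m v st (f x)) y0 w = t.val
    ↔ (⟨List.foldl (fun st x => lvStep m v st (f x)) y0 w % (7 * m),
        Nat.mod_lt _ (by omega)⟩ : Fin (7 * m)) = t
  rw [Fin.ext_iff]
  show _ ↔ List.foldl (fun st x => lvStep m v st (f x)) y0 w % (7 * m) = t.val
  rw [Nat.mod_eq_of_lt hlt]

end Vale.Agent.Lib.P329
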