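import Vale.Agent.Lib.P329.LevelAper
import Vale.Agent.Lib.P329.CountMod3

/-!
# Counting marked letters of weight zero modulo `m`

For a set `S` of marked letters of weight zero modulo three, the number of positions carrying
a letter of `S` that are preceded by letters of total weight congruent to `r` modulo three is,
modulo any `m`, a statistic of generalized star height at most one (`stat_occW_mod0`). It is
the difference of the levels of two level automata that differ only in counting the marked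
letters read at the gate.
-/

namespace Vale.Agent.Lib.P329

open Language

theorem lvStep_mod (m v st : ℕ) (c : Fin 4) : lvStep m v st c % 7 = lsT (mdv v) (st % 7) c := by
  have h1 : lsT (mdv v) (st % 7) c < 7 :=
    lsT_lt ⟨mdv v, mdv_lt v⟩ ⟨st % 7, Nat.mod_lt _ (by norm_num)⟩ c
  unfold lvStep
  omega

theorem lvStep_div (m v st : ℕ) (c : Fin 4) : lvStep m v st c / 7
    = (st / 7 + (if ldT v (st % 7) c = 2 then m - 1 else ldT v (st % 7) c)) % m := by
  have h1 : lsT (mdv v) (st % 7) c < 7 :=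
    lsT_lt ⟨mdv v, mdv_lt v⟩ ⟨st % 7, Nat.mod_lt _ (by norm_num)⟩ c
  unfold lvStep
  omega

/-- the local state of residue `(3 - ρ) % 3` with the memory `a` -/
def lstart (ρ : ℕ) : ℕ := if ρ = 0 then 0 else if ρ = 1 then 4 else 1

theorem lstart_lt (ρ : ℕ) : lstart ρ < 7 := by
  unfold lstart
  split_ifs <;> omega

theorem lstart_res : ∀ ρ : Fin 3, lres (lstart ρ.val) = (3 - ρ.val) % 3 := by decide

theorem lvar01_step : ∀ y : Fin 7, ∀ c : Fin 4,
    ldT 0 y.val c ≠ 2 ∧ ldT 1 y.val c ≠ 2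
      ∧ ldT 1 y.val c = ldT 0 y.val c + (if c.val = 3 ∧ y.val = 0 then 1 else 0)
      ∧ lsT (mdv 1) y.val c = lsT (mdv 0) y.val c := by decide

variable {α : Type} [Fintype α] [DecidableEq α]

/-- the class of a letter when the marked letters have weight zero -/
def lcl0 (κ : α → ℕ) (S : Finset α) (x : α) : Fin 4 := ⟨ltype κ S x, ltype_lt κ S x⟩

/-- the joint invariant of the two level automata and the counting fold -/
abbrev Inv0 (m r a0 a1 : ℕ) (st : ℕ × ℕ) : Prop :=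
  a0 < 7 * m ∧ a1 < 7 * m ∧ a0 % 7 = a1 % 7
    ∧ lres (a0 % 7) = (lres (lstart (r % 3)) + st.1) % 3
    ∧ (a1 / 7) % m = (a0 / 7 + st.2) % m

omit [Fintype α] in
theorem inv0_step (m : ℕ) (hm : 0 < m) (κ : α → ℕ) (S : Finset α)
    (hS0 : ∀ x ∈ S, κ x % 3 = 0) (r a0 a1 : ℕ) (st : ℕ × ℕ) (x : α)
    (h : Inv0 m r a0 a1 st) :
    Inv0 m r (lvStep m 0 a0 (lcl0 κ S x)) (lvStep m 1 a1 (lcl0 κ S x)) (occStep κ S r st x) := by
  obtain ⟨_, _, hy, hres, hlev⟩ := h
  have hy7 : a0 % 7 < 7 := Nat.mod_lt _ (by norm_num)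
  have hr3 : r % 3 < 3 := Nat.mod_lt _ (by norm_num)
  have hk3 : κ x % 3 < 3 := Nat.mod_lt _ (by norm_num)
  obtain ⟨e0, e1, e2, e3⟩ := lvar01_step ⟨a0 % 7, hy7⟩ (lcl0 κ S x)
  have e0' : ldT 0 (a0 % 7) (lcl0 κ S x) ≠ 2 := e0
  have e1' : ldT 1 (a0 % 7) (lcl0 κ S x) ≠ 2 := e1
  have e2' : ldT 1 (a0 % 7) (lcl0 κ S x) = ldT 0 (a0 % 7) (lcl0 κ S x)
      + (if (lcl0 κ S x).val = 3 ∧ a0 % 7 = 0 then 1 else 0) := e2
  have e3' : lsT (mdv 1) (a0 % 7) (lcl0 κ S x) = lsT (mdv 0) (a0 % 7) (lcl0 κ S x) := e3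
  have hcl : (lcl0 κ S x).val = ltype κ S x := rfl
  have hstart : lres (lstart (r % 3)) = (3 - r % 3) % 3 := lstart_res ⟨r % 3, hr3⟩
  have hresy : lres (a0 % 7) = 0 ↔ a0 % 7 = 0 :=
    ⟨fun h0 => lres_zero ⟨a0 % 7, hy7⟩ h0, fun h0 => by rw [h0]; rfl⟩
  have hmd0 : mdv 0 = 0 := rfl
  have hstepres : lres (lsT (mdv 0) (a0 % 7) (lcl0 κ S x))
      = (lres (a0 % 7) + lwt (mdv 0) (lcl0 κ S x)) % 3 :=
    lres_step ⟨mdv 0, mdv_lt 0⟩ ⟨a0 % 7, hy7⟩ (lcl0 κ S x)
  refine ⟨lvStep_lt m 0 hm _ _, lvStep_lt m 1 hm _ _, ?_, ?_, ?_⟩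
  · rw [lvStep_mod, lvStep_mod, ← hy, e3']
  · rw [lvStep_mod, hstepres, hres]
    show _ = (lres (lstart (r % 3)) + (st.1 + κ x)) % 3
    have hw : lwt (mdv 0) (lcl0 κ S x) % 3 = κ x % 3 := by
      unfold lwt
      rw [hcl, hmd0]
      unfold ltype
      by_cases hx : x ∈ S
      · rw [if_pos hx, if_pos rfl, if_pos rfl, hS0 x hx]
      · rw [if_neg hx, if_neg (by omega)]
        omega
    omega
  · rw [lvStep_div, lvStep_div, ← hy, if_neg e0', if_neg e1', e2']
    have hδ : (if (lcl0 κ S x).val = 3 ∧ a0 % 7 = 0 then 1 else 0) + st.2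
        = (occStep κ S r st x).2 := by
      show _ = (if x ∈ S ∧ st.1 % 3 = r % 3 then st.2 + 1 else st.2)
      have hc3 : (lcl0 κ S x).val = 3 ↔ x ∈ S := by
        rw [hcl]
        unfold ltype
        by_cases hx : x ∈ S
        · rw [if_pos hx]
          exact ⟨fun _ => hx, fun _ => rfl⟩
        · rw [if_neg hx]
          exact ⟨fun h3 => by omega, fun h3 => absurd h3 hx⟩
      have hg : a0 % 7 = 0 ↔ st.1 % 3 = r % 3 := by
        rw [← hresy, hres, hstart]
        omega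
      by_cases hc : x ∈ S ∧ st.1 % 3 = r % 3
      · rw [if_pos hc, if_pos ⟨hc3.mpr hc.1, hg.mpr hc.2⟩]
        omega
      · rw [if_neg hc, if_neg (fun h3 => hc ⟨hc3.mp h3.1, hg.mp h3.2⟩)]
        omega
    rw [← hδ]
    have h1 : Nat.ModEq m (a1 / 7) (a0 / 7 + st.2) := hlev
    have h2 : Nat.ModEq m
        ((a1 / 7 + (ldT 0 (a0 % 7) (lcl0 κ S x)
          + (if (lcl0 κ S x).val = 3 ∧ a0 % 7 = 0 then 1 else 0))) % m)
        ((a0 / 7 + ldT 0 (a0 % 7) (lcl0 κ S x)) % m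
          + ((if (lcl0 κ S x).val = 3 ∧ a0 % 7 = 0 then 1 else 0) + st.2)) := by
      refine (Nat.mod_modEq _ _).trans ?_
      refine (h1.add_right _).trans ?_
      have h3 : Nat.ModEq m (a0 / 7 + ldT 0 (a0 % 7) (lcl0 κ S x))
          ((a0 / 7 + ldT 0 (a0 % 7) (lcl0 κ S x)) % m) := (Nat.mod_modEq _ _).symm
      have h4 := h3.add_right
        ((if (lcl0 κ S x).val = 3 ∧ a0 % 7 = 0 then 1 else 0) + st.2)
      have h5 : a0 / 7 + st.2 + (ldT 0 (a0 % 7) (lcl0 κ S x)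
            + (if (lcl0 κ S x).val = 3 ∧ a0 % 7 = 0 then 1 else 0))
          = a0 / 7 + ldT 0 (a0 % 7) (lcl0 κ S x)
            + ((if (lcl0 κ S x).val = 3 ∧ a0 % 7 = 0 then 1 else 0) + st.2) := by ring
      rw [h5]
      exact h4
    exact h2

omit [Fintype α] in
theorem joint0 (m : ℕ) (hm : 0 < m) (κ : α → ℕ) (S : Finset α) (hS0 : ∀ x ∈ S, κ x % 3 = 0)
    (r : ℕ) : ∀ (w : List α) (a0 a1 : ℕ) (st : ℕ × ℕ), Inv0 m r a0 a1 st →
      Inv0 m r (List.foldl (fun s x => lvStep m 0 s (lcl0 κ S x)) a0 w)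
        (List.foldl (fun s x => lvStep m 1 s (lcl0 κ S x)) a1 w)
        (List.foldl (occStep κ S r) st w) := by
  intro w
  induction w with
  | nil =>
    intro a0 a1 st h
    exact h
  | cons x w ih =>
    intro a0 a1 st h
    rw [List.foldl_cons, List.foldl_cons, List.foldl_cons]
    exact ih _ _ _ (inv0_step m hm κ S hS0 r a0 a1 st x h)

/-- **Counting marked letters of weight zero modulo `m`.** -/
theorem stat_occW_mod0 (m : ℕ) (hm : 0 < m) (κ : α → ℕ) (S : Finset α)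
    (hS0 : ∀ x ∈ S, κ x % 3 = 0) (r : ℕ) :
    StatLe 1 (fun w : List α => occW κ S r w % m) := by
  have hst : lstart (r % 3) < 7 * m := by
    have := lstart_lt (r % 3)
    omega
  have s0 := stat_level m 0 hm (by norm_num) (lcl0 κ S) (lstart (r % 3)) hst
  have s1 := stat_level m 1 hm (by norm_num) (lcl0 κ S) (lstart (r % 3)) hst
  have s := (s0.prod s1).comp
    (fun p : Fin (7 * m) × Fin (7 * m) => (p.2.val / 7 + (m - p.1.val / 7 % m)) % m)
  refine s.congr (fun w => ?_)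
  have hinit : Inv0 m r (lstart (r % 3)) (lstart (r % 3)) (0, 0) := by
    have h7 := lstart_lt (r % 3)
    refine ⟨hst, hst, rfl, ?_, ?_⟩
    · rw [Nat.mod_eq_of_lt h7]
      have := lres_lt (lstart (r % 3))
      show lres (lstart (r % 3)) = (lres (lstart (r % 3)) + 0) % 3
      omega
    · rfl
  obtain ⟨l0, l1, _, _, hlev⟩ := joint0 m hm κ S hS0 r w _ _ _ hinit
  show (List.foldl (fun s x => lvStep m 1 s (lcl0 κ S x)) (lstart (r % 3)) w % (7 * m) / 7
      + (m - List.foldl (fun s x => lvStep m 0 s (lcl0 κ S x)) (lstart (r % 3)) w % (7 * m)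
          / 7 % m)) % m = occW κ S r w % m
  rw [Nat.mod_eq_of_lt l0, Nat.mod_eq_of_lt l1]
  have hk0 : List.foldl (fun s x => lvStep m 0 s (lcl0 κ S x)) (lstart (r % 3)) w / 7 < m := by
    omega
  have hk1 : List.foldl (fun s x => lvStep m 1 s (lcl0 κ S x)) (lstart (r % 3)) w / 7 < m := by
    omega
  rw [Nat.mod_eq_of_lt hk0]
  rw [Nat.mod_eq_of_lt hk1] at hlev
  rw [hlev]
  have h1 : Nat.ModEq m
      ((List.foldl (fun s x => lvStep m 0 s (lcl0 κ S x)) (lstart (r % 3)) w / 7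
          + (List.foldl (occStep κ S r) (0, 0) w).2) % m
        + (m - List.foldl (fun s x => lvStep m 0 s (lcl0 κ S x)) (lstart (r % 3)) w / 7))
      (occW κ S r w) := by
    refine ((Nat.mod_modEq _ _).add_right _).trans ?_
    have h2 : List.foldl (fun s x => lvStep m 0 s (lcl0 κ S x)) (lstart (r % 3)) w / 7
          + (List.foldl (occStep κ S r) (0, 0) w).2
          + (m - List.foldl (fun s x => lvStep m 0 s (lcl0 κ S x)) (lstart (r % 3)) w / 7)
        = occW κ S r w + m := by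
      unfold occW
      omega
    rw [h2]
    exact Nat.add_modEq_right
  exact h1

end Vale.Agent.Lib.P329
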