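import Mathlib

/-!
# Local divisors of aperiodic monoids

For an element `c` of a monoid `M` the set `c M ∩ M c` carries the multiplication
`x ∘ y = b * y` for `x = b * c` (equivalently `x * a` for `y = c * a`), with identity `c`.
If `M` is finite and aperiodic and `c ≠ 1`, this local divisor is a strictly smaller aperiodic
monoid.
-/

namespace Vale.Agent.Lib.P329

/-- In an aperiodic monoid a product equal to one has both factors equal to one. -/
theorem aper_mul_eq_one {M : Type} [Monoid M] (hM : ∀ x : M, ∃ n : ℕ, x ^ n = x ^ (n + 1))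
    {x y : M} (h : x * y = 1) : x = 1 ∧ y = 1 := by
  have hpow : ∀ n : ℕ, x ^ n * y ^ n = 1 := by
    intro n
    induction n with
    | zero => simp
    | succ n ih =>
      calc x ^ (n + 1) * y ^ (n + 1) = x ^ n * (x * y) * y ^ n := by
            rw [pow_succ, pow_succ']
            simp only [mul_assoc]
        _ = 1 := by rw [h, mul_one, ih]
  obtain ⟨n, hn⟩ := hM x
  have hx : x = 1 := by
    calc x = x * (x ^ n * y ^ n) := by rw [hpow n, mul_one]
      _ = x ^ (n + 1) * y ^ n := by rw [← mul_assoc, ← pow_succ']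
      _ = x ^ n * y ^ n := by rw [← hn]
      _ = 1 := hpow n
  refine ⟨hx, ?_⟩
  rw [hx, one_mul] at h
  exact h

/-- The carrier of the local divisor of `M` at `c`: the elements of `c M ∩ M c`. -/
def LDiv {M : Type} [Monoid M] (c : M) : Type :=
  {x : M // (∃ a, x = c * a) ∧ ∃ b, x = b * c}

/-- The multiplication of the local divisor: `x ∘ y = b * y` where `x = b * c`. -/
noncomputable def ldMul {M : Type} [Monoid M] (c : M) (x y : LDiv c) : LDiv c :=
  ⟨Classical.choose x.2.2 * y.1, by
    obtain ⟨a, ha⟩ := y.2.1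
    obtain ⟨b', hb'⟩ := y.2.2
    have hx := Classical.choose_spec x.2.2
    obtain ⟨ax, hax⟩ := x.2.1
    refine ⟨⟨ax * a, ?_⟩, ⟨Classical.choose x.2.2 * b', ?_⟩⟩
    · rw [ha, ← mul_assoc, ← hx, hax, mul_assoc]
    · rw [hb', mul_assoc]⟩

theorem ldMul_val {M : Type} [Monoid M] (c : M) (x y : LDiv c) (b : M) (hb : x.1 = b * c) :
    (ldMul c x y).1 = b * y.1 := by
  obtain ⟨a, ha⟩ := y.2.1
  have hx := Classical.choose_spec x.2.2
  show Classical.choose x.2.2 * y.1 = b * y.1
  rw [ha, ← mul_assoc, ← hx, ← mul_assoc, ← hb]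

theorem ldMul_val' {M : Type} [Monoid M] (c : M) (x y : LDiv c) (a : M) (ha : y.1 = c * a) :
    (ldMul c x y).1 = x.1 * a := by
  have hx := Classical.choose_spec x.2.2
  show Classical.choose x.2.2 * y.1 = x.1 * a
  rw [ha, ← mul_assoc, ← hx]

/-- The identity of the local divisor is `c`. -/
def ldOne {M : Type} [Monoid M] (c : M) : LDiv c :=
  ⟨c, ⟨1, (mul_one c).symm⟩, ⟨1, (one_mul c).symm⟩⟩

/-- The local divisor is a monoid. -/
@[reducible] noncomputable def ldMonoid {M : Type} [Monoid M] (c : M) : Monoid (LDiv c) where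
  mul := ldMul c
  one := ldOne c
  mul_assoc := by
    intro x y z
    apply Subtype.ext
    obtain ⟨az, haz⟩ := z.2.1
    obtain ⟨ay, hay⟩ := y.2.1
    have h1 : (ldMul c (ldMul c x y) z).1 = x.1 * ay * az := by
      rw [ldMul_val' c _ z az haz, ldMul_val' c x y ay hay]
    have h2 : (ldMul c x (ldMul c y z)).1 = x.1 * (ay * az) := by
      apply ldMul_val' c x _ (ay * az)
      rw [ldMul_val' c y z az haz, hay, mul_assoc]
    show (ldMul c (ldMul c x y) z).1 = (ldMul c x (ldMul c y z)).1
    rw [h1, h2, mul_assoc]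
  one_mul := by
    intro x
    apply Subtype.ext
    show (ldMul c (ldOne c) x).1 = x.1
    rw [ldMul_val c (ldOne c) x 1 (one_mul c).symm, one_mul]
  mul_one := by
    intro x
    apply Subtype.ext
    show (ldMul c x (ldOne c)).1 = x.1
    rw [ldMul_val' c x (ldOne c) 1 (mul_one c).symm, mul_one]

/-- The map `t ↦ c t c` into the local divisor. -/
def ldMap {M : Type} [Monoid M] (c : M) (t : M) : LDiv c :=
  ⟨c * t * c, ⟨t * c, mul_assoc c t c⟩, ⟨c * t, rfl⟩⟩

/-- **Local divisor.** For a finite aperiodic monoid `M` and `c ≠ 1` there is a strictly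
smaller aperiodic monoid `D` with an injection `emb : D → M` and a map `ld : M → D` such that
`emb (ld t₁ ⋯ ld tₖ) = c (t₁ c) ⋯ (tₖ c)`. -/
theorem exists_local_divisor {M : Type} [Monoid M] [Finite M]
    (hM : ∀ x : M, ∃ n : ℕ, x ^ n = x ^ (n + 1)) (c : M) (hc : c ≠ 1) :
    ∃ (D : Type) (_ : Monoid D) (_ : Finite D) (emb : D → M) (ld : M → D),
      Nat.card D < Nat.card M ∧ (∀ x : D, ∃ n : ℕ, x ^ n = x ^ (n + 1)) ∧
      Function.Injective emb ∧
      ∀ v : List M, emb ((v.map ld).prod) = c * (v.map (fun t => t * c)).prod := by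
  let _ : Monoid (LDiv c) := ldMonoid c
  have hfin : Finite (LDiv c) := by
    unfold LDiv
    infer_instance
  refine ⟨LDiv c, ldMonoid c, hfin, Subtype.val, ldMap c, ?_, ?_, Subtype.val_injective, ?_⟩
  · have h1 : (1 : M) ∉ Set.range (Subtype.val : LDiv c → M) := by
      rintro ⟨x, hx⟩
      obtain ⟨a, ha⟩ := x.2.1
      have h2 : c * a = 1 := by rw [← ha, hx]
      exact hc (aper_mul_eq_one hM h2).1
    have := Fintype.ofFinite M
    have := Fintype.ofFinite (LDiv c)
    rw [Nat.card_eq_fintype_card, Nat.card_eq_fintype_card]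
    exact Fintype.card_lt_of_injective_of_notMem _ Subtype.val_injective h1
  · intro x
    obtain ⟨a, ha⟩ := x.2.1
    obtain ⟨n, hn⟩ := hM a
    have hpow : ∀ k : ℕ, (x ^ k).1 = c * a ^ k := by
      intro k
      induction k with
      | zero =>
        rw [pow_zero, pow_zero, mul_one]
        rfl
      | succ k ih =>
        rw [pow_succ]
        show (ldMul c (x ^ k) x).1 = c * a ^ (k + 1)
        rw [ldMul_val' c (x ^ k) x a ha, ih, pow_succ, mul_assoc]
    refine ⟨n, Subtype.ext ?_⟩
    rw [hpow n, hpow (n + 1), hn]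
  · intro v
    induction v with
    | nil =>
      rw [List.map_nil, List.prod_nil, List.map_nil, List.prod_nil, mul_one]
      rfl
    | cons t v ih =>
      rw [List.map_cons, List.prod_cons, List.map_cons, List.prod_cons]
      have h3 := ldMul_val c (ldMap c t) ((v.map (ldMap c)).prod) (c * t) rfl
      show (ldMul c (ldMap c t) ((v.map (ldMap c)).prod)).1 = _
      rw [h3, ih]
      simp only [mul_assoc]

end Vale.Agent.Lib.P329
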