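import Vale.Agent.Lib.P329.WalkStat

/-!
# Sums and products over marked positions of functions of the vector of prefix counts

`msumAux z f n w` is the sum, over the occurrences of the letter `z` in the word `w`, of
`f` applied to the vector of the numbers of earlier letters (started at the vector `n`).
`mprodAux F n w` is the product over all positions of `F (letter) (vector of earlier counts)`.
-/

namespace Vale.Agent.Lib.P329

variable {α : Type} [DecidableEq α]

/-- the count vector after one more letter `y` -/
def bump (n : α → ℕ) (y : α) : α → ℕ := Function.update n y (n y + 1)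

theorem bump_self (n : α → ℕ) (y : α) : bump n y y = n y + 1 := Function.update_self _ _ _

theorem bump_ne (n : α → ℕ) {y x : α} (h : x ≠ y) : bump n y x = n x :=
  Function.update_of_ne h _ _

theorem bump_count (n : α → ℕ) (y : α) (u : List α) :
    (fun x => bump n y x + u.count x) = fun x => n x + (y :: u).count x := by
  funext x
  by_cases hx : x = y
  · subst hx
    rw [bump_self, List.count_cons_self]
    omega
  · rw [bump_ne n hx, List.count_cons_of_ne (fun h => hx h.symm)]

/-- sum over the occurrences of `z` of a function of the vector of earlier letter counts -/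
def msumAux {R : Type} [AddCommMonoid R] (z : α) (f : (α → ℕ) → R) : (α → ℕ) → List α → R
  | _, [] => 0
  | n, y :: w => (if y = z then f n else 0) + msumAux z f (bump n y) w

/-- the same, started with the zero vector -/
def msum {R : Type} [AddCommMonoid R] (z : α) (f : (α → ℕ) → R) (w : List α) : R :=
  msumAux z f (fun _ => 0) w

theorem msumAux_cons {R : Type} [AddCommMonoid R] (z : α) (f : (α → ℕ) → R) (n : α → ℕ)
    (y : α) (w : List α) :
    msumAux z f n (y :: w) = (if y = z then f n else 0) + msumAux z f (bump n y) w := rfl

theorem msumAux_congr {R : Type} [AddCommMonoid R] (z : α) (f f' : (α → ℕ) → R)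
    (h : ∀ n, f n = f' n) (n : α → ℕ) (w : List α) : msumAux z f n w = msumAux z f' n w := by
  have e : f = f' := funext h
  rw [e]

theorem msum_congr {R : Type} [AddCommMonoid R] (z : α) (f f' : (α → ℕ) → R)
    (h : ∀ n, f n = f' n) (w : List α) : msum z f w = msum z f' w :=
  msumAux_congr z f f' h _ w

theorem msumAux_zero {R : Type} [AddCommMonoid R] (z : α) (w : List α) :
    ∀ n : α → ℕ, msumAux z (fun _ => (0 : R)) n w = 0 := by
  induction w with
  | nil =>
    intro n
    rfl
  | cons y v ih =>
    intro n
    rw [msumAux_cons, ih, ite_self, add_zero]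

theorem msumAux_add {R : Type} [AddCommMonoid R] (z : α) (f f' : (α → ℕ) → R) (w : List α) :
    ∀ n : α → ℕ, msumAux z (fun n => f n + f' n) n w = msumAux z f n w + msumAux z f' n w := by
  induction w with
  | nil =>
    intro n
    show (0 : R) = 0 + 0
    rw [add_zero]
  | cons y v ih =>
    intro n
    rw [msumAux_cons, msumAux_cons, msumAux_cons, ih]
    by_cases hy : y = z
    · simp only [if_pos hy]
      exact add_add_add_comm _ _ _ _
    · simp only [if_neg hy, zero_add]

theorem msumAux_mul {R : Type} [Semiring R] (z : α) (c : R) (f : (α → ℕ) → R) (w : List α) :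
    ∀ n : α → ℕ, msumAux z (fun n => c * f n) n w = c * msumAux z f n w := by
  induction w with
  | nil =>
    intro n
    show (0 : R) = c * 0
    rw [mul_zero]
  | cons y v ih =>
    intro n
    rw [msumAux_cons, msumAux_cons, ih, mul_add]
    by_cases hy : y = z
    · simp only [if_pos hy]
    · simp only [if_neg hy, mul_zero]

theorem msumAux_cast {R : Type} [Semiring R] (z : α) (f : (α → ℕ) → ℕ) (w : List α) :
    ∀ n : α → ℕ, ((msumAux z f n w : ℕ) : R) = msumAux z (fun n => ((f n : ℕ) : R)) n w := by
  induction w with
  | nil =>
    intro n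
    show ((0 : ℕ) : R) = 0
    exact Nat.cast_zero
  | cons y v ih =>
    intro n
    rw [msumAux_cons, msumAux_cons, Nat.cast_add, ih]
    by_cases hy : y = z
    · simp only [if_pos hy]
    · simp only [if_neg hy, Nat.cast_zero]

theorem msumAux_append {R : Type} [AddCommMonoid R] (z : α) (f : (α → ℕ) → R) (u v : List α) :
    ∀ n : α → ℕ, msumAux z f n (u ++ v)
      = msumAux z f n u + msumAux z f (fun x => n x + u.count x) v := by
  induction u with
  | nil =>
    intro n
    show msumAux z f n v = 0 + msumAux z f (fun x => n x + 0) v
    rw [zero_add]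
    rfl
  | cons y u ih =>
    intro n
    rw [List.cons_append, msumAux_cons, msumAux_cons, ih, add_assoc, bump_count]

/-- telescoping: the increments of `F` along the word add up to its total change -/
theorem msum_tele [Fintype α] {R : Type} [AddCommMonoid R] (F : (α → ℕ) → R)
    (D : α → (α → ℕ) → R) (hD : ∀ x n, F (bump n x) = F n + D x n) (w : List α) :
    ∀ n : α → ℕ, F (fun x => n x + w.count x) = F n + ∑ x, msumAux x (D x) n w := by
  induction w with
  | nil =>
    intro n
    show F n = F n + ∑ x : α, (0 : R)
    rw [Finset.sum_const_zero, add_zero]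
  | cons y v ih =>
    intro n
    rw [← bump_count, ih (bump n y), hD]
    have e : ∀ x ∈ (Finset.univ : Finset α), msumAux x (D x) n (y :: v)
        = (if y = x then D x n else 0) + msumAux x (D x) (bump n y) v := fun x _ => rfl
    rw [Finset.sum_congr rfl e, Finset.sum_add_distrib, Finset.sum_ite_eq, if_pos (Finset.mem_univ y),
      add_assoc]

/-- the weighted sums of the counting automata are marked sums -/
theorem wsum_eq_msum {R : Type} [AddCommMonoid R] (S : Finset α) (z : α) (g : ℕ → R)
    (w : List α) : ∀ n : α → ℕ,
      wsum S z g (∑ s ∈ S, n s) w = msumAux z (fun n => g (∑ s ∈ S, n s)) n w := by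
  induction w with
  | nil =>
    intro n
    rfl
  | cons y v ih =>
    intro n
    rw [wsum_consM, msumAux_cons, ← ih (bump n y)]
    have e : (if y ∈ S then (∑ s ∈ S, n s) + 1 else ∑ s ∈ S, n s) = ∑ s ∈ S, bump n y s := by
      have e1 : ∀ s ∈ S, bump n y s = n s + (if y = s then 1 else 0) := by
        intro s _
        by_cases hs : s = y
        · subst hs
          rw [bump_self, if_pos rfl]
        · rw [bump_ne n hs, if_neg (fun h => hs h.symm), Nat.add_zero]
      rw [Finset.sum_congr rfl e1, Finset.sum_add_distrib, Finset.sum_ite_eq]
      by_cases hy : y ∈ S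
      · rw [if_pos hy, if_pos hy]
      · rw [if_neg hy, if_neg hy, Nat.add_zero]
    rw [e]

/-- the two-counter sums are marked sums -/
theorem psum_eq_msum {R : Type} [AddCommMonoid R] (a b x : α) (F : ℕ → ℕ → R) (w : List α) :
    ∀ n : α → ℕ, psum a b x F (n a) (n b) w = msumAux x (fun n => F (n a) (n b)) n w := by
  induction w with
  | nil =>
    intro n
    rfl
  | cons y v ih =>
    intro n
    rw [psum_cons, msumAux_cons, ← ih (bump n y)]
    have ea : (if y = a then n a + 1 else n a) = bump n y a := by
      by_cases h : y = a
      · subst h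
        rw [if_pos rfl, bump_self]
      · rw [if_neg h, bump_ne n (fun h' => h h'.symm)]
    have eb : (if y = b then n b + 1 else n b) = bump n y b := by
      by_cases h : y = b
      · subst h
        rw [if_pos rfl, bump_self]
      · rw [if_neg h, bump_ne n (fun h' => h h'.symm)]
    rw [ea, eb]

/-! ### Products over all positions -/

/-- product over all positions of a function of the letter and of the vector of earlier letter
counts -/
def mprodAux {A : Type} [CommMonoid A] (F : α → (α → ℕ) → A) : (α → ℕ) → List α → A
  | _, [] => 1
  | n, y :: w => F y n * mprodAux F (bump n y) w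

theorem mprodAux_cons {A : Type} [CommMonoid A] (F : α → (α → ℕ) → A) (n : α → ℕ) (y : α)
    (w : List α) : mprodAux F n (y :: w) = F y n * mprodAux F (bump n y) w := rfl

theorem mprodAux_congr {A : Type} [CommMonoid A] (F F' : α → (α → ℕ) → A)
    (h : ∀ y n, F y n = F' y n) (n : α → ℕ) (w : List α) : mprodAux F n w = mprodAux F' n w := by
  have e : F = F' := funext (fun y => funext (h y))
  rw [e]

theorem mprodAux_one {A : Type} [CommMonoid A] (w : List α) :
    ∀ n : α → ℕ, mprodAux (fun _ _ => (1 : A)) n w = 1 := by
  induction w with
  | nil =>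
    intro n
    rfl
  | cons y v ih =>
    intro n
    rw [mprodAux_cons, ih, mul_one]

theorem mprodAux_mul {A : Type} [CommMonoid A] (F F' : α → (α → ℕ) → A) (w : List α) :
    ∀ n : α → ℕ, mprodAux (fun y n => F y n * F' y n) n w = mprodAux F n w * mprodAux F' n w := by
  induction w with
  | nil =>
    intro n
    show (1 : A) = 1 * 1
    rw [mul_one]
  | cons y v ih =>
    intro n
    rw [mprodAux_cons, mprodAux_cons, mprodAux_cons, ih]
    exact mul_mul_mul_comm _ _ _ _

theorem mprodAux_pow {A : Type} [CommMonoid A] (z : α) (d : A) (f : (α → ℕ) → ℕ) (w : List α) :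
    ∀ n : α → ℕ, mprodAux (fun y n => if y = z then d ^ f n else 1) n w
      = d ^ msumAux z f n w := by
  induction w with
  | nil =>
    intro n
    show (1 : A) = d ^ 0
    rw [pow_zero]
  | cons y v ih =>
    intro n
    rw [mprodAux_cons, msumAux_cons, ih, pow_add]
    by_cases hy : y = z
    · simp only [if_pos hy]
    · simp only [if_neg hy, pow_zero]

theorem mprodAux_split [Fintype α] {A : Type} [CommMonoid A] (F : α → (α → ℕ) → A)
    (w : List α) : ∀ n : α → ℕ,
      mprodAux F n w = ∏ z, mprodAux (fun y n => if y = z then F z n else 1) n w := by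
  induction w with
  | nil =>
    intro n
    show (1 : A) = ∏ z : α, (1 : A)
    rw [Finset.prod_const_one]
  | cons y v ih =>
    intro n
    rw [mprodAux_cons, ih (bump n y)]
    have e : ∀ z ∈ (Finset.univ : Finset α),
        mprodAux (fun y n => if y = z then F z n else 1) n (y :: v)
          = (if y = z then F z n else 1)
            * mprodAux (fun y n => if y = z then F z n else 1) (bump n y) v := fun z _ => rfl
    rw [Finset.prod_congr rfl e, Finset.prod_mul_distrib, Finset.prod_ite_eq,
      if_pos (Finset.mem_univ y)]

theorem mprodAux_append {A : Type} [CommMonoid A] (F : α → (α → ℕ) → A) (u v : List α) :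
    ∀ n : α → ℕ, mprodAux F n (u ++ v)
      = mprodAux F n u * mprodAux F (fun x => n x + u.count x) v := by
  induction u with
  | nil =>
    intro n
    show mprodAux F n v = 1 * mprodAux F (fun x => n x + 0) v
    rw [one_mul]
    rfl
  | cons y u ih =>
    intro n
    rw [List.cons_append, mprodAux_cons, mprodAux_cons, ih, mul_assoc, bump_count]

end Vale.Agent.Lib.P329
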