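import Vale.Agent.Lib.P329.Three

namespace Vale.Agent.Lib.P329

open Language

variable {α : Type} [DecidableEq α] [Fintype α]

/-- every language saturated by the congruence that identifies two words having the same
numbers of occurrences modulo `m` of every scattered subword of length at most three has
generalized star height at most one -/
theorem gsh_saturated_three (m : ℕ) (hm : 0 < m) (L : Language α)
    (hL : ∀ w w' : List α,
      (∀ u : List α, u.length ≤ 3 → w.sublists.count u % m = w'.sublists.count u % m) →
      (w ∈ L ↔ w' ∈ L)) :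
    GSHLe 1 L := by
  classical
  have hm0 : NeZero m := ⟨hm.ne'⟩
  have hfin : Finite {u : List α // u.length ≤ 3} := (List.finite_length_le α 3).to_subtype
  have hft : Fintype {u : List α // u.length ≤ 3} := Fintype.ofFinite _
  have h1 : StatLe 1 (fun w : List α => (fun u : {u : List α // u.length ≤ 3} =>
      ((w.sublists.count u.1 : ℕ) : ZMod m))) :=
    StatLe.pi (fun u : {u : List α // u.length ≤ 3} => stat_three m u.1 u.2)
  have h2 := h1.level (fun v => ∃ w' ∈ L, (fun u : {u : List α // u.length ≤ 3} =>
      ((w'.sublists.count u.1 : ℕ) : ZMod m)) = v)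
  refine h2.of_iff (fun w => ?_)
  show (∃ w' ∈ L, (fun u : {u : List α // u.length ≤ 3} =>
      ((w'.sublists.count u.1 : ℕ) : ZMod m))
        = (fun u : {u : List α // u.length ≤ 3} => ((w.sublists.count u.1 : ℕ) : ZMod m)))
    ↔ w ∈ L
  constructor
  · rintro ⟨w', hw', e⟩
    refine (hL w' w (fun u hu => ?_)).mp hw'
    have h3 := congrFun e ⟨u, hu⟩
    exact (ZMod.natCast_eq_natCast_iff' _ _ _).mp h3
  · intro hw
    exact ⟨w, hw, rfl⟩

end Vale.Agent.Lib.P329
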