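import Vale.Agent.Lib.P329.Poly
import Vale.Agent.Lib.P329.Sat
import Mathlib.GroupTheory.Nilpotent

/-!
# Nilpotent groups of class at most three

For a morphism from words into a group whose lower central series vanishes after three steps,
the image of a word is determined by the numbers, modulo the order of the group, of occurrences
of the scattered subwords of length at most three. One letter `x` is removed at a time:
the image of `w` is `C w * (image of w with x deleted) * (g x) ^ (number of x in w)`, where
`C` takes values in the commutator subgroup, which is commutative, and has degree at most three.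
-/

namespace Vale.Agent.Lib.P329

open scoped commutatorElement

variable {α : Type} [DecidableEq α]

section core

variable {G A : Type} [Group G] [CommGroup A]

/-- the commutator of `g x` with the image of the word `w` in which `x` is sent to `1` -/
def psi (κ : G → G → A) (g : α → G) (x : α) (w : List α) : A :=
  κ (g x) (w.map (Function.update g x 1)).prod

/-- the correction term `C` -/
def cfun (ad : G → A →* A) (κ : G → G → A) (g : α → G) (x : α) : List α → A
  | [] => 1
  | y :: w => ad (g y) (cfun ad κ g x w) * cfun ad κ g x w * (if y = x then psi κ g x w else 1)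

variable (ι : A →* G) (ad : G → A →* A) (κ : G → G → A)

theorem kappa_mul (hinj : Function.Injective ι) (hι : ∀ g c, ι (ad g c) = ⁅g, ι c⁆)
    (hκ : ∀ g h, ι (κ g h) = ⁅g, h⁆) (a b c : G) :
    κ a (b * c) = κ a b * ad b (κ a c) * κ a c := by
  apply hinj
  rw [map_mul, map_mul, hι, hκ, hκ, hκ]
  simp only [commutatorElement_def]
  group

theorem psi_cons (hinj : Function.Injective ι) (hι : ∀ g c, ι (ad g c) = ⁅g, ι c⁆)
    (hκ : ∀ g h, ι (κ g h) = ⁅g, h⁆) (g : α → G) (x b : α) (w : List α) :
    psi κ g x (b :: w) = κ (g x) (Function.update g x 1 b)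
      * ad (Function.update g x 1 b) (psi κ g x w) * psi κ g x w := by
  unfold psi
  rw [List.map_cons, List.prod_cons, kappa_mul ι ad κ hinj hι hκ]

theorem deg_ad_psi (hinj : Function.Injective ι) (hι : ∀ g c, ι (ad g c) = ⁅g, ι c⁆)
    (hκ : ∀ g h, ι (κ g h) = ⁅g, h⁆) (had : ∀ g h c, ad h (ad g c) = 1)
    (g : α → G) (x : α) (h : G) : Deg 1 (fun w => ad h (psi κ g x w)) :=
  deg_of_rec (fun b _ => ad h (κ (g x) (Function.update g x 1 b))) (fun b => deg_const 0 _)
    (fun b w => by
      show ad h (psi κ g x (b :: w)) = _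
      rw [psi_cons ι ad κ hinj hι hκ, map_mul, map_mul, had, mul_one])

theorem deg_psi (hinj : Function.Injective ι) (hι : ∀ g c, ι (ad g c) = ⁅g, ι c⁆)
    (hκ : ∀ g h, ι (κ g h) = ⁅g, h⁆) (had : ∀ g h c, ad h (ad g c) = 1)
    (g : α → G) (x : α) : Deg 2 (psi κ g x) :=
  deg_of_rec (fun b w => κ (g x) (Function.update g x 1 b)
      * ad (Function.update g x 1 b) (psi κ g x w))
    (fun _ => (deg_const 1 _).mul (deg_ad_psi ι ad κ hinj hι hκ had g x _))
    (fun b w => psi_cons ι ad κ hinj hι hκ g x b w)

theorem deg_ad_cfun (hinj : Function.Injective ι) (hι : ∀ g c, ι (ad g c) = ⁅g, ι c⁆)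
    (hκ : ∀ g h, ι (κ g h) = ⁅g, h⁆) (had : ∀ g h c, ad h (ad g c) = 1)
    (g : α → G) (x : α) (h : G) : Deg 2 (fun w => ad h (cfun ad κ g x w)) :=
  deg_of_rec (fun y w => if y = x then ad h (psi κ g x w) else 1)
    (fun y => by
      by_cases e : y = x
      · simp only [e, if_true]
        exact deg_ad_psi ι ad κ hinj hι hκ had g x h
      · simp only [e, if_false]
        exact deg_one_fun 1)
    (fun y w => by
      show ad h (cfun ad κ g x (y :: w)) = _
      rw [cfun, map_mul, map_mul, had, one_mul, mul_comm]
      by_cases e : y = x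
      · simp only [e, if_true]
      · simp only [e, if_false, map_one])

theorem deg_cfun (hinj : Function.Injective ι) (hι : ∀ g c, ι (ad g c) = ⁅g, ι c⁆)
    (hκ : ∀ g h, ι (κ g h) = ⁅g, h⁆) (had : ∀ g h c, ad h (ad g c) = 1)
    (g : α → G) (x : α) : Deg 3 (cfun ad κ g x) :=
  deg_of_rec (fun y w => ad (g y) (cfun ad κ g x w) * (if y = x then psi κ g x w else 1))
    (fun y => (deg_ad_cfun ι ad κ hinj hι hκ had g x (g y)).mul (by
      by_cases e : y = x
      · simp only [e, if_true]
        exact deg_psi ι ad κ hinj hι hκ had g x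
      · simp only [e, if_false]
        exact deg_one_fun 2))
    (fun y w => by
      show cfun ad κ g x (y :: w) = _
      rw [cfun, mul_right_comm])

/-- the decomposition of the image of a word with respect to the letter `x` -/
theorem decomp (hι : ∀ g c, ι (ad g c) = ⁅g, ι c⁆) (hκ : ∀ g h, ι (κ g h) = ⁅g, h⁆)
    (g : α → G) (x : α) : ∀ w : List α,
    (w.map g).prod = ι (cfun ad κ g x w) * (w.map (Function.update g x 1)).prod
      * g x ^ (w.count x)
  | [] => by simp [cfun]
  | y :: w => by
      rw [List.map_cons, List.prod_cons, decomp hι hκ g x w]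
      by_cases e : y = x
      · subst e
        rw [cfun, if_pos rfl, map_mul, map_mul, hι, psi, hκ, List.map_cons, List.prod_cons,
          Function.update_self, one_mul, List.count_cons_self, pow_succ]
        simp only [commutatorElement_def]
        group
      · rw [cfun, if_neg e, mul_one, map_mul, hι, List.map_cons, List.prod_cons,
          Function.update_of_ne e, List.count_cons_of_ne e]
        simp only [commutatorElement_def]
        group

/-- the image of a word is determined by the numbers of occurrences modulo `m` of the scattered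
subwords of length at most three -/
theorem core_det [Fintype α] (hinj : Function.Injective ι)
    (hι : ∀ g c, ι (ad g c) = ⁅g, ι c⁆) (hκ : ∀ g h, ι (κ g h) = ⁅g, h⁆)
    (had : ∀ g h c, ad h (ad g c) = 1) (m : ℕ) (hG : ∀ g : G, g ^ m = 1)
    (hA : ∀ a : A, a ^ m = 1) (w w' : List α)
    (hw : ∀ u : List α, u.length ≤ 3 → w.sublists.count u % m = w'.sublists.count u % m) :
    ∀ (S : Finset α) (g : α → G), (∀ a, a ∉ S → g a = 1) →
      (w.map g).prod = (w'.map g).prod := by
  intro S
  induction S using Finset.induction_on with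
  | empty =>
    intro g hg
    have h1 : ∀ v : List α, (v.map g).prod = 1 := by
      intro v
      induction v with
      | nil => rfl
      | cons y v ih => rw [List.map_cons, List.prod_cons, ih, hg y (Finset.notMem_empty y),
          one_mul]
    rw [h1 w, h1 w']
  | insert x S hx ih =>
    intro g hg
    have h1 : (w.map (Function.update g x 1)).prod = (w'.map (Function.update g x 1)).prod := by
      refine ih (Function.update g x 1) (fun a ha => ?_)
      by_cases e : a = x
      · rw [e, Function.update_self]
      · rw [Function.update_of_ne e]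
        exact hg a (fun h => by
          rcases Finset.mem_insert.mp h with h | h
          · exact e h
          · exact ha h)
    have h2 : cfun ad κ g x w = cfun ad κ g x w' :=
      deg_det m hA 3 _ (deg_cfun ι ad κ hinj hι hκ had g x) w w' hw
    have h3 : g x ^ (w.count x) = g x ^ (w'.count x) := by
      have h4 := hw [x] (by simp)
      rw [sc_one, sc_one] at h4
      rw [pow_eq_pow_mod (w.count x) (hG _), pow_eq_pow_mod (w'.count x) (hG _), h4]
    rw [decomp ι ad κ hι hκ g x w, decomp ι ad κ hι hκ g x w', h1, h2, h3]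

end core

section nilp

variable {G : Type} [Group G]

/-- in a group whose lower central series vanishes after three steps the commutator subgroup
is commutative -/
theorem comm_of_class_three (h : Subgroup.lowerCentralSeries (⊤ : Subgroup G) 3 = ⊥) (a b : G)
    (ha : a ∈ commutator G) (hb : b ∈ commutator G) : a * b = b * a := by
  have h3 : ⁅⁅⁅(⊤ : Subgroup G), (⊤ : Subgroup G)⁆, (⊤ : Subgroup G)⁆, (⊤ : Subgroup G)⁆ = ⊥ := h
  have h1 : ⁅⁅(⊤ : Subgroup G), ⁅(⊤ : Subgroup G), (⊤ : Subgroup G)⁆⁆, (⊤ : Subgroup G)⁆ = ⊥ := by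
    rw [Subgroup.commutator_comm (⊤ : Subgroup G) ⁅(⊤ : Subgroup G), (⊤ : Subgroup G)⁆]
    exact h3
  have h2 : ⁅⁅(⊤ : Subgroup G), (⊤ : Subgroup G)⁆, ⁅(⊤ : Subgroup G), (⊤ : Subgroup G)⁆⁆ = ⊥ :=
    Subgroup.commutator_commutator_eq_bot_of_rotate h1 h3
  have h4 : ⁅a, b⁆ ∈ ⁅⁅(⊤ : Subgroup G), (⊤ : Subgroup G)⁆, ⁅(⊤ : Subgroup G), (⊤ : Subgroup G)⁆⁆ :=
    Subgroup.commutator_mem_commutator ha hb
  rw [h2, Subgroup.mem_bot] at h4
  exact commutatorElement_eq_one_iff_mul_comm.mp h4

/-- in a group whose lower central series vanishes after three steps, commutators with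
elements of the commutator subgroup are central -/
theorem central_of_class_three (h : Subgroup.lowerCentralSeries (⊤ : Subgroup G) 3 = ⊥) (g k c : G)
    (hc : c ∈ commutator G) : ⁅k, ⁅g, c⁆⁆ = 1 := by
  have h3 : ⁅⁅⁅(⊤ : Subgroup G), (⊤ : Subgroup G)⁆, (⊤ : Subgroup G)⁆, (⊤ : Subgroup G)⁆ = ⊥ := h
  have hle := Subgroup.commutator_top_right_eq_bot_iff_le_center.mp h3
  have h1 : ⁅c, g⁆ ∈ ⁅⁅(⊤ : Subgroup G), (⊤ : Subgroup G)⁆, (⊤ : Subgroup G)⁆ :=
    Subgroup.commutator_mem_commutator hc (Subgroup.mem_top g)
  have h2 : ⁅g, c⁆ ∈ Subgroup.center G := by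
    rw [← commutatorElement_inv]
    exact (Subgroup.center G).inv_mem (hle h1)
  exact commutatorElement_eq_one_iff_mul_comm.mpr (Subgroup.mem_center_iff.mp h2 k)

theorem comm_mem (a b : G) : ⁅a, b⁆ ∈ commutator G :=
  Subgroup.commutator_mem_commutator (Subgroup.mem_top a) (Subgroup.mem_top b)

/-- Therien's description for class three: the image of a word in a finite group whose lower
central series vanishes after three steps is determined by the numbers of occurrences, modulo
the order of the group, of the scattered subwords of length at most three -/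
theorem class_three_det [Fintype α] (h : Subgroup.lowerCentralSeries (⊤ : Subgroup G) 3 = ⊥)
    (g : α → G) (w w' : List α)
    (hw : ∀ u : List α, u.length ≤ 3 →
      w.sublists.count u % Nat.card G = w'.sublists.count u % Nat.card G) :
    (w.map g).prod = (w'.map g).prod := by
  have hcomm := comm_of_class_three h
  let _ : CommGroup ↥(commutator G) :=
    { (inferInstance : Group ↥(commutator G)) with
      mul_comm := fun a b => Subtype.ext (hcomm a b a.2 b.2) }
  let ι : ↥(commutator G) →* G := (commutator G).subtype
  let κ : G → G → ↥(commutator G) := fun a b => ⟨⁅a, b⁆, comm_mem a b⟩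
  let ad : G → ↥(commutator G) →* ↥(commutator G) := fun a =>
    { toFun := fun c => ⟨⁅a, (c : G)⁆, comm_mem a c⟩
      map_one' := Subtype.ext (commutatorElement_one_right a)
      map_mul' := fun c d => Subtype.ext (by
        show ⁅a, (c : G) * (d : G)⁆ = ⁅a, (c : G)⁆ * ⁅a, (d : G)⁆
        have hc := hcomm c ⁅a, (d : G)⁆ c.2 (comm_mem a d)
        have e : ⁅a, (c : G) * (d : G)⁆ = ⁅a, (c : G)⁆ * ((c : G) * ⁅a, (d : G)⁆ * (c : G)⁻¹) := by
          simp only [commutatorElement_def]
          group
        rw [e, hc, mul_inv_cancel_right]) }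
  exact core_det ι ad κ (Subgroup.subtype_injective _) (fun _ _ => rfl) (fun _ _ => rfl)
    (fun g k c => Subtype.ext (central_of_class_three h g k c c.2)) (Nat.card G)
    (fun _ => pow_card_eq_one')
    (fun a => Subtype.ext (by rw [Subgroup.coe_pow]; exact pow_card_eq_one')) w w' hw
    Finset.univ g (fun a ha => absurd (Finset.mem_univ a) ha)

/-- every language recognized by a finite nilpotent group of class at most three has
generalized star height at most one -/
theorem gsh_class_three [Fintype α] [Finite G] [Group.IsNilpotent G]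
    (h : Group.nilpotencyClass G ≤ 3) (g : α → G) (P : Set G) :
    GSHLe 1 ({w | (w.map g).prod ∈ P} : Language α) := by
  have h3 : Subgroup.lowerCentralSeries (⊤ : Subgroup G) 3 = ⊥ :=
    Subgroup.lowerCentralSeries_eq_bot_iff_nilpotencyClass_le.mpr h
  refine gsh_saturated_three (Nat.card G) Nat.card_pos _ (fun w w' hw => ?_)
  show (w.map g).prod ∈ P ↔ (w'.map g).prod ∈ P
  rw [class_three_det h3 g w w' hw]

/-- the same statement for morphisms from the free monoid -/
theorem gsh_class_three_hom [Fintype α] [Finite G] [Group.IsNilpotent G]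
    (h : Group.nilpotencyClass G ≤ 3) (φ : FreeMonoid α →* G) (P : Set G) :
    GSHLe 1 ({w | φ (FreeMonoid.ofList w) ∈ P} : Language α) := by
  have e : ∀ w : List α, φ (FreeMonoid.ofList w) = (w.map (φ ∘ FreeMonoid.of)).prod := by
    intro w
    rw [← FreeMonoid.lift_ofList, FreeMonoid.lift_restrict]
  refine (gsh_class_three h (φ ∘ FreeMonoid.of) P).of_iff (fun w => ?_)
  show (w.map (φ ∘ FreeMonoid.of)).prod ∈ P ↔ φ (FreeMonoid.ofList w) ∈ P
  rw [e w]

end nilp

end Vale.Agent.Lib.P329
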