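import Vale.Agent.Lib.P329.MSum
import Vale.Agent.Lib.P329.ClassFour
import Vale.Agent.Lib.P329.Nilp

/-!
# Metabelian groups of nilpotency class at most four: the algebra

`A` is an abelian normal subgroup containing all commutators, `cj g` is conjugation by `g` on
`A`, and `dl g c = (g c g⁻¹) c⁻¹`. The letters are removed one at a time: if `x` is the image
of the letter `a` and `φ'` is `φ` with `a` sent to `1`, then
`image_φ w = E w * image_φ' w * x ^ (number of a)`,
where `E w` is the product over all positions of
`cj (image_φ' (prefix)) [x ^ (number of earlier a), image of the letter]`.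
Since conjugations commute on `A` and triple `dl` vanish, `E w` is a product of fixed elements
raised to sums, over the occurrences of one letter, of monomials of degree at most three in
the numbers of earlier letters.
-/

namespace Vale.Agent.Lib.P329

open scoped commutatorElement

variable {α : Type} [DecidableEq α]

/-- the monomials in the letter counts, over the letters of a list, of degree at most `t`
(each letter used with exponent one or as a binomial coefficient of order two) -/
def IsMon : List α → ℕ → ((α → ℕ) → ℕ) → Prop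
  | [], _, μ => μ = fun _ => 1
  | y :: ys, t, μ => IsMon ys t μ
      ∨ (∃ (s : ℕ) (μ' : (α → ℕ) → ℕ), t = s + 1 ∧ IsMon ys s μ' ∧ μ = fun n => n y * μ' n)
      ∨ (∃ (s : ℕ) (μ' : (α → ℕ) → ℕ), t = s + 2 ∧ IsMon ys s μ'
          ∧ μ = fun n => (n y).choose 2 * μ' n)

theorem isMon_const (ls : List α) (t : ℕ) : IsMon ls t (fun _ => 1) := by
  induction ls with
  | nil => rfl
  | cons y ys ih => exact Or.inl ih

theorem mon_zero (ls : List α) (μ : (α → ℕ) → ℕ) (h : IsMon ls 0 μ) : ∀ n, μ n = 1 := by
  induction ls with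
  | nil =>
    intro n
    have e : μ = fun _ => 1 := h
    rw [e]
  | cons y ys ih =>
    rcases h with h | ⟨s, μ', hs, _, _⟩ | ⟨s, μ', hs, _, _⟩
    · exact ih h
    · omega
    · omega

theorem mon_one (ls : List α) (μ : (α → ℕ) → ℕ) (h : IsMon ls 1 μ) :
    (∀ n, μ n = 1) ∨ ∃ y ∈ ls, ∀ n, μ n = n y := by
  induction ls with
  | nil =>
    left
    intro n
    have e : μ = fun _ => 1 := h
    rw [e]
  | cons y ys ih =>
    rcases h with h | ⟨s, μ', hs, hμ', e⟩ | ⟨s, μ', hs, _, _⟩
    · rcases ih h with h1 | ⟨y', hy', h1⟩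
      · exact Or.inl h1
      · exact Or.inr ⟨y', List.mem_cons_of_mem y hy', h1⟩
    · have hs0 : s = 0 := by omega
      subst hs0
      right
      refine ⟨y, List.mem_cons_self, fun n => ?_⟩
      rw [e]
      show n y * μ' n = n y
      rw [mon_zero ys μ' hμ' n, Nat.mul_one]
    · omega

theorem mon_two (ls : List α) (hnd : ls.Nodup) (μ : (α → ℕ) → ℕ) (h : IsMon ls 2 μ) :
    (∀ n, μ n = 1) ∨ (∃ y ∈ ls, ∀ n, μ n = n y) ∨ (∃ y ∈ ls, ∀ n, μ n = (n y).choose 2)
      ∨ (∃ y ∈ ls, ∃ y' ∈ ls, y ≠ y' ∧ ∀ n, μ n = n y * n y') := by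
  induction ls with
  | nil =>
    left
    intro n
    have e : μ = fun _ => 1 := h
    rw [e]
  | cons y ys ih =>
    have hy : y ∉ ys := (List.nodup_cons.mp hnd).1
    have hys : ys.Nodup := (List.nodup_cons.mp hnd).2
    rcases h with h | ⟨s, μ', hs, hμ', e⟩ | ⟨s, μ', hs, hμ', e⟩
    · rcases ih hys h with h1 | ⟨y1, hy1, h1⟩ | ⟨y1, hy1, h1⟩ | ⟨y1, hy1, y2, hy2, hne, h1⟩
      · exact Or.inl h1
      · exact Or.inr (Or.inl ⟨y1, List.mem_cons_of_mem y hy1, h1⟩)
      · exact Or.inr (Or.inr (Or.inl ⟨y1, List.mem_cons_of_mem y hy1, h1⟩))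
      · exact Or.inr (Or.inr (Or.inr ⟨y1, List.mem_cons_of_mem y hy1, y2,
          List.mem_cons_of_mem y hy2, hne, h1⟩))
    · have hs1 : s = 1 := by omega
      subst hs1
      rcases mon_one ys μ' hμ' with h1 | ⟨y', hy', h1⟩
      · right
        left
        refine ⟨y, List.mem_cons_self, fun n => ?_⟩
        rw [e]
        show n y * μ' n = n y
        rw [h1 n, Nat.mul_one]
      · right
        right
        right
        refine ⟨y, List.mem_cons_self, y', List.mem_cons_of_mem y hy', ?_, fun n => ?_⟩
        · intro hyy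
          rw [hyy] at hy
          exact hy hy'
        · rw [e]
          show n y * μ' n = n y * n y'
          rw [h1 n]
    · have hs0 : s = 0 := by omega
      subst hs0
      right
      right
      left
      refine ⟨y, List.mem_cons_self, fun n => ?_⟩
      rw [e]
      show (n y).choose 2 * μ' n = (n y).choose 2
      rw [mon_zero ys μ' hμ' n, Nat.mul_one]

omit [DecidableEq α] in
theorem prod_trivial {G : Type} [Group G] (φ : α → G) (h : ∀ y, φ y = 1) (w : List α) :
    (w.map φ).prod = 1 := by
  induction w with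
  | nil => rfl
  | cons y v ih => rw [List.map_cons, List.prod_cons, ih, h y, one_mul]

theorem count_cons_bump (y : α) (w : List α) :
    (fun x => (y :: w).count x) = bump (fun x => w.count x) y := by
  funext x
  by_cases hx : x = y
  · subst hx
    rw [bump_self, List.count_cons_self]
  · rw [bump_ne _ hx, List.count_cons_of_ne (fun h => hx h.symm)]

section metacore

variable {G A : Type} [Group G] [CommGroup A] (ι : A →* G) (cj : G →* MulAut A) (κ : G → G → A)

/-- `dl g c = (g c g⁻¹) c⁻¹` -/
def dl (g : G) : A →* A := (cj g).toMonoidHom / MonoidHom.id A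

theorem dl_apply (g : G) (c : A) : dl cj g c = cj g c / c := rfl

theorem cj_eq (g : G) (c : A) : cj g c = dl cj g c * c := by
  rw [dl_apply, div_mul_cancel]

/-- `Dep t d`: all `t`-fold iterated `dl` of `d` are trivial -/
def Dep (cj : G →* MulAut A) : ℕ → A → Prop
  | 0, d => d = 1
  | t + 1, d => ∀ g : G, Dep cj t (dl cj g d)

theorem Dep.succ : ∀ (t : ℕ) (d : A), Dep cj t d → Dep cj (t + 1) d := by
  intro t
  induction t with
  | zero =>
    intro d hd g
    have e : d = 1 := hd
    show dl cj g d = 1
    rw [e, map_one]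
  | succ t ih =>
    intro d hd g
    exact ih _ (hd g)

/-- powers of a conjugation on an element killed by three `dl` -/
theorem cj_pow_apply (g : G) (d : A) (hd : dl cj g (dl cj g (dl cj g d)) = 1) (n : ℕ) :
    (cj g ^ n) d = d * dl cj g d ^ n * dl cj g (dl cj g d) ^ n.choose 2 := by
  induction n with
  | zero => simp
  | succ n ih =>
    rw [pow_succ', MulAut.mul_apply, ih, map_mul, map_mul, map_pow, map_pow, cj_eq cj g d,
      cj_eq cj g (dl cj g d), cj_eq cj g (dl cj g (dl cj g d)), hd, one_mul, choose_two_succ,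
      mul_pow, pow_succ, pow_add]
    simp only [mul_comm, mul_left_comm, mul_assoc]

variable (hinj : Function.Injective ι) (hι : ∀ g c, ι (cj g c) = g * ι c * g⁻¹)
  (hκ : ∀ g h, ι (κ g h) = ⁅g, h⁆)

include hinj hι hκ in
theorem kappa_pow_succ (x g : G) (X : ℕ) :
    κ (x ^ (X + 1)) g = cj x (κ (x ^ X) g) * κ x g := by
  apply hinj
  rw [map_mul, hι, hκ, hκ, hκ, pow_succ']
  simp only [commutatorElement_def]
  group

include hinj hι hκ in
/-- the commutator of a power -/
theorem kappa_pow (x g : G) (hd : dl cj x (dl cj x (dl cj x (κ x g))) = 1) (X : ℕ) :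
    κ (x ^ X) g = κ x g ^ X * dl cj x (κ x g) ^ X.choose 2
      * dl cj x (dl cj x (κ x g)) ^ X.choose 3 := by
  induction X with
  | zero =>
    have e : κ (x ^ 0) g = 1 := by
      apply hinj
      rw [hκ, pow_zero, map_one, commutatorElement_one_left]
    rw [e]
    simp
  | succ X ih =>
    rw [kappa_pow_succ ι cj κ hinj hι hκ, ih, map_mul, map_mul, map_pow, map_pow, map_pow,
      cj_eq cj x (κ x g), cj_eq cj x (dl cj x (κ x g)),
      cj_eq cj x (dl cj x (dl cj x (κ x g))), hd, one_mul, choose_two_succ, choose_three_succ,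
      mul_pow, mul_pow, pow_succ, pow_add, pow_add]
    simp only [mul_comm, mul_left_comm, mul_assoc]

include hinj hκ in
theorem kappa_pow_self (x : G) (X : ℕ) : κ (x ^ X) x = 1 := by
  apply hinj
  rw [hκ, map_one]
  exact ((Commute.refl x).pow_left X).commutator_eq

/-- the conjugation by the product of the powers `φ y ^ n y`, `y` in the list -/
def cjl (φ : α → G) (ls : List α) (n : α → ℕ) : MulAut A :=
  (ls.map (fun y => cj (φ y) ^ n y)).prod

theorem cjl_nil (φ : α → G) (n : α → ℕ) : cjl cj φ [] n = 1 := rfl

theorem cjl_cons (φ : α → G) (y : α) (ys : List α) (n : α → ℕ) :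
    cjl cj φ (y :: ys) n = cj (φ y) ^ n y * cjl cj φ ys n := by
  unfold cjl
  rw [List.map_cons, List.prod_cons]

theorem cjl_bump_notMem (φ : α → G) (y : α) (ls : List α) (hy : y ∉ ls) (n : α → ℕ) :
    cjl cj φ ls (bump n y) = cjl cj φ ls n := by
  induction ls with
  | nil => rfl
  | cons y0 ys ih =>
    have h0 : y0 ≠ y := fun h => hy (by rw [h]; exact List.mem_cons_self)
    have h1 : y ∉ ys := fun h => hy (List.mem_cons_of_mem y0 h)
    rw [cjl_cons, cjl_cons, ih h1, bump_ne n h0]

variable (hcomm : ∀ g h : G, Commute (cj g) (cj h))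

include hcomm in
theorem cjl_commute (φ : α → G) (g : G) (k : ℕ) (ls : List α) (n : α → ℕ) :
    Commute (cj g ^ k) (cjl cj φ ls n) := by
  induction ls with
  | nil => exact Commute.one_right _
  | cons y ys ih =>
    rw [cjl_cons]
    exact Commute.mul_right (((hcomm g (φ y)).pow_left k).pow_right (n y)) ih

include hcomm in
theorem cjl_bump_mem (φ : α → G) (y : α) (ls : List α) (hnd : ls.Nodup) (hy : y ∈ ls)
    (n : α → ℕ) : cjl cj φ ls (bump n y) = cj (φ y) * cjl cj φ ls n := by
  induction ls with
  | nil => exact absurd hy List.not_mem_nil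
  | cons y0 ys ih =>
    have hy0 : y0 ∉ ys := (List.nodup_cons.mp hnd).1
    have hys : ys.Nodup := (List.nodup_cons.mp hnd).2
    rw [cjl_cons, cjl_cons]
    by_cases h : y = y0
    · subst h
      rw [bump_self, cjl_bump_notMem cj φ y ys hy0, pow_succ', mul_assoc]
    · have hy' : y ∈ ys := by
        rcases List.mem_cons.mp hy with h' | h'
        · exact absurd h' h
        · exact h'
      rw [bump_ne n (fun h' => h h'.symm), ih hys hy', ← mul_assoc, ← mul_assoc]
      congr 1
      exact ((hcomm (φ y0) (φ y)).pow_left (n y0)).eq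

include hcomm in
/-- the conjugation by the image of a word depends only on its letter counts -/
theorem cj_image (φ : α → G) (ls : List α) (hnd : ls.Nodup) (hφ : ∀ y, y ∉ ls → φ y = 1)
    (w : List α) : cj (w.map φ).prod = cjl cj φ ls (fun x => w.count x) := by
  induction w with
  | nil =>
    show cj 1 = cjl cj φ ls (fun _ => 0)
    rw [map_one]
    unfold cjl
    symm
    apply List.prod_eq_one
    intro u hu
    obtain ⟨y, _, rfl⟩ := List.mem_map.mp hu
    exact pow_zero _
  | cons y v ih =>
    rw [List.map_cons, List.prod_cons, map_mul, ih, count_cons_bump]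
    by_cases hy : y ∈ ls
    · rw [cjl_bump_mem cj hcomm φ y ls hnd hy]
    · rw [cjl_bump_notMem cj φ y ls hy, hφ y hy, map_one, one_mul]

include hι hκ hcomm in
/-- removing the letter `a` -/
theorem peel (φ : α → G) (a : α) (rest : List α) (hnd : rest.Nodup) (ha : a ∉ rest)
    (hφ : ∀ y, y ∉ a :: rest → φ y = 1) (w : List α) :
    (w.map φ).prod
      = ι (mprodAux (fun z n => cjl cj (Function.update φ a 1) rest n (κ (φ a ^ n a) (φ z)))
          (fun _ => 0) w)
        * (w.map (Function.update φ a 1)).prod * φ a ^ w.count a := by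
  have hφ' : ∀ y, y ∉ rest → Function.update φ a 1 y = 1 := by
    intro y hy
    by_cases hya : y = a
    · rw [hya, Function.update_self]
    · rw [Function.update_of_ne hya]
      apply hφ
      intro h
      rcases List.mem_cons.mp h with h' | h'
      · exact hya h'
      · exact hy h'
  induction w using List.reverseRecOn with
  | nil =>
    show (1 : G) = ι 1 * 1 * φ a ^ 0
    rw [map_one, pow_zero, mul_one, mul_one]
  | append_singleton w z ih =>
    have e0 : (fun x => (fun _ : α => 0) x + w.count x) = fun x => w.count x := by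
      funext x
      exact Nat.zero_add _
    rw [List.map_append, List.prod_append, List.map_append, List.prod_append, mprodAux_append,
      e0, List.map_singleton, List.prod_singleton, List.map_singleton, List.prod_singleton,
      mprodAux_cons, List.count_append, ih, map_mul]
    show _ = _ * ι (cjl cj (Function.update φ a 1) rest (fun x => w.count x)
        (κ (φ a ^ w.count a) (φ z)) * 1) * _ * _
    rw [mul_one, ← cj_image cj hcomm (Function.update φ a 1) rest hnd hφ' w, hι, hκ]
    by_cases hz : z = a
    · subst hz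
      rw [Function.update_self, List.count_singleton_self,
        ((Commute.refl (φ z)).pow_left (w.count z)).commutator_eq, pow_succ]
      group
    · rw [Function.update_of_ne hz, List.count_singleton]
      have hza : ¬ (z == a) = true := by
        intro h
        exact hz (beq_iff_eq.mp h)
      rw [if_neg hza, Nat.add_zero, commutatorElement_def]
      group

include hcomm in
/-- a product over the occurrences of `z` of conjugates `cjl n d ^ f n` is determined, modulo
the exponent `m`, by the sums of `f` times the monomials over the letters of the list -/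
theorem cjl_det (m : ℕ) (hA : ∀ u : A, u ^ m = 1) (φ : α → G) (z : α) (w w' : List α) :
    ∀ (ls : List α) (t : ℕ) (d : A) (f : (α → ℕ) → ℕ), t ≤ 2 → Dep cj (t + 1) d →
      (∀ μ, IsMon ls t μ →
        msum z (fun n => f n * μ n) w % m = msum z (fun n => f n * μ n) w' % m) →
      mprodAux (fun y n => if y = z then cjl cj φ ls n d ^ f n else 1) (fun _ => 0) w
        = mprodAux (fun y n => if y = z then cjl cj φ ls n d ^ f n else 1) (fun _ => 0) w' := by
  intro ls
  induction ls with
  | nil =>
    intro t d f _ _ H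
    have e : ∀ (y : α) (n : α → ℕ), (if y = z then cjl cj φ [] n d ^ f n else 1)
        = if y = z then d ^ f n else 1 := fun y n => rfl
    rw [mprodAux_congr _ _ e, mprodAux_congr _ _ e, mprodAux_pow, mprodAux_pow]
    have h1 := H (fun _ => 1) rfl
    have e2 : ∀ v : List α, msum z (fun n => f n * 1) v = msumAux z f (fun _ => 0) v :=
      fun v => msumAux_congr z _ _ (fun n => Nat.mul_one _) _ v
    rw [e2, e2] at h1
    rw [pow_eq_pow_mod (msumAux z f (fun _ => 0) w) (hA d), h1, ← pow_eq_pow_mod _ (hA d)]
  | cons y ys ih =>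
    intro t d f ht hdep H
    have hd3 : dl cj (φ y) (dl cj (φ y) (dl cj (φ y) d)) = 1 := by
      have h3 : Dep cj 3 d := by
        rcases t with _ | _ | t
        · exact Dep.succ cj 2 d (Dep.succ cj 1 d hdep)
        · exact Dep.succ cj 2 d hdep
        · have ht0 : t = 0 := by omega
          subst ht0
          exact hdep
      exact h3 (φ y) (φ y) (φ y)
    have e : ∀ (y' : α) (n : α → ℕ), (if y' = z then cjl cj φ (y :: ys) n d ^ f n else 1)
        = (if y' = z then cjl cj φ ys n d ^ f n else 1)
          * ((if y' = z then cjl cj φ ys n (dl cj (φ y) d) ^ (n y * f n) else 1)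
            * (if y' = z then cjl cj φ ys n (dl cj (φ y) (dl cj (φ y) d))
                ^ ((n y).choose 2 * f n) else 1)) := by
      intro y' n
      by_cases hy' : y' = z
      · simp only [if_pos hy']
        rw [cjl_cons, (cjl_commute cj hcomm φ (φ y) (n y) ys n).eq, MulAut.mul_apply,
          cj_pow_apply cj (φ y) d hd3, map_mul, map_mul, map_pow, map_pow, mul_pow, mul_pow,
          ← pow_mul, ← pow_mul, mul_assoc]
      · simp only [if_neg hy', mul_one]
    rw [mprodAux_congr _ _ e, mprodAux_congr _ _ e, mprodAux_mul, mprodAux_mul, mprodAux_mul,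
      mprodAux_mul]
    congr 1
    · exact ih t d f ht hdep (fun μ hμ => H μ (Or.inl hμ))
    · congr 1
      · rcases t with _ | t
        · have h1 : dl cj (φ y) d = 1 := hdep (φ y)
          have e1 : ∀ (y' : α) (n : α → ℕ),
              (if y' = z then cjl cj φ ys n (dl cj (φ y) d) ^ (n y * f n) else 1) = (1 : A) := by
            intro y' n
            rw [h1, map_one, one_pow, ite_self]
          rw [mprodAux_congr _ _ e1, mprodAux_congr _ _ e1, mprodAux_one, mprodAux_one]
        · refine ih t (dl cj (φ y) d) (fun n => n y * f n) (by omega) (hdep (φ y))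
            (fun μ hμ => ?_)
          have h1 := H (fun n => n y * μ n) (Or.inr (Or.inl ⟨t, μ, rfl, hμ, rfl⟩))
          have e2 : ∀ v : List α, msum z (fun n => f n * (n y * μ n)) v
              = msum z (fun n => n y * f n * μ n) v :=
            fun v => msum_congr z _ _ (fun n => by ring) v
          rw [e2, e2] at h1
          exact h1
      · have triv : dl cj (φ y) (dl cj (φ y) d) = 1 →
            mprodAux (fun y' n => if y' = z then cjl cj φ ys n (dl cj (φ y) (dl cj (φ y) d))
                ^ ((n y).choose 2 * f n) else 1) (fun _ => 0) w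
              = mprodAux (fun y' n => if y' = z then cjl cj φ ys n (dl cj (φ y) (dl cj (φ y) d))
                ^ ((n y).choose 2 * f n) else 1) (fun _ => 0) w' := by
          intro h1
          have e1 : ∀ (y' : α) (n : α → ℕ),
              (if y' = z then cjl cj φ ys n (dl cj (φ y) (dl cj (φ y) d))
                ^ ((n y).choose 2 * f n) else 1) = (1 : A) := by
            intro y' n
            rw [h1, map_one, one_pow, ite_self]
          rw [mprodAux_congr _ _ e1, mprodAux_congr _ _ e1, mprodAux_one, mprodAux_one]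
        rcases t with _ | _ | t
        · apply triv
          have h1 : dl cj (φ y) d = 1 := hdep (φ y)
          rw [h1, map_one]
        · apply triv
          exact hdep (φ y) (φ y)
        · refine ih t (dl cj (φ y) (dl cj (φ y) d)) (fun n => (n y).choose 2 * f n) (by omega)
            (hdep (φ y) (φ y)) (fun μ hμ => ?_)
          have h1 := H (fun n => (n y).choose 2 * μ n)
            (Or.inr (Or.inr ⟨t, μ, rfl, hμ, rfl⟩))
          have e2 : ∀ v : List α, msum z (fun n => f n * ((n y).choose 2 * μ n)) v
              = msum z (fun n => (n y).choose 2 * f n * μ n) v :=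
            fun v => msum_congr z _ _ (fun n => by ring) v
          rw [e2, e2] at h1
          exact h1

variable [Fintype α]

include hinj hι hκ hcomm in
/-- the correction term of `peel` is determined by the sums over the occurrences of each
letter of monomials of degree at most three -/
theorem peel_det (h3 : ∀ (g1 g2 g3 : G) (c : A), dl cj g1 (dl cj g2 (dl cj g3 c)) = 1)
    (m : ℕ) (hA : ∀ u : A, u ^ m = 1) (φ ψ : α → G) (a : α) (rest : List α) (w w' : List α)
    (H1 : ∀ z, z ≠ a → ∀ μ, IsMon rest 2 μ →
      msum z (fun n => n a * μ n) w % m = msum z (fun n => n a * μ n) w' % m)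
    (H2 : ∀ z, z ≠ a → ∀ μ, IsMon rest 1 μ →
      msum z (fun n => (n a).choose 2 * μ n) w % m
        = msum z (fun n => (n a).choose 2 * μ n) w' % m)
    (H3 : ∀ z, z ≠ a → ∀ μ, IsMon rest 0 μ →
      msum z (fun n => (n a).choose 3 * μ n) w % m
        = msum z (fun n => (n a).choose 3 * μ n) w' % m) :
    mprodAux (fun z n => cjl cj ψ rest n (κ (φ a ^ n a) (φ z))) (fun _ => 0) w
      = mprodAux (fun z n => cjl cj ψ rest n (κ (φ a ^ n a) (φ z))) (fun _ => 0) w' := by
  rw [mprodAux_split, mprodAux_split]
  apply Finset.prod_congr rfl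
  intro z _
  by_cases hz : z = a
  · subst hz
    have e : ∀ (y : α) (n : α → ℕ),
        (if y = z then cjl cj ψ rest n (κ (φ z ^ n z) (φ z)) else 1) = (1 : A) := by
      intro y n
      rw [kappa_pow_self ι κ hinj hκ, map_one, ite_self]
    rw [mprodAux_congr _ _ e, mprodAux_congr _ _ e, mprodAux_one, mprodAux_one]
  · have hd : dl cj (φ a) (dl cj (φ a) (dl cj (φ a) (κ (φ a) (φ z)))) = 1 := h3 _ _ _ _
    have e : ∀ (y : α) (n : α → ℕ),
        (if y = z then cjl cj ψ rest n (κ (φ a ^ n a) (φ z)) else 1)
          = (if y = z then cjl cj ψ rest n (κ (φ a) (φ z)) ^ n a else 1)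
            * ((if y = z then cjl cj ψ rest n (dl cj (φ a) (κ (φ a) (φ z)))
                  ^ (n a).choose 2 else 1)
              * (if y = z then cjl cj ψ rest n (dl cj (φ a) (dl cj (φ a) (κ (φ a) (φ z))))
                  ^ (n a).choose 3 else 1)) := by
      intro y n
      by_cases hy : y = z
      · simp only [if_pos hy]
        rw [kappa_pow ι cj κ hinj hι hκ (φ a) (φ z) hd, map_mul, map_mul, map_pow, map_pow,
          map_pow, mul_assoc]
      · simp only [if_neg hy, mul_one]
    rw [mprodAux_congr _ _ e, mprodAux_congr _ _ e, mprodAux_mul, mprodAux_mul, mprodAux_mul,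
      mprodAux_mul]
    congr 1
    · exact cjl_det cj hcomm m hA ψ z w w' rest 2 (κ (φ a) (φ z)) (fun n => n a) (le_refl 2)
        (fun g1 g2 g3 => h3 g3 g2 g1 _) (H1 z hz)
    · congr 1
      · exact cjl_det cj hcomm m hA ψ z w w' rest 1 (dl cj (φ a) (κ (φ a) (φ z)))
          (fun n => (n a).choose 2) (by omega) (fun g1 g2 => h3 g2 g1 _ _) (H2 z hz)
      · exact cjl_det cj hcomm m hA ψ z w w' rest 0 (dl cj (φ a) (dl cj (φ a) (κ (φ a) (φ z))))
          (fun n => (n a).choose 3) (by omega) (fun g1 => h3 g1 _ _ _) (H3 z hz)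

include hinj hι hκ hcomm in
/-- the image of a word is determined by the letter counts and by the sums over the
occurrences of each letter of monomials of degree at most three in the earlier letter counts,
all modulo `m` -/
theorem meta_det (h3 : ∀ (g1 g2 g3 : G) (c : A), dl cj g1 (dl cj g2 (dl cj g3 c)) = 1)
    (m : ℕ) (hG : ∀ u : G, u ^ m = 1) (hA : ∀ u : A, u ^ m = 1) (w w' : List α)
    (hc : ∀ a : α, w.count a % m = w'.count a % m)
    (H1 : ∀ a z : α, z ≠ a → ∀ ls : List α, ls.Nodup → a ∉ ls → ∀ μ, IsMon ls 2 μ →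
      msum z (fun n => n a * μ n) w % m = msum z (fun n => n a * μ n) w' % m)
    (H2 : ∀ a z : α, z ≠ a → ∀ ls : List α, ls.Nodup → a ∉ ls → ∀ μ, IsMon ls 1 μ →
      msum z (fun n => (n a).choose 2 * μ n) w % m
        = msum z (fun n => (n a).choose 2 * μ n) w' % m)
    (H3 : ∀ a z : α, z ≠ a → ∀ ls : List α, ls.Nodup → a ∉ ls → ∀ μ, IsMon ls 0 μ →
      msum z (fun n => (n a).choose 3 * μ n) w % m
        = msum z (fun n => (n a).choose 3 * μ n) w' % m) :
    ∀ ls : List α, ls.Nodup → ∀ φ : α → G, (∀ y, y ∉ ls → φ y = 1) →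
      (w.map φ).prod = (w'.map φ).prod := by
  intro ls
  induction ls with
  | nil =>
    intro _ φ hφ
    rw [prod_trivial φ (fun y => hφ y List.not_mem_nil) w,
      prod_trivial φ (fun y => hφ y List.not_mem_nil) w']
  | cons a rest ih =>
    intro hnd φ hφ
    have ha : a ∉ rest := (List.nodup_cons.mp hnd).1
    have hrest : rest.Nodup := (List.nodup_cons.mp hnd).2
    have hφ' : ∀ y, y ∉ rest → Function.update φ a 1 y = 1 := by
      intro y hy
      by_cases hya : y = a
      · rw [hya, Function.update_self]
      · rw [Function.update_of_ne hya]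
        apply hφ
        intro h
        rcases List.mem_cons.mp h with h' | h'
        · exact hya h'
        · exact hy h'
    rw [peel ι cj κ hι hκ hcomm φ a rest hrest ha hφ w,
      peel ι cj κ hι hκ hcomm φ a rest hrest ha hφ w',
      ih hrest (Function.update φ a 1) hφ',
      peel_det ι cj κ hinj hι hκ hcomm h3 m hA φ (Function.update φ a 1) a rest w w'
        (fun z hz μ hμ => H1 a z hz rest hrest ha μ hμ)
        (fun z hz μ hμ => H2 a z hz rest hrest ha μ hμ)
        (fun z hz μ hμ => H3 a z hz rest hrest ha μ hμ),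
      pow_eq_pow_mod (w.count a) (hG (φ a)), hc a, ← pow_eq_pow_mod _ (hG (φ a))]

end metacore

section metainst

variable {G : Type} [Group G] [Finite G] [Fintype α]

/-- a finite group with abelian commutator subgroup whose lower central series vanishes after
four steps: the image of a word is determined by the letter counts and by the sums over the
occurrences of each letter of monomials of degree at most three in the earlier letter counts,
all modulo the order of the group -/
theorem meta_four_det (h4 : Subgroup.lowerCentralSeries (⊤ : Subgroup G) 4 = ⊥)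
    (hmet : ∀ x ∈ commutator G, ∀ y ∈ commutator G, x * y = y * x)
    (φ : α → G) (w w' : List α)
    (hc : ∀ a : α, w.count a % Nat.card G = w'.count a % Nat.card G)
    (H1 : ∀ a z : α, z ≠ a → ∀ ls : List α, ls.Nodup → a ∉ ls → ∀ μ, IsMon ls 2 μ →
      msum z (fun n => n a * μ n) w % Nat.card G = msum z (fun n => n a * μ n) w' % Nat.card G)
    (H2 : ∀ a z : α, z ≠ a → ∀ ls : List α, ls.Nodup → a ∉ ls → ∀ μ, IsMon ls 1 μ →
      msum z (fun n => (n a).choose 2 * μ n) w % Nat.card G
        = msum z (fun n => (n a).choose 2 * μ n) w' % Nat.card G)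
    (H3 : ∀ a z : α, z ≠ a → ∀ ls : List α, ls.Nodup → a ∉ ls → ∀ μ, IsMon ls 0 μ →
      msum z (fun n => (n a).choose 3 * μ n) w % Nat.card G
        = msum z (fun n => (n a).choose 3 * μ n) w' % Nat.card G) :
    (w.map φ).prod = (w'.map φ).prod := by
  have hL4 : ⁅⁅⁅⁅(⊤ : Subgroup G), (⊤ : Subgroup G)⁆, (⊤ : Subgroup G)⁆, (⊤ : Subgroup G)⁆,
      (⊤ : Subgroup G)⁆ = ⊥ := h4
  let _ : CommGroup ↥(commutator G) :=
    { (inferInstance : Group ↥(commutator G)) with
      mul_comm := fun a b => Subtype.ext (hmet a a.2 b b.2) }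
  let ι : ↥(commutator G) →* G := (commutator G).subtype
  let cj : G →* MulAut ↥(commutator G) := MulAut.conjNormal
  let κ : G → G → ↥(commutator G) := fun a b => ⟨⁅a, b⁆, comm_mem a b⟩
  have hι : ∀ (g : G) (c : ↥(commutator G)), ι (cj g c) = g * ι c * g⁻¹ := fun g c => rfl
  have hN : (commutator G).Normal := inferInstance
  have hcomm : ∀ g h : G, Commute (cj g) (cj h) := by
    intro g h
    show cj g * cj h = cj h * cj g
    apply MulEquiv.ext
    intro c
    apply Subtype.ext
    show g * (h * (c : G) * h⁻¹) * g⁻¹ = h * (g * (c : G) * g⁻¹) * h⁻¹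
    have hk : ⁅g, h⁆ ∈ commutator G := comm_mem g h
    have hc' : h * (g * (c : G) * g⁻¹) * h⁻¹ ∈ commutator G :=
      hN.conj_mem _ (hN.conj_mem _ c.2 g) h
    have e := hmet _ hk _ hc'
    have e2 : g * (h * (c : G) * h⁻¹) * g⁻¹
        = ⁅g, h⁆ * (h * (g * (c : G) * g⁻¹) * h⁻¹) * ⁅g, h⁆⁻¹ := by
      simp only [commutatorElement_def]
      group
    rw [e2, e, mul_inv_cancel_right]
  have hdl : ∀ (g : G) (c : ↥(commutator G)),
      ((dl cj g c : ↥(commutator G)) : G) = ⁅g, (c : G)⁆ := by
    intro g c
    show ((cj g c / c : ↥(commutator G)) : G) = ⁅g, (c : G)⁆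
    rw [Subgroup.coe_div]
    show g * (c : G) * g⁻¹ / (c : G) = ⁅g, (c : G)⁆
    rw [commutatorElement_def, div_eq_mul_inv]
  have h3 : ∀ (g1 g2 g3 : G) (c : ↥(commutator G)),
      dl cj g1 (dl cj g2 (dl cj g3 c)) = 1 := by
    intro g1 g2 g3 c
    apply Subtype.ext
    rw [hdl, hdl, hdl]
    have m1 : (c : G) ∈ ⁅(⊤ : Subgroup G), (⊤ : Subgroup G)⁆ := c.2
    have m2 := comm_mem_next _ _ m1 g3
    have m3 := comm_mem_next _ _ m2 g2
    have m4 := comm_mem_next _ _ m3 g1
    rw [hL4] at m4
    exact Subgroup.mem_bot.mp m4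
  exact meta_det ι cj κ (Subgroup.subtype_injective _) hι (fun _ _ => rfl) hcomm h3
    (Nat.card G) (fun _ => pow_card_eq_one')
    (fun a => Subtype.ext (by rw [Subgroup.coe_pow]; exact pow_card_eq_one')) w w' hc H1 H2 H3
    Finset.univ.toList (Finset.nodup_toList _) φ
    (fun y hy => absurd (Finset.mem_toList.mpr (Finset.mem_univ y)) hy)

end metainst

end Vale.Agent.Lib.P329
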