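import Vale.Agent.Lib.P329.WalkMark
import Vale.Agent.Lib.P329.FourStat
import Vale.Agent.Lib.P329.MetaFour

/-!
# Metabelian groups of nilpotency class at most four: the statistics

All sums over the occurrences of a letter `z` of monomials of degree at most three in the
numbers of earlier letters that occur in `meta_four_det` are functions of statistics of
generalized star height at most one: weighted sums for sets of letters not containing `z`
(polarization), the walk statistic at a third letter, the two-letter statistics of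
`four_stat` (monomials involving the number of earlier `z`), and telescoping.
-/

namespace Vale.Agent.Lib.P329

open Language

variable {α : Type} [DecidableEq α] [Fintype α]

/-! ### Relations determined by a statistic -/

/-- `DetBy Q`: some statistic of generalized star height at most one with finitely many values
takes different values on `w`, `w'` unless `Q w w'` -/
def DetBy (Q : List α → List α → Prop) : Prop :=
  ∃ (β : Type) (_ : Fintype β) (T : List α → β), StatLe 1 T ∧
    ∀ w w' : List α, T w = T w' → Q w w'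

omit [DecidableEq α] [Fintype α] in
theorem DetBy.of_stat {β : Type} [Fintype β] {f : List α → β} (hf : StatLe 1 f) :
    DetBy (fun w w' => f w = f w') :=
  ⟨β, inferInstance, f, hf, fun _ _ h => h⟩

omit [DecidableEq α] [Fintype α] in
theorem DetBy.mono {Q Q' : List α → List α → Prop} (h : DetBy Q)
    (hQ : ∀ w w', Q w w' → Q' w w') : DetBy Q' := by
  obtain ⟨β, i, T, hT, d⟩ := h
  exact ⟨β, i, T, hT, fun w w' e => hQ w w' (d w w' e)⟩

omit [DecidableEq α] [Fintype α] in
theorem DetBy.and {Q1 Q2 : List α → List α → Prop} (h1 : DetBy Q1) (h2 : DetBy Q2) :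
    DetBy (fun w w' => Q1 w w' ∧ Q2 w w') := by
  obtain ⟨β1, i1, T1, hT1, d1⟩ := h1
  obtain ⟨β2, i2, T2, hT2, d2⟩ := h2
  exact ⟨β1 × β2, inferInstance, fun w => (T1 w, T2 w), hT1.prod hT2,
    fun w w' e => ⟨d1 w w' (congrArg Prod.fst e), d2 w w' (congrArg Prod.snd e)⟩⟩

omit [DecidableEq α] in
theorem DetBy.forall {ι : Type} [Fintype ι] [DecidableEq ι] {Q : ι → List α → List α → Prop}
    (h : ∀ i, DetBy (Q i)) : DetBy (fun w w' => ∀ i, Q i w w') := by
  choose β inst T hT d using h
  exact ⟨∀ i, β i, inferInstance, fun w i => T i w, StatLe.pi hT,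
    fun w w' e i => d i w w' (congrFun e i)⟩

omit [DecidableEq α] in
theorem DetBy.trivial (P : Prop) (hP : P) : DetBy (fun (_ _ : List α) => P) :=
  ⟨Unit, inferInstance, fun _ => (), StatLe.const 1 (), fun _ _ _ => hP⟩

theorem gsh_of_detBy {Q : List α → List α → Prop} (h : DetBy Q) (L : Language α)
    (hL : ∀ w w', Q w w' → (w ∈ L ↔ w' ∈ L)) : GSHLe 1 L := by
  obtain ⟨β, i, T, hT, d⟩ := h
  exact gsh_of_det hT L (fun w w' e => hL w w' (d w w' e))

/-! ### Arithmetic modulo `48 * m` -/

theorem cast_mul12_mod (m x y : ℕ)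
    (h : (12 : ZMod (48 * m)) * ((x : ℕ) : ZMod (48 * m)) = 12 * ((y : ℕ) : ZMod (48 * m))) :
    x % m = y % m := by
  have h0 : ((12 * x : ℕ) : ZMod (48 * m)) = ((12 * y : ℕ) : ZMod (48 * m)) := by
    rw [Nat.cast_mul, Nat.cast_mul, Nat.cast_ofNat]
    exact h
  have h1 : 12 * x ≡ 12 * y [MOD 48 * m] := (ZMod.natCast_eq_natCast_iff _ _ _).mp h0
  have e : 48 * m = 12 * (4 * m) := by ring
  rw [e] at h1
  have h2 : x ≡ y [MOD 4 * m] := Nat.ModEq.mul_left_cancel' (by norm_num) h1
  exact Nat.ModEq.of_mul_left 4 h2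

theorem choose_two_mod48 (m x y : ℕ)
    (h : ((x : ℕ) : ZMod (48 * m)) = ((y : ℕ) : ZMod (48 * m))) :
    x.choose 2 % m = y.choose 2 % m := by
  have h1 : x ≡ y [MOD 48 * m] := (ZMod.natCast_eq_natCast_iff _ _ _).mp h
  have e : 48 * m = 24 * (2 * m) := by ring
  rw [e] at h1
  have h2 : x % (2 * m) = y % (2 * m) := Nat.ModEq.of_mul_left 24 h1
  have px : ((x.choose 2 : ℕ) : ZMod m) = (((x % (2 * m)).choose 2 : ℕ) : ZMod m) :=
    periodic_mod (fun j => ((j.choose 2 : ℕ) : ZMod m)) (2 * m) (choose_two_periodic m) x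
  have py : ((y.choose 2 : ℕ) : ZMod m) = (((y % (2 * m)).choose 2 : ℕ) : ZMod m) :=
    periodic_mod (fun j => ((j.choose 2 : ℕ) : ZMod m)) (2 * m) (choose_two_periodic m) y
  have h3 : ((x.choose 2 : ℕ) : ZMod m) = ((y.choose 2 : ℕ) : ZMod m) := by
    rw [px, py, h2]
  exact (ZMod.natCast_eq_natCast_iff' _ _ _).mp h3

/-! ### Weighted sums as marked sums -/

omit [Fintype α] in
theorem wsum_msum0 {R : Type} [AddCommMonoid R] (S : Finset α) (z : α) (g : ℕ → R)
    (w : List α) : wsum S z g 0 w = msum z (fun n => g (∑ s ∈ S, n s)) w := by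
  have h := wsum_eq_msum S z g w (fun _ => 0)
  simp only [Finset.sum_const_zero] at h
  exact h

omit [Fintype α] in
theorem wsum_single {R : Type} [AddCommMonoid R] (a z : α) (g : ℕ → R) (w : List α) :
    wsum {a} z g 0 w = msum z (fun n => g (n a)) w := by
  rw [wsum_msum0]
  exact msum_congr z _ _ (fun n => by rw [Finset.sum_singleton]) w

omit [Fintype α] in
theorem wsum_pair {R : Type} [AddCommMonoid R] (a y z : α) (hay : a ≠ y) (g : ℕ → R)
    (w : List α) : wsum {a, y} z g 0 w = msum z (fun n => g (n a + n y)) w := by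
  rw [wsum_msum0]
  exact msum_congr z _ _ (fun n => by rw [Finset.sum_pair hay]) w

omit [Fintype α] in
theorem wsum_triple {R : Type} [AddCommMonoid R] (a y y' z : α) (hay : a ≠ y) (hay' : a ≠ y')
    (hyy' : y ≠ y') (g : ℕ → R) (w : List α) :
    wsum {a, y, y'} z g 0 w = msum z (fun n => g (n a + (n y + n y'))) w := by
  rw [wsum_msum0]
  refine msum_congr z _ _ (fun n => ?_) w
  have ha : a ∉ ({y, y'} : Finset α) := by
    intro h
    rcases Finset.mem_insert.mp h with h' | h'
    · exact hay h'
    · exact hay' (Finset.mem_singleton.mp h')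
  rw [Finset.sum_insert ha, Finset.sum_pair hyy']

omit [Fintype α] in
theorem psum_msum0 {R : Type} [AddCommMonoid R] (a b x : α) (F : ℕ → ℕ → R) (w : List α) :
    psum a b x F 0 0 w = msum x (fun n => F (n a) (n b)) w :=
  psum_eq_msum a b x F w (fun _ => 0)

/-! ### Polarization and telescoping -/

omit [DecidableEq α] [Fintype α] in
theorem cast_sq_choose {R : Type} [CommRing R] (k : ℕ) :
    (k : R) ^ 2 = 2 * ((k.choose 2 : ℕ) : R) + (k : R) := by
  have h := congrArg (Nat.cast : ℕ → R) (nat_sq_choose k)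
  rw [Nat.cast_mul, Nat.cast_add, Nat.cast_mul, Nat.cast_ofNat] at h
  rw [sq]
  exact h

omit [DecidableEq α] [Fintype α] in
theorem cast_cube_choose {R : Type} [CommRing R] (k : ℕ) :
    (k : R) ^ 3 = 6 * ((k.choose 3 : ℕ) : R) + 6 * ((k.choose 2 : ℕ) : R) + (k : R) := by
  have h := congrArg (Nat.cast : ℕ → R) (nat_cube_choose k)
  rw [Nat.cast_pow, Nat.cast_add, Nat.cast_add, Nat.cast_mul, Nat.cast_mul,
    Nat.cast_ofNat] at h
  exact h

omit [Fintype α] in
/-- polarization for two letters, and the cube of the difference -/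
theorem pol_two {R : Type} [CommRing R] (a y z : α) (hay : a ≠ y) (v : List α) :
    ((wsum {a, y} z (fun k => k.choose 2) 0 v : ℕ) : R)
        = ((wsum {a} z (fun k => k.choose 2) 0 v : ℕ) : R)
          + ((msum z (fun n => n a * n y) v : ℕ) : R)
          + ((wsum {y} z (fun k => k.choose 2) 0 v : ℕ) : R)
    ∧ ((wsum {a, y} z (fun k => k.choose 3) 0 v : ℕ) : R)
        = ((wsum {a} z (fun k => k.choose 3) 0 v : ℕ) : R)
          + ((msum z (fun n => (n a).choose 2 * n y) v : ℕ) : R)
          + ((msum z (fun n => n a * (n y).choose 2) v : ℕ) : R)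
          + ((wsum {y} z (fun k => k.choose 3) 0 v : ℕ) : R)
    ∧ psum a y z (fun X Y : ℕ => ((X : R) - (Y : R)) ^ 3) 0 0 v
          + (6 * ((msum z (fun n => (n a).choose 2 * n y) v : ℕ) : R)
            + (6 * ((wsum {y} z (fun k => k.choose 3) 0 v : ℕ) : R)
              + (6 * ((wsum {y} z (fun k => k.choose 2) 0 v : ℕ) : R)
                + ((wsum {y} z id 0 v : ℕ) : R))))
        = 6 * ((msum z (fun n => n a * (n y).choose 2) v : ℕ) : R)
          + (6 * ((wsum {a} z (fun k => k.choose 3) 0 v : ℕ) : R)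
            + (6 * ((wsum {a} z (fun k => k.choose 2) 0 v : ℕ) : R)
              + ((wsum {a} z id 0 v : ℕ) : R))) := by
  refine ⟨?_, ?_, ?_⟩
  · rw [wsum_pair a y z hay, wsum_single, wsum_single, ← Nat.cast_add, ← Nat.cast_add]
    congr 1
    rw [msum_congr z _ (fun n => (n a).choose 2 + n a * n y + (n y).choose 2)
      (fun n => choose_two_add (n a) (n y)) v]
    unfold msum
    rw [msumAux_add, msumAux_add]
  · rw [wsum_pair a y z hay, wsum_single, wsum_single, ← Nat.cast_add, ← Nat.cast_add,
      ← Nat.cast_add]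
    congr 1
    rw [msum_congr z _
      (fun n => (n a).choose 3 + (n a).choose 2 * n y + n a * (n y).choose 2 + (n y).choose 3)
      (fun n => choose_three_add (n a) (n y)) v]
    unfold msum
    rw [msumAux_add, msumAux_add, msumAux_add]
  · rw [psum_msum0, wsum_single, wsum_single, wsum_single, wsum_single, wsum_single,
      wsum_single]
    have e : (fun n : α → ℕ => ((n a : R) - (n y : R)) ^ 3
          + (6 * (((n a).choose 2 * n y : ℕ) : R) + (6 * (((n y).choose 3 : ℕ) : R)
            + (6 * (((n y).choose 2 : ℕ) : R) + ((id (n y) : ℕ) : R)))))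
        = fun n : α → ℕ => 6 * ((n a * (n y).choose 2 : ℕ) : R)
          + (6 * (((n a).choose 3 : ℕ) : R)
            + (6 * (((n a).choose 2 : ℕ) : R) + ((id (n a) : ℕ) : R))) := by
      funext n
      have hA2 := cast_sq_choose (R := R) (n a)
      have hA3 := cast_cube_choose (R := R) (n a)
      have hY2 := cast_sq_choose (R := R) (n y)
      have hY3 := cast_cube_choose (R := R) (n y)
      simp only [id_eq]
      rw [Nat.cast_mul, Nat.cast_mul]
      linear_combination hA3 - 3 * (n y : R) * hA2 + 3 * (n a : R) * hY2 - hY3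
    have h : msumAux z (fun n : α → ℕ => ((n a : R) - (n y : R)) ^ 3
          + (6 * (((n a).choose 2 * n y : ℕ) : R) + (6 * (((n y).choose 3 : ℕ) : R)
            + (6 * (((n y).choose 2 : ℕ) : R) + ((id (n y) : ℕ) : R))))) (fun _ => 0) v
        = msumAux z (fun n : α → ℕ => 6 * ((n a * (n y).choose 2 : ℕ) : R)
          + (6 * (((n a).choose 3 : ℕ) : R)
            + (6 * (((n a).choose 2 : ℕ) : R) + ((id (n a) : ℕ) : R)))) (fun _ => 0) v := by
      rw [e]
    rw [msumAux_add, msumAux_add, msumAux_add, msumAux_add, msumAux_add, msumAux_add,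
      msumAux_add, msumAux_mul, msumAux_mul, msumAux_mul, msumAux_mul, msumAux_mul,
      msumAux_mul, ← msumAux_cast, ← msumAux_cast, ← msumAux_cast, ← msumAux_cast,
      ← msumAux_cast, ← msumAux_cast, ← msumAux_cast, ← msumAux_cast] at h
    exact h

omit [Fintype α] in
/-- polarization for three letters -/
theorem pol_three {R : Type} [CommRing R] (a y y' z : α) (hay : a ≠ y) (hay' : a ≠ y')
    (hyy' : y ≠ y') (v : List α) :
    ((wsum {a, y, y'} z (fun k => k.choose 3) 0 v : ℕ) : R)
        + ((wsum {a} z (fun k => k.choose 3) 0 v : ℕ) : R)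
        + ((wsum {y} z (fun k => k.choose 3) 0 v : ℕ) : R)
        + ((wsum {y'} z (fun k => k.choose 3) 0 v : ℕ) : R)
      = ((wsum {a, y} z (fun k => k.choose 3) 0 v : ℕ) : R)
        + ((wsum {a, y'} z (fun k => k.choose 3) 0 v : ℕ) : R)
        + ((wsum {y, y'} z (fun k => k.choose 3) 0 v : ℕ) : R)
        + ((msum z (fun n => n a * n y * n y') v : ℕ) : R) := by
  rw [wsum_triple a y y' z hay hay' hyy', wsum_single, wsum_single, wsum_single,
    wsum_pair a y z hay, wsum_pair a y' z hay', wsum_pair y y' z hyy']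
  rw [← Nat.cast_add, ← Nat.cast_add, ← Nat.cast_add, ← Nat.cast_add, ← Nat.cast_add,
    ← Nat.cast_add]
  congr 1
  unfold msum
  rw [← msumAux_add, ← msumAux_add, ← msumAux_add, ← msumAux_add, ← msumAux_add,
    ← msumAux_add]
  refine msumAux_congr z _ _ (fun n => ?_) _ v
  show (n a + (n y + n y')).choose 3 + (n a).choose 3 + (n y).choose 3 + (n y').choose 3
    = (n a + n y).choose 3 + (n a + n y').choose 3 + (n y + n y').choose 3 + n a * n y * n y'
  rw [choose_three_add (n a) (n y + n y'), choose_two_add (n y) (n y'),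
    choose_three_add (n a) (n y), choose_three_add (n a) (n y')]
  ring

/-- telescoping for `n a * n y * C(n z, 2)` -/
theorem tele_own (a y z : α) (hay : a ≠ y) (haz : a ≠ z) (hyz : y ≠ z) (v : List α) :
    v.count a * v.count y * (v.count z).choose 2
      = msum z (fun n => n a * n y * n z) v + msum a (fun n => n y * (n z).choose 2) v
        + msum y (fun n => n a * (n z).choose 2) v := by
  have hD : ∀ (x : α) (n : α → ℕ),
      bump n x a * bump n x y * (bump n x z).choose 2
        = n a * n y * (n z).choose 2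
          + (if x = z then n a * n y * n z else if x = a then n y * (n z).choose 2
              else if x = y then n a * (n z).choose 2 else 0) := by
    intro x n
    by_cases hxz : x = z
    · rw [hxz, if_pos rfl, bump_self, bump_ne n haz, bump_ne n hyz, choose_two_succ]
      ring
    · by_cases hxa : x = a
      · rw [if_neg hxz, hxa, if_pos rfl, bump_self, bump_ne n (Ne.symm hay),
          bump_ne n (Ne.symm haz)]
        ring
      · by_cases hxy : x = y
        · rw [if_neg hxz, if_neg hxa, hxy, if_pos rfl, bump_self, bump_ne n hay,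
            bump_ne n (Ne.symm hyz)]
          ring
        · rw [if_neg hxz, if_neg hxa, if_neg hxy, bump_ne n (fun h => hxa h.symm),
            bump_ne n (fun h => hxy h.symm), bump_ne n (fun h => hxz h.symm), Nat.add_zero]
  have t := msum_tele (fun n : α → ℕ => n a * n y * (n z).choose 2)
    (fun x n => if x = z then n a * n y * n z else if x = a then n y * (n z).choose 2
      else if x = y then n a * (n z).choose 2 else 0) hD v (fun _ => 0)
  simp only [Nat.zero_add, Nat.zero_mul] at t
  rw [t]
  have e : ∀ x ∈ (Finset.univ : Finset α),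
      msumAux x (fun n => if x = z then n a * n y * n z else if x = a then n y * (n z).choose 2
        else if x = y then n a * (n z).choose 2 else 0) (fun _ => 0) v
      = (if x = z then msum z (fun n => n a * n y * n z) v else 0)
        + ((if x = a then msum a (fun n => n y * (n z).choose 2) v else 0)
          + (if x = y then msum y (fun n => n a * (n z).choose 2) v else 0)) := by
    intro x _
    by_cases hxz : x = z
    · rw [hxz, if_pos rfl, if_neg (Ne.symm haz), if_neg (Ne.symm hyz), Nat.add_zero]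
      exact msumAux_congr z _ _ (fun n => if_pos rfl) _ v
    · by_cases hxa : x = a
      · rw [if_neg hxz, hxa, if_pos rfl, if_neg hay, Nat.zero_add, Nat.add_zero]
        exact msumAux_congr a _ _ (fun n => (if_neg haz).trans (if_pos rfl)) _ v
      · by_cases hxy : x = y
        · rw [if_neg hxz, if_neg hxa, hxy, if_pos rfl, Nat.zero_add, Nat.zero_add]
          exact msumAux_congr y _ _
            (fun n => (if_neg hyz).trans ((if_neg (Ne.symm hay)).trans (if_pos rfl))) _ v
        · rw [if_neg hxz, if_neg hxa, if_neg hxy, Nat.add_zero,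
            msumAux_congr x _ (fun _ => 0)
              (fun n => (if_neg hxz).trans ((if_neg hxa).trans (if_neg hxy))) _ v,
            msumAux_zero]
  rw [Finset.sum_congr rfl e, Finset.sum_add_distrib, Finset.sum_add_distrib,
    Finset.sum_ite_eq', Finset.sum_ite_eq', Finset.sum_ite_eq', if_pos (Finset.mem_univ z),
    if_pos (Finset.mem_univ a), if_pos (Finset.mem_univ y), add_assoc]

/-! ### The basic relation and its consequences -/

omit [Fintype α] in
theorem notMem_one {z a : α} (h : z ≠ a) : z ∉ ({a} : Finset α) :=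
  fun h' => h (Finset.mem_singleton.mp h')

omit [Fintype α] in
theorem notMem_two {z a y : α} (h1 : z ≠ a) (h2 : z ≠ y) : z ∉ ({a, y} : Finset α) := by
  intro h
  rcases Finset.mem_insert.mp h with h' | h'
  · exact h1 h'
  · exact h2 (Finset.mem_singleton.mp h')

omit [Fintype α] in
theorem notMem_three {z a y y' : α} (h1 : z ≠ a) (h2 : z ≠ y) (h3 : z ≠ y') :
    z ∉ ({a, y, y'} : Finset α) := by
  intro h
  rcases Finset.mem_insert.mp h with h' | h'
  · exact h1 h'
  · exact notMem_two h2 h3 h'

/-- the two-letter relation given by `four_stat` -/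
def Own (m : ℕ) (a b : α) (w w' : List α) : Prop :=
  w.count a % m = w'.count a % m
    ∧ w.count b % m = w'.count b % m
    ∧ psum a b b (fun X _ => X) 0 0 w % m = psum a b b (fun X _ => X) 0 0 w' % m
    ∧ psum a b b (fun X _ => X.choose 2) 0 0 w % m
        = psum a b b (fun X _ => X.choose 2) 0 0 w' % m
    ∧ psum a b b (fun X _ => X.choose 3) 0 0 w % m
        = psum a b b (fun X _ => X.choose 3) 0 0 w' % m
    ∧ psum a b b (fun X Y => X * Y) 0 0 w % m = psum a b b (fun X Y => X * Y) 0 0 w' % m
    ∧ psum a b b (fun X Y => X.choose 2 * Y) 0 0 w % m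
        = psum a b b (fun X Y => X.choose 2 * Y) 0 0 w' % m
    ∧ psum a b b (fun X Y => X * Y.choose 2) 0 0 w % m
        = psum a b b (fun X Y => X * Y.choose 2) 0 0 w' % m

/-- the relation between two words given by finitely many statistics of generalized star
height at most one: letter counts, weighted sums for sets of letters, the cube of the walk at
a third letter, and the two-letter relation -/
def Base (m : ℕ) (w w' : List α) : Prop :=
  (∀ a : α, ((w.count a : ℕ) : ZMod (48 * m)) = ((w'.count a : ℕ) : ZMod (48 * m)))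
    ∧ (∀ (S : Finset α) (z : α), z ∉ S →
        ((wsum S z id 0 w : ℕ) : ZMod (48 * m)) = ((wsum S z id 0 w' : ℕ) : ZMod (48 * m))
        ∧ ((wsum S z (fun k => k.choose 2) 0 w : ℕ) : ZMod (48 * m))
            = ((wsum S z (fun k => k.choose 2) 0 w' : ℕ) : ZMod (48 * m))
        ∧ ((wsum S z (fun k => k.choose 3) 0 w : ℕ) : ZMod (48 * m))
            = ((wsum S z (fun k => k.choose 3) 0 w' : ℕ) : ZMod (48 * m)))
    ∧ (∀ a y z : α, a ≠ y → z ≠ a → z ≠ y →
        psum a y z (fun X Y : ℕ => ((X : ZMod (48 * m)) - (Y : ZMod (48 * m))) ^ 3) 0 0 w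
          = psum a y z (fun X Y : ℕ => ((X : ZMod (48 * m)) - (Y : ZMod (48 * m))) ^ 3) 0 0 w')
    ∧ (∀ a z : α, a ≠ z → Own m a z w w')

theorem base_det (m : ℕ) (hm : 0 < m) : DetBy (Base (α := α) m) := by
  have hM : 0 < 48 * m := by omega
  have : NeZero (48 * m) := ⟨hM.ne'⟩
  have d1 : DetBy (fun w w' : List α => ∀ a : α,
      ((w.count a : ℕ) : ZMod (48 * m)) = ((w'.count a : ℕ) : ZMod (48 * m))) :=
    DetBy.forall (fun a => DetBy.of_stat (stat_count (48 * m) a))
  have d2 : DetBy (fun w w' : List α => ∀ (S : Finset α) (z : α), z ∉ S →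
      ((wsum S z id 0 w : ℕ) : ZMod (48 * m)) = ((wsum S z id 0 w' : ℕ) : ZMod (48 * m))
      ∧ ((wsum S z (fun k => k.choose 2) 0 w : ℕ) : ZMod (48 * m))
          = ((wsum S z (fun k => k.choose 2) 0 w' : ℕ) : ZMod (48 * m))
      ∧ ((wsum S z (fun k => k.choose 3) 0 w : ℕ) : ZMod (48 * m))
          = ((wsum S z (fun k => k.choose 3) 0 w' : ℕ) : ZMod (48 * m))) := by
    refine DetBy.forall (fun S => DetBy.forall (fun z => ?_))
    by_cases hz : z ∈ S
    · exact (DetBy.trivial True trivial).mono (fun w w' _ h => absurd hz h)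
    · exact ((DetBy.of_stat (stat_wid (48 * m) S z hz)).and
        ((DetBy.of_stat (stat_wch (48 * m) S z hz)).and
          (DetBy.of_stat (wsum_stat S z hz (48 * m) (fun k => k.choose 3) (6 * (48 * m))
            (by omega) (choose_three_periodic (48 * m) hM))))).mono (fun w w' h _ => h)
  have d3 : DetBy (fun w w' : List α => ∀ a y z : α, a ≠ y → z ≠ a → z ≠ y →
      psum a y z (fun X Y : ℕ => ((X : ZMod (48 * m)) - (Y : ZMod (48 * m))) ^ 3) 0 0 w
        = psum a y z (fun X Y : ℕ => ((X : ZMod (48 * m)) - (Y : ZMod (48 * m))) ^ 3) 0 0 w') := by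
    refine DetBy.forall (fun a => DetBy.forall (fun y => DetBy.forall (fun z => ?_)))
    by_cases h1 : a ≠ y
    · by_cases h2 : z ≠ a
      · by_cases h3 : z ≠ y
        · exact (DetBy.of_stat (stat_walk_mark (48 * m) (48 * m) a y z h1 h2 h3
            (fun t => t ^ 3))).mono (fun w w' h _ _ _ => h)
        · exact (DetBy.trivial True trivial).mono (fun w w' _ _ _ h => absurd h h3)
      · exact (DetBy.trivial True trivial).mono (fun w w' _ _ h _ => absurd h h2)
    · exact (DetBy.trivial True trivial).mono (fun w w' _ h _ _ => absurd h h1)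
  have d4 : DetBy (fun w w' : List α => ∀ a z : α, a ≠ z → Own m a z w w') := by
    refine DetBy.forall (fun a => DetBy.forall (fun z => ?_))
    by_cases h : a ≠ z
    · have h4 : DetBy (Own m a z) := four_stat m hm a z h
      exact h4.mono (fun w w' h' _ => h')
    · exact (DetBy.trivial True trivial).mono (fun w w' _ h' => absurd h' h)
  exact d1.and (d2.and (d3.and d4))

omit [Fintype α] in
theorem base_single (m : ℕ) (w w' : List α) (hB : Base m w w') (a z : α) (hza : z ≠ a) :
    msum z (fun n => n a) w % m = msum z (fun n => n a) w' % m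
    ∧ msum z (fun n => (n a).choose 2) w % m = msum z (fun n => (n a).choose 2) w' % m
    ∧ msum z (fun n => (n a).choose 3) w % m = msum z (fun n => (n a).choose 3) w' % m := by
  obtain ⟨_, hW, _, _⟩ := hB
  obtain ⟨h1, h2, h3⟩ := hW {a} z (notMem_one hza)
  rw [wsum_single, wsum_single] at h1 h2 h3
  exact ⟨cast_mod48 m _ _ h1, cast_mod48 m _ _ h2, cast_mod48 m _ _ h3⟩

omit [Fintype α] in
theorem base_pair (m : ℕ) (w w' : List α) (hB : Base m w w') (a y z : α) (hay : a ≠ y)
    (hza : z ≠ a) (hzy : z ≠ y) :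
    msum z (fun n => n a * n y) w % m = msum z (fun n => n a * n y) w' % m
    ∧ msum z (fun n => (n a).choose 2 * n y) w % m
        = msum z (fun n => (n a).choose 2 * n y) w' % m
    ∧ msum z (fun n => n a * (n y).choose 2) w % m
        = msum z (fun n => n a * (n y).choose 2) w' % m := by
  obtain ⟨_, hW, hP, _⟩ := hB
  obtain ⟨eA1, eA2, eA3⟩ := hW {a} z (notMem_one hza)
  obtain ⟨eY1, eY2, eY3⟩ := hW {y} z (notMem_one hzy)
  obtain ⟨_, eAY2, eAY3⟩ := hW {a, y} z (notMem_two hza hzy)
  have eP := hP a y z hay hza hzy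
  obtain ⟨i1, i2, i3⟩ := pol_two (R := ZMod (48 * m)) a y z hay w
  obtain ⟨j1, j2, j3⟩ := pol_two (R := ZMod (48 * m)) a y z hay w'
  refine ⟨cast_mod48 m _ _ ?_, cast_mul12_mod m _ _ ?_, cast_mul12_mod m _ _ ?_⟩
  · linear_combination (-1 : ZMod (48 * m)) * i1 + j1 + eAY2 - eA2 - eY2
  · linear_combination (-6 : ZMod (48 * m)) * i2 + i3 + 6 * j2 - j3 + 6 * eAY3 - 12 * eY3
      - eP - 6 * eY2 - eY1 + 6 * eA2 + eA1
  · linear_combination (-6 : ZMod (48 * m)) * i2 - i3 + 6 * j2 + j3 + 6 * eAY3 - 12 * eA3
      + eP + 6 * eY2 + eY1 - 6 * eA2 - eA1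

omit [Fintype α] in
theorem base_own (m : ℕ) (w w' : List α) (hB : Base m w w') (a z : α) (haz : a ≠ z) :
    msum z (fun n => n a * n z) w % m = msum z (fun n => n a * n z) w' % m
    ∧ msum z (fun n => (n a).choose 2 * n z) w % m
        = msum z (fun n => (n a).choose 2 * n z) w' % m
    ∧ msum z (fun n => n a * (n z).choose 2) w % m
        = msum z (fun n => n a * (n z).choose 2) w' % m := by
  obtain ⟨_, _, _, hO⟩ := hB
  obtain ⟨_, _, _, _, _, h6, h7, h8⟩ := hO a z haz
  rw [psum_msum0, psum_msum0] at h6 h7 h8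
  exact ⟨h6, h7, h8⟩

omit [Fintype α] in
theorem base_triple (m : ℕ) (w w' : List α) (hB : Base m w w') (a y y' z : α) (hay : a ≠ y)
    (hay' : a ≠ y') (hyy' : y ≠ y') (hza : z ≠ a) (hzy : z ≠ y) (hzy' : z ≠ y') :
    msum z (fun n => n a * n y * n y') w % m = msum z (fun n => n a * n y * n y') w' % m := by
  obtain ⟨_, hW, _, _⟩ := hB
  obtain ⟨_, _, eA⟩ := hW {a} z (notMem_one hza)
  obtain ⟨_, _, eY⟩ := hW {y} z (notMem_one hzy)
  obtain ⟨_, _, eY'⟩ := hW {y'} z (notMem_one hzy')
  obtain ⟨_, _, eAY⟩ := hW {a, y} z (notMem_two hza hzy)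
  obtain ⟨_, _, eAY'⟩ := hW {a, y'} z (notMem_two hza hzy')
  obtain ⟨_, _, eYY'⟩ := hW {y, y'} z (notMem_two hzy hzy')
  obtain ⟨_, _, eAYY⟩ := hW {a, y, y'} z (notMem_three hza hzy hzy')
  have i := pol_three (R := ZMod (48 * m)) a y y' z hay hay' hyy' w
  have j := pol_three (R := ZMod (48 * m)) a y y' z hay hay' hyy' w'
  refine cast_mod48 m _ _ ?_
  linear_combination (-1 : ZMod (48 * m)) * i + j + eAYY + eA + eY + eY' - eAY - eAY' - eYY'

theorem base_triple_own (m : ℕ) (w w' : List α) (hB : Base m w w') (a y z : α) (hay : a ≠ y)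
    (haz : a ≠ z) (hyz : y ≠ z) :
    msum z (fun n => n a * n y * n z) w % m = msum z (fun n => n a * n y * n z) w' % m := by
  have hB1 := (base_pair m w w' hB y z a hyz hay haz).2.2
  have hB2 := (base_pair m w w' hB a z y haz (Ne.symm hay) hyz).2.2
  obtain ⟨hC, _, _, _⟩ := hB
  have ca : w.count a ≡ w'.count a [MOD m] := cast_mod48 m _ _ (hC a)
  have cy : w.count y ≡ w'.count y [MOD m] := cast_mod48 m _ _ (hC y)
  have cz : (w.count z).choose 2 ≡ (w'.count z).choose 2 [MOD m] :=
    choose_two_mod48 m _ _ (hC z)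
  have t := tele_own a y z hay haz hyz w
  have t' := tele_own a y z hay haz hyz w'
  have hL : w.count a * w.count y * (w.count z).choose 2
      ≡ w'.count a * w'.count y * (w'.count z).choose 2 [MOD m] :=
    Nat.ModEq.mul (Nat.ModEq.mul ca cy) cz
  rw [t, t'] at hL
  exact Nat.ModEq.add_right_cancel hB1 (Nat.ModEq.add_right_cancel hB2 hL)

omit [Fintype α] in
theorem base_H3 (m : ℕ) (w w' : List α) (hB : Base m w w') (a z : α) (hza : z ≠ a)
    (ls : List α) (μ : (α → ℕ) → ℕ) (hμ : IsMon ls 0 μ) :
    msum z (fun n => (n a).choose 3 * μ n) w % m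
      = msum z (fun n => (n a).choose 3 * μ n) w' % m := by
  have e : ∀ v : List α, msum z (fun n => (n a).choose 3 * μ n) v
      = msum z (fun n => (n a).choose 3) v :=
    fun v => msum_congr z _ _ (fun n => by rw [mon_zero ls μ hμ n, Nat.mul_one]) v
  rw [e w, e w']
  exact (base_single m w w' hB a z hza).2.2

omit [Fintype α] in
theorem base_H2 (m : ℕ) (w w' : List α) (hB : Base m w w') (a z : α) (hza : z ≠ a)
    (ls : List α) (hls : a ∉ ls) (μ : (α → ℕ) → ℕ) (hμ : IsMon ls 1 μ) :
    msum z (fun n => (n a).choose 2 * μ n) w % m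
      = msum z (fun n => (n a).choose 2 * μ n) w' % m := by
  rcases mon_one ls μ hμ with h1 | ⟨y, hy, h1⟩
  · have e : ∀ v : List α, msum z (fun n => (n a).choose 2 * μ n) v
        = msum z (fun n => (n a).choose 2) v :=
      fun v => msum_congr z _ _ (fun n => by rw [h1 n, Nat.mul_one]) v
    rw [e w, e w']
    exact (base_single m w w' hB a z hza).2.1
  · have hay : a ≠ y := fun h => hls (by rw [h]; exact hy)
    have e : ∀ v : List α, msum z (fun n => (n a).choose 2 * μ n) v
        = msum z (fun n => (n a).choose 2 * n y) v :=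
      fun v => msum_congr z _ _ (fun n => by rw [h1 n]) v
    rw [e w, e w']
    by_cases hyz : y = z
    · rw [hyz]
      exact (base_own m w w' hB a z (Ne.symm hza)).2.1
    · exact (base_pair m w w' hB a y z hay hza (Ne.symm hyz)).2.1

theorem base_H1 (m : ℕ) (w w' : List α) (hB : Base m w w') (a z : α) (hza : z ≠ a)
    (ls : List α) (hnd : ls.Nodup) (hls : a ∉ ls) (μ : (α → ℕ) → ℕ) (hμ : IsMon ls 2 μ) :
    msum z (fun n => n a * μ n) w % m = msum z (fun n => n a * μ n) w' % m := by
  rcases mon_two ls hnd μ hμ with h1 | ⟨y, hy, h1⟩ | ⟨y, hy, h1⟩ | ⟨y, hy, y', hy', hyy', h1⟩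
  · have e : ∀ v : List α, msum z (fun n => n a * μ n) v = msum z (fun n => n a) v :=
      fun v => msum_congr z _ _ (fun n => by rw [h1 n, Nat.mul_one]) v
    rw [e w, e w']
    exact (base_single m w w' hB a z hza).1
  · have hay : a ≠ y := fun h => hls (by rw [h]; exact hy)
    have e : ∀ v : List α, msum z (fun n => n a * μ n) v = msum z (fun n => n a * n y) v :=
      fun v => msum_congr z _ _ (fun n => by rw [h1 n]) v
    rw [e w, e w']
    by_cases hyz : y = z
    · rw [hyz]
      exact (base_own m w w' hB a z (Ne.symm hza)).1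
    · exact (base_pair m w w' hB a y z hay hza (Ne.symm hyz)).1
  · have hay : a ≠ y := fun h => hls (by rw [h]; exact hy)
    have e : ∀ v : List α, msum z (fun n => n a * μ n) v
        = msum z (fun n => n a * (n y).choose 2) v :=
      fun v => msum_congr z _ _ (fun n => by rw [h1 n]) v
    rw [e w, e w']
    by_cases hyz : y = z
    · rw [hyz]
      exact (base_own m w w' hB a z (Ne.symm hza)).2.2
    · exact (base_pair m w w' hB a y z hay hza (Ne.symm hyz)).2.2
  · have hay : a ≠ y := fun h => hls (by rw [h]; exact hy)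
    have hay' : a ≠ y' := fun h => hls (by rw [h]; exact hy')
    by_cases hyz : y = z
    · have hy'z : y' ≠ z := fun h => hyy' (hyz.trans h.symm)
      have e : ∀ v : List α, msum z (fun n => n a * μ n) v
          = msum z (fun n => n a * n y' * n z) v :=
        fun v => msum_congr z _ _ (fun n => by rw [h1 n, hyz]; ring) v
      rw [e w, e w']
      exact base_triple_own m w w' hB a y' z hay' (Ne.symm hza) hy'z
    · by_cases hy'z : y' = z
      · have e : ∀ v : List α, msum z (fun n => n a * μ n) v
            = msum z (fun n => n a * n y * n z) v :=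
          fun v => msum_congr z _ _ (fun n => by rw [h1 n, hy'z]; ring) v
        rw [e w, e w']
        exact base_triple_own m w w' hB a y z hay (Ne.symm hza) hyz
      · have e : ∀ v : List α, msum z (fun n => n a * μ n) v
            = msum z (fun n => n a * n y * n y') v :=
          fun v => msum_congr z _ _ (fun n => by rw [h1 n]; ring) v
        rw [e w, e w']
        exact base_triple m w w' hB a y y' z hay hay' hyy' hza (Ne.symm hyz) (Ne.symm hy'z)

/-- **Metabelian groups of nilpotency class at most four.** Every language recognized by a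
finite nilpotent group of class at most four whose commutator subgroup is abelian has
generalized star height at most one. -/
theorem gsh_meta_four {G : Type} [Group G] [Finite G] [Group.IsNilpotent G]
    (hG : Group.nilpotencyClass G ≤ 4)
    (hmet : ∀ x ∈ commutator G, ∀ y ∈ commutator G, x * y = y * x)
    (φ : α → G) (P : Set G) :
    GSHLe 1 ({w | (w.map φ).prod ∈ P} : Language α) := by
  have h4 : Subgroup.lowerCentralSeries (⊤ : Subgroup G) 4 = ⊥ :=
    Subgroup.lowerCentralSeries_eq_bot_iff_nilpotencyClass_le.mpr hG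
  refine gsh_of_detBy (base_det (Nat.card G) Nat.card_pos) _ (fun w w' hB => ?_)
  have e : (w.map φ).prod = (w'.map φ).prod :=
    meta_four_det h4 hmet φ w w' (fun a => cast_mod48 _ _ _ (hB.1 a))
      (fun a z hza ls hnd hls μ hμ => base_H1 _ w w' hB a z hza ls hnd hls μ hμ)
      (fun a z hza ls _ hls μ hμ => base_H2 _ w w' hB a z hza ls hls μ hμ)
      (fun a z hza ls _ _ μ hμ => base_H3 _ w w' hB a z hza ls μ hμ)
  show (w.map φ).prod ∈ P ↔ (w'.map φ).prod ∈ P
  rw [e]

end Vale.Agent.Lib.P329
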