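import Vale.Agent.Lib.P329.SmallOrders
import Mathlib.GroupTheory.GroupAction.Quotient

/-!
# Groups of order twenty

A group of order `20` has an abelian normal subgroup of prime index, or is nilpotent, or embeds
into the group of the affine maps `v ↦ l * v + c` (`l ≠ 0`) of `Z / 5`: the Sylow `5`-subgroup
`P` is normal, its centralizer has index `1`, `2` or `4`; index `1` gives a central `P` with a
quotient of order four, index `2` an abelian centralizer, and for index `4` the action on the
five cosets of a Sylow `2`-subgroup `Q`, written in the coordinates `v ↦ x ^ v Q` (`x` a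
generator of `P`), is faithful and affine.

Consequently a statement about all maps into the affine group of `Z / 5` gives the same
statement for all groups of order `20`, and hence for all groups with at most `23` elements.
-/

namespace Vale.Agent.Lib.P329

section twenty

variable {G : Type} [Group G] [Finite G]

/-- the action on the cosets of a subgroup `Q` of index five, in the coordinates given by the
powers of an element `x` of order five that is normalized by the group and meets `Q`
trivially, is by affine maps of `Z / 5` -/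
theorem coset_affine (x : G) (hx : orderOf x = 5) (Q : Subgroup G) (hQi : Q.index = 5)
    (hxQ : ∀ n : ℕ, x ^ n ∈ Q → x ^ n = 1)
    (hconj : ∀ g : G, ∃ k : ℕ, g * x * g⁻¹ = x ^ k ∧ ¬ 5 ∣ k) :
    ∃ ι : G →* Equiv.Perm (ZMod 5), ι.ker = Q.normalCore ∧
      ∀ g : G, ∃ l c : ZMod 5, l ≠ 0 ∧ ∀ v : ZMod 5, ι g v = l * v + c := by
  have h5 : x ^ 5 = 1 := hx ▸ pow_orderOf_eq_one x
  let e : ZMod 5 → G ⧸ Q := fun v => ((x ^ v.val : G) : G ⧸ Q)
  have hpow : ∀ n : ℕ, ((x ^ n : G) : G ⧸ Q) = e (n : ZMod 5) := by
    intro n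
    show _ = ((x ^ ((n : ZMod 5)).val : G) : G ⧸ Q)
    rw [ZMod.val_natCast, ← hx, pow_mod_orderOf]
  have hinj : Function.Injective e := by
    intro u v huv
    have h1 : (x ^ u.val)⁻¹ * x ^ v.val ∈ Q := QuotientGroup.eq.1 huv
    have hu : u.val < 5 := ZMod.val_lt u
    have hv : v.val < 5 := ZMod.val_lt v
    have hinv : (x ^ u.val)⁻¹ = x ^ (5 - u.val) :=
      inv_eq_of_mul_eq_one_left (by rw [← pow_add, Nat.sub_add_cancel hu.le, h5])
    rw [hinv, ← pow_add] at h1
    have h2 := hxQ _ h1
    have h3 : 5 ∣ 5 - u.val + v.val := by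
      have h := orderOf_dvd_of_pow_eq_one h2
      rwa [hx] at h
    apply ZMod.val_injective
    omega
  have hbij : Function.Bijective e :=
    hinj.bijective_of_nat_card_le (by rw [Nat.card_zmod, ← Subgroup.index_eq_card, hQi])
  let E : ZMod 5 ≃ G ⧸ Q := Equiv.ofBijective e hbij
  let ι : G →* Equiv.Perm (ZMod 5) :=
    (E.symm.permCongrHom.toMonoidHom).comp (MulAction.toPermHom G (G ⧸ Q))
  have hι : ∀ (g : G) (v : ZMod 5), ι g v = E.symm (g • E v) := fun g v => rfl
  refine ⟨ι, ?_, ?_⟩
  · rw [Subgroup.normalCore_eq_ker]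
    ext g
    rw [MonoidHom.mem_ker, MonoidHom.mem_ker]
    show E.symm.permCongrHom (MulAction.toPermHom G (G ⧸ Q) g) = 1 ↔ _
    rw [MulEquiv.map_eq_one_iff]
  · intro g
    obtain ⟨k, hk, hk5⟩ := hconj g
    obtain ⟨c, hc⟩ : ∃ c : ZMod 5, E c = (g : G ⧸ Q) := ⟨E.symm (g : G ⧸ Q), E.apply_symm_apply _⟩
    refine ⟨(k : ZMod 5), c, ?_, ?_⟩
    · rw [Ne, ZMod.natCast_eq_zero_iff]
      exact hk5
    · intro v
      rw [hι]
      apply E.symm_apply_eq.2
      have hgv : g * x ^ v.val = x ^ (k * v.val) * g := by
        have h : (g * x * g⁻¹) ^ v.val = g * x ^ v.val * g⁻¹ := conj_pow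
        rw [hk, ← pow_mul] at h
        rw [h]
        group
      have hgc : (g : G ⧸ Q) = ((x ^ c.val : G) : G ⧸ Q) := hc.symm
      have step1 : g • ((x ^ v.val : G) : G ⧸ Q)
          = ((x ^ (k * v.val + c.val) : G) : G ⧸ Q) := by
        have h1 : g • ((x ^ v.val : G) : G ⧸ Q) = (((x ^ (k * v.val) : G) * g : G) : G ⧸ Q) := by
          rw [MulAction.Quotient.smul_mk, smul_eq_mul, hgv]
        have h2 : (((x ^ (k * v.val) : G) * g : G) : G ⧸ Q)
            = (x ^ (k * v.val) : G) • (g : G ⧸ Q) := by
          rw [MulAction.Quotient.smul_mk, smul_eq_mul]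
        rw [h1, h2, hgc, MulAction.Quotient.smul_mk, smul_eq_mul, ← pow_add]
      show g • ((x ^ v.val : G) : G ⧸ Q) = e ((k : ZMod 5) * v + c)
      rw [step1, hpow]
      congr 1
      push_cast
      rw [ZMod.natCast_zmod_val, ZMod.natCast_zmod_val]

/-- the structure of the groups of order twenty -/
theorem card_twenty_cases (hG : Nat.card G = 20) :
    HasAbelPrime G ∨ Group.IsNilpotent G ∨
      ∃ ι : G →* Equiv.Perm (ZMod 5), Function.Injective ι ∧
        ∀ g : G, ∃ l c : ZMod 5, l ≠ 0 ∧ ∀ v : ZMod 5, ι g v = l * v + c := by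
  have f5 : Fact (Nat.Prime 5) := ⟨by norm_num⟩
  have f2 : Fact (Nat.Prime 2) := ⟨Nat.prime_two⟩
  let P : Sylow 5 G := default
  have hP : Nat.card P = 5 := by
    have h := sylow_card P 1 4 (by rw [hG]; norm_num) (by norm_num)
    rw [pow_one] at h
    exact h
  have hPi : (P : Subgroup G).index = 4 := by
    have h := (P : Subgroup G).card_mul_index
    rw [hG] at h
    have h' : 5 * (P : Subgroup G).index = 20 := by
      rw [← h]
      congr 1
      exact hP.symm
    omega
  have hPcyc : IsCyclic (P : Subgroup G) := isCyclic_of_prime_card hP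
  have hPC : (P : Subgroup G) ≤ Subgroup.centralizer ((P : Subgroup G) : Set G) := by
    intro a ha b hb
    exact congrArg Subtype.val ((IsCyclic.isMulCommutative
      (α := (P : Subgroup G))).is_comm.comm ⟨b, hb⟩ ⟨a, ha⟩)
  have hNtop : Subgroup.normalizer ((P : Subgroup G) : Set G) = ⊤ := by
    have hidx : Nat.card (Sylow 5 G)
        = (Subgroup.normalizer ((P : Subgroup G) : Set G)).index := P.card_eq_index_normalizer
    rw [← Subgroup.index_eq_one, ← hidx]
    have hn : Nat.card (Sylow 5 G) ≡ 1 [MOD 5] := card_sylow_modEq_one 5 G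
    have hd : Nat.card (Sylow 5 G) ∣ 4 := by
      have h := P.card_dvd_index
      rwa [hPi] at h
    have hn' : Nat.card (Sylow 5 G) % 5 = 1 := hn
    have hle := Nat.le_of_dvd (by norm_num) hd
    generalize Nat.card (Sylow 5 G) = k at hd hn' hle ⊢
    interval_cases k <;> omega
  have hPn : (P : Subgroup G).Normal := Subgroup.normalizer_eq_top_iff.1 hNtop
  have key := Subgroup.card_dvd_of_injective _
    (QuotientGroup.kerLift_injective (P : Subgroup G).normalizerMonoidHom)
  rw [Subgroup.normalizerMonoidHom_ker, ← Subgroup.index, ← Subgroup.relIndex,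
    hPcyc.card_mulAut, hP, Nat.totient_prime (by norm_num), hNtop,
    Subgroup.relIndex_top_right] at key
  have hCmul := (Subgroup.centralizer ((P : Subgroup G) : Set G)).card_mul_index
  rw [hG] at hCmul
  obtain ⟨m, hm, hmi⟩ := (Nat.dvd_prime_pow Nat.prime_two).1
    (show (Subgroup.centralizer ((P : Subgroup G) : Set G)).index ∣ 2 ^ 2 from by
      norm_num at key ⊢
      exact key)
  interval_cases m
  · -- the Sylow subgroup is central
    right
    left
    rw [pow_zero] at hmi
    have hCtop : Subgroup.centralizer ((P : Subgroup G) : Set G) = ⊤ :=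
      Subgroup.index_eq_one.1 hmi
    have hcen : (P : Subgroup G) ≤ Subgroup.center G := by
      intro a ha
      rw [Subgroup.mem_center_iff]
      intro g
      have hg : g ∈ Subgroup.centralizer ((P : Subgroup G) : Set G) := by
        rw [hCtop]
        exact Subgroup.mem_top g
      exact ((Subgroup.mem_centralizer_iff.1 hg) a ha).symm
    have hq : Nat.card (G ⧸ (P : Subgroup G)) = 2 ^ 2 := by
      rw [← Subgroup.index_eq_card, hPi]
      norm_num
    have : Group.IsNilpotent (G ⧸ (P : Subgroup G)) := (IsPGroup.of_card hq).isNilpotent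
    exact Subgroup.isNilpotent_of_ker_le_center (QuotientGroup.mk' (P : Subgroup G))
      (by rw [QuotientGroup.ker_mk']; exact hcen)
  · -- the centralizer is abelian of index two
    left
    rw [pow_one] at hmi
    have hCc : Nat.card (Subgroup.centralizer ((P : Subgroup G) : Set G)) = 10 := by
      rw [hmi] at hCmul
      omega
    have hrel : (P : Subgroup G).relIndex (Subgroup.centralizer ((P : Subgroup G) : Set G))
        = 2 := by
      have h := Subgroup.relIndex_mul_relIndex (⊥ : Subgroup G) (P : Subgroup G)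
        (Subgroup.centralizer ((P : Subgroup G) : Set G)) bot_le hPC
      rw [Subgroup.relIndex_bot_left, Subgroup.relIndex_bot_left, hCc] at h
      have h' : 5 * (P : Subgroup G).relIndex
          (Subgroup.centralizer ((P : Subgroup G) : Set G)) = 10 := by
        rw [← h]
        congr 1
        exact hP.symm
      omega
    refine ⟨Subgroup.centralizer ((P : Subgroup G) : Set G),
      Subgroup.normal_of_index_eq_two hmi, ?_, ?_⟩
    · exact comm_of_relIndex_prime Nat.prime_two _ _
        (Subgroup.commutator_eq_bot_iff_le_centralizer.2 le_rfl) hrel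
    · rw [hmi]
      exact Nat.prime_two
  · -- the centralizer is the Sylow subgroup: the affine group
    right
    right
    have hmi' : (Subgroup.centralizer ((P : Subgroup G) : Set G)).index = 4 := by
      rw [hmi]
      norm_num
    have hCc : Nat.card (Subgroup.centralizer ((P : Subgroup G) : Set G)) = 5 := by
      rw [hmi'] at hCmul
      omega
    have hCP : (P : Subgroup G) = Subgroup.centralizer ((P : Subgroup G) : Set G) :=
      Subgroup.eq_of_le_of_card_ge hPC (by rw [hCc]; exact hP.ge)
    let Q : Sylow 2 G := default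
    have hQ : Nat.card Q = 4 := by
      have h := sylow_card Q 2 5 (by rw [hG]; norm_num) (by norm_num)
      norm_num at h
      exact h
    have hQi : (Q : Subgroup G).index = 5 := by
      have h := (Q : Subgroup G).card_mul_index
      rw [hG] at h
      have h' : 4 * (Q : Subgroup G).index = 20 := by
        rw [← h]
        congr 1
        exact hQ.symm
      omega
    have hdis : (P : Subgroup G) ⊓ (Q : Subgroup G) = ⊥ := by
      rw [← Subgroup.card_eq_one]
      have h1 : Nat.card ((P : Subgroup G) ⊓ (Q : Subgroup G) : Subgroup G) ∣ 5 := by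
        have h := Subgroup.card_dvd_of_le
          (inf_le_left : (P : Subgroup G) ⊓ (Q : Subgroup G) ≤ (P : Subgroup G))
        rwa [hP] at h
      have h2 : Nat.card ((P : Subgroup G) ⊓ (Q : Subgroup G) : Subgroup G) ∣ 4 := by
        have h := Subgroup.card_dvd_of_le
          (inf_le_right : (P : Subgroup G) ⊓ (Q : Subgroup G) ≤ (Q : Subgroup G))
        rwa [hQ] at h
      exact Nat.dvd_one.1 (Nat.dvd_gcd h1 h2)
    obtain ⟨gx, hgx⟩ := IsCyclic.exists_generator (α := (P : Subgroup G))
    have hox : orderOf (gx : G) = 5 := by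
      rw [Subgroup.orderOf_coe, orderOf_eq_card_of_forall_mem_zpowers hgx, hP]
    have hxQ : ∀ n : ℕ, (gx : G) ^ n ∈ (Q : Subgroup G) → (gx : G) ^ n = 1 := by
      intro n hn
      have : (gx : G) ^ n ∈ (P : Subgroup G) ⊓ (Q : Subgroup G) :=
        ⟨(P : Subgroup G).pow_mem gx.2 n, hn⟩
      rw [hdis] at this
      exact Subgroup.mem_bot.1 this
    have hconj : ∀ g : G, ∃ k : ℕ, g * (gx : G) * g⁻¹ = (gx : G) ^ k ∧ ¬ 5 ∣ k := by
      intro g
      have hmem : g * (gx : G) * g⁻¹ ∈ (P : Subgroup G) := hPn.conj_mem _ gx.2 g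
      have hz := hgx ⟨g * (gx : G) * g⁻¹, hmem⟩
      rw [← mem_powers_iff_mem_zpowers, Submonoid.mem_powers_iff] at hz
      obtain ⟨k, hk⟩ := hz
      have hk' : (gx : G) ^ k = g * (gx : G) * g⁻¹ := by
        have := congrArg Subtype.val hk
        rw [Subgroup.coe_pow] at this
        exact this
      refine ⟨k, hk'.symm, ?_⟩
      intro h5
      have h1 : (gx : G) ^ k = 1 := by
        rw [← hox] at h5
        exact orderOf_dvd_iff_pow_eq_one.1 h5
      rw [hk'] at h1
      have h2 : (gx : G) = 1 := by
        have := congrArg (fun y => g⁻¹ * y * g) h1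
        simpa [mul_assoc] using this
      rw [h2, orderOf_one] at hox
      norm_num at hox
    obtain ⟨ι, hker, haff⟩ := coset_affine (gx : G) hox (Q : Subgroup G) hQi hxQ hconj
    refine ⟨ι, ?_, haff⟩
    rw [← MonoidHom.ker_eq_bot_iff, hker, eq_bot_iff]
    intro k hk
    have hkQ : k ∈ (Q : Subgroup G) := Subgroup.normalCore_le _ hk
    have hdisj : Disjoint (Q : Subgroup G).normalCore (P : Subgroup G) := by
      rw [disjoint_iff, eq_bot_iff, ← hdis]
      exact le_inf inf_le_right (inf_le_left.trans (Subgroup.normalCore_le _))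
    have hkC : k ∈ Subgroup.centralizer ((P : Subgroup G) : Set G) := by
      rw [Subgroup.mem_centralizer_iff]
      intro a ha
      exact (Subgroup.commute_of_normal_of_disjoint _ _ (Subgroup.normalCore_normal _) hPn
        hdisj k a hk ha).eq.symm
    rw [← hCP] at hkC
    have : k ∈ (P : Subgroup G) ⊓ (Q : Subgroup G) := ⟨hkC, hkQ⟩
    rw [hdis] at this
    exact this

end twenty

/-- transfer along an embedding of groups -/
theorem gsh_of_embedding {α : Type} {G H : Type} [Group G] [Group H] (ι : G →* H)
    (hι : Function.Injective ι) (φ : α → G) (P : Set G)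
    (h : GSHLe 1 ({w | (w.map (fun x => ι (φ x))).prod ∈ ι '' P} : Language α)) :
    GSHLe 1 ({w | (w.map φ).prod ∈ P} : Language α) := by
  refine h.of_iff (fun w => ?_)
  show (w.map (fun x => ι (φ x))).prod ∈ ι '' P ↔ (w.map φ).prod ∈ P
  have e : (w.map (fun x => ι (φ x))).prod = ι ((w.map φ).prod) := by
    rw [map_list_prod, List.map_map]
    rfl
  rw [e]
  exact hι.mem_set_image

/-- **Groups of order twenty.** If every language recognized by the group of the affine maps
`v ↦ l * v + c` (`l ≠ 0`) of `Z / 5` over the alphabet `α` has generalized star height at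
most one, then so has every language over `α` recognized by a group of order `20`. -/
theorem gsh_card_twenty {α : Type} [DecidableEq α] [Fintype α]
    (hF : ∀ σ : α → Equiv.Perm (ZMod 5),
      (∀ x, ∃ l c : ZMod 5, l ≠ 0 ∧ ∀ v, σ x v = l * v + c) →
      ∀ P : Set (Equiv.Perm (ZMod 5)), GSHLe 1 ({w | (w.map σ).prod ∈ P} : Language α))
    {G : Type} [Group G] [Finite G] (hG : Nat.card G = 20) (φ : α → G) (P : Set G) :
    GSHLe 1 ({w | (w.map φ).prod ∈ P} : Language α) := by
  rcases card_twenty_cases hG with ⟨N, hN, hc, hi⟩ | h | ⟨ι, hι, haff⟩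
  · exact abel_prime_finite N hc hi φ P
  · refine gsh_nilpotent_sixth_power_free (fun p hp hdvd => ?_) φ P
    rw [hG] at hdvd
    have h1 := Nat.le_of_dvd (by norm_num) hdvd
    have h2 : 2 ^ 6 ≤ p ^ 6 := Nat.pow_le_pow_left hp.two_le 6
    omega
  · exact gsh_of_embedding ι hι φ P (hF (fun x => ι (φ x)) (fun x => haff (φ x)) (ι '' P))

/-- **Groups with at most twenty-three elements.** If every language recognized by the group
of the affine maps of `Z / 5` over the alphabet `α` has generalized star height at most one,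
then so has every language over `α` recognized by a group with at most `23` elements. -/
theorem gsh_card_le_twenty_three_of_affine {α : Type} [DecidableEq α] [Fintype α]
    (hF : ∀ σ : α → Equiv.Perm (ZMod 5),
      (∀ x, ∃ l c : ZMod 5, l ≠ 0 ∧ ∀ v, σ x v = l * v + c) →
      ∀ P : Set (Equiv.Perm (ZMod 5)), GSHLe 1 ({w | (w.map σ).prod ∈ P} : Language α))
    {G : Type} [Group G] [Finite G] (h : Nat.card G ≤ 23) (φ : α → G) (P : Set G) :
    GSHLe 1 ({w | (w.map φ).prod ∈ P} : Language α) := by
  by_cases h20 : Nat.card G = 20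
  · exact gsh_card_twenty hF h20 φ P
  · exact gsh_card_le_twenty_three h h20 φ P

end Vale.Agent.Lib.P329
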