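import Vale.Agent.Lib.P329.OrderTwenty
import Vale.Agent.Lib.P329.AffTwo

/-!
# Groups with at most twenty-three elements: two letters, or no letter of order two

`OrderTwenty.lean` reduces the groups of order `20` to the group of the affine maps of `Z / 5`
(the Frobenius group of order `20`), and `AffFive.lean`, `AffTwo.lean` treat the maps of the
letters into that group that avoid the involutions, and all maps of an alphabet with at most
two letters. Together with `gsh_card_le_twenty_three` this gives: every language recognized by
a group `G` with at most `23` elements through a map `φ` of the letters has generalized star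
height at most one, provided that the order of `G` is not `20`, or the alphabet has at most two
letters, or no letter is sent to an element of order two.
-/

namespace Vale.Agent.Lib.P329

/-- an element of a group embedded into the affine group of `Z / 5` that does not have order
two is not sent to an involution `v ↦ 4 * v + c` -/
theorem affine_no_inv {G : Type} [Group G] (ι : G →* Equiv.Perm (ZMod 5))
    (hι : Function.Injective ι) (g : G) (hg : orderOf g ≠ 2)
    (h : ∃ l c : ZMod 5, l ≠ 0 ∧ ∀ v : ZMod 5, ι g v = l * v + c) :
    ∃ l c : ZMod 5, (l = 1 ∨ l = 2 ∨ l = 3) ∧ ∀ v : ZMod 5, ι g v = l * v + c := by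
  obtain ⟨l, c, hl, hv⟩ := h
  rcases af_units l hl with h1 | h2 | h3 | h4
  · exact ⟨l, c, Or.inl h1, hv⟩
  · exact ⟨l, c, Or.inr (Or.inl h2), hv⟩
  · exact ⟨l, c, Or.inr (Or.inr h3), hv⟩
  · exfalso
    subst h4
    have hsq : g ^ 2 = 1 := by
      apply hι
      rw [map_pow, map_one]
      refine Equiv.ext (fun v => ?_)
      rw [pow_two, Equiv.Perm.mul_apply, hv, hv, Equiv.Perm.one_apply]
      have key : ∀ v c : ZMod 5, 4 * (4 * v + c) + c = v := by decide
      exact key v c
    have hd : orderOf g ∣ 2 := orderOf_dvd_of_pow_eq_one hsq
    rcases (Nat.dvd_prime Nat.prime_two).1 hd with h1 | h2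
    · rw [orderOf_eq_one_iff] at h1
      subst h1
      have h0 := hv 0
      have h1' := hv 1
      rw [map_one ι, Equiv.Perm.one_apply] at h0 h1'
      have key : ∀ c : ZMod 5, (0 : ZMod 5) = 4 * 0 + c → (1 : ZMod 5) = 4 * 1 + c → False := by
        decide
      exact key c h0 h1'
    · exact hg h2

/-- **Groups with at most twenty-three elements.** Let `G` be a group with at most `23`
elements and `φ` a map from the letters to `G`. If the order of `G` is `20`, assume that no
letter is sent to an element of order two, or that the alphabet has at most two letters. Then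
the words whose product lies in a given subset of `G` form a language of generalized star
height at most one. -/
theorem gsh_card_le_twenty_three_gen {α : Type} [Fintype α] [DecidableEq α]
    {G : Type} [Group G] [Finite G] (h : Nat.card G ≤ 23) (φ : α → G)
    (hφ : Nat.card G = 20 → (∀ x, orderOf (φ x) ≠ 2) ∨ ∃ a b : α, ∀ x, x = a ∨ x = b)
    (P : Set G) : GSHLe 1 ({w | (w.map φ).prod ∈ P} : Language α) := by
  by_cases h20 : Nat.card G = 20
  · rcases card_twenty_cases h20 with ⟨N, hN, hc, hi⟩ | hn | ⟨ι, hι, haff⟩
    · exact abel_prime_finite N hc hi φ P
    · refine gsh_nilpotent_sixth_power_free (fun p hp hdvd => ?_) φ P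
      rw [h20] at hdvd
      have h1 := Nat.le_of_dvd (by norm_num) hdvd
      have h2 : 2 ^ 6 ≤ p ^ 6 := Nat.pow_le_pow_left hp.two_le 6
      omega
    · refine gsh_of_embedding ι hι φ P ?_
      rcases hφ h20 with hno | ⟨a, b, hab⟩
      · exact gsh_affine_five (fun x => ι (φ x))
          (fun x => affine_no_inv ι hι (φ x) (hno x) (haff (φ x))) _
      · exact gsh_affine_five_two (fun x => ι (φ x)) (fun x => haff (φ x)) a b hab _
  · exact gsh_card_le_twenty_three h h20 φ P

/-- **Two letters.** Every language over an alphabet with at most two letters that is
recognized by a group with at most `23` elements has generalized star height at most one. -/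
theorem gsh_card_le_twenty_three_two {α : Type} [Fintype α] [DecidableEq α]
    (a b : α) (hab : ∀ x, x = a ∨ x = b)
    {G : Type} [Group G] [Finite G] (h : Nat.card G ≤ 23) (φ : α → G) (P : Set G) :
    GSHLe 1 ({w | (w.map φ).prod ∈ P} : Language α) :=
  gsh_card_le_twenty_three_gen h φ (fun _ => Or.inr ⟨a, b, hab⟩) P

/-- **No letter of order two.** Let `G` be a group with at most `23` elements and `φ` a map
from the letters to `G` that sends no letter to an element of order two. Then the words whose
product lies in a given subset of `G` form a language of generalized star height at most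
one. -/
theorem gsh_card_le_twenty_three_no_inv {α : Type} [Fintype α] [DecidableEq α]
    {G : Type} [Group G] [Finite G] (h : Nat.card G ≤ 23) (φ : α → G)
    (hφ : ∀ x, orderOf (φ x) ≠ 2) (P : Set G) :
    GSHLe 1 ({w | (w.map φ).prod ∈ P} : Language α) :=
  gsh_card_le_twenty_three_gen h φ (fun _ => Or.inl hφ) P

end Vale.Agent.Lib.P329
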