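import Vale.Agent.Lib.P329.LocalDiv
import Vale.Agent.Lib.P329.BlockSubst

/-!
# Schützenberger's theorem (the direction aperiodic ⇒ star-free)

Every language recognized by a finite aperiodic monoid is star-free. The proof is the
local-divisor induction of Diekert and Kufleitner.
-/

namespace Vale.Agent.Lib.P329

open Language

/-- Splitting a word at the last occurrence of the letter `c`. -/
theorem split_last {α : Type} [DecidableEq α] (c : α) (l : List α) :
    ∃ w' v : List α, l = w' ++ v ∧ c ∉ v ∧ (w' = [] ∨ ∃ u, w' = u ++ [c]) := by
  induction l using List.reverseRecOn with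
  | nil => exact ⟨[], [], rfl, by simp, Or.inl rfl⟩
  | append_singleton l x ih =>
    by_cases hx : x = c
    · subst hx
      exact ⟨l ++ [x], [], by simp, by simp, Or.inr ⟨l, rfl⟩⟩
    · obtain ⟨w', v, hl, hv, hw'⟩ := ih
      refine ⟨w', v ++ [x], ?_, ?_, hw'⟩
      · rw [hl, List.append_assoc]
      · intro hmem
        rw [List.mem_append] at hmem
        rcases hmem with h | h
        · exact hv h
        · rw [List.mem_singleton] at h
          exact hx h.symm

/-- Splitting a word containing the letter `c` at its first and its last occurrence. -/
theorem split_first_last {α : Type} [DecidableEq α] (c : α) (w : List α) (hc : c ∈ w) :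
    ∃ u w' v : List α, w = u ++ [c] ++ w' ++ v ∧ c ∉ u ∧ c ∉ v ∧
      (w' = [] ∨ ∃ s, w' = s ++ [c]) := by
  induction w with
  | nil => simp at hc
  | cons x w ih =>
    by_cases hx : x = c
    · subst hx
      obtain ⟨w', v, hl, hv, hw'⟩ := split_last x w
      exact ⟨[], w', v, by simp [hl], by simp, hv, hw'⟩
    · have hc' : c ∈ w := by
        rcases List.mem_cons.mp hc with h | h
        · exact absurd h.symm hx
        · exact h
      obtain ⟨u, w', v, hw, hu, hv, hw'⟩ := ih hc'
      refine ⟨x :: u, w', v, by simp [hw], ?_, hv, hw'⟩
      intro hmem
      rcases List.mem_cons.mp hmem with h | h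
      · exact hx h.symm
      · exact hu h

/-- The words over the sub-alphabet `B` whose image under `φ` is `p`. -/
def wordsTo {α M : Type} [Monoid M] (φ : α → M) (B : Finset α) (p : M) : Language α :=
  {w | (∀ x ∈ w, x ∈ B) ∧ (w.map φ).prod = p}

/-- The block words whose block image is mapped to `d` by `ld`. -/
def blkTo {α M D : Type} [DecidableEq α] [Monoid M] [Monoid D] (φ : α → M) (c : α)
    (B' : Finset α) (ld : M → D) (d : D) : Language α :=
  {w | InBlk B' c w ∧ ((blockimg φ c 1 w).map ld).prod = d}

theorem schutz_aux (k : ℕ) : ∀ (M : Type) [Monoid M] [Finite M], Nat.card M ≤ k →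
    (∀ x : M, ∃ n : ℕ, x ^ n = x ^ (n + 1)) →
    ∀ (α : Type) [Fintype α] [DecidableEq α] (φ : α → M) (B : Finset α) (p : M),
      GSHLe 0 ({w | (∀ x ∈ w, x ∈ B) ∧ (w.map φ).prod = p} : Language α) := by
  induction k with
  | zero =>
    intro M _ _ hcard
    have : 0 < Nat.card M := Nat.card_pos
    omega
  | succ k ih =>
    intro M _ _ hcard hM α _ _ φ B
    induction B using Finset.strongInduction with
    | H B ihB =>
      intro p
      by_cases hall : ∀ x ∈ B, φ x = 1
      · -- all letters of `B` are mapped to the identity
        have hprod : ∀ w : List α, (∀ x ∈ w, x ∈ B) → (w.map φ).prod = 1 := by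
          intro w hw
          induction w with
          | nil => simp
          | cons x w ihw =>
            rw [List.map_cons, List.prod_cons, hall x (hw x (by simp)),
              ihw (fun y hy => hw y (by simp [hy])), one_mul]
        by_cases hp : p = 1
        · refine (gsh_allIn 0 B).of_iff (fun w => ?_)
          constructor
          · intro hw
            exact ⟨hw, by rw [hprod w hw, hp]⟩
          · intro hw
            exact hw.1
        · refine (gsh_zero 0).of_iff (fun w => ?_)
          constructor
          · intro hw
            exact absurd hw (Language.notMem_zero w)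
          · intro hw
            exact absurd ((hprod w hw.1).symm.trans hw.2).symm hp
      · -- some letter `c` of `B` is not mapped to the identity
        obtain ⟨c, hcB, hc1⟩ : ∃ c ∈ B, φ c ≠ 1 := by
          by_contra hne
          exact hall (fun x hx => by
            by_contra hx1
            exact hne ⟨x, hx, hx1⟩)
        have hcB' : c ∉ B.erase c := Finset.notMem_erase c B
        have hB' : ∀ t : M, GSHLe 0 (wordsTo φ (B.erase c) t) :=
          fun t => ihB (B.erase c) (Finset.erase_ssubset hcB) t
        obtain ⟨D, instD, finD, emb, ld, hcardD, hD, -, hkey⟩ :=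
          exists_local_divisor hM (φ c) hc1
        have hK : ∀ d : D, GSHLe 0 ({v | (v.map ld).prod = d} : Language M) := by
          intro d
          have h1 := @ih D instD finD (by omega) hD M (Fintype.ofFinite M) (Classical.decEq M)
            ld (@Finset.univ M (Fintype.ofFinite M)) d
          refine h1.of_iff (fun v => ?_)
          constructor
          · intro hv
            exact hv.2
          · intro hv
            exact ⟨fun x _ => @Finset.mem_univ M (Fintype.ofFinite M) x, hv⟩
        have hS : ∀ d : D, GSHLe 0 (blkTo φ c (B.erase c) ld d) :=
          fun d => sigma_sf φ c (B.erase c) hcB' hB' _ (hK d)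
        classical
        have := Fintype.ofFinite M
        have := Fintype.ofFinite D
        have hmain : GSHLe 0 (wordsTo φ (B.erase c) p
            + ∑ t ∈ (Finset.univ : Finset (M × D × M)).filter
                (fun t => t.1 * emb t.2.1 * t.2.2 = p),
              wordsTo φ (B.erase c) t.1 * ({[c]} : Language α) *
              blkTo φ c (B.erase c) ld t.2.1 * wordsTo φ (B.erase c) t.2.2) := by
          refine (hB' p).add (gsh_sum _ _ (fun t _ => ?_))
          exact (((hB' t.1).mul (gsh_letter 0 c)).mul (hS t.2.1)).mul (hB' t.2.2)
        refine hmain.of_iff (fun w => ?_)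
        rw [Language.mem_add, mem_sum_iff]
        constructor
        · rintro (hw | ⟨t, ht, hw⟩)
          · exact ⟨fun x hx => Finset.mem_of_mem_erase (hw.1 x hx), hw.2⟩
          · rw [Finset.mem_filter] at ht
            rw [Language.mem_mul] at hw
            obtain ⟨w1, hw1, v, hv, rfl⟩ := hw
            rw [Language.mem_mul] at hw1
            obtain ⟨w2, hw2, w', hw', rfl⟩ := hw1
            rw [Language.mem_mul] at hw2
            obtain ⟨u, hu, cc, hcc, rfl⟩ := hw2
            have hcc' : cc = [c] := hcc
            subst hcc'
            have hu' : (∀ x ∈ u, x ∈ B.erase c) ∧ (u.map φ).prod = t.1 := hu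
            have hv' : (∀ x ∈ v, x ∈ B.erase c) ∧ (v.map φ).prod = t.2.2 := hv
            have hw'' : InBlk (B.erase c) c w' ∧ ((blockimg φ c 1 w').map ld).prod = t.2.1 := hw'
            constructor
            · intro x hx
              simp only [List.mem_append, List.mem_singleton] at hx
              rcases hx with ((hx | hx) | hx) | hx
              · exact Finset.mem_of_mem_erase (hu'.1 x hx)
              · rw [hx]
                exact hcB
              · rcases hw''.1.1 x hx with h | h
                · rw [h]
                  exact hcB
                · exact Finset.mem_of_mem_erase h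
              · exact Finset.mem_of_mem_erase (hv'.1 x hx)
            · have e1 : φ c * (w'.map φ).prod = emb t.2.1 := by
                rw [prod_blockimg φ c (B.erase c) hcB' w' hw''.1, ← hkey, hw''.2]
              simp only [List.map_append, List.prod_append, List.map_cons, List.map_nil,
                List.prod_cons, List.prod_nil, mul_one]
              rw [hu'.2, hv'.2, mul_assoc t.1, e1]
              exact ht.2
        · rintro ⟨hwB, hwp⟩
          by_cases hcw : c ∈ w
          · right
            obtain ⟨u, w', v, rfl, hu, hv, hw'⟩ := split_first_last c w hcw
            have hxu : ∀ x ∈ u, x ∈ B.erase c := by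
              intro x hx
              refine Finset.mem_erase.mpr ⟨?_, hwB x (by simp [hx])⟩
              rintro rfl
              exact hu hx
            have hxv : ∀ x ∈ v, x ∈ B.erase c := by
              intro x hx
              refine Finset.mem_erase.mpr ⟨?_, hwB x (by simp [hx])⟩
              rintro rfl
              exact hv hx
            have hblk : InBlk (B.erase c) c w' := by
              refine ⟨?_, hw'⟩
              intro x hx
              by_cases hxc : x = c
              · exact Or.inl hxc
              · exact Or.inr (Finset.mem_erase.mpr ⟨hxc, hwB x (by simp [hx])⟩)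
            have e1 : φ c * (w'.map φ).prod = emb (((blockimg φ c 1 w').map ld).prod) := by
              rw [prod_blockimg φ c (B.erase c) hcB' w' hblk, ← hkey]
            refine ⟨((u.map φ).prod, ((blockimg φ c 1 w').map ld).prod, (v.map φ).prod), ?_, ?_⟩
            · rw [Finset.mem_filter]
              refine ⟨Finset.mem_univ _, ?_⟩
              show (u.map φ).prod * emb (((blockimg φ c 1 w').map ld).prod) * (v.map φ).prod = p
              rw [← e1, ← hwp]
              simp only [List.map_append, List.prod_append, List.map_cons, List.map_nil,
                List.prod_cons, List.prod_nil, mul_one, mul_assoc]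
            · rw [Language.mem_mul]
              refine ⟨u ++ [c] ++ w', ?_, v, ⟨hxv, rfl⟩, rfl⟩
              rw [Language.mem_mul]
              refine ⟨u ++ [c], ?_, w', ⟨hblk, rfl⟩, rfl⟩
              rw [Language.mem_mul]
              exact ⟨u, ⟨hxu, rfl⟩, [c], rfl, rfl⟩
          · left
            refine ⟨?_, hwp⟩
            intro x hx
            refine Finset.mem_erase.mpr ⟨?_, hwB x hx⟩
            rintro rfl
            exact hcw hx

/-- **Schützenberger's theorem**, the direction aperiodic ⇒ star-free: the preimage of a point
under a morphism into a finite aperiodic monoid has generalized star height `0`. -/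
theorem schutzenberger {α : Type} [Fintype α] [DecidableEq α] {M : Type} [Monoid M] [Finite M]
    (hM : ∀ x : M, ∃ n : ℕ, x ^ n = x ^ (n + 1)) (φ : α → M) (p : M) :
    GSHLe 0 ({w | (w.map φ).prod = p} : Language α) := by
  have h := schutz_aux (Nat.card M) M le_rfl hM α φ Finset.univ p
  refine h.of_iff (fun w => ?_)
  constructor
  · intro hw
    exact hw.2
  · intro hw
    exact ⟨fun x _ => Finset.mem_univ x, hw⟩

end Vale.Agent.Lib.P329
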