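import Vale.Agent.Lib.P329.WreathGen
import Vale.Agent.Lib.P329.Schutz

/-!
# Cascades over partially ordered automata: every level of the star-height hierarchy is closed

Let `step` be a deterministic automaton on a finite state set `Q` that is *partially ordered*:
a run that returns to the state in which it started never left it (`hpo`), and all of whose path
languages are star-free (`hrun`). Annotate every letter of a word with the state in which the
automaton reads it (`annot`). Then for **every** `n` and every language `K'` of generalized star
height at most `n` over the annotated alphabet `α × Q`, the language of all words whose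
annotation lies in `K'` has generalized star height at most `n` (`gsh_annot_po`). The point is
the star: the loops at a state of a partially ordered automaton form a submonoid, so
`{w | annot q w ∈ K∗}` is `Loop_q∗ (1 + ∑_{q' ≠ q} Move_{q,q'} T_{q'})` with one star over a
language of the height of `K`.

In the language of wreath products (`gsh_wrm_rtriv`): if every language recognized by the finite
monoid `X` has height at most `n` and `Y` is a finite `R`-trivial monoid, then every language
recognized by the wreath product `WrM X Y` has height at most `n`.
-/

namespace Vale.Agent.Lib.P329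

open Language

variable {α : Type}

theorem GSHLe.kstar_succ {n : ℕ} {L : Language α} (hL : GSHLe n L) :
    GSHLe (n + 1) (KStar.kstar L) := by
  obtain ⟨e, he, rfl⟩ := hL
  exact ⟨GRE.star e, Nat.succ_le_succ he, rfl⟩

theorem kstar_cons_mem {β : Type} {K : Language β} {a b : List β} (ha : a ∈ K)
    (hb : b ∈ KStar.kstar K) : a ++ b ∈ KStar.kstar K := by
  rw [Language.mem_kstar] at hb ⊢
  obtain ⟨S, rfl, hS⟩ := hb
  refine ⟨a :: S, by rw [List.flatten_cons], ?_⟩
  intro y hy
  rcases List.mem_cons.mp hy with rfl | hy
  · exact ha
  · exact hS y hy

/-- the states reachable from `q` -/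
def reach {Q : Type} (step : Q → α → Q) (q : Q) : Set Q :=
  {q' | ∃ u : List α, u.foldl step q = q'}

theorem reach_self {Q : Type} (step : Q → α → Q) (q : Q) : q ∈ reach step q := ⟨[], rfl⟩

theorem reach_ssubset {Q : Type} (step : Q → α → Q)
    (hpo : ∀ (q : Q) (u v : List α), (u ++ v).foldl step q = q → u.foldl step q = q)
    {q q' : Q} (hq' : q' ∈ reach step q) (hne : q' ≠ q) : reach step q' ⊂ reach step q := by
  obtain ⟨u, hu⟩ := hq'
  rw [Set.ssubset_def]
  constructor
  · rintro q'' ⟨v, hv⟩
    refine ⟨u ++ v, ?_⟩
    rw [List.foldl_append, hu, hv]
  · intro hsub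
    obtain ⟨v, hv⟩ := hsub (reach_self step q)
    have h1 : (u ++ v).foldl step q = q := by rw [List.foldl_append, hu, hv]
    have h2 := hpo q u v h1
    exact hne (hu.symm.trans h2)

/-- the words read from `q` along a run ending in `q'` whose annotation from `q` lies in `K` -/
def moveLang {Q : Type} (step : Q → α → Q) (K : Language (α × Q)) (q q' : Q) : Language α :=
  {w | annot step q w ∈ K ∧ w.foldl step q = q'}

/-- the words whose annotation from `q` lies in `K∗` -/
def annStar {Q : Type} (step : Q → α → Q) (K : Language (α × Q)) (q : Q) : Language α :=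
  {w | annot step q w ∈ KStar.kstar K}

/-- a product of loops at `q` followed by a word whose annotation from `q` is in `K∗` -/
theorem annStar_of_decomp {Q : Type} (step : Q → α → Q) (K : Language (α × Q)) (q : Q)
    (r : List α) (hr : annot step q r ∈ KStar.kstar K) :
    ∀ (S : List (List α)),
      (∀ y ∈ S, y ∈ moveLang step K q q) →
      annot step q (S.flatten ++ r) ∈ KStar.kstar K := by
  intro S
  induction S with
  | nil =>
    intro _
    rw [List.flatten_nil, List.nil_append]
    exact hr
  | cons y S ih =>
    intro hS
    have hy : annot step q y ∈ K ∧ y.foldl step q = q := hS y (List.mem_cons.mpr (Or.inl rfl))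
    have hS' : ∀ z ∈ S, z ∈ moveLang step K q q :=
      fun z hz => hS z (List.mem_cons.mpr (Or.inr hz))
    rw [List.flatten_cons, List.append_assoc, annot_append, hy.2]
    exact kstar_cons_mem hy.1 (ih hS')

/-- every word whose annotation from `q` is in `K∗` is a product of loops at `q`, followed by
nothing or by a move to another state and a word whose annotation from there is in `K∗` -/
theorem decomp_of_annStar {Q : Type} (step : Q → α → Q) (K : Language (α × Q)) (q : Q) :
    ∀ (S : List (List (α × Q))), (∀ y ∈ S, y ∈ K) → ∀ w : List α, annot step q w = S.flatten →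
      ∃ l r, w = l ++ r ∧
        l ∈ KStar.kstar (moveLang step K q q) ∧
        (r = [] ∨ ∃ m t, r = m ++ t ∧ annot step q m ∈ K ∧ m.foldl step q ≠ q ∧
            annot step (m.foldl step q) t ∈ KStar.kstar K) := by
  intro S
  induction S with
  | nil =>
    intro _ w hw
    have hw' : w = [] := by
      have h := congrArg List.length hw
      rw [annot_length, List.flatten_nil, List.length_nil] at h
      exact List.eq_nil_of_length_eq_zero h
    refine ⟨[], [], by rw [hw']; rfl, Language.nil_mem_kstar _, Or.inl rfl⟩
  | cons y S ih =>
    intro hS w hw
    rw [List.flatten_cons] at hw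
    obtain ⟨u, v, rfl, hu, hv⟩ := annot_split step q w y S.flatten hw
    have hyK : y ∈ K := hS y (List.mem_cons.mpr (Or.inl rfl))
    have hS' : ∀ z ∈ S, z ∈ K := fun z hz => hS z (List.mem_cons.mpr (Or.inr hz))
    by_cases hq : u.foldl step q = q
    · rw [hq] at hv
      obtain ⟨l, r, hlr, hl, hr⟩ := ih hS' v hv
      refine ⟨u ++ l, r, by rw [hlr, List.append_assoc], ?_, hr⟩
      have hu' : u ∈ moveLang step K q q := by
        refine ⟨?_, hq⟩
        rw [hu]
        exact hyK
      exact kstar_cons_mem hu' hl
    · refine ⟨[], u ++ v, rfl, Language.nil_mem_kstar _, Or.inr ⟨u, v, rfl, ?_, hq, ?_⟩⟩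
      · rw [hu]
        exact hyK
      · rw [hv, Language.mem_kstar]
        exact ⟨S, rfl, hS'⟩

theorem gsh_annot_po_aux {Q : Type} [Fintype Q] (step : Q → α → Q)
    (hpo : ∀ (q : Q) (u v : List α), (u ++ v).foldl step q = q → u.foldl step q = q)
    (hrun : ∀ q q' : Q, GSHLe 0 ({w | w.foldl step q = q'} : Language α)) :
    ∀ e : GRE (α × Q), ∀ q : Q,
      GSHLe e.height ({w | annot step q w ∈ e.lang} : Language α) := by
  classical
  intro e
  induction e with
  | zero =>
    intro q
    refine (gsh_zero 0).of_iff (fun w => ?_)
    constructor
    · intro h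
      exact absurd h (Language.notMem_zero w)
    · intro h
      exact absurd (show annot step q w ∈ (0 : Language (α × Q)) from h) (Language.notMem_zero _)
  | one =>
    intro q
    refine (gsh_one 0).of_iff (fun w => ?_)
    show w ∈ (1 : Language α) ↔ annot step q w ∈ (1 : Language (α × Q))
    rw [Language.mem_one, Language.mem_one]
    cases w with
    | nil => exact ⟨fun _ => rfl, fun _ => rfl⟩
    | cons x w =>
      constructor
      · intro h
        exact absurd h (List.cons_ne_nil _ _)
      · intro h
        rw [annot_cons] at h
        exact absurd h (List.cons_ne_nil _ _)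
  | letter a =>
    intro q
    obtain ⟨x, q'⟩ := a
    by_cases hq : q' = q
    · subst hq
      refine (gsh_letter 0 x).of_iff (fun w => ?_)
      show w = [x] ↔ annot step q' w = [(x, q')]
      cases w with
      | nil =>
        constructor
        · intro h
          exact absurd h.symm (List.cons_ne_nil _ _)
        · intro h
          rw [annot_nil] at h
          exact absurd h.symm (List.cons_ne_nil _ _)
      | cons y w =>
        cases w with
        | nil =>
          rw [annot_cons, annot_nil]
          constructor
          · intro h
            have hy : y = x := by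
              have := List.head_eq_of_cons_eq h
              exact this
            rw [hy]
          · intro h
            have hy : (y, q') = (x, q') := List.head_eq_of_cons_eq h
            have hy' : y = x := congrArg Prod.fst hy
            rw [hy']
        | cons z w =>
          constructor
          · intro h
            have := congrArg List.length h
            simp at this
          · intro h
            have := congrArg List.length h
            rw [annot_cons, annot_cons] at this
            simp at this
    · refine (gsh_zero 0).of_iff (fun w => ?_)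
      constructor
      · intro h
        exact absurd h (Language.notMem_zero w)
      · intro h
        exfalso
        have h' : annot step q w = [(x, q')] := h
        cases w with
        | nil =>
          rw [annot_nil] at h'
          exact absurd h'.symm (List.cons_ne_nil _ _)
        | cons y w =>
          rw [annot_cons] at h'
          have hy : (y, q) = (x, q') := List.head_eq_of_cons_eq h'
          exact hq (congrArg Prod.snd hy).symm
  | union p r ihp ihr =>
    intro q
    have h1 : GSHLe (max p.height r.height) ({w | annot step q w ∈ p.lang} : Language α) :=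
      (ihp q).mono (le_max_left _ _)
    have h2 : GSHLe (max p.height r.height) ({w | annot step q w ∈ r.lang} : Language α) :=
      (ihr q).mono (le_max_right _ _)
    refine (h1.add h2).of_iff (fun w => ?_)
    exact Iff.rfl
  | concat p r ihp ihr =>
    intro q
    let L1 : Q → Language α := fun q' => {w | annot step q w ∈ p.lang}
    let L2 : Q → Language α := fun q' => {w | w.foldl step q = q'}
    let L3 : Q → Language α := fun q' => {w | annot step q' w ∈ r.lang}
    have hL : ∀ q' : Q, GSHLe (max p.height r.height) ((L1 q' ⊓ L2 q') * L3 q') := fun q' =>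
      (((ihp q).mono (le_max_left _ _)).inf ((hrun q q').mono (Nat.zero_le _))).mul
        ((ihr q').mono (le_max_right _ _))
    refine (gsh_exists _ hL).of_iff (fun w => ?_)
    show (∃ q' : Q, w ∈ (L1 q' ⊓ L2 q') * L3 q') ↔ annot step q w ∈ p.lang * r.lang
    constructor
    · rintro ⟨q', hw⟩
      rw [Language.mem_mul] at hw
      obtain ⟨u, hu, v, hv, rfl⟩ := hw
      rw [Language.mem_inf] at hu
      obtain ⟨hu1, hu2⟩ := hu
      have hu1' : annot step q u ∈ p.lang := hu1
      have hu2' : u.foldl step q = q' := hu2
      have hv' : annot step q' v ∈ r.lang := hv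
      rw [annot_append, hu2', Language.mem_mul]
      exact ⟨_, hu1', _, hv', rfl⟩
    · intro hw
      rw [Language.mem_mul] at hw
      obtain ⟨a, ha, b, hb, hab⟩ := hw
      obtain ⟨u, v, rfl, hu, hv⟩ := annot_split step q w a b hab.symm
      refine ⟨u.foldl step q, ?_⟩
      rw [Language.mem_mul]
      refine ⟨u, ?_, v, ?_, rfl⟩
      · rw [Language.mem_inf]
        refine ⟨?_, rfl⟩
        show annot step q u ∈ p.lang
        rw [hu]
        exact ha
      · show annot step (u.foldl step q) v ∈ r.lang
        rw [hv]
        exact hb
  | compl p ih =>
    intro q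
    refine (ih q).compl.of_iff (fun w => ?_)
    exact Iff.rfl
  | star p ih =>
    intro q0
    have key : ∀ k : ℕ, ∀ q : Q, (reach step q).ncard ≤ k →
        GSHLe (p.height + 1) ({w | annot step q w ∈ KStar.kstar p.lang} : Language α) := by
      intro k
      induction k with
      | zero =>
        intro q hq
        exfalso
        have h0 : 0 < (reach step q).ncard :=
          (Set.ncard_pos (Set.toFinite _)).mpr ⟨q, reach_self step q⟩
        omega
      | succ k ihk =>
        intro q hq
        have hLoop : GSHLe p.height (moveLang step p.lang q q) :=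
          GSHLe.and (ih q) ((hrun q q).mono (Nat.zero_le _)) (fun w => Iff.rfl)
        let Tl : Q → Language α := fun q' =>
          if (q' ≠ q ∧ q' ∈ reach step q) then
            moveLang step p.lang q q' * annStar step p.lang q'
          else 0
        have hTl : ∀ q' : Q, GSHLe (p.height + 1) (Tl q') := by
          intro q'
          by_cases h : q' ≠ q ∧ q' ∈ reach step q
          · have hlt : (reach step q').ncard < (reach step q).ncard :=
              Set.ncard_lt_ncard (reach_ssubset step hpo h.2 h.1) (Set.toFinite _)
            have hmove : GSHLe p.height (moveLang step p.lang q q') :=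
              GSHLe.and (ih q) ((hrun q q').mono (Nat.zero_le _)) (fun w => Iff.rfl)
            have hstar : GSHLe (p.height + 1) (annStar step p.lang q') := ihk q' (by omega)
            have h3 : GSHLe (p.height + 1)
                (moveLang step p.lang q q' * annStar step p.lang q') :=
              (hmove.mono (Nat.le_succ _)).mul hstar
            have e : Tl q' = moveLang step p.lang q q' * annStar step p.lang q' := if_pos h
            rw [e]
            exact h3
          · have e : Tl q' = 0 := if_neg h
            rw [e]
            exact gsh_zero _
        have hall := hLoop.kstar_succ.mul ((gsh_one (p.height + 1)).add (gsh_exists Tl hTl))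
        refine hall.of_iff (fun w => ?_)
        constructor
        · intro hw
          rw [Language.mem_mul] at hw
          obtain ⟨l, hl, r, hr, rfl⟩ := hw
          rw [Language.mem_kstar] at hl
          obtain ⟨S, rfl, hS⟩ := hl
          refine annStar_of_decomp step p.lang q r ?_ S hS
          have hr' : r ∈ (1 : Language α) ∨ ∃ q', r ∈ Tl q' := hr
          rcases hr' with h1 | ⟨q', hq'⟩
          · rw [Language.mem_one] at h1
            rw [h1]
            exact Language.nil_mem_kstar _
          · by_cases h : q' ≠ q ∧ q' ∈ reach step q
            · have e : Tl q' = moveLang step p.lang q q' * annStar step p.lang q' := if_pos h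
              have hq'' : r ∈ moveLang step p.lang q q' * annStar step p.lang q' := by
                rw [← e]
                exact hq'
              rw [Language.mem_mul] at hq''
              obtain ⟨m, hm, t, ht, rfl⟩ := hq''
              have hm' : annot step q m ∈ p.lang ∧ m.foldl step q = q' := hm
              have ht' : annot step q' t ∈ KStar.kstar p.lang := ht
              rw [annot_append, hm'.2]
              exact kstar_cons_mem hm'.1 ht'
            · exfalso
              have e : Tl q' = 0 := if_neg h
              have h5 : r ∈ (0 : Language α) := by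
                rw [← e]
                exact hq'
              exact Language.notMem_zero _ h5
        · intro hw
          have hw' : annot step q w ∈ KStar.kstar p.lang := hw
          rw [Language.mem_kstar] at hw'
          obtain ⟨S, hS1, hS2⟩ := hw'
          obtain ⟨l, r, rfl, hl, hr⟩ := decomp_of_annStar step p.lang q S hS2 w hS1
          rw [Language.mem_mul]
          refine ⟨l, hl, r, ?_, rfl⟩
          show r ∈ (1 : Language α) ∨ ∃ q', r ∈ Tl q'
          rcases hr with rfl | ⟨m, t, rfl, hm, hne, ht⟩
          · left
            rw [Language.mem_one]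
          · right
            refine ⟨m.foldl step q, ?_⟩
            have hc : m.foldl step q ≠ q ∧ m.foldl step q ∈ reach step q := ⟨hne, m, rfl⟩
            have e : Tl (m.foldl step q) = moveLang step p.lang q (m.foldl step q)
                * annStar step p.lang (m.foldl step q) := if_pos hc
            show m ++ t ∈ Tl (m.foldl step q)
            rw [e, Language.mem_mul]
            exact ⟨m, ⟨hm, rfl⟩, t, ht, rfl⟩
    exact key _ q0 le_rfl

/-- **Cascade closure over partially ordered automata, at every level.** -/
theorem gsh_annot_po {Q : Type} [Fintype Q] (step : Q → α → Q)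
    (hpo : ∀ (q : Q) (u v : List α), (u ++ v).foldl step q = q → u.foldl step q = q)
    (hrun : ∀ q q' : Q, GSHLe 0 ({w | w.foldl step q = q'} : Language α))
    (n : ℕ) (K' : Language (α × Q)) (hK' : GSHLe n K') (q0 : Q) :
    GSHLe n ({w | annot step q0 w ∈ K'} : Language α) := by
  obtain ⟨e, he, rfl⟩ := hK'
  exact (gsh_annot_po_aux step hpo hrun e q0).mono he

theorem pow_stab_aux {Y : Type} [Monoid Y] (hY : ∀ y s t : Y, y * s * t = y → y * s = y)
    (x : Y) (i d : ℕ) (h : x ^ i = x ^ (i + 1 + d)) : x ^ i = x ^ (i + 1) := by
  have h1 : x ^ i * x * x ^ d = x ^ i := by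
    rw [← pow_succ, ← pow_add]
    exact h.symm
  rw [pow_succ]
  exact (hY _ _ _ h1).symm

/-- a finite `R`-trivial monoid is aperiodic -/
theorem aper_of_rtriv {Y : Type} [Monoid Y] [Finite Y]
    (hY : ∀ y s t : Y, y * s * t = y → y * s = y) : ∀ x : Y, ∃ n : ℕ, x ^ n = x ^ (n + 1) := by
  intro x
  obtain ⟨i, j, hij, hxij⟩ := Finite.exists_ne_map_eq_of_infinite (fun n : ℕ => x ^ n)
  have hxij' : x ^ i = x ^ j := hxij
  rcases Nat.lt_or_gt_of_ne hij with h | h
  · obtain ⟨d, rfl⟩ : ∃ d, j = i + 1 + d := ⟨j - i - 1, by omega⟩
    exact ⟨i, pow_stab_aux hY x i d hxij'⟩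
  · obtain ⟨d, rfl⟩ : ∃ d, i = j + 1 + d := ⟨i - j - 1, by omega⟩
    exact ⟨j, pow_stab_aux hY x j d hxij'.symm⟩

/-- **`R`-trivial monoids on the right of a wreath product, at every level.** If every language
over the alphabet `α × Y` recognized by the finite monoid `X` has generalized star height at
most `n` and `Y` is a finite `R`-trivial monoid, then every language over `α` recognized by the
wreath product `WrM X Y` has generalized star height at most `n`. -/
theorem gsh_wrm_rtriv [Fintype α] [DecidableEq α] {X Y : Type} [Monoid X] [Finite X] [Monoid Y]
    [Finite Y] (hY : ∀ y s t : Y, y * s * t = y → y * s = y) (n : ℕ)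
    (hX : ∀ (ψ : α × Y → X) (P : Set X),
      GSHLe n ({w | (w.map ψ).prod ∈ P} : Language (α × Y)))
    (φ : α → WrM X Y) (P : Set (WrM X Y)) :
    GSHLe n ({w | (w.map φ).prod ∈ P} : Language α) := by
  classical
  have := Fintype.ofFinite X
  have := Fintype.ofFinite Y
  have hap := aper_of_rtriv hY
  have hbase : StatLe 0 (fun w : List α => (w.map (fun a => (φ a).base)).prod) :=
    fun v => schutzenberger hap (fun a => (φ a).base) v
  have hrun : ∀ q q' : Y,
      GSHLe 0 ({w | w.foldl (fun (y : Y) (a : α) => y * (φ a).base) q = q'} : Language α) := by
    intro q q'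
    refine (hbase.level (fun m => q * m = q')).of_iff (fun w => ?_)
    show q * (w.map (fun a => (φ a).base)).prod = q' ↔ _
    rw [← foldl_mul_prod (fun a => (φ a).base) w q]
    rfl
  have hpo : ∀ (q : Y) (u v : List α),
      (u ++ v).foldl (fun (y : Y) (a : α) => y * (φ a).base) q = q →
      u.foldl (fun (y : Y) (a : α) => y * (φ a).base) q = q := by
    intro q u v h
    rw [foldl_mul_prod (fun a => (φ a).base), List.map_append, List.prod_append,
      ← mul_assoc] at h
    rw [foldl_mul_prod (fun a => (φ a).base)]
    exact hY _ _ _ h
  have hfn : ∀ x : Y, StatLe n (fun w : List α => ((w.map φ).prod).fn x) := by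
    intro x v
    have hK : GSHLe n ({u | (u.map (fun p : α × Y => (φ p.1).fn (x * p.2))).prod = v}
        : Language (α × Y)) :=
      (hX (fun p : α × Y => (φ p.1).fn (x * p.2)) {v}).of_iff (fun u => Iff.rfl)
    have h := gsh_annot_po (fun (y : Y) (a : α) => y * (φ a).base) hpo hrun n _ hK 1
    refine h.of_iff (fun w => ?_)
    show ((annot (fun (y : Y) (a : α) => y * (φ a).base) 1 w).map
        (fun p : α × Y => (φ p.1).fn (x * p.2))).prod = v ↔ ((w.map φ).prod).fn x = v
    rw [wrm_prod_fn, mul_one]
  have hbase1 : StatLe n (fun w : List α => ((w.map φ).prod).base) := by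
    intro v
    refine ((hbase v).mono (Nat.zero_le n)).of_iff (fun w => ?_)
    show (w.map (fun a => (φ a).base)).prod = v ↔ ((w.map φ).prod).base = v
    rw [wrm_prod_base]
  have hst := (StatLe.pi (β := fun _ : Y => X) hfn).prod hbase1
  have h := hst.level (fun v : (Y → X) × Y => (⟨v.1, v.2⟩ : WrM X Y) ∈ P)
  exact h

theorem gsh_annot_lvl_aux {Q : Type} [Fintype Q] (n : ℕ) (step : Q → α → Q)
    (hrun : ∀ q q' : Q, GSHLe n ({w | w.foldl step q = q'} : Language α)) :
    ∀ e : GRE (α × Q), e.height = 0 → ∀ q : Q,
      GSHLe n ({w | annot step q w ∈ e.lang} : Language α) := by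
  classical
  intro e
  induction e with
  | zero =>
    intro _ q
    refine (gsh_zero n).of_iff (fun w => ?_)
    constructor
    · intro h
      exact absurd h (Language.notMem_zero w)
    · intro h
      exact absurd (show annot step q w ∈ (0 : Language (α × Q)) from h) (Language.notMem_zero _)
  | one =>
    intro _ q
    refine (gsh_one n).of_iff (fun w => ?_)
    show w ∈ (1 : Language α) ↔ annot step q w ∈ (1 : Language (α × Q))
    rw [Language.mem_one, Language.mem_one]
    cases w with
    | nil => exact ⟨fun _ => rfl, fun _ => rfl⟩
    | cons x w =>
      constructor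
      · intro h
        exact absurd h (List.cons_ne_nil _ _)
      · intro h
        rw [annot_cons] at h
        exact absurd h (List.cons_ne_nil _ _)
  | letter a =>
    intro _ q
    obtain ⟨x, q'⟩ := a
    by_cases hq : q' = q
    · subst hq
      refine (gsh_letter n x).of_iff (fun w => ?_)
      show w = [x] ↔ annot step q' w = [(x, q')]
      cases w with
      | nil =>
        constructor
        · intro h
          exact absurd h.symm (List.cons_ne_nil _ _)
        · intro h
          rw [annot_nil] at h
          exact absurd h.symm (List.cons_ne_nil _ _)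
      | cons y w =>
        cases w with
        | nil =>
          rw [annot_cons, annot_nil]
          constructor
          · intro h
            have hy : y = x := by
              have := List.head_eq_of_cons_eq h
              exact this
            rw [hy]
          · intro h
            have hy : (y, q') = (x, q') := List.head_eq_of_cons_eq h
            have hy' : y = x := congrArg Prod.fst hy
            rw [hy']
        | cons z w =>
          constructor
          · intro h
            have := congrArg List.length h
            simp at this
          · intro h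
            have := congrArg List.length h
            rw [annot_cons, annot_cons] at this
            simp at this
    · refine (gsh_zero n).of_iff (fun w => ?_)
      constructor
      · intro h
        exact absurd h (Language.notMem_zero w)
      · intro h
        exfalso
        have h' : annot step q w = [(x, q')] := h
        cases w with
        | nil =>
          rw [annot_nil] at h'
          exact absurd h'.symm (List.cons_ne_nil _ _)
        | cons y w =>
          rw [annot_cons] at h'
          have hy : (y, q) = (x, q') := List.head_eq_of_cons_eq h'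
          exact hq (congrArg Prod.snd hy).symm
  | union p r ihp ihr =>
    intro h q
    have h' : max p.height r.height = 0 := h
    have hp : p.height = 0 := by
      have := le_max_left p.height r.height
      omega
    have hr : r.height = 0 := by
      have := le_max_right p.height r.height
      omega
    refine ((ihp hp q).add (ihr hr q)).of_iff (fun w => ?_)
    exact Iff.rfl
  | concat p r ihp ihr =>
    intro h q
    have h' : max p.height r.height = 0 := h
    have hp : p.height = 0 := by
      have := le_max_left p.height r.height
      omega
    have hr : r.height = 0 := by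
      have := le_max_right p.height r.height
      omega
    let L1 : Q → Language α := fun q' => {w | annot step q w ∈ p.lang}
    let L2 : Q → Language α := fun q' => {w | w.foldl step q = q'}
    let L3 : Q → Language α := fun q' => {w | annot step q' w ∈ r.lang}
    have hL : ∀ q' : Q, GSHLe n ((L1 q' ⊓ L2 q') * L3 q') := fun q' =>
      ((ihp hp q).inf (hrun q q')).mul (ihr hr q')
    refine (gsh_exists _ hL).of_iff (fun w => ?_)
    show (∃ q' : Q, w ∈ (L1 q' ⊓ L2 q') * L3 q') ↔ annot step q w ∈ p.lang * r.lang
    constructor
    · rintro ⟨q', hw⟩
      rw [Language.mem_mul] at hw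
      obtain ⟨u, hu, v, hv, rfl⟩ := hw
      rw [Language.mem_inf] at hu
      obtain ⟨hu1, hu2⟩ := hu
      have hu1' : annot step q u ∈ p.lang := hu1
      have hu2' : u.foldl step q = q' := hu2
      have hv' : annot step q' v ∈ r.lang := hv
      rw [annot_append, hu2', Language.mem_mul]
      exact ⟨_, hu1', _, hv', rfl⟩
    · intro hw
      rw [Language.mem_mul] at hw
      obtain ⟨a, ha, b, hb, hab⟩ := hw
      obtain ⟨u, v, rfl, hu, hv⟩ := annot_split step q w a b hab.symm
      refine ⟨u.foldl step q, ?_⟩
      rw [Language.mem_mul]
      refine ⟨u, ?_, v, ?_, rfl⟩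
      · rw [Language.mem_inf]
        refine ⟨?_, rfl⟩
        show annot step q u ∈ p.lang
        rw [hu]
        exact ha
      · show annot step (u.foldl step q) v ∈ r.lang
        rw [hv]
        exact hb
  | compl p ih =>
    intro h q
    have hp : p.height = 0 := h
    refine (ih hp q).compl.of_iff (fun w => ?_)
    exact Iff.rfl
  | star p _ =>
    intro h
    exact absurd h (Nat.succ_ne_zero _)

/-- **Cascade closure at level `n`.** If all path languages of the automaton `step` have generalized star
height at most `n`, then so does the language of all words whose annotation by the states of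
`step` lies in a given star-free language over the annotated alphabet. -/
theorem gsh_annot_lvl {Q : Type} [Fintype Q] (n : ℕ) (step : Q → α → Q)
    (hrun : ∀ q q' : Q, GSHLe n ({w | w.foldl step q = q'} : Language α))
    (K' : Language (α × Q)) (hK' : GSHLe 0 K') (q0 : Q) :
    GSHLe n ({w | annot step q0 w ∈ K'} : Language α) := by
  obtain ⟨e, he, rfl⟩ := hK'
  exact gsh_annot_lvl_aux n step hrun e (Nat.le_zero.mp he) q0

/-- **Aperiodic monoids on the left of a wreath product, at every level.** -/
theorem gsh_wrm_aper_lvl [Fintype α] [DecidableEq α] {X Y : Type} [Monoid X] [Finite X] [Monoid Y]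
    [Finite Y] (n : ℕ) (hX : ∀ x : X, ∃ n : ℕ, x ^ n = x ^ (n + 1))
    (hY : ∀ (ψ : α → Y) (P : Set Y), GSHLe n ({w | (w.map ψ).prod ∈ P} : Language α))
    (φ : α → WrM X Y) (P : Set (WrM X Y)) :
    GSHLe n ({w | (w.map φ).prod ∈ P} : Language α) := by
  classical
  have := Fintype.ofFinite X
  have := Fintype.ofFinite Y
  have hrun : ∀ q q' : Y,
      GSHLe n ({w | w.foldl (fun (y : Y) (a : α) => y * (φ a).base) q = q'} : Language α) := by
    intro q q'
    refine (hY (fun a => (φ a).base) {m | q * m = q'}).of_iff (fun w => ?_)
    show q * (w.map (fun a => (φ a).base)).prod = q' ↔ _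
    rw [← foldl_mul_prod (fun a => (φ a).base) w q]
    rfl
  have hfn : ∀ x : Y, StatLe n (fun w : List α => ((w.map φ).prod).fn x) := by
    intro x v
    have hK : GSHLe 0 ({u | (u.map (fun p : α × Y => (φ p.1).fn (x * p.2))).prod = v}
        : Language (α × Y)) :=
      schutzenberger hX (fun p : α × Y => (φ p.1).fn (x * p.2)) v
    have h := gsh_annot_lvl n (fun (y : Y) (a : α) => y * (φ a).base) hrun _ hK 1
    refine h.of_iff (fun w => ?_)
    show ((annot (fun (y : Y) (a : α) => y * (φ a).base) 1 w).map
        (fun p : α × Y => (φ p.1).fn (x * p.2))).prod = v ↔ ((w.map φ).prod).fn x = v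
    rw [wrm_prod_fn, mul_one]
  have hbase : StatLe n (fun w : List α => ((w.map φ).prod).base) := by
    intro v
    refine (hY (fun a => (φ a).base) {v}).of_iff (fun w => ?_)
    show (w.map (fun a => (φ a).base)).prod = v ↔ ((w.map φ).prod).base = v
    rw [wrm_prod_base]
  have hst := (StatLe.pi (β := fun _ : Y => X) hfn).prod hbase
  have h := hst.level (fun v : (Y → X) × Y => (⟨v.1, v.2⟩ : WrM X Y) ∈ P)
  exact h

/-- Passage to quotients of submonoids, at every level. -/
theorem gsh_monoid_div_lvl {W S T : Type} [Monoid W] [Monoid S] [Monoid T] (n : ℕ)
    (hW : ∀ (φ : α → W) (P : Set W), GSHLe n ({w | (w.map φ).prod ∈ P} : Language α))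
    (emb : T →* W) (hemb : Function.Injective emb) (π : T →* S) (hπ : Function.Surjective π)
    (φ : α → S) (P : Set S) : GSHLe n ({w | (w.map φ).prod ∈ P} : Language α) := by
  choose φ' hφ' using fun a => hπ (φ a)
  have h := hW (fun a => emb (φ' a)) (emb '' (π ⁻¹' P))
  refine h.of_iff (fun w => ?_)
  have e1 : (w.map (fun a => emb (φ' a))).prod = emb ((w.map φ').prod) := by
    rw [map_list_prod, List.map_map]
    rfl
  have e2 : (w.map φ).prod = π ((w.map φ').prod) := by
    rw [map_list_prod, List.map_map]
    congr 1
    apply List.map_congr_left
    intro a _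
    exact (hφ' a).symm
  show (w.map (fun a => emb (φ' a))).prod ∈ emb '' (π ⁻¹' P) ↔ (w.map φ).prod ∈ P
  rw [e1, e2]
  constructor
  · rintro ⟨t, ht, hte⟩
    rw [← hemb hte]
    exact ht
  · intro h
    exact ⟨_, h, rfl⟩

/-- **Closure of every level under `N ≀ (· ≀ Y)` and division**, `N` aperiodic, `Y` `R`-trivial. -/
theorem gsh_sandwich [Fintype α] [DecidableEq α] (n : ℕ) {X Y N : Type} [Monoid X] [Finite X]
    [Monoid Y] [Finite Y] [Monoid N] [Finite N]
    (hY : ∀ y s t : Y, y * s * t = y → y * s = y)
    (hN : ∀ x : N, ∃ k : ℕ, x ^ k = x ^ (k + 1))
    (hX : ∀ (ψ : α × Y → X) (P : Set X),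
      GSHLe n ({w | (w.map ψ).prod ∈ P} : Language (α × Y)))
    {S T : Type} [Monoid S] [Monoid T] (emb : T →* WrM N (WrM X Y))
    (hemb : Function.Injective emb) (π : T →* S) (hπ : Function.Surjective π)
    (φ : α → S) (P : Set S) : GSHLe n ({w | (w.map φ).prod ∈ P} : Language α) := by
  have : Finite (WrM X Y) := WrM.instFinite
  exact gsh_monoid_div_lvl n
    (fun ψ Q => gsh_wrm_aper_lvl n hN (fun ψ' Q' => gsh_wrm_rtriv hY n hX ψ' Q') ψ Q)
    emb hemb π hπ φ P

end Vale.Agent.Lib.P329
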