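import Vale.Agent.Lib.P329.Binom

/-!
# Maps of bounded degree on words

A map `f` from words to a commutative group has degree at most `0` when it is constant and
degree at most `k + 1` when each of its left differences `w ↦ f (y :: w) / f w` has degree at
most `k`. Such a map is a product of powers `c_u ^ (number of scattered occurrences of u)` over
words `u` of length at most `k`; in particular, when the group has exponent dividing `m`, its
value on `w` depends only on these numbers modulo `m`.
-/

namespace Vale.Agent.Lib.P329

open scoped BigOperators

variable {α : Type}

section
variable {A : Type} [CommGroup A]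

/-- `Deg k f`: the map `f` from words to a commutative group has degree at most `k` -/
def Deg : ℕ → (List α → A) → Prop
  | 0, f => ∀ (y : α) (w : List α), f (y :: w) = f w
  | k + 1, f => ∀ y : α, Deg k (fun w => f (y :: w) / f w)

theorem deg_one_fun : ∀ k : ℕ, Deg k (fun _ : List α => (1 : A))
  | 0 => fun _ _ => rfl
  | k + 1 => fun _ => by
      show Deg k (fun _ : List α => (1 : A) / 1)
      rw [div_one]
      exact deg_one_fun k

theorem deg_const (k : ℕ) (c : A) : Deg k (fun _ : List α => c) := by
  cases k with
  | zero => exact fun _ _ => rfl
  | succ k =>
    intro y
    show Deg k (fun _ : List α => c / c)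
    rw [div_self']
    exact deg_one_fun k

theorem Deg.succ : ∀ {k : ℕ} {f : List α → A}, Deg k f → Deg (k + 1) f
  | 0, f, h => fun y => by
      show Deg 0 (fun w => f (y :: w) / f w)
      intro z w
      show f (y :: z :: w) / f (z :: w) = f (y :: w) / f w
      rw [h y (z :: w), h y w, div_self', div_self']
  | _ + 1, _, h => fun y => Deg.succ (h y)

theorem Deg.mul : ∀ {k : ℕ} {f g : List α → A}, Deg k f → Deg k g → Deg k (fun w => f w * g w)
  | 0, f, g, hf, hg => fun y w => by
      show f (y :: w) * g (y :: w) = f w * g w
      rw [hf y w, hg y w]
  | k + 1, f, g, hf, hg => fun y => by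
      have e : (fun w => (f (y :: w) * g (y :: w)) / (f w * g w))
          = fun w => (f (y :: w) / f w) * (g (y :: w) / g w) := by
        funext w
        rw [mul_div_mul_comm]
      show Deg k (fun w => (f (y :: w) * g (y :: w)) / (f w * g w))
      rw [e]
      exact Deg.mul (hf y) (hg y)

theorem Deg.map {B : Type} [CommGroup B] (θ : A →* B) :
    ∀ {k : ℕ} {f : List α → A}, Deg k f → Deg k (fun w => θ (f w))
  | 0, f, h => fun y w => by
      show θ (f (y :: w)) = θ (f w)
      rw [h y w]
  | k + 1, f, h => fun y => by
      have e : (fun w => θ (f (y :: w)) / θ (f w)) = fun w => θ (f (y :: w) / f w) := by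
        funext w
        rw [map_div]
      show Deg k (fun w => θ (f (y :: w)) / θ (f w))
      rw [e]
      exact Deg.map θ (h y)

/-- a map whose left differences are given by maps of degree at most `k` has degree at most
`k + 1` -/
theorem deg_of_rec {k : ℕ} {f : List α → A} (h : α → List α → A) (hh : ∀ y, Deg k (h y))
    (e : ∀ y w, f (y :: w) = h y w * f w) : Deg (k + 1) f := fun y => by
  have e2 : (fun w => f (y :: w) / f w) = h y := by
    funext w
    rw [e y w, mul_div_cancel_right]
  show Deg k (fun w => f (y :: w) / f w)
  rw [e2]
  exact hh y

variable [DecidableEq α]

/-- the words `v` such that `y :: v` is a final segment of `w` -/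
def suf (y : α) : List α → List (List α)
  | [] => []
  | x :: w => if x = y then w :: suf y w else suf y w

theorem sc_suf (y : α) (u : List α) : ∀ w : List α,
    w.sublists.count (y :: u) = ((suf y w).map (fun v => v.sublists.count u)).sum
  | [] => by simp [suf]
  | x :: w => by
      rw [sc_cons, sc_suf y u w]
      by_cases h : x = y
      · simp [suf, h, add_comm]
      · simp [suf, h]

theorem deg_split [Fintype α] (f : List α → A) : ∀ w : List α,
    f w = f [] * ∏ y : α, ((suf y w).map (fun v => f (y :: v) / f v)).prod
  | [] => by simp [suf]
  | x :: w => by
      have h1 : ∀ y : α, ((suf y (x :: w)).map (fun v => f (y :: v) / f v)).prod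
          = (if x = y then f (y :: w) / f w else 1)
            * ((suf y w).map (fun v => f (y :: v) / f v)).prod := by
        intro y
        by_cases h : x = y <;> simp [suf, h]
      rw [Finset.prod_congr rfl (fun y _ => h1 y), Finset.prod_mul_distrib, Finset.prod_ite_eq,
        if_pos (Finset.mem_univ x), mul_left_comm, ← deg_split f w, div_mul_cancel]

theorem prod_split [Fintype α] (f : List α → A) (W : List (List α)) :
    (W.map f).prod = f [] ^ W.length
      * ∏ y : α, ((W.flatMap (suf y)).map (fun v => f (y :: v) / f v)).prod := by
  induction W with
  | nil => simp
  | cons w W ih =>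
    have h1 : ∀ y : α, (((w :: W).flatMap (suf y)).map (fun v => f (y :: v) / f v)).prod
        = ((suf y w).map (fun v => f (y :: v) / f v)).prod
          * ((W.flatMap (suf y)).map (fun v => f (y :: v) / f v)).prod := by
      intro y
      rw [List.flatMap_cons, List.map_append, List.prod_append]
    rw [List.map_cons, List.prod_cons, ih, Finset.prod_congr rfl (fun y _ => h1 y),
      Finset.prod_mul_distrib, List.length_cons, pow_succ]
    conv_lhs => rw [deg_split f w]
    rw [mul_mul_mul_comm, mul_comm (f []) (f [] ^ W.length)]

theorem len_count (W : List (List α)) :
    (W.map (fun w => w.sublists.count ([] : List α))).sum = W.length := by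
  induction W with
  | nil => rfl
  | cons w W ih => rw [List.map_cons, List.sum_cons, ih, sc_nil, List.length_cons, add_comm]

theorem sum_flat (y : α) (u : List α) (W : List (List α)) :
    ((W.flatMap (suf y)).map (fun v => v.sublists.count u)).sum
      = (W.map (fun w => w.sublists.count (y :: u))).sum := by
  induction W with
  | nil => rfl
  | cons w W ih =>
    rw [List.flatMap_cons, List.map_append, List.sum_append, ih, List.map_cons, List.sum_cons,
      sc_suf]

/-- a map of degree at most `k` into a group of exponent dividing `m` takes equal products on
two families of words having the same total numbers of occurrences modulo `m` of every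
scattered subword of length at most `k` -/
theorem deg_lin [Fintype α] (m : ℕ) (hA : ∀ a : A, a ^ m = 1) :
    ∀ (k : ℕ) (f : List α → A), Deg k f → ∀ W W' : List (List α),
      (∀ u : List α, u.length ≤ k →
        (W.map (fun w => w.sublists.count u)).sum % m
          = (W'.map (fun w => w.sublists.count u)).sum % m) →
      (W.map f).prod = (W'.map f).prod := by
  intro k
  induction k with
  | zero =>
    intro f hf W W' h
    have hl : W.length % m = W'.length % m := by
      have := h [] (le_refl _)
      rwa [len_count, len_count] at this
    have hc : ∀ w : List α, f w = f [] := by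
      intro w
      induction w with
      | nil => rfl
      | cons x w ih => rw [hf x w, ih]
    have hW : ∀ V : List (List α), (V.map f).prod = f [] ^ V.length := by
      intro V
      induction V with
      | nil => simp
      | cons v V ih => rw [List.map_cons, List.prod_cons, ih, hc v, List.length_cons, pow_succ,
          mul_comm]
    rw [hW W, hW W', pow_eq_pow_mod W.length (hA _), pow_eq_pow_mod W'.length (hA _), hl]
  | succ k ih =>
    intro f hf W W' h
    have hl : W.length % m = W'.length % m := by
      have := h [] (Nat.zero_le _)
      rwa [len_count, len_count] at this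
    rw [prod_split f W, prod_split f W', pow_eq_pow_mod W.length (hA _),
      pow_eq_pow_mod W'.length (hA _), hl]
    congr 1
    refine Finset.prod_congr rfl (fun y _ => ?_)
    refine ih (fun v => f (y :: v) / f v) (hf y) _ _ (fun u hu => ?_)
    rw [sum_flat, sum_flat]
    exact h (y :: u) (by rw [List.length_cons]; omega)

/-- a map of degree at most `k` into a group of exponent dividing `m` takes the same value on
two words having the same numbers of occurrences modulo `m` of every scattered subword of
length at most `k` -/
theorem deg_det [Fintype α] (m : ℕ) (hA : ∀ a : A, a ^ m = 1) (k : ℕ) (f : List α → A)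
    (hf : Deg k f) (w w' : List α)
    (h : ∀ u : List α, u.length ≤ k → w.sublists.count u % m = w'.sublists.count u % m) :
    f w = f w' := by
  have h1 := deg_lin m hA k f hf [w] [w'] (fun u hu => by simpa using h u hu)
  simpa using h1

end

end Vale.Agent.Lib.P329
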