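import Vale.Agent.Lib.P329.Three

/-!
# Sums over the occurrences of a letter of a function of two prefix counters

`psum a b x F A B w` is the sum, over the occurrences of the letter `x` in the word `w`, of
`F (A + number of earlier a) (B + number of earlier b)`.
-/

namespace Vale.Agent.Lib.P329

variable {α : Type} [DecidableEq α]

/-- sum over the occurrences of `x` of a function of the numbers of earlier `a` and `b`
(shifted by `A` and `B`) -/
def psum {R : Type} [AddCommMonoid R] (a b x : α) (F : ℕ → ℕ → R) : ℕ → ℕ → List α → R
  | _, _, [] => 0
  | A, B, y :: w => (if y = x then F A B else 0)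
      + psum a b x F (if y = a then A + 1 else A) (if y = b then B + 1 else B) w

theorem psum_cons {R : Type} [AddCommMonoid R] (a b x : α) (F : ℕ → ℕ → R) (A B : ℕ) (y : α)
    (w : List α) :
    psum a b x F A B (y :: w) = (if y = x then F A B else 0)
      + psum a b x F (if y = a then A + 1 else A) (if y = b then B + 1 else B) w := rfl

theorem psum_add {R : Type} [AddCommMonoid R] (a b x : α) (F F' : ℕ → ℕ → R) (w : List α) :
    ∀ A B : ℕ, psum a b x (fun A B => F A B + F' A B) A B w
      = psum a b x F A B w + psum a b x F' A B w := by
  induction w with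
  | nil =>
    intro A B
    show (0 : R) = 0 + 0
    rw [add_zero]
  | cons y v ih =>
    intro A B
    rw [psum_cons, psum_cons, psum_cons, ih]
    by_cases hy : y = x
    · simp only [if_pos hy]
      exact add_add_add_comm _ _ _ _
    · simp only [if_neg hy, zero_add]

theorem psum_mul {R : Type} [Semiring R] (a b x : α) (c : R) (F : ℕ → ℕ → R) (w : List α) :
    ∀ A B : ℕ, psum a b x (fun A B => c * F A B) A B w = c * psum a b x F A B w := by
  induction w with
  | nil =>
    intro A B
    show (0 : R) = c * 0
    rw [mul_zero]
  | cons y v ih =>
    intro A B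
    rw [psum_cons, psum_cons, ih, mul_add]
    by_cases hy : y = x
    · simp only [if_pos hy]
    · simp only [if_neg hy, mul_zero]

theorem psum_neg {R : Type} [AddCommGroup R] (a b x : α) (F : ℕ → ℕ → R) (w : List α) :
    ∀ A B : ℕ, psum a b x (fun A B => - F A B) A B w = - psum a b x F A B w := by
  induction w with
  | nil =>
    intro A B
    show (0 : R) = - 0
    rw [neg_zero]
  | cons y v ih =>
    intro A B
    rw [psum_cons, psum_cons, ih, neg_add]
    by_cases hy : y = x
    · simp only [if_pos hy]
    · simp only [if_neg hy, neg_zero]

theorem psum_sub {R : Type} [AddCommGroup R] (a b x : α) (F F' : ℕ → ℕ → R) (w : List α)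
    (A B : ℕ) : psum a b x (fun A B => F A B - F' A B) A B w
      = psum a b x F A B w - psum a b x F' A B w := by
  have e : (fun A B => F A B - F' A B) = fun A B => F A B + (fun A B => - F' A B) A B := by
    funext A B
    exact sub_eq_add_neg _ _
  rw [e, psum_add, psum_neg, sub_eq_add_neg]

/-- casting a sum of natural numbers into a semiring -/
theorem psum_cast {R : Type} [Semiring R] (a b x : α) (F : ℕ → ℕ → ℕ) (w : List α) :
    ∀ A B : ℕ, ((psum a b x F A B w : ℕ) : R) = psum a b x (fun A B => ((F A B : ℕ) : R)) A B w := by
  induction w with
  | nil =>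
    intro A B
    show ((0 : ℕ) : R) = 0
    exact Nat.cast_zero
  | cons y v ih =>
    intro A B
    rw [psum_cons, psum_cons, Nat.cast_add, ih]
    by_cases hy : y = x
    · simp only [if_pos hy]
    · simp only [if_neg hy, Nat.cast_zero]

/-- linearity over a finite sum -/
theorem psum_sum {R : Type} [Semiring R] {ι : Type} (s : Finset ι) (c : ι → R)
    (g : ι → ℕ → ℕ → R) (a b x : α) (w : List α) :
    ∀ A B : ℕ, psum a b x (fun A B => ∑ r ∈ s, c r * g r A B) A B w
      = ∑ r ∈ s, c r * psum a b x (g r) A B w := by
  induction w with
  | nil =>
    intro A B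
    show (0 : R) = ∑ r ∈ s, c r * 0
    simp
  | cons y v ih =>
    intro A B
    rw [psum_cons, ih]
    have h2 : ∀ r ∈ s, c r * psum a b x (g r) A B (y :: v)
        = c r * (if y = x then g r A B else 0)
          + c r * psum a b x (g r) (if y = a then A + 1 else A) (if y = b then B + 1 else B) v := by
      intro r _
      rw [psum_cons, mul_add]
    rw [Finset.sum_congr rfl h2, Finset.sum_add_distrib]
    congr 1
    by_cases hy : y = x
    · simp only [if_pos hy]
    · simp only [if_neg hy, mul_zero, Finset.sum_const_zero]

/-- telescoping along the word: the increments of `F` at the occurrences of `a` and of `b` add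
up to the total change of `F` -/
theorem psum_tele {R : Type} [AddCommMonoid R] (a b : α) (hab : a ≠ b) (F dA dB : ℕ → ℕ → R)
    (hA : ∀ A B, F (A + 1) B = F A B + dA A B) (hB : ∀ A B, F A (B + 1) = F A B + dB A B)
    (w : List α) : ∀ A B : ℕ, F (A + w.count a) (B + w.count b)
      = F A B + psum a b a dA A B w + psum a b b dB A B w := by
  induction w with
  | nil =>
    intro A B
    show F (A + 0) (B + 0) = F A B + 0 + 0
    rw [add_zero, add_zero, add_zero, add_zero]
  | cons y v ih =>
    intro A B
    rw [psum_cons, psum_cons]
    by_cases hya : y = a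
    · subst hya
      have hyb : y ≠ b := hab
      rw [List.count_cons_self, List.count_cons_of_ne hyb]
      simp only [↓reduceIte, if_neg hyb]
      have e : A + (v.count y + 1) = (A + 1) + v.count y := by omega
      rw [e, ih (A + 1) B, hA, zero_add]
      simp only [add_assoc]
    · by_cases hyb : y = b
      · subst hyb
        rw [List.count_cons_self, List.count_cons_of_ne hya]
        simp only [↓reduceIte, if_neg hya]
        have e : B + (v.count y + 1) = (B + 1) + v.count y := by omega
        rw [e, ih A (B + 1), hB, zero_add]
        simp only [add_assoc]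
        congr 1
        exact add_left_comm _ _ _
      · rw [List.count_cons_of_ne hya, List.count_cons_of_ne hyb]
        simp only [if_neg hya, if_neg hyb]
        rw [ih A B, zero_add, zero_add]

/-- a sum over the occurrences of `b` of a function of the number of earlier `a` is a weighted
sum in the sense of `wsum` -/
theorem psum_left {R : Type} [AddCommMonoid R] (a b : α) (f : ℕ → R) (w : List α) :
    ∀ A B : ℕ, psum a b b (fun A _ => f A) A B w = wsum {a} b f A w := by
  induction w with
  | nil =>
    intro A B
    rfl
  | cons y v ih =>
    intro A B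
    rw [psum_cons, wsum_consM, ih]
    by_cases hya : y = a
    · rw [if_pos hya, if_pos (Finset.mem_singleton.mpr hya)]
    · rw [if_neg hya, if_neg (fun h => hya (Finset.mem_singleton.mp h))]

/-- a sum over the occurrences of `a` of a function of the number of earlier `b` is a weighted
sum in the sense of `wsum` -/
theorem psum_right {R : Type} [AddCommMonoid R] (a b : α) (f : ℕ → R) (w : List α) :
    ∀ A B : ℕ, psum a b a (fun _ B => f B) A B w = wsum {b} a f B w := by
  induction w with
  | nil =>
    intro A B
    rfl
  | cons y v ih =>
    intro A B
    rw [psum_cons, wsum_consM, ih]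
    by_cases hyb : y = b
    · rw [if_pos hyb, if_pos (Finset.mem_singleton.mpr hyb)]
    · rw [if_neg hyb, if_neg (fun h => hyb (Finset.mem_singleton.mp h))]

end Vale.Agent.Lib.P329
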