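import Vale.Agent.Lib.P329.VisitsCount

/-!
# Modular counting of positions by the state of a counter-free automaton

Let `step` be a deterministic automaton on the states `0, …, N - 1` that is counter-free (every
word `w` acts with `w ^ k = w ^ (k + 1)` for some `k`). For a start state `s0`, a state `q`, a
letter `b` and a modulus `M`, the number of positions of a word that carry `b` and at which the
automaton is in state `q` just before reading that position, taken modulo `M`, is a statistic
of generalized star height at most one; jointly for all `q`, `b` and with the final state.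

Proof: split off a flagged copy of the state `step q b`, entered exactly by reading `b` in
state `q`; the split automaton is still counter-free; make the flagged copy the base state and
count all letters read there (visit counting); the count differs from the number of entries
only by whether the run ends in the flagged copy.
-/

namespace Vale.Agent.Lib.P329

open Language

variable {α : Type} [DecidableEq α]

/-- One step of the position-counting fold. The state is the pair (state of the automaton,
number of counted positions so far); a position is counted when it carries the letter `b` and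
the automaton is in state `q` just before reading it. -/
def pcStep (step : ℕ → α → ℕ) (q : ℕ) (b : α) (st : ℕ × ℕ) (x : α) : ℕ × ℕ :=
  (step st.1 x, if st.1 = q ∧ x = b then st.2 + 1 else st.2)

/-- `pcount step s0 q b w`: the number of positions of the word `w` that carry the letter `b`
and are such that the automaton `step`, started in the state `s0`, is in the state `q` after
reading the letters before that position. -/
def pcount (step : ℕ → α → ℕ) (s0 q : ℕ) (b : α) (w : List α) : ℕ :=
  (w.foldl (pcStep step q b) (s0, 0)).2

/-- decoding of the states of the split automaton: `0` is the flagged copy of `t0`, and `s + 1`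
is the state `s` -/
def spDec (t0 : ℕ) (y : ℕ) : ℕ := if y = 0 then t0 else y - 1

/-- the split automaton: reading `b` in (a copy of) the state `q` leads to the flagged copy `0`
of `step q b`; otherwise it moves as `step` -/
def spStep (step : ℕ → α → ℕ) (q : ℕ) (b : α) (y : ℕ) (x : α) : ℕ :=
  if spDec (step q b) y = q ∧ x = b then 0 else step (spDec (step q b) y) x + 1

omit [DecidableEq α] in
theorem iterate_zero_fix (g : ℕ → ℕ) (h0 : g 0 = 0) (i : ℕ) : g^[i] 0 = 0 := by
  induction i with
  | zero => rfl
  | succ i ih => rw [Function.iterate_succ_apply', ih, h0]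

omit [DecidableEq α] in
/-- a counter-free automaton stays counter-free when the state `0` is made absorbing -/
theorem abs_aper_of_aper (N : ℕ) (f : ℕ → α → ℕ)
    (hcf : ∀ w : List α, ∃ k : ℕ, ∀ y, y < N →
      List.foldl f y (List.replicate k w).flatten =
        List.foldl f y (List.replicate (k + 1) w).flatten) :
    ∀ w : List α, ∃ k : ℕ, ∀ y, y < N →
      List.foldl (absStep f) y (List.replicate k w).flatten =
        List.foldl (absStep f) y (List.replicate (k + 1) w).flatten := by
  intro w
  obtain ⟨k, hk⟩ := hcf w
  refine ⟨k + 1, fun y hy => ?_⟩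
  rw [foldl_replicate_flatten, foldl_replicate_flatten]
  have hg0 : (fun z => List.foldl (absStep f) z w) 0 = 0 := foldl_abs_zero f w
  have hgF : ∀ z, (fun z => List.foldl (absStep f) z w) z ≠ 0 →
      (fun z => List.foldl (absStep f) z w) z = (fun z => List.foldl f z w) z :=
    fun z hz => foldl_abs_eq f w z hz
  generalize (fun z => List.foldl (absStep f) z w) = g at hg0 hgF ⊢
  have hFk : (fun z => List.foldl f z w)^[k] y = (fun z => List.foldl f z w)^[k + 1] y := by
    have h := hk y hy
    rw [foldl_replicate_flatten, foldl_replicate_flatten] at h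
    exact h
  generalize (fun z => List.foldl f z w) = F at hgF hFk
  by_cases h0 : g^[k + 1] y = 0
  · rw [Function.iterate_succ_apply' g (k + 1) y, h0, hg0]
  · have hne : ∀ j, j ≤ k + 1 → g^[j] y ≠ 0 := by
      intro j hj hz
      apply h0
      have e : k + 1 = (k + 1 - j) + j := by omega
      rw [e, Function.iterate_add_apply, hz]
      exact iterate_zero_fix g hg0 _
    have heq : ∀ j, j ≤ k + 1 → g^[j] y = F^[j] y := by
      intro j
      induction j with
      | zero =>
        intro _
        rfl
      | succ j ih =>
        intro hj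
        have h1 : g^[j + 1] y ≠ 0 := hne (j + 1) hj
        rw [Function.iterate_succ_apply'] at h1 ⊢
        rw [hgF _ h1, ih (by omega), ← Function.iterate_succ_apply' F j y]
    have e1 : g^[k + 1] y = g^[k] y := by
      rw [heq (k + 1) (le_refl _), heq k (by omega), hFk]
    rw [Function.iterate_succ_apply' g (k + 1) y, e1, ← Function.iterate_succ_apply' g k y]
    exact e1.symm

omit [DecidableEq α] in
theorem spDec_lt (N t0 y : ℕ) (ht0 : t0 < N) (hy : y < N + 1) : spDec t0 y < N := by
  unfold spDec
  split_ifs with h
  · exact ht0
  · omega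

theorem spDec_spStep (step : ℕ → α → ℕ) (q : ℕ) (b : α) (y : ℕ) (x : α) :
    spDec (step q b) (spStep step q b y x) = step (spDec (step q b) y) x := by
  unfold spStep
  by_cases hc : spDec (step q b) y = q ∧ x = b
  · rw [if_pos hc, hc.1, hc.2]
    unfold spDec
    rw [if_pos rfl]
  · rw [if_neg hc]
    unfold spDec
    rw [if_neg (Nat.succ_ne_zero _)]
    rfl

theorem spStep_eq_zero (step : ℕ → α → ℕ) (q : ℕ) (b : α) (y : ℕ) (x : α) :
    spStep step q b y x = 0 ↔ (spDec (step q b) y = q ∧ x = b) := by
  unfold spStep
  by_cases hc : spDec (step q b) y = q ∧ x = b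
  · rw [if_pos hc]
    exact ⟨fun _ => hc, fun _ => rfl⟩
  · rw [if_neg hc]
    exact ⟨fun h => absurd h (Nat.succ_ne_zero _), fun h => absurd h hc⟩

theorem spStep_lt (N : ℕ) (step : ℕ → α → ℕ) (hb : ∀ y a, y < N → step y a < N) (q : ℕ)
    (hq : q < N) (b : α) (y : ℕ) (x : α) (hy : y < N + 1) : spStep step q b y x < N + 1 := by
  unfold spStep
  split_ifs with h
  · omega
  · have h1 := hb _ x (spDec_lt N (step q b) y (hb q b hq) hy)
    omega

theorem spStep_congr (step : ℕ → α → ℕ) (q : ℕ) (b : α) (y y' : ℕ) (x : α)
    (h : spDec (step q b) y = spDec (step q b) y') :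
    spStep step q b y x = spStep step q b y' x := by
  unfold spStep
  rw [h]

theorem spDec_foldl (step : ℕ → α → ℕ) (q : ℕ) (b : α) (w : List α) :
    ∀ y, spDec (step q b) (List.foldl (spStep step q b) y w)
      = List.foldl step (spDec (step q b) y) w := by
  induction w with
  | nil =>
    intro y
    rfl
  | cons x w ih =>
    intro y
    rw [List.foldl_cons, List.foldl_cons, ih, spDec_spStep]

theorem spFoldl_congr (step : ℕ → α → ℕ) (q : ℕ) (b : α) (w : List α) (hw : w ≠ [])
    (y y' : ℕ) (h : spDec (step q b) y = spDec (step q b) y') :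
    List.foldl (spStep step q b) y w = List.foldl (spStep step q b) y' w := by
  cases w with
  | nil => exact absurd rfl hw
  | cons x w => rw [List.foldl_cons, List.foldl_cons, spStep_congr step q b y y' x h]

theorem spDec_iterate (step : ℕ → α → ℕ) (q : ℕ) (b : α) (w : List α) (j : ℕ) (y : ℕ) :
    spDec (step q b) ((fun z => List.foldl (spStep step q b) z w)^[j] y)
      = (fun z => List.foldl step z w)^[j] (spDec (step q b) y) := by
  induction j generalizing y with
  | zero => rfl
  | succ j ih =>
    rw [Function.iterate_succ_apply, Function.iterate_succ_apply, ih]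
    show (fun z => List.foldl step z w)^[j]
        (spDec (step q b) (List.foldl (spStep step q b) y w)) = _
    rw [spDec_foldl]

/-- the split automaton is counter-free -/
theorem sp_aper (N : ℕ) (step : ℕ → α → ℕ) (hb : ∀ y a, y < N → step y a < N)
    (hcf : ∀ w : List α, ∃ k : ℕ, ∀ y, y < N →
      List.foldl step y (List.replicate k w).flatten =
        List.foldl step y (List.replicate (k + 1) w).flatten)
    (q : ℕ) (hq : q < N) (b : α) :
    ∀ w : List α, ∃ k : ℕ, ∀ y, y < N + 1 →
      List.foldl (spStep step q b) y (List.replicate k w).flatten =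
        List.foldl (spStep step q b) y (List.replicate (k + 1) w).flatten := by
  intro w
  obtain ⟨k, hk⟩ := hcf w
  refine ⟨k + 1, fun y hy => ?_⟩
  rw [foldl_replicate_flatten, foldl_replicate_flatten]
  by_cases hw : w = []
  · subst hw
    have e : (fun z => List.foldl (spStep step q b) z ([] : List α)) = id := rfl
    rw [e, Function.iterate_id, Function.iterate_id]
  · have hd : spDec (step q b) ((fun z => List.foldl (spStep step q b) z w)^[k] y)
        = spDec (step q b) ((fun z => List.foldl (spStep step q b) z w)^[k + 1] y) := by
      rw [spDec_iterate, spDec_iterate]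
      have h := hk (spDec (step q b) y) (spDec_lt N (step q b) y (hb q b hq) hy)
      rw [foldl_replicate_flatten, foldl_replicate_flatten] at h
      exact h
    rw [Function.iterate_succ_apply' _ k y, Function.iterate_succ_apply' _ (k + 1) y]
    exact spFoldl_congr step q b w hw _ _ hd

/-- the invariant linking the visit-counting automaton over the split automaton with the
position-counting fold -/
theorem pc_inv (N M : ℕ) (step : ℕ → α → ℕ) [Fintype α]
    (hb : ∀ y a, y < N → step y a < N) (q : ℕ) (hq : q < N) (b : α) (w : List α) :
    ∀ (V : ℕ) (st : ℕ × ℕ), V < (N + 1) * M →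
      spDec (step q b) (V % (N + 1)) = st.1 →
      (V / (N + 1) + (if V % (N + 1) = 0 then 1 else 0)) % M = st.2 % M →
      (List.foldl (visitStep (N + 1) M (spStep step q b) Finset.univ) V w < (N + 1) * M ∧
        spDec (step q b)
            (List.foldl (visitStep (N + 1) M (spStep step q b) Finset.univ) V w % (N + 1))
          = (List.foldl (pcStep step q b) st w).1 ∧
        (List.foldl (visitStep (N + 1) M (spStep step q b) Finset.univ) V w / (N + 1)
            + (if List.foldl (visitStep (N + 1) M (spStep step q b) Finset.univ) V w % (N + 1)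
                = 0 then 1 else 0)) % M
          = (List.foldl (pcStep step q b) st w).2 % M) := by
  have hsb : ∀ y a, y < N + 1 → spStep step q b y a < N + 1 :=
    fun y a hy => spStep_lt N step hb q hq b y a hy
  induction w with
  | nil =>
    intro V st hV h1 h2
    exact ⟨hV, h1, h2⟩
  | cons x w ih =>
    intro V st hV h1 h2
    rw [List.foldl_cons, List.foldl_cons]
    have hmod := visitStep_mod (N + 1) M (spStep step q b) Finset.univ hsb (by omega) V x
    have hdiv := visitStep_div (N + 1) M (spStep step q b) Finset.univ hsb (by omega) V x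
    refine ih _ _ (visitStep_lt (N + 1) M (spStep step q b) Finset.univ hsb V x hV) ?_ ?_
    · rw [hmod, spDec_spStep, h1]
      rfl
    · rw [hmod, hdiv]
      have hz : (spStep step q b (V % (N + 1)) x = 0) ↔ (st.1 = q ∧ x = b) := by
        rw [spStep_eq_zero, h1]
      show _ = (if st.1 = q ∧ x = b then st.2 + 1 else st.2) % M
      by_cases hc : st.1 = q ∧ x = b
      · rw [if_pos hc, if_pos (hz.mpr hc)]
        by_cases h0 : V % (N + 1) = 0
        · rw [if_pos ⟨h0, Finset.mem_univ x⟩]
          rw [if_pos h0] at h2
          rw [Nat.add_mod, Nat.mod_mod, ← Nat.add_mod, Nat.add_mod (st.2) 1 M, ← h2,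
            ← Nat.add_mod]
        · rw [if_neg (fun h => h0 h.1)]
          rw [if_neg h0, Nat.add_zero] at h2
          rw [Nat.add_mod, h2, ← Nat.add_mod]
      · rw [if_neg hc, if_neg (fun h => hc (hz.mp h)), Nat.add_zero]
        by_cases h0 : V % (N + 1) = 0
        · rw [if_pos ⟨h0, Finset.mem_univ x⟩, Nat.mod_mod]
          rw [if_pos h0] at h2
          exact h2
        · rw [if_neg (fun h => h0 h.1)]
          rw [if_neg h0, Nat.add_zero] at h2
          exact h2

omit [DecidableEq α] in
theorem pc_fst (step : ℕ → α → ℕ) [DecidableEq α] (q : ℕ) (b : α) (w : List α) :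
    ∀ st : ℕ × ℕ, (List.foldl (pcStep step q b) st w).1 = List.foldl step st.1 w := by
  induction w with
  | nil =>
    intro st
    rfl
  | cons x w ih =>
    intro st
    rw [List.foldl_cons, List.foldl_cons, ih]
    rfl

variable [Fintype α]

/-- **Counting positions by the state of a counter-free automaton.** The pair (state of the
visit-counting automaton over the split automaton) determines the count modulo `M`; hence the
count modulo `M` is a statistic of generalized star height at most one. -/
theorem stat_pcount (N : ℕ) (step : ℕ → α → ℕ) (hb : ∀ y a, y < N → step y a < N)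
    (hcf : ∀ w : List α, ∃ k : ℕ, ∀ y, y < N →
      List.foldl step y (List.replicate k w).flatten =
        List.foldl step y (List.replicate (k + 1) w).flatten)
    (s0 : ℕ) (hs0 : s0 < N) (q : ℕ) (hq : q < N) (b : α) (M : ℕ) (hM : 0 < M) :
    StatLe 1 (fun w : List α => pcount step s0 q b w % M) := by
  have hsb : ∀ y a, y < N + 1 → spStep step q b y a < N + 1 :=
    fun y a hy => spStep_lt N step hb q hq b y a hy
  have hV0 : s0 + 1 < (N + 1) * M :=
    lt_of_lt_of_le (by omega) (Nat.le_mul_of_pos_right (N + 1) hM)
  have hst := stat_visits (N + 1) M (spStep step q b) Finset.univ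
    (abs_aper_of_aper (N + 1) (spStep step q b) (sp_aper N step hb hcf q hq b)) hsb
    (fun a ha => absurd (Finset.mem_univ a) ha) (s0 + 1) hV0
  have h2 := hst.comp (fun v : Fin ((N + 1) * M) =>
    (v.val / (N + 1) + (if v.val % (N + 1) = 0 then 1 else 0)) % M)
  refine h2.congr (fun w => ?_)
  have e1 : (s0 + 1) % (N + 1) = s0 + 1 := Nat.mod_eq_of_lt (by omega)
  have e2 : (s0 + 1) / (N + 1) = 0 := Nat.div_eq_of_lt (by omega)
  obtain ⟨hlt, _, hc⟩ := pc_inv N M step hb q hq b w (s0 + 1) (s0, 0) hV0
    (by
      rw [e1]
      unfold spDec
      rw [if_neg (Nat.succ_ne_zero _)]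
      rfl)
    (by rw [e1, e2, if_neg (Nat.succ_ne_zero _)])
  show (List.foldl (visitStep (N + 1) M (spStep step q b) Finset.univ) (s0 + 1) w
        % ((N + 1) * M) / (N + 1)
      + (if List.foldl (visitStep (N + 1) M (spStep step q b) Finset.univ) (s0 + 1) w
          % ((N + 1) * M) % (N + 1) = 0 then 1 else 0)) % M = pcount step s0 q b w % M
  rw [Nat.mod_eq_of_lt hlt]
  exact hc

/-- **Modular counting over a counter-free automaton.** Every language whose membership depends
only on the final state and on the numbers, modulo `M`, of the positions carrying the letter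
`b` at which the automaton is in the state `q` (for all states `q` and letters `b`) has
generalized star height at most one. -/
theorem gsh_pcount (N : ℕ) (step : ℕ → α → ℕ) (hb : ∀ y a, y < N → step y a < N)
    (hcf : ∀ w : List α, ∃ k : ℕ, ∀ y, y < N →
      List.foldl step y (List.replicate k w).flatten =
        List.foldl step y (List.replicate (k + 1) w).flatten)
    (s0 : ℕ) (hs0 : s0 < N) (M : ℕ) (hM : 0 < M) (Φ : ℕ → (Fin N → α → ℕ) → Prop) :
    GSHLe 1 ({w | Φ (List.foldl step s0 w)
      (fun q b => pcount step s0 (q : ℕ) b w % M)} : Language α) := by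
  have hfin : StatLe 1 (fun w : List α =>
      (⟨List.foldl step s0 w % N, Nat.mod_lt _ (by omega)⟩ : Fin N)) := by
    intro v
    have h := (gsh_run_of_aper N step hcf hb s0 v.val hs0).mono (Nat.zero_le 1)
    refine h.of_iff (fun w => ?_)
    have hlt : List.foldl step s0 w < N := foldl_bound N step hb w s0 hs0
    show List.foldl step s0 w = v.val
      ↔ (⟨List.foldl step s0 w % N, Nat.mod_lt _ (by omega)⟩ : Fin N) = v
    rw [Fin.ext_iff]
    show _ ↔ List.foldl step s0 w % N = v.val
    rw [Nat.mod_eq_of_lt hlt]
  have hcnt : StatLe 1 (fun w : List α =>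
      (fun (q : Fin N) (b : α) =>
        (⟨pcount step s0 (q : ℕ) b w % M, Nat.mod_lt _ hM⟩ : Fin M))) := by
    refine StatLe.pi (fun q => StatLe.pi (fun b => ?_))
    intro v
    refine (stat_pcount N step hb hcf s0 hs0 (q : ℕ) q.isLt b M hM v.val).of_iff (fun w => ?_)
    show pcount step s0 (q : ℕ) b w % M = v.val
      ↔ (⟨pcount step s0 (q : ℕ) b w % M, Nat.mod_lt _ hM⟩ : Fin M) = v
    rw [Fin.ext_iff]
  have hlev := (hfin.prod hcnt).level
    (fun p : Fin N × (Fin N → α → Fin M) => Φ p.1.val (fun q b => (p.2 q b).val))
  refine hlev.of_iff (fun w => ?_)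
  have hlt : List.foldl step s0 w < N := foldl_bound N step hb w s0 hs0
  show Φ (List.foldl step s0 w % N) (fun q b => pcount step s0 (q : ℕ) b w % M)
    ↔ Φ (List.foldl step s0 w) (fun q b => pcount step s0 (q : ℕ) b w % M)
  rw [Nat.mod_eq_of_lt hlt]

/-! ### The monoid form -/

/-- One step of the counting fold of a morphism `φ` into a monoid. The state is the pair
(product of the images of the letters read so far, number of counted positions so far); a
position is counted when it carries the letter `b` and the product of the images of the letters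
before it equals `n`. -/
def mcStep {N : Type} [Monoid N] [DecidableEq N] (φ : α → N) (n : N) (b : α) (st : N × ℕ)
    (x : α) : N × ℕ :=
  (st.1 * φ x, if st.1 = n ∧ x = b then st.2 + 1 else st.2)

/-- `mcount φ n b w`: the number of factorizations `w = u b v` (positions carrying the letter
`b`) such that the product of the images under `φ` of the letters of `u` equals `n`. -/
def mcount {N : Type} [Monoid N] [DecidableEq N] (φ : α → N) (n : N) (b : α) (w : List α) : ℕ :=
  (w.foldl (mcStep φ n b) (1, 0)).2

/-- the right regular automaton of a finite monoid, on the states `0, …, card N - 1` -/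
def mrStep {N : Type} [Monoid N] {k : ℕ} (e : N ≃ Fin k) (φ : α → N) (y : ℕ) (a : α) : ℕ :=
  if h : y < k then (e (e.symm ⟨y, h⟩ * φ a)).val else y

omit [DecidableEq α] [Fintype α] in
theorem mrStep_val {N : Type} [Monoid N] {k : ℕ} (e : N ≃ Fin k) (φ : α → N) (m : N) (a : α) :
    mrStep e φ (e m).val a = (e (m * φ a)).val := by
  unfold mrStep
  rw [dif_pos (e m).isLt]
  simp

omit [DecidableEq α] [Fintype α] in
theorem mrStep_lt {N : Type} [Monoid N] {k : ℕ} (e : N ≃ Fin k) (φ : α → N) (y : ℕ) (a : α)
    (hy : y < k) : mrStep e φ y a < k := by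
  unfold mrStep
  rw [dif_pos hy]
  exact (e _).isLt

omit [DecidableEq α] [Fintype α] in
theorem mr_foldl {N : Type} [Monoid N] {k : ℕ} (e : N ≃ Fin k) (φ : α → N) (w : List α) :
    ∀ m : N, List.foldl (mrStep e φ) (e m).val w = (e (m * (w.map φ).prod)).val := by
  induction w with
  | nil =>
    intro m
    simp
  | cons x w ih =>
    intro m
    rw [List.foldl_cons, mrStep_val, ih, List.map_cons, List.prod_cons, mul_assoc]

omit [DecidableEq α] [Fintype α] in
theorem prod_replicate_flatten {N : Type} [Monoid N] (φ : α → N) (w : List α) (j : ℕ) :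
    (((List.replicate j w).flatten).map φ).prod = (w.map φ).prod ^ j := by
  induction j with
  | zero => simp
  | succ j ih =>
    rw [List.replicate_succ, List.flatten_cons, List.map_append, List.prod_append, ih, pow_succ']

omit [DecidableEq α] [Fintype α] in
/-- the right regular automaton of an aperiodic monoid is counter-free -/
theorem mr_aper {N : Type} [Monoid N] (hN : ∀ x : N, ∃ n : ℕ, x ^ n = x ^ (n + 1)) {k : ℕ}
    (e : N ≃ Fin k) (φ : α → N) :
    ∀ w : List α, ∃ j : ℕ, ∀ y, y < k →
      List.foldl (mrStep e φ) y (List.replicate j w).flatten =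
        List.foldl (mrStep e φ) y (List.replicate (j + 1) w).flatten := by
  intro w
  obtain ⟨n, hn⟩ := hN ((w.map φ).prod)
  refine ⟨n, fun y hy => ?_⟩
  have ey : y = (e (e.symm ⟨y, hy⟩)).val := by simp
  rw [ey, mr_foldl, mr_foldl, prod_replicate_flatten, prod_replicate_flatten, hn]

omit [Fintype α] in
theorem mr_count {N : Type} [Monoid N] [DecidableEq N] {k : ℕ} (e : N ≃ Fin k) (φ : α → N)
    (n : N) (b : α) (w : List α) :
    ∀ (m : N) (c : ℕ),
      (List.foldl (pcStep (mrStep e φ) (e n).val b) ((e m).val, c) w).2
        = (List.foldl (mcStep φ n b) (m, c) w).2 := by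
  induction w with
  | nil =>
    intro m c
    rfl
  | cons x w ih =>
    intro m c
    rw [List.foldl_cons, List.foldl_cons]
    have e1 : pcStep (mrStep e φ) (e n).val b ((e m).val, c) x
        = ((e (m * φ x)).val, if m = n ∧ x = b then c + 1 else c) := by
      unfold pcStep
      rw [mrStep_val]
      have hiff : ((e m).val = (e n).val ∧ x = b) ↔ (m = n ∧ x = b) := by
        constructor
        · rintro ⟨h1, h2⟩
          exact ⟨e.injective (Fin.ext h1), h2⟩
        · rintro ⟨h1, h2⟩
          exact ⟨by rw [h1], h2⟩
      by_cases hc : m = n ∧ x = b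
      · rw [if_pos hc, if_pos (hiff.mpr hc)]
      · rw [if_neg hc, if_neg (fun h => hc (hiff.mp h))]
    rw [e1, ih]
    rfl

/-- **Modular counting over an aperiodic monoid.** Let `N` be a finite aperiodic monoid, `φ` a
map from the letters to `N` and `M ≥ 1`. Every language whose membership depends only on the
image of the word in `N` and on the numbers, modulo `M`, of the factorizations `w = u b v` with
a given letter `b` and a given image `n` of `u` has generalized star height at most one. -/
theorem gsh_mcount {N : Type} [Monoid N] [Fintype N] [DecidableEq N]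
    (hN : ∀ x : N, ∃ n : ℕ, x ^ n = x ^ (n + 1)) (φ : α → N) (M : ℕ) (hM : 0 < M)
    (Φ : N → (N → α → ℕ) → Prop) :
    GSHLe 1 ({w | Φ ((w.map φ).prod) (fun n b => mcount φ n b w % M)} : Language α) := by
  have h := gsh_pcount (Fintype.card N) (mrStep (Fintype.equivFin N) φ)
    (fun y a hy => mrStep_lt (Fintype.equivFin N) φ y a hy)
    (mr_aper hN (Fintype.equivFin N) φ) (Fintype.equivFin N 1).val (Fintype.equivFin N 1).isLt
    M hM
    (fun s c => Φ (if hs : s < Fintype.card N then (Fintype.equivFin N).symm ⟨s, hs⟩ else 1)
      (fun n b => c (Fintype.equivFin N n) b))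
  refine h.of_iff (fun w => ?_)
  have e1 : List.foldl (mrStep (Fintype.equivFin N) φ) (Fintype.equivFin N 1).val w
      = (Fintype.equivFin N ((w.map φ).prod)).val := by
    rw [mr_foldl, one_mul]
  have e2 : ∀ (n : N) (b : α),
      pcount (mrStep (Fintype.equivFin N) φ) (Fintype.equivFin N 1).val
        (Fintype.equivFin N n).val b w = mcount φ n b w :=
    fun n b => mr_count (Fintype.equivFin N) φ n b w 1 0
  show Φ (if hs : List.foldl (mrStep (Fintype.equivFin N) φ) (Fintype.equivFin N 1).val w
        < Fintype.card N then (Fintype.equivFin N).symm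
          ⟨List.foldl (mrStep (Fintype.equivFin N) φ) (Fintype.equivFin N 1).val w, hs⟩ else 1)
      (fun n b => pcount (mrStep (Fintype.equivFin N) φ) (Fintype.equivFin N 1).val
        ((Fintype.equivFin N n : Fin (Fintype.card N)) : ℕ) b w % M)
    ↔ Φ ((w.map φ).prod) (fun n b => mcount φ n b w % M)
  have e3 : (if hs : List.foldl (mrStep (Fintype.equivFin N) φ) (Fintype.equivFin N 1).val w
        < Fintype.card N then (Fintype.equivFin N).symm
          ⟨List.foldl (mrStep (Fintype.equivFin N) φ) (Fintype.equivFin N 1).val w, hs⟩ else 1)
      = (w.map φ).prod := by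
    have hlt : List.foldl (mrStep (Fintype.equivFin N) φ) (Fintype.equivFin N 1).val w
        < Fintype.card N := by
      rw [e1]
      exact (Fintype.equivFin N _).isLt
    rw [dif_pos hlt]
    apply (Fintype.equivFin N).injective
    rw [Equiv.apply_symm_apply]
    exact Fin.ext e1
  rw [e3]
  have e4 : (fun (n : N) (b : α) =>
      pcount (mrStep (Fintype.equivFin N) φ) (Fintype.equivFin N 1).val
        ((Fintype.equivFin N n : Fin (Fintype.card N)) : ℕ) b w % M)
      = (fun n b => mcount φ n b w % M) := by
    funext n b
    rw [e2]
  rw [e4]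

end Vale.Agent.Lib.P329
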