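import Mathlib

namespace Vale.Agent.Lib.P329

/-- The visit-counting automaton. From a deterministic automaton on the states `0, ..., N - 1`
with transition function `step`, a set `C` of letters and a modulus `m`, it is the automaton on
the states `0, ..., N * m - 1` in which the state `s` stands for the pair (state `s % N` of the
given automaton, counter `s / N` modulo `m`): the first component moves as in the given
automaton, and the counter goes up by one (modulo `m`) exactly when a letter of `C` is read
while the first component is the base state `0`. -/
def visitStep {α : Type} [DecidableEq α] (N m : ℕ) (step : ℕ → α → ℕ) (C : Finset α)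
    (s : ℕ) (a : α) : ℕ :=
  if s % N = 0 ∧ a ∈ C then step 0 a + N * ((s / N + 1) % m) else step (s % N) a + N * (s / N)

/-- One step of the weighted counting fold. The state is the pair (total weight of the letters
read so far, number of counted positions so far); a position is counted when its letter lies
in `S` and the total weight of the letters before it is congruent to `r` modulo `q`. -/
def wocStep {α : Type} [DecidableEq α] (q : ℕ) (κ : α → ℕ) (S : Finset α) (r : ℕ)
    (st : ℕ × ℕ) (x : α) : ℕ × ℕ :=
  (st.1 + κ x, if x ∈ S ∧ st.1 % q = r % q then st.2 + 1 else st.2)

/-- `wocc q κ S r w`: the number of positions of the word `w` that carry a letter of `S` and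
are such that the total weight `κ` of the letters before that position is congruent to `r`
modulo `q`. -/
def wocc {α : Type} [DecidableEq α] (q : ℕ) (κ : α → ℕ) (S : Finset α) (r : ℕ)
    (w : List α) : ℕ :=
  (w.foldl (wocStep q κ S r) (0, 0)).2

end Vale.Agent.Lib.P329
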