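import Vale.Agent.Lib.P329.ExtThree
import Vale.Agent.Lib.P329.VisitsDefs

/-!
# Counting by class in an elementary abelian group

Let `q` be a prime and let every letter `x` carry a class `c x` in `(Z/q)^n`. For a linear form
`u` on `(Z/q)^n` the letters get the weights `u (c x)` in `Z/q`, and a counting theorem for
weights modulo `q` counts the positions of a word at which the letters before have a given total
weight. Summing these counts over all `u` gives, up to the factor `q ^ n * (q - 1)` and a
multiple of the number of all occurrences, the number of positions at which the letters before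
have a given total class in `(Z/q)^n`. This is then used for groups that map onto a subgroup of
`(Z/q)^n` with a commutative kernel.
-/

namespace Vale.Agent.Lib.P329

open Language

variable {α : Type} [Fintype α] [DecidableEq α]

/-! ### The class count -/

/-- one step of the class counting fold: the state is (total class of the letters read so far,
number of counted positions so far) -/
def pwStep {A : Type} [AddCommMonoid A] [DecidableEq A] (c : α → A) (x : α) (p : A)
    (st : A × ℕ) (y : α) : A × ℕ :=
  (st.1 + c y, if y = x ∧ st.1 = p then st.2 + 1 else st.2)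

/-- `pcnt c x p w`: the number of positions of the word `w` that carry the letter `x` and are
such that the classes `c` of the letters before that position add up to `p` -/
def pcnt {A : Type} [AddCommMonoid A] [DecidableEq A] (c : α → A) (x : α) (p : A)
    (w : List α) : ℕ :=
  (w.foldl (pwStep c x p) (0, 0)).2

omit [Fintype α] in
theorem pw_fst {A : Type} [AddCommMonoid A] [DecidableEq A] (c : α → A) (x : α) (p : A)
    (w : List α) : ∀ st : A × ℕ, (w.foldl (pwStep c x p) st).1 = st.1 + (w.map c).sum := by
  induction w with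
  | nil => intro st; simp
  | cons y w ih =>
    intro st
    rw [List.foldl_cons, ih, List.map_cons, List.sum_cons]
    show st.1 + c y + (w.map c).sum = st.1 + (c y + (w.map c).sum)
    rw [add_assoc]

omit [Fintype α] in
theorem pcnt_nil {A : Type} [AddCommMonoid A] [DecidableEq A] (c : α → A) (x : α) (p : A) :
    pcnt c x p [] = 0 := rfl

omit [Fintype α] in
theorem pcnt_snoc {A : Type} [AddCommMonoid A] [DecidableEq A] (c : α → A) (x : α) (p : A)
    (w : List α) (y : α) :
    pcnt c x p (w ++ [y]) = pcnt c x p w + if y = x ∧ (w.map c).sum = p then 1 else 0 := by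
  unfold pcnt
  rw [List.foldl_append, List.foldl_cons, List.foldl_nil]
  have h1 := pw_fst c x p w (0, 0)
  have h2 : (w.foldl (pwStep c x p) (0, 0)).1 = (w.map c).sum := by
    rw [h1]
    exact zero_add _
  show (if y = x ∧ (w.foldl (pwStep c x p) (0, 0)).1 = p
      then (w.foldl (pwStep c x p) (0, 0)).2 + 1 else (w.foldl (pwStep c x p) (0, 0)).2) = _
  rw [h2]
  by_cases hc : y = x ∧ (w.map c).sum = p
  · rw [if_pos hc, if_pos hc]
  · rw [if_neg hc, if_neg hc, Nat.add_zero]

omit [Fintype α] in
theorem rad_fst (q : ℕ) (κ : α → ℕ) (S : Finset α) (r : ℕ) (w : List α) :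
    ∀ st : ℕ × ℕ, (w.foldl (wocStep q κ S r) st).1 = st.1 + (w.map κ).sum := by
  induction w with
  | nil => intro st; simp
  | cons y w ih =>
    intro st
    rw [List.foldl_cons, ih, List.map_cons, List.sum_cons]
    show st.1 + κ y + (w.map κ).sum = st.1 + (κ y + (w.map κ).sum)
    rw [add_assoc]

omit [Fintype α] in
theorem rad_wocc_nil (q : ℕ) (κ : α → ℕ) (S : Finset α) (r : ℕ) : wocc q κ S r [] = 0 := rfl

omit [Fintype α] in
theorem rad_wocc_snoc (q : ℕ) (κ : α → ℕ) (S : Finset α) (r : ℕ) (w : List α) (y : α) :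
    wocc q κ S r (w ++ [y]) =
      wocc q κ S r w + if y ∈ S ∧ (w.map κ).sum % q = r % q then 1 else 0 := by
  unfold wocc
  rw [List.foldl_append, List.foldl_cons, List.foldl_nil]
  have h1 := rad_fst q κ S r w (0, 0)
  have h2 : (w.foldl (wocStep q κ S r) (0, 0)).1 = (w.map κ).sum := by
    rw [h1]
    exact zero_add _
  show (if y ∈ S ∧ (w.foldl (wocStep q κ S r) (0, 0)).1 % q = r % q
      then (w.foldl (wocStep q κ S r) (0, 0)).2 + 1 else (w.foldl (wocStep q κ S r) (0, 0)).2) = _
  rw [h2]
  by_cases hc : y ∈ S ∧ (w.map κ).sum % q = r % q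
  · rw [if_pos hc, if_pos hc]
  · rw [if_neg hc, if_neg hc, Nat.add_zero]

/-! ### Linear forms -/

/-- the weight of a letter in the direction `u` -/
def dirW (q : ℕ) {n : ℕ} (c : α → Fin n → ZMod q) (u : Fin n → ZMod q) (x : α) : ℕ :=
  (dotProduct u (c x)).val

omit [Fintype α] [DecidableEq α] in
theorem dirW_sum (q : ℕ) [Fact q.Prime] {n : ℕ} (c : α → Fin n → ZMod q) (u : Fin n → ZMod q)
    (w : List α) :
    (((w.map (dirW q c u)).sum : ℕ) : ZMod q) = dotProduct u ((w.map c).sum) := by
  induction w with
  | nil => simp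
  | cons y w ih =>
    rw [List.map_cons, List.sum_cons, List.map_cons, List.sum_cons, Nat.cast_add, ih,
      dotProduct_add]
    unfold dirW
    rw [ZMod.natCast_zmod_val]

omit [Fintype α] [DecidableEq α] in
theorem dirW_cond (q : ℕ) [Fact q.Prime] {n : ℕ} (c : α → Fin n → ZMod q)
    (u p : Fin n → ZMod q) (w : List α) :
    ((w.map (dirW q c u)).sum % q = (dotProduct u p).val % q)
      ↔ dotProduct u ((w.map c).sum - p) = 0 := by
  rw [dotProduct_sub, sub_eq_zero, ← dirW_sum q c u w]
  constructor
  · intro h
    have h2 := (ZMod.natCast_eq_natCast_iff' _ _ q).mpr h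
    rw [ZMod.natCast_zmod_val (dotProduct u p)] at h2
    exact h2
  · intro h
    apply (ZMod.natCast_eq_natCast_iff' _ _ q).mp
    rw [ZMod.natCast_zmod_val (dotProduct u p)]
    exact h

/-- the number of linear forms that vanish at a given vector -/
theorem dot_card (q : ℕ) [Fact q.Prime] {n : ℕ} (d : Fin n → ZMod q) :
    q * (Finset.univ.filter (fun u : Fin n → ZMod q => dotProduct u d = 0)).card
      = q ^ n * (if d = 0 then q else 1) := by
  by_cases hd : d = 0
  · subst hd
    rw [if_pos rfl]
    have hall : (Finset.univ.filter (fun u : Fin n → ZMod q => dotProduct u 0 = 0))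
        = Finset.univ := by
      apply Finset.filter_true_of_mem
      intro u _
      exact dotProduct_zero u
    rw [hall, Finset.card_univ, Fintype.card_fun, ZMod.card, Fintype.card_fin, mul_comm]
  · rw [if_neg hd, mul_one]
    obtain ⟨j, hj⟩ : ∃ j, d j ≠ 0 := by
      by_contra hcon
      apply hd
      funext j
      by_contra hj
      exact hcon ⟨j, hj⟩
    have he : dotProduct (Pi.single j (d j)⁻¹ : Fin n → ZMod q) d = 1 := by
      rw [single_dotProduct]
      exact inv_mul_cancel₀ hj
    have hfib : ∀ r : ZMod q,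
        (Finset.univ.filter (fun u : Fin n → ZMod q => dotProduct u d = r)).card
          = (Finset.univ.filter (fun u : Fin n → ZMod q => dotProduct u d = 0)).card := by
      intro r
      symm
      apply Finset.card_bijective (fun u => u + r • (Pi.single j (d j)⁻¹ : Fin n → ZMod q))
        (AddGroup.addRight_bijective _)
      intro u
      simp only [Finset.mem_filter, Finset.mem_univ, true_and]
      rw [add_dotProduct, smul_dotProduct, he, smul_eq_mul, mul_one]
      constructor
      · intro h
        rw [h, zero_add]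
      · intro h
        exact add_eq_right.mp h
    have htot := Finset.card_eq_sum_card_fiberwise
      (s := (Finset.univ : Finset (Fin n → ZMod q))) (t := (Finset.univ : Finset (ZMod q)))
      (f := fun u => dotProduct u d) (fun u _ => Finset.mem_univ _)
    rw [Finset.sum_congr rfl (fun r _ => hfib r), Finset.sum_const, Finset.card_univ,
      Finset.card_univ, Fintype.card_fun, ZMod.card, Fintype.card_fin, smul_eq_mul] at htot
    exact htot.symm

/-! ### The summation identity -/

omit [Fintype α] in
/-- **Summation over all linear forms.** Summing, over all linear forms `u`, the number of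
positions that carry `x` and at which the letters before have the same `u`-weight as `p`, gives
`q ^ n` times (`q - 1` times the class count at `p`, plus the number of all occurrences of `x`),
up to the common factor `q`. -/
theorem radon_id (q : ℕ) [Fact q.Prime] {n : ℕ} (c : α → Fin n → ZMod q) (x : α)
    (p : Fin n → ZMod q) (w : List α) :
    q * ∑ u : Fin n → ZMod q, wocc q (dirW q c u) {x} (dotProduct u p).val w
      = q ^ n * ((q - 1) * pcnt c x p w + w.count x) := by
  induction w using List.reverseRecOn with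
  | nil =>
    simp only [rad_wocc_nil, pcnt_nil, Finset.sum_const_zero, List.count_nil, mul_zero, add_zero]
  | append_singleton w y ih =>
    simp only [rad_wocc_snoc, pcnt_snoc]
    rw [Finset.sum_add_distrib, mul_add, ih, List.count_append]
    obtain ⟨k, hk⟩ : ∃ k, q = k + 1 := ⟨q - 1, by
      have := (Fact.out : q.Prime).one_lt
      omega⟩
    have hk1 : q - 1 = k := by omega
    rw [hk1]
    by_cases hy : y = x
    · have hsum : ∑ u : Fin n → ZMod q,
          (if y ∈ ({x} : Finset α) ∧ (w.map (dirW q c u)).sum % q = (dotProduct u p).val % q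
            then 1 else 0)
          = (Finset.univ.filter
              (fun u : Fin n → ZMod q => dotProduct u ((w.map c).sum - p) = 0)).card := by
        rw [Finset.card_filter]
        apply Finset.sum_congr rfl
        intro u _
        have hcond := dirW_cond q c u p w
        by_cases h : dotProduct u ((w.map c).sum - p) = 0
        · rw [if_pos h, if_pos ⟨Finset.mem_singleton.mpr hy, hcond.mpr h⟩]
        · rw [if_neg h, if_neg (fun hh => h (hcond.mp hh.2))]
      have hc1 : List.count x [y] = 1 := by
        rw [hy]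
        exact List.count_singleton_self
      rw [hsum, dot_card q ((w.map c).sum - p), hc1]
      generalize q ^ n = K
      by_cases hs : (w.map c).sum = p
      · have hs0 : (w.map c).sum - p = 0 := sub_eq_zero.mpr hs
        have hKq : K * q = K * k + K := by
          rw [hk]
          ring
        rw [if_pos hs0, if_pos ⟨hy, hs⟩, hKq]
        ring
      · have hs0 : ¬ ((w.map c).sum - p = 0) := fun h => hs (sub_eq_zero.mp h)
        rw [if_neg hs0, if_neg (fun h => hs h.2)]
        ring
    · have hsum : ∑ u : Fin n → ZMod q,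
          (if y ∈ ({x} : Finset α) ∧ (w.map (dirW q c u)).sum % q = (dotProduct u p).val % q
            then 1 else 0) = 0 := by
        apply Finset.sum_eq_zero
        intro u _
        rw [if_neg (fun hh => hy (Finset.mem_singleton.mp hh.1))]
      have hc1 : List.count x [y] = 0 := by
        apply List.count_eq_zero_of_not_mem
        intro h
        exact hy (List.mem_singleton.mp h).symm
      rw [hsum, hc1, if_neg (fun h => hy h.1)]
      ring

/-! ### The class count as a statistic -/

omit [Fintype α] [DecidableEq α] in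
theorem rad_cast (M : ℕ) [NeZero M] (f : List α → ℕ) (h : StatLe 1 (fun w => f w % M)) :
    StatLe 1 (fun w => ((f w : ℕ) : ZMod M)) := by
  intro v
  refine (h v.val).of_iff (fun w => ?_)
  show f w % M = v.val ↔ ((f w : ℕ) : ZMod M) = v
  constructor
  · intro hw
    apply ZMod.val_injective
    rw [ZMod.val_natCast]
    exact hw
  · intro hw
    rw [← hw, ZMod.val_natCast]

/-- **Class counts.** Given the counting theorem for weights modulo the prime `q` (for single
letters and every modulus), the number of positions that carry the letter `x` and at which the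
letters before have total class `p` in `(Z/q)^n`, taken modulo `m`, is a statistic of
generalized star height at most one. -/
theorem stat_pcnt (q : ℕ) [Fact q.Prime]
    (hcnt : ∀ M : ℕ, 0 < M → ∀ (κ : α → ℕ) (x : α) (r : ℕ),
      StatLe 1 (fun w : List α => wocc q κ {x} r w % M))
    {n : ℕ} (m : ℕ) [NeZero m] (c : α → Fin n → ZMod q) (x : α) (p : Fin n → ZMod q) :
    StatLe 1 (fun w : List α => ((pcnt c x p w : ℕ) : ZMod m)) := by
  have hq1 : 1 < q := (Fact.out : q.Prime).one_lt
  have hDpos : 0 < q ^ n * (q - 1) := Nat.mul_pos (pow_pos (by omega) n) (by omega)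
  have hMpos : 0 < q ^ n * (q - 1) * m := Nat.mul_pos hDpos (Nat.pos_of_ne_zero (NeZero.ne m))
  have : NeZero (q ^ n * (q - 1) * m) := ⟨hMpos.ne'⟩
  have h1 : StatLe 1 (fun w : List α => (fun u : Fin n → ZMod q =>
      ((wocc q (dirW q c u) {x} (dotProduct u p).val w : ℕ) : ZMod (q ^ n * (q - 1) * m)))) :=
    StatLe.pi (fun u => rad_cast (q ^ n * (q - 1) * m) _
      (hcnt (q ^ n * (q - 1) * m) hMpos (dirW q c u) x (dotProduct u p).val))
  have h2 : StatLe 1 (fun w : List α => ((w.count x : ℕ) : ZMod (q ^ n * (q - 1) * m))) :=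
    stat_count (q ^ n * (q - 1) * m) x
  have h3 := (h1.prod h2).comp
    (fun F : ((Fin n → ZMod q) → ZMod (q ^ n * (q - 1) * m)) × ZMod (q ^ n * (q - 1) * m) =>
      (((((q : ℕ) : ZMod (q ^ n * (q - 1) * m)) * ∑ u : Fin n → ZMod q, F.1 u
          - ((q ^ n : ℕ) : ZMod (q ^ n * (q - 1) * m)) * F.2).val / (q ^ n * (q - 1)) : ℕ)
        : ZMod m))
  refine h3.congr (fun w => ?_)
  show (((((q : ℕ) : ZMod (q ^ n * (q - 1) * m)) * ∑ u : Fin n → ZMod q,
        ((wocc q (dirW q c u) {x} (dotProduct u p).val w : ℕ) : ZMod (q ^ n * (q - 1) * m))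
      - ((q ^ n : ℕ) : ZMod (q ^ n * (q - 1) * m))
        * ((w.count x : ℕ) : ZMod (q ^ n * (q - 1) * m))).val / (q ^ n * (q - 1)) : ℕ)
        : ZMod m) = ((pcnt c x p w : ℕ) : ZMod m)
  have hid := radon_id q c x p w
  have hz : ((q : ℕ) : ZMod (q ^ n * (q - 1) * m)) * ∑ u : Fin n → ZMod q,
        ((wocc q (dirW q c u) {x} (dotProduct u p).val w : ℕ) : ZMod (q ^ n * (q - 1) * m))
      - ((q ^ n : ℕ) : ZMod (q ^ n * (q - 1) * m))
        * ((w.count x : ℕ) : ZMod (q ^ n * (q - 1) * m))
      = ((q ^ n * (q - 1) * pcnt c x p w : ℕ) : ZMod (q ^ n * (q - 1) * m)) := by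
    have hcast : ((q * ∑ u : Fin n → ZMod q, wocc q (dirW q c u) {x} (dotProduct u p).val w : ℕ)
        : ZMod (q ^ n * (q - 1) * m))
        = ((q ^ n * ((q - 1) * pcnt c x p w + w.count x) : ℕ) : ZMod (q ^ n * (q - 1) * m)) := by
      rw [hid]
    rw [Nat.cast_mul, Nat.cast_sum] at hcast
    rw [hcast]
    generalize q ^ n = K
    generalize q - 1 = k
    push_cast
    ring
  rw [hz, ZMod.val_natCast, Nat.mul_mod_mul_left, Nat.mul_div_cancel_left _ hDpos,
    ZMod.natCast_mod]

/-- the total class of a word is a statistic of generalized star height at most one -/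
theorem stat_class (q : ℕ) [Fact q.Prime] {n : ℕ} (c : α → Fin n → ZMod q) :
    StatLe 1 (fun w : List α => (w.map c).sum) := by
  have h1 : StatLe 1 (fun w : List α => (fun j : Fin n =>
      (((w.map (dirW q c (Pi.single j 1))).sum : ℕ) : ZMod q))) :=
    StatLe.pi (fun j => stat_weight_mod q (dirW q c (Pi.single j 1)))
  refine h1.congr (fun w => ?_)
  funext j
  show (((w.map (dirW q c (Pi.single j 1))).sum : ℕ) : ZMod q) = (w.map c).sum j
  rw [dirW_sum, single_dotProduct, one_mul]

/-! ### Groups -/

theorem rad_pow_mod {V : Type} [Monoid V] (a : V) (m : ℕ) (ha : a ^ m = 1) (k : ℕ) :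
    a ^ (k % m) = a ^ k := by
  conv_rhs => rw [← Nat.div_add_mod k m, pow_add, pow_mul, ha, one_pow, one_mul]

/-- the product of a word, in terms of the class counts: `σ` chooses an element in each class,
and `ι (ν p y)` is the correction `σ p * φ y * (σ (p + c y))⁻¹` -/
theorem rad_prod {G V A : Type} [Group G] [CommGroup V] [AddCommMonoid A] [DecidableEq A]
    [Fintype A] (ι : V →* G) (c : α → A) (φ : α → G) (σ : A → G) (ν : A → α → V)
    (hν : ∀ (w : List α) (y : α),
      σ ((w.map c).sum) * φ y = ι (ν ((w.map c).sum) y) * σ ((w.map c).sum + c y))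
    (w : List α) :
    (w.map φ).prod
      = (σ 0)⁻¹ * ι (∏ x : α, ∏ p : A, ν p x ^ pcnt c x p w) * σ ((w.map c).sum) := by
  induction w using List.reverseRecOn with
  | nil =>
    simp only [pcnt_nil, pow_zero, Finset.prod_const_one, map_one, List.map_nil, List.prod_nil,
      List.sum_nil, mul_one, inv_mul_cancel]
  | append_singleton w y ih =>
    have hstep : (∏ x : α, ∏ p : A, ν p x ^ pcnt c x p (w ++ [y]))
        = (∏ x : α, ∏ p : A, ν p x ^ pcnt c x p w) * ν ((w.map c).sum) y := by
      simp only [pcnt_snoc, pow_add, Finset.prod_mul_distrib]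
      congr 1
      rw [Finset.prod_eq_single y]
      · rw [Finset.prod_eq_single ((w.map c).sum)]
        · rw [if_pos ⟨rfl, rfl⟩, pow_one]
        · intro p _ hp
          rw [if_neg (fun h => hp h.2.symm), pow_zero]
        · intro h
          exact absurd (Finset.mem_univ _) h
      · intro x _ hx
        apply Finset.prod_eq_one
        intro p _
        rw [if_neg (fun h => hx h.1.symm), pow_zero]
      · intro h
        exact absurd (Finset.mem_univ _) h
    rw [List.map_append, List.prod_append, ih, List.map_cons, List.map_nil, List.prod_singleton,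
      hstep, map_mul, List.map_append, List.sum_append, List.map_cons, List.map_nil,
      List.sum_singleton, mul_assoc ((σ 0)⁻¹ * ι _) (σ _) (φ y), hν w y]
    simp only [mul_assoc]

/-- abstract form: a group in which the products of words are given by class counts in a
commutative group of exponent dividing `m` -/
theorem rad_gsh (q : ℕ) [Fact q.Prime]
    (hcnt : ∀ M : ℕ, 0 < M → ∀ (κ : α → ℕ) (x : α) (r : ℕ),
      StatLe 1 (fun w : List α => wocc q κ {x} r w % M))
    {n : ℕ} (m : ℕ) (hm : 0 < m) {G V : Type} [Group G] [CommGroup V] (ι : V →* G)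
    (hV : ∀ a : V, a ^ m = 1) (c : α → Fin n → ZMod q) (φ : α → G)
    (σ : (Fin n → ZMod q) → G) (ν : (Fin n → ZMod q) → α → V)
    (hν : ∀ (w : List α) (y : α),
      σ ((w.map c).sum) * φ y = ι (ν ((w.map c).sum) y) * σ ((w.map c).sum + c y))
    (P : Set G) :
    GSHLe 1 ({w | (w.map φ).prod ∈ P} : Language α) := by
  have : NeZero m := ⟨hm.ne'⟩
  have hT : StatLe 1 (fun w : List α =>
      ((w.map c).sum, fun (x : α) (p : Fin n → ZMod q) => ((pcnt c x p w : ℕ) : ZMod m))) :=
    (stat_class q c).prod
      (StatLe.pi (fun x => StatLe.pi (fun p => stat_pcnt q hcnt m c x p)))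
  have hlev := hT.level (fun t : (Fin n → ZMod q) × (α → (Fin n → ZMod q) → ZMod m) =>
    (σ 0)⁻¹ * ι (∏ x : α, ∏ p : Fin n → ZMod q, ν p x ^ (t.2 x p).val) * σ t.1 ∈ P)
  refine hlev.of_iff (fun w => ?_)
  show (σ 0)⁻¹ * ι (∏ x : α, ∏ p : Fin n → ZMod q,
      ν p x ^ (((pcnt c x p w : ℕ) : ZMod m)).val) * σ ((w.map c).sum) ∈ P
    ↔ (w.map φ).prod ∈ P
  rw [rad_prod ι c φ σ ν hν w]
  simp only [ZMod.val_natCast, rad_pow_mod _ m (hV _)]

/-- a commutative group structure on a subgroup whose elements commute -/
@[reducible] def radComm {G : Type} [Group G] (N : Subgroup G)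
    (hcomm : ∀ a ∈ N, ∀ b ∈ N, a * b = b * a) : CommGroup N :=
  { (inferInstance : Group N) with
    mul_comm := fun a b => Subtype.ext (hcomm a a.2 b b.2) }

/-- **Commutative kernel, image in `(Z/q)^n`.** Let `ψ` be a map from a group `G` to `(Z/q)^n`
with `ψ (g * h) = ψ g + ψ h`, such that the elements `a` with `ψ a = 0` commute pairwise and
satisfy `a ^ m = 1` for one fixed `m > 0`. Given the counting theorem for weights modulo `q`,
every language `{w | product of w in P}` has generalized star height at most one. -/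
theorem elem_abel (q : ℕ) [Fact q.Prime]
    (hcnt : ∀ M : ℕ, 0 < M → ∀ (κ : α → ℕ) (x : α) (r : ℕ),
      StatLe 1 (fun w : List α => wocc q κ {x} r w % M))
    {n : ℕ} {G : Type} [Group G] (ψ : G → Fin n → ZMod q)
    (hψ : ∀ g h : G, ψ (g * h) = ψ g + ψ h)
    (hcomm : ∀ a b : G, ψ a = 0 → ψ b = 0 → a * b = b * a) (m : ℕ) (hm : 0 < m)
    (hexp : ∀ a : G, ψ a = 0 → a ^ m = 1) (φ : α → G) (P : Set G) :
    GSHLe 1 ({w | (w.map φ).prod ∈ P} : Language α) := by
  have hψ1 : ψ 1 = 0 := by
    have h := hψ 1 1
    rw [mul_one] at h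
    exact add_eq_left.mp h.symm
  have hψinv : ∀ g : G, ψ g⁻¹ = - ψ g := by
    intro g
    have h := hψ g g⁻¹
    rw [mul_inv_cancel, hψ1] at h
    exact eq_neg_of_add_eq_zero_right h.symm
  let N : Subgroup G :=
    { carrier := {g | ψ g = 0}
      mul_mem' := by
        intro a b ha hb
        show ψ (a * b) = 0
        have ha' : ψ a = 0 := ha
        have hb' : ψ b = 0 := hb
        rw [hψ, ha', hb', add_zero]
      one_mem' := hψ1
      inv_mem' := by
        intro a ha
        show ψ a⁻¹ = 0
        have ha' : ψ a = 0 := ha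
        rw [hψinv, ha', neg_zero] }
  have hN : ∀ a ∈ N, ∀ b ∈ N, a * b = b * a := fun a ha b hb => hcomm a b ha hb
  let inst : CommGroup N := radComm N hN
  let ι : N →* G := MonoidHom.mk' (fun a : N => (a : G)) (fun _ _ => rfl)
  have hV : ∀ a : N, a ^ m = 1 := by
    intro a
    apply Subtype.ext
    show ((a ^ m : N) : G) = 1
    rw [Subgroup.coe_pow]
    exact hexp a a.2
  let c : α → Fin n → ZMod q := fun x => ψ (φ x)
  have hcls : ∀ w : List α, ψ ((w.map φ).prod) = (w.map c).sum := by
    intro w
    induction w with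
    | nil => exact hψ1
    | cons y w ih =>
      rw [List.map_cons, List.prod_cons, hψ, ih, List.map_cons, List.sum_cons]
  let σ : (Fin n → ZMod q) → G := Function.invFun ψ
  have hσ : ∀ g : G, ψ (σ (ψ g)) = ψ g := fun g => Function.invFun_eq ⟨g, rfl⟩
  let ν : (Fin n → ZMod q) → α → N := fun p x =>
    if h : ψ (σ p * φ x * (σ (p + c x))⁻¹) = 0 then ⟨σ p * φ x * (σ (p + c x))⁻¹, h⟩ else 1
  have hν : ∀ (w : List α) (y : α),
      σ ((w.map c).sum) * φ y = ι (ν ((w.map c).sum) y) * σ ((w.map c).sum + c y) := by
    intro w y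
    have hs : ψ (σ ((w.map c).sum)) = (w.map c).sum := by
      rw [← hcls w]
      exact hσ _
    have hs2 : ψ (σ ((w.map c).sum + c y)) = (w.map c).sum + c y := by
      have h : (w.map c).sum + c y = ψ ((w.map φ).prod * φ y) := by
        rw [hψ, hcls]
      rw [h]
      exact hσ _
    have hk : ψ (σ ((w.map c).sum) * φ y * (σ ((w.map c).sum + c y))⁻¹) = 0 := by
      rw [hψ, hψ, hψinv, hs, hs2]
      exact add_neg_cancel _
    have hνe : ν ((w.map c).sum) y
        = ⟨σ ((w.map c).sum) * φ y * (σ ((w.map c).sum + c y))⁻¹, hk⟩ := dif_pos hk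
    rw [hνe]
    show σ ((w.map c).sum) * φ y
      = σ ((w.map c).sum) * φ y * (σ ((w.map c).sum + c y))⁻¹ * σ ((w.map c).sum + c y)
    rw [inv_mul_cancel_right]
  exact rad_gsh q hcnt m hm ι hV c φ σ ν hν P

/-- **Commutative kernel, image in a finite vector space over `Z/q`.** -/
theorem elem_vec (q : ℕ) [Fact q.Prime]
    (hcnt : ∀ M : ℕ, 0 < M → ∀ (κ : α → ℕ) (x : α) (r : ℕ),
      StatLe 1 (fun w : List α => wocc q κ {x} r w % M))
    {G : Type} [Group G] {V : Type} [AddCommGroup V] [Module (ZMod q) V] [Finite V]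
    (π : G → V) (hπ : ∀ g h : G, π (g * h) = π g + π h)
    (hcomm : ∀ a b : G, π a = 0 → π b = 0 → a * b = b * a) (m : ℕ) (hm : 0 < m)
    (hexp : ∀ a : G, π a = 0 → a ^ m = 1) (φ : α → G) (P : Set G) :
    GSHLe 1 ({w | (w.map φ).prod ∈ P} : Language α) := by
  let e : V ≃ₗ[ZMod q] (Fin (Module.finrank (ZMod q) V) → ZMod q) :=
    (Module.finBasis (ZMod q) V).equivFun
  refine elem_abel q hcnt (fun g : G => e (π g)) ?_ ?_ m hm ?_ φ P
  · intro g h
    show e (π (g * h)) = e (π g) + e (π h)
    rw [hπ, map_add]
  · intro a b ha hb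
    exact hcomm a b ((LinearEquiv.map_eq_zero_iff e).mp ha)
      ((LinearEquiv.map_eq_zero_iff e).mp hb)
  · intro a ha
    exact hexp a ((LinearEquiv.map_eq_zero_iff e).mp ha)

/-- **Commutative normal subgroup with elementary abelian quotient.** Let `N` be a normal
subgroup of finite index of a group `G` whose elements commute pairwise and satisfy `a ^ m = 1`
for one fixed `m > 0`, and such that `G / N` is commutative of exponent dividing the prime `q`:
all `g ^ q` and all commutators `g * h * g⁻¹ * h⁻¹` lie in `N`. Given the counting theorem for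
weights modulo `q`, every language `{w | product of w in P}` has generalized star height at
most one. -/
theorem elem_quot (q : ℕ) [Fact q.Prime]
    (hcnt : ∀ M : ℕ, 0 < M → ∀ (κ : α → ℕ) (x : α) (r : ℕ),
      StatLe 1 (fun w : List α => wocc q κ {x} r w % M))
    {G : Type} [Group G] (N : Subgroup G) [N.Normal] [Finite (G ⧸ N)]
    (hcomm : ∀ a ∈ N, ∀ b ∈ N, a * b = b * a)
    (hq : ∀ g : G, g ^ q ∈ N) (hab : ∀ g h : G, g * h * g⁻¹ * h⁻¹ ∈ N)
    (m : ℕ) (hm : 0 < m) (hexp : ∀ a ∈ N, a ^ m = 1) (φ : α → G) (P : Set G) :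
    GSHLe 1 ({w | (w.map φ).prod ∈ P} : Language α) := by
  let instC : CommGroup (G ⧸ N) :=
    { (inferInstance : Group (G ⧸ N)) with
      mul_comm := by
        intro a b
        refine QuotientGroup.induction_on a (fun g => ?_)
        refine QuotientGroup.induction_on b (fun h => ?_)
        show ((g * h : G) : G ⧸ N) = ((h * g : G) : G ⧸ N)
        apply QuotientGroup.eq.mpr
        have h1 := hab h⁻¹ g⁻¹
        rw [inv_inv, inv_inv] at h1
        have h2 : (g * h)⁻¹ * (h * g) = h⁻¹ * g⁻¹ * h * g := by group
        rw [h2]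
        exact h1 }
  have hqV : ∀ x : Additive (G ⧸ N), q • x = 0 := by
    intro x
    obtain ⟨g, hg⟩ := QuotientGroup.mk_surjective (Additive.toMul x)
    have hx : x = Additive.ofMul (g : G ⧸ N) := by
      rw [hg]
      rfl
    rw [hx, ← ofMul_pow, ← QuotientGroup.mk_pow, (QuotientGroup.eq_one_iff (g ^ q)).mpr (hq g)]
    rfl
  have hker : ∀ a : G, Additive.ofMul (a : G ⧸ N) = 0 → a ∈ N := by
    intro a ha
    apply (QuotientGroup.eq_one_iff a).mp
    exact ha
  exact @elem_vec α _ _ q _ hcnt G _ (Additive (G ⧸ N)) Additive.addCommGroup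
    (AddCommGroup.zmodModule hqV) (inferInstanceAs (Finite (G ⧸ N)))
    (fun g : G => Additive.ofMul (g : G ⧸ N)) (fun _ _ => rfl)
    (fun a b ha hb => hcomm a (hker a ha) b (hker b hb)) m hm
    (fun a ha => hexp a (hker a ha)) φ P

end Vale.Agent.Lib.P329
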