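import Vale.Agent.Lib.P329.SmallPGroups
import Vale.Agent.Lib.P329.AbelPrime
import Mathlib.GroupTheory.Transfer

/-!
# Groups with at most nineteen elements

Every group with at most `19` elements has prime power order `p ^ k` with `k ≤ 4`, or has an
abelian normal subgroup of prime index:

* orders `6`, `10`, `14`, `18`: a Sylow subgroup of index two (of order `p` or `p ^ 2`);
* order `15`: the Sylow `5`-subgroup, of index three, the least prime factor of the order;
* order `12`: let `P` be a Sylow `3`-subgroup. If the normalizer of `P` centralizes `P`, then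
  `P` has a normal complement, of order four (Burnside's transfer theorem). Otherwise the
  centralizer of `P` has index two in the normalizer, the normalizer has order at least six,
  so `P` is normal by Sylow's theorem, and the centralizer of `P` is a subgroup of index two
  and order six with the central subgroup `P` of index two; so it is abelian.

With `gsh_prime_pow_le_five` and `abel_prime_finite`, every language recognized by a group with
at most nineteen elements has generalized star height at most one.
-/

namespace Vale.Agent.Lib.P329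

section smallorders

variable {G : Type} [Group G] [Finite G]

/-- `HasAbelPrime G`: the group `G` has an abelian normal subgroup of prime index -/
def HasAbelPrime (G : Type) [Group G] : Prop :=
  ∃ N : Subgroup G, N.Normal ∧ (∀ a ∈ N, ∀ b ∈ N, a * b = b * a) ∧ N.index.Prime

/-- the order of a Sylow subgroup -/
theorem sylow_card {p : ℕ} [Fact p.Prime] (P : Sylow p G) (k m : ℕ)
    (hG : Nat.card G = p ^ k * m) (hm : ¬ p ∣ m) : Nat.card P = p ^ k := by
  have hp : p.Prime := Fact.out
  have hm0 : m ≠ 0 := fun h => hm (h ▸ dvd_zero p)
  rw [P.card_eq_multiplicity, hG, Nat.factorization_mul (pow_ne_zero k hp.ne_zero) hm0,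
    hp.factorization_pow, Finsupp.add_apply, Finsupp.single_eq_same,
    Nat.factorization_eq_zero_of_not_dvd hm, add_zero]

/-- a group of order `p` or `p ^ 2` is commutative -/
theorem comm_of_card_prime_or_sq {H : Type} [Group H] {p : ℕ} [Fact p.Prime] {k : ℕ}
    (hk : k = 1 ∨ k = 2) (hH : Nat.card H = p ^ k) : ∀ a b : H, a * b = b * a := by
  rcases hk with rfl | rfl
  · rw [pow_one] at hH
    have : IsCyclic H := isCyclic_of_prime_card hH
    exact fun a b => (IsCyclic.isMulCommutative (α := H)).is_comm.comm a b
  · exact fun a b => (IsPGroup.isMulCommutative_of_card_eq_prime_sq hH).is_comm.comm a b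

/-- a Sylow subgroup of order `p` or `p ^ 2` whose index is the least prime factor of the order
of the group is an abelian normal subgroup of prime index -/
theorem hasAbelPrime_of_sylow (p : ℕ) [Fact p.Prime] (k m : ℕ) (hk : k = 1 ∨ k = 2)
    (hG : Nat.card G = p ^ k * m) (hm : ¬ p ∣ m) (hmp : m.Prime)
    (hmin : (Nat.card G).minFac = m) : HasAbelPrime G := by
  have hp : p.Prime := Fact.out
  let P : Sylow p G := default
  have hP : Nat.card P = p ^ k := sylow_card P k m hG hm
  have hidx : (P : Subgroup G).index = m := by
    have h1 := (P : Subgroup G).card_mul_index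
    rw [hG] at h1
    have h2 : p ^ k * (P : Subgroup G).index = p ^ k * m := by
      rw [← h1]
      congr 1
      exact hP.symm
    exact Nat.eq_of_mul_eq_mul_left (pow_pos hp.pos k) h2
  refine ⟨(P : Subgroup G), ?_, ?_, ?_⟩
  · exact Subgroup.normal_of_index_eq_minFac_card (by rw [hidx, hmin])
  · intro a ha b hb
    exact congrArg Subtype.val
      (comm_of_card_prime_or_sq hk hP (⟨a, ha⟩ : (P : Subgroup G)) ⟨b, hb⟩)
  · rw [hidx]
    exact hmp

/-- groups of order twelve -/
theorem hasAbelPrime_twelve (hG : Nat.card G = 12) : HasAbelPrime G := by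
  have : Fact (Nat.Prime 3) := ⟨by norm_num⟩
  have : Fact (Nat.Prime 2) := ⟨Nat.prime_two⟩
  let P : Sylow 3 G := default
  have hP : Nat.card P = 3 := by
    have h := sylow_card P 1 4 (by rw [hG]; norm_num) (by norm_num)
    rw [pow_one] at h
    exact h
  have hPcyc : IsCyclic (P : Subgroup G) := isCyclic_of_prime_card hP
  have hPC : (P : Subgroup G) ≤ Subgroup.centralizer ((P : Subgroup G) : Set G) := by
    intro a ha b hb
    exact congrArg Subtype.val ((IsCyclic.isMulCommutative
      (α := (P : Subgroup G))).is_comm.comm ⟨b, hb⟩ ⟨a, ha⟩)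
  by_cases hB : Subgroup.normalizer ((P : Subgroup G) : Set G)
      ≤ Subgroup.centralizer ((P : Subgroup G) : Set G)
  · -- Burnside: a normal complement of order four
    have hc := MonoidHom.ker_transferSylow_isComplement' P hB
    have hKc : Nat.card (MonoidHom.transferSylow P hB).ker = 4 := by
      have h := hc.card_mul_card
      rw [hG] at h
      have h' : Nat.card (MonoidHom.transferSylow P hB).ker * 3 = 12 := by
        rw [← h]
        congr 1
        exact hP.symm
      omega
    refine ⟨(MonoidHom.transferSylow P hB).ker, inferInstance, ?_, ?_⟩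
    · intro a ha b hb
      exact congrArg Subtype.val
        (comm_of_card_prime_or_sq (p := 2) (k := 2) (Or.inr rfl) (by rw [hKc]; norm_num)
          (⟨a, ha⟩ : (MonoidHom.transferSylow P hB).ker) ⟨b, hb⟩)
    · have h := (MonoidHom.transferSylow P hB).ker.card_mul_index
      rw [hKc, hG] at h
      have h3 : (MonoidHom.transferSylow P hB).ker.index = 3 := by omega
      rw [h3]
      norm_num
  · -- the centralizer has index two
    have key := Subgroup.card_dvd_of_injective _
      (QuotientGroup.kerLift_injective (P : Subgroup G).normalizerMonoidHom)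
    rw [Subgroup.normalizerMonoidHom_ker, ← Subgroup.index, ← Subgroup.relIndex,
      hPcyc.card_mulAut, hP, Nat.totient_prime (by norm_num)] at key
    have hr : (Subgroup.centralizer ((P : Subgroup G) : Set G)).relIndex
        (Subgroup.normalizer ((P : Subgroup G) : Set G)) = 2 := by
      have h1 : (Subgroup.centralizer ((P : Subgroup G) : Set G)).relIndex
          (Subgroup.normalizer ((P : Subgroup G) : Set G)) ≠ 1 :=
        fun h => hB (Subgroup.relIndex_eq_one.1 h)
      have h2 := Nat.le_of_dvd (by norm_num) key
      have h0 : (Subgroup.centralizer ((P : Subgroup G) : Set G)).relIndex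
          (Subgroup.normalizer ((P : Subgroup G) : Set G)) ≠ 0 := by
        intro h
        rw [h] at key
        norm_num at key
      omega
    -- the normalizer has order divisible by six
    have h6 : 6 ∣ Nat.card (Subgroup.normalizer ((P : Subgroup G) : Set G)) := by
      have hle : (P : Subgroup G).subgroupOf (Subgroup.normalizer ((P : Subgroup G) : Set G))
          ≤ (Subgroup.centralizer ((P : Subgroup G) : Set G)).subgroupOf
            (Subgroup.normalizer ((P : Subgroup G) : Set G)) := by
        intro x hx
        exact hPC hx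
      have h3 := Subgroup.card_dvd_of_le hle
      rw [Nat.card_congr (Subgroup.subgroupOfEquivOfLe
        (Subgroup.le_normalizer (H := (P : Subgroup G)))).toEquiv, hP] at h3
      have hmul := ((Subgroup.centralizer ((P : Subgroup G) : Set G)).subgroupOf
        (Subgroup.normalizer ((P : Subgroup G) : Set G))).card_mul_index
      rw [← Subgroup.relIndex, hr] at hmul
      rw [← hmul]
      obtain ⟨t, ht⟩ := h3
      exact ⟨t, by rw [ht]; ring⟩
    -- Sylow: the normalizer is the whole group
    have hn3 : Nat.card (Sylow 3 G) ≡ 1 [MOD 3] := card_sylow_modEq_one 3 G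
    have hidx : Nat.card (Sylow 3 G)
        = (Subgroup.normalizer ((P : Subgroup G) : Set G)).index := P.card_eq_index_normalizer
    have hNtop : Subgroup.normalizer ((P : Subgroup G) : Set G) = ⊤ := by
      rw [← Subgroup.index_eq_one]
      have hmul := (Subgroup.normalizer ((P : Subgroup G) : Set G)).card_mul_index
      rw [hG] at hmul
      rw [hidx] at hn3
      obtain ⟨t, ht⟩ := h6
      rw [ht] at hmul
      have hn3' : (Subgroup.normalizer ((P : Subgroup G) : Set G)).index % 3 = 1 := hn3
      generalize (Subgroup.normalizer ((P : Subgroup G) : Set G)).index = i at hmul hn3'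
      have ht2 : t ≤ 2 := by
        by_contra hc
        have : 6 * 3 * i ≤ 6 * t * i := by
          apply Nat.mul_le_mul_right
          omega
        have hi : 0 < i := by
          rcases Nat.eq_zero_or_pos i with h | h
          · rw [h] at hn3'
            norm_num at hn3'
          · exact h
        nlinarith
      interval_cases t
      · omega
      · omega
      · omega
    have hPn : (P : Subgroup G).Normal := Subgroup.normalizer_eq_top_iff.1 hNtop
    rw [hNtop, Subgroup.relIndex_top_right] at hr
    have hCc : Nat.card (Subgroup.centralizer ((P : Subgroup G) : Set G)) = 6 := by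
      have h := (Subgroup.centralizer ((P : Subgroup G) : Set G)).card_mul_index
      rw [hr, hG] at h
      omega
    have hrel : (P : Subgroup G).relIndex (Subgroup.centralizer ((P : Subgroup G) : Set G))
        = 2 := by
      have h := Subgroup.relIndex_mul_relIndex (⊥ : Subgroup G) (P : Subgroup G)
        (Subgroup.centralizer ((P : Subgroup G) : Set G)) bot_le hPC
      rw [Subgroup.relIndex_bot_left, Subgroup.relIndex_bot_left, hCc] at h
      have h' : 3 * (P : Subgroup G).relIndex
          (Subgroup.centralizer ((P : Subgroup G) : Set G)) = 6 := by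
        rw [← h]
        congr 1
        exact hP.symm
      omega
    refine ⟨Subgroup.centralizer ((P : Subgroup G) : Set G),
      Subgroup.normal_of_index_eq_two hr, ?_, ?_⟩
    · exact comm_of_relIndex_prime Nat.prime_two _ _
        (Subgroup.commutator_eq_bot_iff_le_centralizer.2 le_rfl) hrel
    · rw [hr]
      exact Nat.prime_two

end smallorders

/-- **Groups with at most nineteen elements.** Every language recognized by a group with at
most `19` elements has generalized star height at most one. -/
theorem gsh_card_le_nineteen {α : Type} [DecidableEq α] [Fintype α] {G : Type} [Group G]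
    [Finite G] (h : Nat.card G ≤ 19) (φ : α → G) (P : Set G) :
    GSHLe 1 ({w | (w.map φ).prod ∈ P} : Language α) := by
  have hpos : 0 < Nat.card G := Nat.card_pos
  have pp : ∀ p k : ℕ, p.Prime → k ≤ 5 → Nat.card G = p ^ k →
      GSHLe 1 ({w | (w.map φ).prod ∈ P} : Language α) :=
    fun p k hp hk hG => gsh_prime_pow_le_five hp hk hG φ P
  have ab : HasAbelPrime G → GSHLe 1 ({w | (w.map φ).prod ∈ P} : Language α) := by
    rintro ⟨N, hN, hc, hi⟩
    exact abel_prime_finite N hc hi φ P
  have f2 : Fact (Nat.Prime 2) := ⟨Nat.prime_two⟩
  have f3 : Fact (Nat.Prime 3) := ⟨by norm_num⟩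
  have f5 : Fact (Nat.Prime 5) := ⟨by norm_num⟩
  have f7 : Fact (Nat.Prime 7) := ⟨by norm_num⟩
  obtain ⟨n, hn⟩ : ∃ n, Nat.card G = n := ⟨_, rfl⟩
  rw [hn] at h hpos
  interval_cases n
  · exact pp 2 0 (by norm_num) (by norm_num) (by rw [hn]; norm_num)
  · exact pp 2 1 (by norm_num) (by norm_num) (by rw [hn]; norm_num)
  · exact pp 3 1 (by norm_num) (by norm_num) (by rw [hn]; norm_num)
  · exact pp 2 2 (by norm_num) (by norm_num) (by rw [hn]; norm_num)
  · exact pp 5 1 (by norm_num) (by norm_num) (by rw [hn]; norm_num)
  · exact ab (hasAbelPrime_of_sylow 3 1 2 (Or.inl rfl) (by rw [hn]; norm_num) (by norm_num)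
      (by norm_num) (by rw [hn]; norm_num))
  · exact pp 7 1 (by norm_num) (by norm_num) (by rw [hn]; norm_num)
  · exact pp 2 3 (by norm_num) (by norm_num) (by rw [hn]; norm_num)
  · exact pp 3 2 (by norm_num) (by norm_num) (by rw [hn]; norm_num)
  · exact ab (hasAbelPrime_of_sylow 5 1 2 (Or.inl rfl) (by rw [hn]; norm_num) (by norm_num)
      (by norm_num) (by rw [hn]; norm_num))
  · exact pp 11 1 (by norm_num) (by norm_num) (by rw [hn]; norm_num)
  · exact ab (hasAbelPrime_twelve hn)
  · exact pp 13 1 (by norm_num) (by norm_num) (by rw [hn]; norm_num)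
  · exact ab (hasAbelPrime_of_sylow 7 1 2 (Or.inl rfl) (by rw [hn]; norm_num) (by norm_num)
      (by norm_num) (by rw [hn]; norm_num))
  · exact ab (hasAbelPrime_of_sylow 5 1 3 (Or.inl rfl) (by rw [hn]; norm_num) (by norm_num)
      (by norm_num) (by rw [hn]; norm_num))
  · exact pp 2 4 (by norm_num) (by norm_num) (by rw [hn]; norm_num)
  · exact pp 17 1 (by norm_num) (by norm_num) (by rw [hn]; norm_num)
  · exact ab (hasAbelPrime_of_sylow 3 2 2 (Or.inr rfl) (by rw [hn]; norm_num) (by norm_num)
      (by norm_num) (by rw [hn]; norm_num))
  · exact pp 19 1 (by norm_num) (by norm_num) (by rw [hn]; norm_num)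

/-- **Groups with at most twenty-three elements, order twenty excepted.** Every language
recognized by a group with at most `23` elements whose order is not `20` has generalized star
height at most one. -/
theorem gsh_card_le_twenty_three {α : Type} [DecidableEq α] [Fintype α] {G : Type} [Group G]
    [Finite G] (h : Nat.card G ≤ 23) (h20 : Nat.card G ≠ 20) (φ : α → G) (P : Set G) :
    GSHLe 1 ({w | (w.map φ).prod ∈ P} : Language α) := by
  by_cases h19 : Nat.card G ≤ 19
  · exact gsh_card_le_nineteen h19 φ P
  have pp : ∀ p k : ℕ, p.Prime → k ≤ 5 → Nat.card G = p ^ k →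
      GSHLe 1 ({w | (w.map φ).prod ∈ P} : Language α) :=
    fun p k hp hk hG => gsh_prime_pow_le_five hp hk hG φ P
  have ab : HasAbelPrime G → GSHLe 1 ({w | (w.map φ).prod ∈ P} : Language α) := by
    rintro ⟨N, hN, hc, hi⟩
    exact abel_prime_finite N hc hi φ P
  have f7 : Fact (Nat.Prime 7) := ⟨by norm_num⟩
  have f11 : Fact (Nat.Prime 11) := ⟨by norm_num⟩
  obtain ⟨n, hn⟩ : ∃ n, Nat.card G = n := ⟨_, rfl⟩
  rw [hn] at h h19 h20
  have h19' : 20 ≤ n := by omega
  interval_cases n
  · exact absurd rfl h20
  · exact ab (hasAbelPrime_of_sylow 7 1 3 (Or.inl rfl) (by rw [hn]; norm_num) (by norm_num)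
      (by norm_num) (by rw [hn]; norm_num))
  · exact ab (hasAbelPrime_of_sylow 11 1 2 (Or.inl rfl) (by rw [hn]; norm_num) (by norm_num)
      (by norm_num) (by rw [hn]; norm_num))
  · exact pp 23 1 (by norm_num) (by norm_num) (by rw [hn]; norm_num)

end Vale.Agent.Lib.P329
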