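import Vale.Agent.Lib.P329.MetaStat
import Mathlib.GroupTheory.PGroup
import Mathlib.GroupTheory.Sylow
import Mathlib.GroupTheory.SpecificGroups.Cyclic
import Mathlib.GroupTheory.Index

/-!
# Groups of prime power order `p ^ k`, `k ≤ 5`

A group of order `p ^ k` with `k ≤ 5` is nilpotent of class at most three, or of class at most
four with an abelian commutator subgroup: the lower central series decreases strictly, its first
factor has order at least `p ^ 2` unless the group is abelian, and if the class is four and
`k = 5` then the commutator subgroup has a central subgroup (the next term of the series, by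
the three subgroups lemma) of index `p`. With `gsh_class_three` and `gsh_meta_four`, every
language recognized by such a group has generalized star height at most one.

Groups of class at most three also have an abelian commutator subgroup (three subgroups lemma),
and the property `class ≤ 4 and abelian commutator subgroup` passes to products; a finite
nilpotent group is the product of its Sylow subgroups. Hence the same holds for every finite
nilpotent group whose order is not divisible by the sixth power of a prime.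
-/

namespace Vale.Agent.Lib.P329

open scoped commutatorElement

section small

variable {G : Type} [Group G]

/-- if the quotient by the commutator subgroup is cyclic, then the commutator subgroup is
contained in the next term of the lower central series -/
theorem lcs_one_le_two_of_cyclic
    (hc : IsCyclic (G ⧸ (⊤ : Subgroup G).lowerCentralSeries 1)) :
    (⊤ : Subgroup G).lowerCentralSeries 1 ≤ (⊤ : Subgroup G).lowerCentralSeries 2 := by
  set L1 := (⊤ : Subgroup G).lowerCentralSeries 1 with hL1
  set L2 := (⊤ : Subgroup G).lowerCentralSeries 2 with hL2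
  have h21 : L2 ≤ L1 := (⊤ : Subgroup G).lowerCentralSeries_antitone (by norm_num)
  have h21' : L2 ≤ Subgroup.comap (MonoidHom.id G) L1 := by
    rw [Subgroup.comap_id]; exact h21
  let f : G ⧸ L2 →* G ⧸ L1 := QuotientGroup.map L2 L1 (MonoidHom.id G) h21'
  have hker : f.ker ≤ Subgroup.center (G ⧸ L2) := by
    intro y hy
    induction y using QuotientGroup.induction_on with
    | H x =>
      have hx : x ∈ L1 := by
        have : QuotientGroup.map L2 L1 (MonoidHom.id G) h21' (x : G ⧸ L2) = 1 := hy
        rw [QuotientGroup.map_mk] at this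
        exact (QuotientGroup.eq_one_iff _).1 this
      rw [Subgroup.mem_center_iff]
      intro z
      induction z using QuotientGroup.induction_on with
      | H g =>
        rw [← QuotientGroup.mk_mul, ← QuotientGroup.mk_mul, QuotientGroup.eq]
        have : ⁅x⁻¹, g⁻¹⁆ ∈ L2 := by
          rw [hL2, Subgroup.lowerCentralSeries_succ]
          exact Subgroup.commutator_mem_commutator (L1.inv_mem hx) (Subgroup.mem_top _)
        have e : (g * x)⁻¹ * (x * g) = (⁅x⁻¹, g⁻¹⁆ : G) := by
          rw [commutatorElement_def]; group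
        rw [e]
        exact this
  have hcomm : ∀ a b : G ⧸ L2, a * b = b * a := fun a b =>
    (f.isMulCommutative_of_isCyclic_of_ker_le_center hker).is_comm.comm a b
  rw [hL1, Subgroup.lowerCentralSeries_succ, Subgroup.lowerCentralSeries_zero,
    Subgroup.commutator_le]
  intro g₁ _ g₂ _
  rw [← QuotientGroup.eq_one_iff, commutatorElement_def]
  have := hcomm (g₁ : G ⧸ L2) (g₂ : G ⧸ L2)
  rw [QuotientGroup.mk_mul, QuotientGroup.mk_mul, QuotientGroup.mk_mul, this,
    QuotientGroup.mk_inv, QuotientGroup.mk_inv]
  group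

/-- in a nilpotent group the lower central series decreases strictly until it reaches the
trivial subgroup -/
theorem lcs_eq_bot_of_succ_eq [Group.IsNilpotent G] {n : ℕ}
    (h : (⊤ : Subgroup G).lowerCentralSeries (n + 1) = (⊤ : Subgroup G).lowerCentralSeries n) :
    (⊤ : Subgroup G).lowerCentralSeries n = ⊥ := by
  have key : ∀ m : ℕ, (⊤ : Subgroup G).lowerCentralSeries (n + m)
      = (⊤ : Subgroup G).lowerCentralSeries n := by
    intro m
    induction m with
    | zero => rfl
    | succ m ih =>
      rw [← add_assoc, Subgroup.lowerCentralSeries_succ, ih, ← Subgroup.lowerCentralSeries_succ, h]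
  rw [← key (Group.nilpotencyClass G), eq_bot_iff, ← Subgroup.lowerCentralSeries_nilpotencyClass]
  exact (⊤ : Subgroup G).lowerCentralSeries_antitone (Nat.le_add_left _ _)

/-- the three subgroups lemma: if the lower central series vanishes after four steps, then the
commutator subgroup centralizes the second term -/
theorem lcs_one_two_comm
    (h4 : (⊤ : Subgroup G).lowerCentralSeries 4 = ⊥) :
    ⁅(⊤ : Subgroup G).lowerCentralSeries 1, (⊤ : Subgroup G).lowerCentralSeries 2⁆ = ⊥ := by
  have h2 : ⁅⁅(⊤ : Subgroup G).lowerCentralSeries 2, (⊤ : Subgroup G)⁆, (⊤ : Subgroup G)⁆ = ⊥ := by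
    rw [← Subgroup.lowerCentralSeries_succ, ← Subgroup.lowerCentralSeries_succ]
    exact h4
  have h1 : ⁅⁅(⊤ : Subgroup G), (⊤ : Subgroup G).lowerCentralSeries 2⁆, (⊤ : Subgroup G)⁆ = ⊥ := by
    rw [Subgroup.commutator_comm (⊤ : Subgroup G)]
    exact h2
  have := Subgroup.commutator_commutator_eq_bot_of_rotate h1 h2
  rw [Subgroup.lowerCentralSeries_succ (⊤ : Subgroup G) 0, Subgroup.lowerCentralSeries_zero]
  exact this

/-- a subgroup with a central subgroup of prime index is commutative -/
theorem comm_of_relIndex_prime {p : ℕ} (hp : p.Prime) (H K : Subgroup G) [K.Normal]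
    (hc : ⁅H, K⁆ = ⊥) (hi : K.relIndex H = p) :
    ∀ x ∈ H, ∀ y ∈ H, x * y = y * x := by
  have : Fact p.Prime := ⟨hp⟩
  have hcard : Nat.card (↥H ⧸ K.subgroupOf H) = p := by
    rw [← Subgroup.index_eq_card]; exact hi
  have : IsCyclic (↥H ⧸ K.subgroupOf H) := isCyclic_of_prime_card hcard
  have hker : (QuotientGroup.mk' (K.subgroupOf H)).ker ≤ Subgroup.center ↥H := by
    rw [QuotientGroup.ker_mk']
    intro y hy
    rw [Subgroup.mem_center_iff]
    intro z
    have hz : (z : G) ∈ Subgroup.centralizer (K : Set G) :=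
      (Subgroup.commutator_eq_bot_iff_le_centralizer.1 hc) z.2
    have := (Subgroup.mem_centralizer_iff.1 hz) (y : G) (Subgroup.mem_subgroupOf.1 hy)
    exact Subtype.ext (by rw [Subgroup.coe_mul, Subgroup.coe_mul]; exact this.symm)
  intro x hx y hy
  have := ((QuotientGroup.mk' (K.subgroupOf H)).isMulCommutative_of_isCyclic_of_ker_le_center
    hker).is_comm.comm (⟨x, hx⟩ : ↥H) ⟨y, hy⟩
  exact congrArg Subtype.val this

/-- **Groups of order `p ^ k`, `k ≤ 5`.** Such a group has nilpotency class at most three, or
class at most four and an abelian commutator subgroup. -/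
theorem small_p_group [Finite G] [Group.IsNilpotent G] {p k : ℕ}
    (hp : p.Prime) (hk : k ≤ 5) (hG : Nat.card G = p ^ k) :
    Group.nilpotencyClass G ≤ 3 ∨ (Group.nilpotencyClass G ≤ 4 ∧
      ∀ x ∈ commutator G, ∀ y ∈ commutator G, x * y = y * x) := by
  have : Fact p.Prime := ⟨hp⟩
  have hanti : ∀ n : ℕ, (⊤ : Subgroup G).lowerCentralSeries (n + 1)
      ≤ (⊤ : Subgroup G).lowerCentralSeries n :=
    fun n => (⊤ : Subgroup G).lowerCentralSeries_antitone (Nat.le_succ n)
  have hex : ∀ n : ℕ, ∃ m : ℕ, Nat.card ((⊤ : Subgroup G).lowerCentralSeries n) = p ^ m := by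
    intro n
    have hd : Nat.card ((⊤ : Subgroup G).lowerCentralSeries n) ∣ p ^ k :=
      hG ▸ Subgroup.card_subgroup_dvd_card _
    obtain ⟨m, -, hm⟩ := (Nat.dvd_prime_pow hp).1 hd
    exact ⟨m, hm⟩
  choose e he using hex
  have h0 : e 0 = k := by
    have h := he 0
    rw [Subgroup.lowerCentralSeries_zero, Subgroup.card_top, hG] at h
    exact (Nat.pow_right_injective hp.two_le h).symm
  have hmono : ∀ n : ℕ, e (n + 1) ≤ e n := by
    intro n
    have h := Subgroup.card_dvd_of_le (hanti n)
    rw [he, he] at h
    exact (Nat.pow_dvd_pow_iff_le_right hp.one_lt).1 h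
  have hbot : ∀ n : ℕ, e n = 0 ↔ (⊤ : Subgroup G).lowerCentralSeries n = ⊥ := by
    intro n
    rw [← Subgroup.card_eq_one, he]
    constructor
    · intro h; rw [h, pow_zero]
    · intro h
      by_contra h'
      exact absurd h (Nat.one_lt_pow h' hp.one_lt).ne'
  have hstrict : ∀ n : ℕ, e n ≠ 0 → e (n + 1) < e n := by
    intro n hn
    rcases (hmono n).lt_or_eq with h | h
    · exact h
    · exfalso
      apply hn
      rw [hbot]
      apply lcs_eq_bot_of_succ_eq
      exact Subgroup.eq_of_le_of_card_ge (hanti n) (by rw [he, he, h])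
  have hfirst : e 1 ≠ 0 → e 1 + 2 ≤ e 0 := by
    intro h1
    by_contra hlt
    apply h1
    have hidx : ((⊤ : Subgroup G).lowerCentralSeries 1).index * p ^ e 1 = p ^ e 0 := by
      rw [← he 1, Subgroup.index_mul_card, hG, h0]
    have hpos : 0 < p ^ e 1 := pow_pos hp.pos _
    have hcyc : IsCyclic (G ⧸ (⊤ : Subgroup G).lowerCentralSeries 1) := by
      have m0 : e 1 ≤ e 0 := hmono 0
      rcases (show e 0 = e 1 ∨ e 0 = e 1 + 1 by omega) with h | h
      · have h1' : ((⊤ : Subgroup G).lowerCentralSeries 1).index = 1 := by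
          rw [h] at hidx
          exact Nat.eq_of_mul_eq_mul_right hpos (by rw [hidx, one_mul])
        rw [Subgroup.index_eq_card] at h1'
        have : Subsingleton (G ⧸ (⊤ : Subgroup G).lowerCentralSeries 1) :=
          (Nat.card_eq_one_iff_unique.1 h1').1
        infer_instance
      · have h1' : ((⊤ : Subgroup G).lowerCentralSeries 1).index = p := by
          rw [h, pow_succ] at hidx
          exact Nat.eq_of_mul_eq_mul_right hpos (by rw [hidx, mul_comm])
        rw [Subgroup.index_eq_card] at h1'
        exact isCyclic_of_prime_card h1'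
    rw [hbot]
    apply lcs_eq_bot_of_succ_eq
    exact le_antisymm (hanti 1) (lcs_one_le_two_of_cyclic hcyc)
  have m0 : e 1 ≤ e 0 := hmono 0
  have m1 : e 2 ≤ e 1 := hmono 1
  have m2 : e 3 ≤ e 2 := hmono 2
  have m3 : e 4 ≤ e 3 := hmono 3
  have s1 : e 1 ≠ 0 → e 2 < e 1 := hstrict 1
  have s2 : e 2 ≠ 0 → e 3 < e 2 := hstrict 2
  have s3 : e 3 ≠ 0 → e 4 < e 3 := hstrict 3
  have h4 : e 4 = 0 := by omega
  by_cases h3 : e 3 = 0
  · left
    exact Subgroup.lowerCentralSeries_eq_bot_iff_nilpotencyClass_le.1 ((hbot 3).1 h3)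
  · right
    have hL4 := (hbot 4).1 h4
    refine ⟨Subgroup.lowerCentralSeries_eq_bot_iff_nilpotencyClass_le.1 hL4, ?_⟩
    have e1 : e 1 = e 2 + 1 := by omega
    have hrel : ((⊤ : Subgroup G).lowerCentralSeries 2).relIndex
        ((⊤ : Subgroup G).lowerCentralSeries 1) = p := by
      have h := Subgroup.relIndex_mul_relIndex (⊥ : Subgroup G)
        ((⊤ : Subgroup G).lowerCentralSeries 2) ((⊤ : Subgroup G).lowerCentralSeries 1)
        bot_le (hanti 1)
      rw [Subgroup.relIndex_bot_left, Subgroup.relIndex_bot_left, he, he, e1, pow_succ] at h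
      exact Nat.eq_of_mul_eq_mul_left (pow_pos hp.pos (e 2)) h
    rw [← Subgroup.top_lowerCentralSeries_one]
    exact comm_of_relIndex_prime hp _ _ (lcs_one_two_comm hL4) hrel

end small

/-- **Groups of order `p ^ k`, `k ≤ 5`.** Every language recognized by a group whose order is
a prime power `p ^ k` with `k ≤ 5` has generalized star height at most one. -/
theorem gsh_prime_pow_le_five {α : Type} [DecidableEq α] [Fintype α] {G : Type} [Group G]
    [Finite G] {p k : ℕ} (hp : p.Prime) (hk : k ≤ 5) (hG : Nat.card G = p ^ k)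
    (φ : α → G) (P : Set G) :
    GSHLe 1 ({w | (w.map φ).prod ∈ P} : Language α) := by
  have : Fact p.Prime := ⟨hp⟩
  have : Group.IsNilpotent G := (IsPGroup.of_card hG).isNilpotent
  rcases small_p_group hp hk hG with h | ⟨h, hmet⟩
  · exact gsh_class_three h φ P
  · exact gsh_meta_four h hmet φ P

section meta4

/-- `Meta4 H`: the lower central series of `H` vanishes after four steps and the commutator
subgroup of `H` is commutative -/
def Meta4 (H : Type) [Group H] : Prop :=
  (⊤ : Subgroup H).lowerCentralSeries 4 = ⊥ ∧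
    ∀ x ∈ (⊤ : Subgroup H).lowerCentralSeries 1,
      ∀ y ∈ (⊤ : Subgroup H).lowerCentralSeries 1, x * y = y * x

theorem Meta4.pi {η : Type} {Gs : η → Type} [∀ i, Group (Gs i)] (h : ∀ i, Meta4 (Gs i)) :
    Meta4 (∀ i, Gs i) := by
  refine ⟨eq_bot_iff.mpr <| (Subgroup.top_lowerCentralSeries_pi_le _).trans ?_, ?_⟩
  · rw [le_bot_iff, Subgroup.pi_eq_bot_iff]
    exact fun i => (h i).1
  · intro x hx y hy
    have hx' := Subgroup.top_lowerCentralSeries_pi_le (Gs := Gs) 1 hx
    have hy' := Subgroup.top_lowerCentralSeries_pi_le (Gs := Gs) 1 hy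
    rw [Subgroup.mem_pi] at hx' hy'
    funext i
    exact (h i).2 (x i) (hx' i (Set.mem_univ i)) (y i) (hy' i (Set.mem_univ i))

theorem Meta4.of_mulEquiv {H K : Type} [Group H] [Group K] (e : H ≃* K) (h : Meta4 H) :
    Meta4 K := by
  have key : ∀ n : ℕ, (⊤ : Subgroup K).lowerCentralSeries n
      = ((⊤ : Subgroup H).lowerCentralSeries n).map e.toMonoidHom := by
    intro n
    rw [Subgroup.map_lowerCentralSeries, Subgroup.map_top_of_surjective _ e.surjective]
  refine ⟨?_, ?_⟩
  · rw [key, h.1, Subgroup.map_bot]
  · intro x hx y hy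
    rw [key] at hx hy
    obtain ⟨a, ha, rfl⟩ := hx
    obtain ⟨b, hb, rfl⟩ := hy
    rw [← map_mul, ← map_mul, h.2 a ha b hb]

variable {G : Type} [Group G]

/-- the three subgroups lemma: if the lower central series vanishes after three steps, then
the commutator subgroup is commutative -/
theorem lcs_one_one_comm
    (h3 : (⊤ : Subgroup G).lowerCentralSeries 3 = ⊥) :
    ⁅(⊤ : Subgroup G).lowerCentralSeries 1, (⊤ : Subgroup G).lowerCentralSeries 1⁆ = ⊥ := by
  have h2 : ⁅⁅(⊤ : Subgroup G).lowerCentralSeries 1, (⊤ : Subgroup G)⁆, (⊤ : Subgroup G)⁆ = ⊥ := by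
    rw [← Subgroup.lowerCentralSeries_succ, ← Subgroup.lowerCentralSeries_succ]
    exact h3
  have h1 : ⁅⁅(⊤ : Subgroup G), (⊤ : Subgroup G).lowerCentralSeries 1⁆, (⊤ : Subgroup G)⁆ = ⊥ := by
    rw [Subgroup.commutator_comm (⊤ : Subgroup G)]
    exact h2
  have := Subgroup.commutator_commutator_eq_bot_of_rotate h1 h2
  rw [Subgroup.lowerCentralSeries_succ (⊤ : Subgroup G) 0, Subgroup.lowerCentralSeries_zero]
  exact this

/-- a group of order `p ^ k`, `k ≤ 5`, has class at most four and a commutative commutator
subgroup -/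
theorem meta4_of_card [Finite G] {p k : ℕ} (hp : p.Prime) (hk : k ≤ 5)
    (hG : Nat.card G = p ^ k) : Meta4 G := by
  have : Fact p.Prime := ⟨hp⟩
  have : Group.IsNilpotent G := (IsPGroup.of_card hG).isNilpotent
  rcases small_p_group hp hk hG with h | ⟨h, hmet⟩
  · have h3 : (⊤ : Subgroup G).lowerCentralSeries 3 = ⊥ :=
      Subgroup.lowerCentralSeries_eq_bot_iff_nilpotencyClass_le.mpr h
    refine ⟨Subgroup.lowerCentralSeries_eq_bot_iff_nilpotencyClass_le.mpr (h.trans (by norm_num)),
      ?_⟩
    intro x hx y hy
    have hc := Subgroup.commutator_eq_bot_iff_le_centralizer.1 (lcs_one_one_comm h3)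
    exact ((Subgroup.mem_centralizer_iff.1 (hc hy)) x hx)
  · refine ⟨Subgroup.lowerCentralSeries_eq_bot_iff_nilpotencyClass_le.mpr h, ?_⟩
    rw [Subgroup.top_lowerCentralSeries_one]
    exact hmet

/-- **Nilpotent groups of sixth-power-free order.** A finite nilpotent group whose order is not
divisible by the sixth power of a prime has class at most four and a commutative commutator
subgroup. -/
theorem meta_four_of_sixth_power_free [Finite G] [Group.IsNilpotent G]
    (h : ∀ p : ℕ, p.Prime → ¬ p ^ 6 ∣ Nat.card G) :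
    Group.nilpotencyClass G ≤ 4 ∧
      ∀ x ∈ commutator G, ∀ y ∈ commutator G, x * y = y * x := by
  obtain ⟨e⟩ : Nonempty
      ((∀ p : (Nat.card G).primeFactors, ∀ P : Sylow p G, (↑P : Subgroup G)) ≃* G) :=
    ((Group.isNilpotent_of_finite_tfae (G := G)).out 0 4).mp ‹Group.IsNilpotent G›
  have hfac : ∀ (p : (Nat.card G).primeFactors) (P : Sylow p G),
      Meta4 (↑P : Subgroup G) := by
    intro p P
    have hp : (p : ℕ).Prime := Nat.prime_of_mem_primeFactors p.2
    have : Fact (p : ℕ).Prime := ⟨hp⟩
    refine meta4_of_card hp ?_ P.card_eq_multiplicity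
    by_contra hk
    apply h p hp
    rw [hp.pow_dvd_iff_le_factorization Nat.card_pos.ne']
    omega
  have hG : Meta4 G := Meta4.of_mulEquiv e (Meta4.pi fun p => Meta4.pi fun P => hfac p P)
  refine ⟨Subgroup.lowerCentralSeries_eq_bot_iff_nilpotencyClass_le.1 hG.1, ?_⟩
  rw [← Subgroup.top_lowerCentralSeries_one]
  exact hG.2

end meta4

/-- **Nilpotent groups of sixth-power-free order.** Every language recognized by a finite
nilpotent group whose order is not divisible by the sixth power of a prime has generalized star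
height at most one. -/
theorem gsh_nilpotent_sixth_power_free {α : Type} [DecidableEq α] [Fintype α] {G : Type}
    [Group G] [Finite G] [Group.IsNilpotent G]
    (h : ∀ p : ℕ, p.Prime → ¬ p ^ 6 ∣ Nat.card G) (φ : α → G) (P : Set G) :
    GSHLe 1 ({w | (w.map φ).prod ∈ P} : Language α) :=
  gsh_meta_four (meta_four_of_sixth_power_free h).1 (meta_four_of_sixth_power_free h).2 φ P

end Vale.Agent.Lib.P329
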