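import Vale.Agent.Lib.P329.LevOp

/-!
# Languages recognized by the symmetric group on four points

The points `0, 1, 2, 3` are the vectors of `F_2^2`; every permutation `g` is the composition of
the translation by `g 0` and a linear part fixing `0`. For a word, the linear part of the
product is read off from a product of permutations that are order-preserving off the base point
`0`; the translation part is additive in the translation parts of the letters, which reduces it
to hub automata on four points (letters with nontrivial linear part) and to leveled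
order-preserving automata on eight points (letters that are translations).
-/

namespace Vale.Agent.Lib.P329

open Language

/-- addition of `F_2^2` on `Fin 4` (bitwise exclusive or) -/
def vx (a b : Fin 4) : Fin 4 := ![![0, 1, 2, 3], ![1, 0, 3, 2], ![2, 3, 0, 1], ![3, 2, 1, 0]] a b

/-- the translation by `c` -/
def s4tr (c : Fin 4) : Equiv.Perm (Fin 4) :=
  ![1, Equiv.swap 0 1 * Equiv.swap 2 3, Equiv.swap 0 2 * Equiv.swap 1 3,
    Equiv.swap 0 3 * Equiv.swap 1 2] c

/-- the linear part of a permutation of `Fin 4` -/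
def s4lin (g : Equiv.Perm (Fin 4)) : Equiv.Perm (Fin 4) := s4tr (g 0) * g

theorem s4_apply : ∀ (g : Equiv.Perm (Fin 4)) (a : Fin 4), g a = vx (g 0) (s4lin g a) := by
  decide +kernel

theorem s4_decomp : ∀ g : Equiv.Perm (Fin 4), s4tr (g 0) * s4lin g = g := by decide +kernel

theorem s4lin_add : ∀ (g : Equiv.Perm (Fin 4)) (a b : Fin 4),
    s4lin g (vx a b) = vx (s4lin g a) (s4lin g b) := by decide +kernel

theorem s4lin_mul : ∀ g h : Equiv.Perm (Fin 4), s4lin (g * h) = s4lin g * s4lin h := by
  decide +kernel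

theorem s4lin_one : s4lin 1 = 1 := by decide +kernel

theorem s4lin_tr_lin : ∀ (c : Fin 4) (g : Equiv.Perm (Fin 4)),
    s4lin (s4tr c * s4lin g) = s4lin g := by decide +kernel

theorem s4_tr_lin_zero : ∀ (c : Fin 4) (g : Equiv.Perm (Fin 4)),
    (s4tr c * s4lin g) 0 = c := by decide +kernel

theorem s4tr_zero : s4tr 0 = 1 := by decide +kernel

theorem s4tr_apply : ∀ c a : Fin 4, s4tr c a = vx c a := by decide +kernel

theorem vx_comm4 : ∀ a b c d : Fin 4, vx (vx a b) (vx c d) = vx (vx a c) (vx b d) := by
  decide +kernel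

theorem vx_cancel : ∀ a b : Fin 4, vx b (vx a b) = a := by decide +kernel

theorem vx_cancel' : ∀ c d : Fin 4, vx c (vx c d) = d := by decide +kernel

theorem vx_zero : ∀ a : Fin 4, vx a 0 = a := by decide +kernel

theorem vx_self : ∀ a : Fin 4, vx a a = 0 := by decide +kernel

/-! ### Families of permutations that are order-preserving off the base point -/

/-- relabelings of the four points -/
def famρ (j : Fin 3) : Equiv.Perm (Fin 4) := ![1, Equiv.swap 2 3, Equiv.swap 1 2] j

/-- `π` is order-preserving off the base point `0` after the relabeling `famρ j` -/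
def InFam (j : Fin 3) (π : Equiv.Perm (Fin 4)) : Prop :=
  LevCond (fun _ => 0) (famρ j * π * (famρ j)⁻¹)

instance InFam.instDecidable (j : Fin 3) (π : Equiv.Perm (Fin 4)) : Decidable (InFam j π) := by
  unfold InFam
  infer_instance

theorem fam_exists : ∀ (j : Fin 3) (g : Equiv.Perm (Fin 4)),
    ∃ c : Fin 4, InFam j (s4tr c * s4lin g) := by decide +kernel

theorem fam_pair : ∀ g : Equiv.Perm (Fin 4), s4lin g ≠ 1 → ∀ d : Fin 4, d ≠ 0 →
    ∃ (j : Fin 3) (c : Fin 4), InFam j (s4tr c * s4lin g) ∧
      InFam j (s4tr (vx c d) * s4lin g) := by decide +kernel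

/-! ### The eight-point automaton -/

/-- the action of `g` on the pairs (point, sheet), coded as `2 * point + sheet` -/
def b4plainFun (g : Equiv.Perm (Fin 4)) (p : Fin 8) : Fin 8 :=
  ⟨2 * (g ⟨p.val / 2, by have := p.isLt; omega⟩).val + p.val % 2, by
    have := (g ⟨p.val / 2, by have := p.isLt; omega⟩).isLt
    omega⟩

theorem b4plainFun_inv : ∀ (g : Equiv.Perm (Fin 4)) (p : Fin 8),
    b4plainFun g⁻¹ (b4plainFun g p) = p := by decide +kernel

theorem b4plainFun_inv' (g : Equiv.Perm (Fin 4)) (p : Fin 8) :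
    b4plainFun g (b4plainFun g⁻¹ p) = p := by
  have h := b4plainFun_inv g⁻¹ p
  rw [inv_inv] at h
  exact h

def b4plain (g : Equiv.Perm (Fin 4)) : Equiv.Perm (Fin 8) where
  toFun := b4plainFun g
  invFun := b4plainFun g⁻¹
  left_inv := b4plainFun_inv g
  right_inv := b4plainFun_inv' g

/-- exchange of the two sheets over the point `x` -/
def b4flip (x : Fin 4) : Equiv.Perm (Fin 8) :=
  Equiv.swap ⟨2 * x.val, by have := x.isLt; omega⟩ ⟨2 * x.val + 1, by have := x.isLt; omega⟩

/-- the lift of `g`: exchange the sheets over the point `0`, then move the points by `g` -/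
def b4lift (g : Equiv.Perm (Fin 4)) : Equiv.Perm (Fin 8) := b4plain g * b4flip 0

/-- the sheet exchanges over an even number of points, coded by three bits -/
def b4ef (b1 b2 b3 : Bool) : Equiv.Perm (Fin 8) :=
  (if xor b1 (xor b2 b3) then b4flip 0 else 1) * (if b1 then b4flip 1 else 1) *
    (if b2 then b4flip 2 else 1) * (if b3 then b4flip 3 else 1)

/-- the sum in `F_2^2` of the points whose sheets are exchanged -/
def b4psi (b1 b2 b3 : Bool) : Fin 4 :=
  vx (if b1 then 1 else 0) (vx (if b2 then 2 else 0) (if b3 then 3 else 0))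

def b4psiP (Q : Equiv.Perm (Fin 8)) : Fin 4 :=
  b4psi (decide (Q 2 ≠ 2)) (decide (Q 4 ≠ 4)) (decide (Q 6 ≠ 6))

theorem b4psiP_ef : ∀ b1 b2 b3 : Bool, b4psiP (b4ef b1 b2 b3) = b4psi b1 b2 b3 := by
  decide +kernel

theorem b4_flip_step : ∀ (v : Fin 4) (b1 b2 b3 : Bool), ∃ c1 c2 c3 : Bool,
    b4flip 0 * b4ef b1 b2 b3 * (b4flip v)⁻¹ = b4ef c1 c2 c3 ∧
      b4psi c1 c2 c3 = vx v (b4psi b1 b2 b3) := by decide +kernel

theorem b4_lift_step : ∀ (g : Equiv.Perm (Fin 4)) (b1 b2 b3 : Bool), ∃ c1 c2 c3 : Bool,
    b4lift g * b4ef b1 b2 b3 * (b4lift g)⁻¹ = b4ef c1 c2 c3 ∧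
      b4psi c1 c2 c3 = s4lin g (b4psi b1 b2 b3) := by decide +kernel

/-- a permutation of `Fin 8` given by its table and the table of its inverse -/
def tab8 (f g : Fin 8 → Fin 8) (h1 : ∀ p, g (f p) = p) (h2 : ∀ p, f (g p) = p) :
    Equiv.Perm (Fin 8) := ⟨f, g, h1, h2⟩

def r10 : Equiv.Perm (Fin 8) :=
  tab8 ![0, 4, 5, 1, 6, 2, 7, 3] ![0, 3, 5, 7, 1, 2, 4, 6] (by decide) (by decide)
def r11 : Equiv.Perm (Fin 8) :=
  tab8 ![3, 7, 0, 4, 1, 5, 2, 6] ![2, 4, 6, 0, 3, 5, 7, 1] (by decide) (by decide)
def r20 : Equiv.Perm (Fin 8) :=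
  tab8 ![0, 4, 6, 2, 5, 1, 7, 3] ![0, 5, 3, 7, 1, 4, 2, 6] (by decide) (by decide)
def r22 : Equiv.Perm (Fin 8) :=
  tab8 ![3, 7, 1, 5, 0, 4, 2, 6] ![4, 2, 6, 0, 5, 3, 7, 1] (by decide) (by decide)
def r30 : Equiv.Perm (Fin 8) :=
  tab8 ![0, 4, 6, 2, 7, 3, 5, 1] ![0, 7, 3, 5, 1, 6, 2, 4] (by decide) (by decide)
def r33 : Equiv.Perm (Fin 8) :=
  tab8 ![3, 7, 1, 5, 2, 6, 0, 4] ![6, 2, 4, 0, 7, 3, 5, 1] (by decide) (by decide)

/-- relabeling of the eight states for the translation `v` and the marked point `x0` -/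
def rho8 (v x0 : Fin 4) : Equiv.Perm (Fin 8) :=
  if x0 = 0 then ![1, r10, r20, r30] v else ![1, r11, r22, r33] v

/-- levels of the relabeled states -/
def lev8 (x0 : Fin 4) : Fin 8 → ℕ :=
  if x0 = 0 then ![0, 0, 1, 1, 2, 3, 4, 4] else ![0, 0, 0, 1, 2, 3, 3, 4]

theorem b4_lift_cond : ∀ v : Fin 4, v ≠ 0 → ∀ g : Equiv.Perm (Fin 4), s4lin g ≠ 1 →
    LevCond (lev8 0) (rho8 v 0 * b4lift (s4tr v * s4lin g) * (rho8 v 0)⁻¹) ∧
      LevCond (lev8 v) (rho8 v v * b4lift (s4tr v * s4lin g) * (rho8 v v)⁻¹) := by
  decide +kernel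

theorem b4_flip_cond : ∀ v : Fin 4, v ≠ 0 →
    LevCond (lev8 0) (rho8 v 0 * b4flip 0 * (rho8 v 0)⁻¹) ∧
      LevCond (lev8 v) (rho8 v v * b4flip v * (rho8 v v)⁻¹) := by
  decide +kernel

/-! ### Words -/

variable {α : Type} [Fintype α] [DecidableEq α]

theorem levCond_one {n : ℕ} (lev : Fin (n + 1) → ℕ) : LevCond lev 1 :=
  ⟨fun _ _ _ => le_refl _, fun _ _ _ h _ _ _ _ _ => h⟩

omit [Fintype α] [DecidableEq α] in
theorem s4_T_cons (σ : α → Equiv.Perm (Fin 4)) (x : α) (w : List α) :
    ((x :: w).map σ).prod 0 = vx (σ x 0) (s4lin (σ x) ((w.map σ).prod 0)) := by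
  rw [List.map_cons, List.prod_cons, Equiv.Perm.mul_apply]
  exact s4_apply (σ x) _

omit [Fintype α] [DecidableEq α] in
/-- the translation part of the product is additive in the translation parts of the letters -/
theorem s4_add (σ1 σ2 σ3 : α → Equiv.Perm (Fin 4))
    (h1 : ∀ x, s4lin (σ1 x) = s4lin (σ3 x)) (h2 : ∀ x, s4lin (σ2 x) = s4lin (σ3 x))
    (h3 : ∀ x, σ3 x 0 = vx (σ1 x 0) (σ2 x 0)) (w : List α) :
    (w.map σ3).prod 0 = vx ((w.map σ1).prod 0) ((w.map σ2).prod 0) := by
  induction w with
  | nil =>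
    show (1 : Equiv.Perm (Fin 4)) 0
      = vx ((1 : Equiv.Perm (Fin 4)) 0) ((1 : Equiv.Perm (Fin 4)) 0)
    exact (vx_self 0).symm
  | cons x w ih =>
    rw [s4_T_cons, s4_T_cons σ1, s4_T_cons σ2, ih, h3, h1, h2, s4lin_add]
    exact vx_comm4 _ _ _ _

omit [Fintype α] [DecidableEq α] in
theorem s4_prod_fix (τ : α → Equiv.Perm (Fin 4)) (h : ∀ x, τ x 0 = 0) (w : List α) :
    (w.map τ).prod 0 = 0 := by
  induction w with
  | nil => rfl
  | cons x w ih => rw [List.map_cons, List.prod_cons, Equiv.Perm.mul_apply, ih, h]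

omit [Fintype α] [DecidableEq α] in
theorem s4_lin_prod (σ : α → Equiv.Perm (Fin 4)) (w : List α) :
    s4lin ((w.map σ).prod) = (w.map (fun x => s4lin (σ x))).prod := by
  induction w with
  | nil => exact s4lin_one
  | cons x w ih =>
    rw [List.map_cons, List.prod_cons, s4lin_mul, ih, List.map_cons, List.prod_cons]

theorem fam_stat (σ : α → Equiv.Perm (Fin 4)) (j : Fin 3) (h : ∀ x, InFam j (σ x)) :
    StatLe 1 (fun w : List α => (w.map σ).prod) :=
  perm_stat_lev_conj 3 σ (famρ j) (fun _ => 0) h

/-- the morphism whose only translation part is `d`, at the letter `y` -/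
def s4tau (σ : α → Equiv.Perm (Fin 4)) (y : α) (d : Fin 4) (x : α) : Equiv.Perm (Fin 4) :=
  s4tr (if x = y then d else 0) * s4lin (σ x)

/-- the eight-point morphism: the letter `y` exchanges the sheets over `x0`, the letters with
nontrivial linear part act by the lift of their linear part followed by the translation `v` -/
def b4Lam (σ : α → Equiv.Perm (Fin 4)) (y : α) (v x0 : Fin 4) (q : α) : Equiv.Perm (Fin 8) :=
  if q = y then b4flip x0 else if s4lin (σ q) = 1 then 1 else b4lift (s4tr v * s4lin (σ q))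

theorem b4Lam_stat (σ : α → Equiv.Perm (Fin 4)) (y : α) (v : Fin 4) (hv : v ≠ 0) :
    StatLe 1 (fun w : List α => (w.map (b4Lam σ y v 0)).prod) ∧
      StatLe 1 (fun w : List α => (w.map (b4Lam σ y v v)).prod) := by
  constructor
  · refine perm_stat_lev_conj 7 (b4Lam σ y v 0) (rho8 v 0) (lev8 0) (fun q => ?_)
    unfold b4Lam
    split_ifs with h1 h2
    · exact (b4_flip_cond v hv).1
    · rw [mul_one, mul_inv_cancel]
      exact levCond_one _
    · exact (b4_lift_cond v hv (σ q) h2).1
  · refine perm_stat_lev_conj 7 (b4Lam σ y v v) (rho8 v v) (lev8 v) (fun q => ?_)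
    unfold b4Lam
    split_ifs with h1 h2
    · exact (b4_flip_cond v hv).2
    · rw [mul_one, mul_inv_cancel]
      exact levCond_one _
    · exact (b4_lift_cond v hv (σ q) h2).2

omit [Fintype α] in
theorem b4_inv (σ : α → Equiv.Perm (Fin 4)) (y : α) (v : Fin 4) (hy : s4lin (σ y) = 1)
    (w : List α) : ∃ b1 b2 b3 : Bool,
      (w.map (b4Lam σ y v 0)).prod * ((w.map (b4Lam σ y v v)).prod)⁻¹ = b4ef b1 b2 b3 ∧
        b4psi b1 b2 b3 = (w.map (s4tau σ y v)).prod 0 := by
  induction w with
  | nil =>
    refine ⟨false, false, false, ?_, ?_⟩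
    · show (1 : Equiv.Perm (Fin 8)) * (1 : Equiv.Perm (Fin 8))⁻¹ = b4ef false false false
      rw [inv_one, mul_one]
      decide +kernel
    · show b4psi false false false = (1 : Equiv.Perm (Fin 4)) 0
      decide +kernel
  | cons q w ih =>
    obtain ⟨b1, b2, b3, hb, hpsi⟩ := ih
    have hQ : ((q :: w).map (b4Lam σ y v 0)).prod * (((q :: w).map (b4Lam σ y v v)).prod)⁻¹
        = b4Lam σ y v 0 q * b4ef b1 b2 b3 * (b4Lam σ y v v q)⁻¹ := by
      rw [List.map_cons, List.prod_cons, List.map_cons, List.prod_cons, ← hb]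
      group
    have hT : ((q :: w).map (s4tau σ y v)).prod 0 = (s4tau σ y v q) (b4psi b1 b2 b3) := by
      rw [List.map_cons, List.prod_cons, Equiv.Perm.mul_apply, hpsi]
    rw [hQ, hT]
    by_cases h1 : q = y
    · obtain ⟨c1, c2, c3, hc, hcp⟩ := b4_flip_step v b1 b2 b3
      have e0 : b4Lam σ y v 0 q = b4flip 0 := if_pos h1
      have ev : b4Lam σ y v v q = b4flip v := if_pos h1
      refine ⟨c1, c2, c3, ?_, ?_⟩
      · rw [e0, ev]
        exact hc
      · rw [hcp]
        show vx v (b4psi b1 b2 b3)
          = (s4tr (if q = y then v else 0) * s4lin (σ q)) (b4psi b1 b2 b3)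
        rw [if_pos h1, h1, hy, mul_one, s4tr_apply]
    · by_cases h2 : s4lin (σ q) = 1
      · have e0 : b4Lam σ y v 0 q = 1 := by
          unfold b4Lam
          rw [if_neg h1, if_pos h2]
        have ev : b4Lam σ y v v q = 1 := by
          unfold b4Lam
          rw [if_neg h1, if_pos h2]
        refine ⟨b1, b2, b3, ?_, ?_⟩
        · rw [e0, ev, one_mul, inv_one, mul_one]
        · show b4psi b1 b2 b3
            = (s4tr (if q = y then v else 0) * s4lin (σ q)) (b4psi b1 b2 b3)
          rw [if_neg h1, h2, s4tr_zero, mul_one]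
          rfl
      · obtain ⟨c1, c2, c3, hc, hcp⟩ := b4_lift_step (s4tr v * s4lin (σ q)) b1 b2 b3
        have e0 : b4Lam σ y v 0 q = b4lift (s4tr v * s4lin (σ q)) := by
          unfold b4Lam
          rw [if_neg h1, if_neg h2]
        have ev : b4Lam σ y v v q = b4lift (s4tr v * s4lin (σ q)) := by
          unfold b4Lam
          rw [if_neg h1, if_neg h2]
        refine ⟨c1, c2, c3, ?_, ?_⟩
        · rw [e0, ev]
          exact hc
        · rw [hcp, s4lin_tr_lin]
          show s4lin (σ q) (b4psi b1 b2 b3)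
            = (s4tr (if q = y then v else 0) * s4lin (σ q)) (b4psi b1 b2 b3)
          rw [if_neg h1, s4tr_zero, one_mul]

/-- a letter that is a translation: its contribution to the translation part -/
theorem s4_single_V (σ : α → Equiv.Perm (Fin 4)) (y : α) (v : Fin 4) (hv : v ≠ 0)
    (hy : s4lin (σ y) = 1) :
    StatLe 1 (fun w : List α => (w.map (s4tau σ y v)).prod 0) := by
  obtain ⟨h0, h1⟩ := b4Lam_stat σ y v hv
  have hQ := (h0.prod h1).comp
    (fun p : Equiv.Perm (Fin 8) × Equiv.Perm (Fin 8) => b4psiP (p.1 * p.2⁻¹))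
  refine hQ.congr (fun w => ?_)
  show b4psiP ((w.map (b4Lam σ y v 0)).prod * ((w.map (b4Lam σ y v v)).prod)⁻¹)
    = (w.map (s4tau σ y v)).prod 0
  obtain ⟨b1, b2, b3, hb, hpsi⟩ := b4_inv σ y v hy w
  rw [hb, b4psiP_ef, hpsi]

/-- the contribution of one letter to the translation part -/
theorem s4_single (σ : α → Equiv.Perm (Fin 4)) (y : α) (d : Fin 4) :
    StatLe 1 (fun w : List α => (w.map (s4tau σ y d)).prod 0) := by
  by_cases hd : d = 0
  · refine (StatLe.const 1 (0 : Fin 4)).congr (fun w => ?_)
    show (0 : Fin 4) = (w.map (s4tau σ y d)).prod 0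
    rw [s4_prod_fix]
    intro x
    show (s4tr (if x = y then d else 0) * s4lin (σ x)) 0 = 0
    rw [s4_tr_lin_zero, hd, ite_self]
  · by_cases hy : s4lin (σ y) = 1
    · exact s4_single_V σ y d hd hy
    · obtain ⟨j, c, hc1, hc2⟩ := fam_pair (σ y) hy d hd
      choose cj hcj using fun x => fam_exists j (σ x)
      have hA : StatLe 1 (fun w : List α =>
          (w.map (fun x => s4tr (if x = y then c else cj x) * s4lin (σ x))).prod) := by
        refine fam_stat _ j (fun x => ?_)
        show InFam j (s4tr (if x = y then c else cj x) * s4lin (σ x))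
        by_cases hx : x = y
        · rw [if_pos hx, hx]
          exact hc1
        · rw [if_neg hx]
          exact hcj x
      have hB : StatLe 1 (fun w : List α =>
          (w.map (fun x => s4tr (if x = y then vx c d else cj x) * s4lin (σ x))).prod) := by
        refine fam_stat _ j (fun x => ?_)
        show InFam j (s4tr (if x = y then vx c d else cj x) * s4lin (σ x))
        by_cases hx : x = y
        · rw [if_pos hx, hx]
          exact hc2
        · rw [if_neg hx]
          exact hcj x
      refine (((hA.comp (fun P => P 0)).prod (hB.comp (fun P => P 0))).comp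
        (fun p : Fin 4 × Fin 4 => vx p.1 p.2)).congr (fun w => ?_)
      show vx ((w.map (fun x => s4tr (if x = y then c else cj x) * s4lin (σ x))).prod 0)
          ((w.map (fun x => s4tr (if x = y then vx c d else cj x) * s4lin (σ x))).prod 0)
        = (w.map (s4tau σ y d)).prod 0
      refine (s4_add _ _ _ ?_ ?_ ?_ w).symm
      · intro x
        show s4lin (s4tr (if x = y then c else cj x) * s4lin (σ x))
          = s4lin (s4tr (if x = y then d else 0) * s4lin (σ x))
        rw [s4lin_tr_lin, s4lin_tr_lin]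
      · intro x
        show s4lin (s4tr (if x = y then vx c d else cj x) * s4lin (σ x))
          = s4lin (s4tr (if x = y then d else 0) * s4lin (σ x))
        rw [s4lin_tr_lin, s4lin_tr_lin]
      · intro x
        show (s4tr (if x = y then d else 0) * s4lin (σ x)) 0
          = vx ((s4tr (if x = y then c else cj x) * s4lin (σ x)) 0)
            ((s4tr (if x = y then vx c d else cj x) * s4lin (σ x)) 0)
        rw [s4_tr_lin_zero, s4_tr_lin_zero, s4_tr_lin_zero]
        by_cases hx : x = y
        · rw [if_pos hx, if_pos hx, if_pos hx, vx_cancel']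
        · rw [if_neg hx, if_neg hx, if_neg hx, vx_self]

/-- **The symmetric group on four points**: the product of the letter permutations is a
statistic of generalized star height at most one. -/
theorem sym_four_stat (σ : α → Equiv.Perm (Fin 4)) :
    StatLe 1 (fun w : List α => (w.map σ).prod) := by
  choose c1 hc1 using fun x => fam_exists 0 (σ x)
  have h0 : StatLe 1 (fun w : List α => (w.map (fun x => s4tr (c1 x) * s4lin (σ x))).prod) :=
    fam_stat _ 0 hc1
  have hL : StatLe 1 (fun w : List α => s4lin ((w.map σ).prod)) := by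
    refine (h0.comp s4lin).congr (fun w => ?_)
    show s4lin ((w.map (fun x => s4tr (c1 x) * s4lin (σ x))).prod) = s4lin ((w.map σ).prod)
    rw [s4_lin_prod, s4_lin_prod]
    have e : (fun x => s4lin (s4tr (c1 x) * s4lin (σ x))) = (fun x => s4lin (σ x)) := by
      funext x
      exact s4lin_tr_lin _ _
    rw [e]
  have hT : ∀ A : Finset α, StatLe 1 (fun w : List α =>
      (w.map (fun x => if x ∈ A then σ x else s4tr (c1 x) * s4lin (σ x))).prod 0) := by
    intro A
    induction A using Finset.induction_on with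
    | empty =>
      refine (h0.comp (fun P => P 0)).congr (fun w => ?_)
      show (w.map (fun x => s4tr (c1 x) * s4lin (σ x))).prod 0
        = (w.map (fun x => if x ∈ (∅ : Finset α) then σ x
            else s4tr (c1 x) * s4lin (σ x))).prod 0
      simp
    | insert y A hyA ih =>
      have hs := s4_single σ y (vx (σ y 0) (c1 y))
      refine ((ih.prod hs).comp (fun p : Fin 4 × Fin 4 => vx p.1 p.2)).congr (fun w => ?_)
      show vx ((w.map (fun x => if x ∈ A then σ x else s4tr (c1 x) * s4lin (σ x))).prod 0)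
          ((w.map (s4tau σ y (vx (σ y 0) (c1 y)))).prod 0)
        = (w.map (fun x => if x ∈ insert y A then σ x
            else s4tr (c1 x) * s4lin (σ x))).prod 0
      refine (s4_add _ _ _ ?_ ?_ ?_ w).symm
      · intro x
        show s4lin (if x ∈ A then σ x else s4tr (c1 x) * s4lin (σ x))
          = s4lin (if x ∈ insert y A then σ x else s4tr (c1 x) * s4lin (σ x))
        have e1 : s4lin (if x ∈ A then σ x else s4tr (c1 x) * s4lin (σ x)) = s4lin (σ x) := by
          split_ifs
          · rfl
          · exact s4lin_tr_lin _ _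
        have e2 : s4lin (if x ∈ insert y A then σ x else s4tr (c1 x) * s4lin (σ x))
            = s4lin (σ x) := by
          split_ifs
          · rfl
          · exact s4lin_tr_lin _ _
        rw [e1, e2]
      · intro x
        show s4lin (s4tr (if x = y then vx (σ y 0) (c1 y) else 0) * s4lin (σ x))
          = s4lin (if x ∈ insert y A then σ x else s4tr (c1 x) * s4lin (σ x))
        rw [s4lin_tr_lin]
        split_ifs
        · rfl
        · exact (s4lin_tr_lin _ _).symm
      · intro x
        show (if x ∈ insert y A then σ x else s4tr (c1 x) * s4lin (σ x)) 0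
          = vx ((if x ∈ A then σ x else s4tr (c1 x) * s4lin (σ x)) 0)
            ((s4tr (if x = y then vx (σ y 0) (c1 y) else 0) * s4lin (σ x)) 0)
        rw [s4_tr_lin_zero]
        by_cases hx : x = y
        · rw [hx, if_pos (Finset.mem_insert_self y A), if_neg hyA, if_pos rfl, s4_tr_lin_zero,
            vx_cancel]
        · have e : x ∈ insert y A ↔ x ∈ A := by
            rw [Finset.mem_insert]
            exact ⟨fun h => h.resolve_left hx, Or.inr⟩
          rw [if_neg hx, vx_zero]
          by_cases hxA : x ∈ A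
          · rw [if_pos (e.mpr hxA), if_pos hxA]
          · rw [if_neg (fun h => hxA (e.mp h)), if_neg hxA]
  have hT' : StatLe 1 (fun w : List α => (w.map σ).prod 0) := by
    refine (hT Finset.univ).congr (fun w => ?_)
    simp
  refine ((hT'.prod hL).comp
    (fun p : Fin 4 × Equiv.Perm (Fin 4) => s4tr p.1 * p.2)).congr (fun w => ?_)
  exact s4_decomp _

/-- **The symmetric group on four points.** For every map `σ` from a finite alphabet into the
permutations of `Fin 4` and every set `P` of permutations, the language of all words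
`x₁ x₂ ... x_k` with `σ x₁ * σ x₂ * ... * σ x_k ∈ P` has generalized star height at most one. -/
theorem sym_four (σ : α → Equiv.Perm (Fin 4)) (P : Set (Equiv.Perm (Fin 4))) :
    GSHLe 1 ({w | (w.map σ).prod ∈ P} : Language α) :=
  (sym_four_stat σ).level (fun π => π ∈ P)

/-- **Divisors of direct powers of the symmetric group on four points.** If the group `G` is a
quotient of a group `H` that embeds into a direct power of the symmetric group on four points,
then for every map `φ` from a finite alphabet into `G` and every set `P ⊆ G` the language of all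
words `x₁ x₂ ... x_k` with `φ x₁ * φ x₂ * ... * φ x_k ∈ P` has generalized star height at most
one. -/
theorem sym_four_div {G H : Type} [Group G] [Group H] (n : ℕ)
    (ι : H →* (Fin n → Equiv.Perm (Fin 4))) (hι : Function.Injective ι)
    (π : H →* G) (hπ : Function.Surjective π) (φ : α → G) (P : Set G) :
    GSHLe 1 ({w | (w.map φ).prod ∈ P} : Language α) := by
  choose ψ hψ using fun x => hπ (φ x)
  have hstat : StatLe 1 (fun w : List α =>
      (fun i : Fin n => (w.map (fun x => ι (ψ x) i)).prod)) :=
    StatLe.pi (fun i => sym_four_stat (fun x => ι (ψ x) i))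
  have hlev := hstat.level (fun t : Fin n → Equiv.Perm (Fin 4) => ∃ h : H, ι h = t ∧ π h ∈ P)
  refine hlev.of_iff (fun w => ?_)
  have e1 : ∀ w : List α,
      (fun i : Fin n => (w.map (fun x => ι (ψ x) i)).prod) = ι ((w.map ψ).prod) := by
    intro w
    induction w with
    | nil =>
      funext i
      simp
    | cons x w ih =>
      funext i
      have hi := congrFun ih i
      simp only [List.map_cons, List.prod_cons, map_mul, Pi.mul_apply]
      rw [← hi]
  have e2 : ∀ w : List α, (w.map φ).prod = π ((w.map ψ).prod) := by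
    intro w
    induction w with
    | nil => simp
    | cons x w ih =>
      simp only [List.map_cons, List.prod_cons, map_mul]
      rw [← ih, hψ x]
  show (∃ h : H, ι h = (fun i : Fin n => (w.map (fun x => ι (ψ x) i)).prod) ∧ π h ∈ P)
    ↔ (w.map φ).prod ∈ P
  rw [e1 w, e2 w]
  constructor
  · rintro ⟨h, hh, hP⟩
    rw [← hι hh]
    exact hP
  · intro hP
    exact ⟨_, rfl, hP⟩

end Vale.Agent.Lib.P329
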