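import Vale.Agent.Lib.P329.Cascade
import Vale.Agent.Lib.P329.PrefixCount

/-!
# Three levels: star-free on top of modular counters on top of a counter-free automaton

Let `step` be a counter-free deterministic automaton on the states `0, …, K - 1` and `M ≥ 1`.
The cascade `cStep` runs `step` and, next to it, counts modulo `M`, for every state `q` and
every letter `b`, the positions carrying `b` that are read in state `q`. Its path languages have
generalized star height at most one (`gsh_cStep_run`, from `gsh_pcount`), so by the cascade
closure `gsh_annot` every star-free condition on the word annotated by the states of the cascade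
defines a language of generalized star height at most one (`gsh_three_level`). In the language
of wreath products these are the languages recognized by `A ≀ G ≀ A'` with `A, A'` aperiodic and
`G` a finite abelian group.
-/

namespace Vale.Agent.Lib.P329

open Language

variable {α : Type} [DecidableEq α]

theorem pcount_nil (step : ℕ → α → ℕ) (s q : ℕ) (b : α) : pcount step s q b [] = 0 := rfl

theorem pc_fold (step : ℕ → α → ℕ) (q : ℕ) (b : α) (w : List α) :
    ∀ s n : ℕ, w.foldl (pcStep step q b) (s, n) = (w.foldl step s, n + pcount step s q b w) := by
  induction w with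
  | nil =>
    intro s n
    rfl
  | cons x w ih =>
    intro s n
    have h1 : pcount step s q b (x :: w) =
        (if s = q ∧ x = b then 1 else 0) + pcount step (step s x) q b w := by
      have h2 : pcount step s q b (x :: w) =
          (w.foldl (pcStep step q b) (step s x, if s = q ∧ x = b then 0 + 1 else 0)).2 := rfl
      rw [h2, ih]
    have h3 : (x :: w).foldl (pcStep step q b) (s, n) =
        w.foldl (pcStep step q b) (step s x, if s = q ∧ x = b then n + 1 else n) := rfl
    rw [h3, ih, h1, List.foldl_cons]
    by_cases hc : s = q ∧ x = b
    · simp only [if_pos hc, Nat.add_assoc]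
    · simp only [if_neg hc, Nat.zero_add]

theorem pcount_cons (step : ℕ → α → ℕ) (s q : ℕ) (b : α) (x : α) (w : List α) :
    pcount step s q b (x :: w) =
      (if s = q ∧ x = b then 1 else 0) + pcount step (step s x) q b w := by
  have h2 : pcount step s q b (x :: w) =
      (w.foldl (pcStep step q b) (step s x, if s = q ∧ x = b then 0 + 1 else 0)).2 := rfl
  rw [h2, pc_fold]

/-- The state space of the cascade: a state `< K` of the automaton together with, for every
state `q` and every letter `b`, a counter modulo `M`. -/
abbrev CState (α : Type) (K M : ℕ) : Type := Fin K × (Fin K → α → Fin M)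

/-- One step of the cascade: the automaton `step` moves, and the counter of the pair
(current state, letter read) goes up by one modulo `M`. -/
def cStep (K M : ℕ) (hM : 0 < M) (step : ℕ → α → ℕ) (hb : ∀ y a, y < K → step y a < K)
    (st : CState α K M) (x : α) : CState α K M :=
  (⟨step st.1.val x, hb st.1.val x st.1.isLt⟩,
    fun q b => if q = st.1 ∧ b = x then ⟨((st.2 q b).val + 1) % M, Nat.mod_lt _ hM⟩
      else st.2 q b)

theorem cStep_foldl (K M : ℕ) (hM : 0 < M) (step : ℕ → α → ℕ)
    (hb : ∀ y a, y < K → step y a < K) (w : List α) :
    ∀ st : CState α K M,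
      ((w.foldl (cStep K M hM step hb) st).1.val = w.foldl step st.1.val) ∧
      ∀ (q : Fin K) (b : α), ((w.foldl (cStep K M hM step hb) st).2 q b).val
        = ((st.2 q b).val + pcount step st.1.val q.val b w) % M := by
  induction w with
  | nil =>
    intro st
    refine ⟨rfl, fun q b => ?_⟩
    show (st.2 q b).val = ((st.2 q b).val + 0) % M
    rw [Nat.add_zero, Nat.mod_eq_of_lt (st.2 q b).isLt]
  | cons x w ih =>
    intro st
    obtain ⟨h1, h2⟩ := ih (cStep K M hM step hb st x)
    have hf : (x :: w).foldl (cStep K M hM step hb) st =
        w.foldl (cStep K M hM step hb) (cStep K M hM step hb st x) := rfl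
    rw [hf]
    refine ⟨?_, fun q b => ?_⟩
    · rw [h1]
      rfl
    · rw [h2 q b, pcount_cons]
      have hs : (cStep K M hM step hb st x).1.val = step st.1.val x := rfl
      rw [hs]
      by_cases hq : q = st.1 ∧ b = x
      · have h4 : ((cStep K M hM step hb st x).2 q b).val = ((st.2 q b).val + 1) % M := by
          show ((if q = st.1 ∧ b = x then (⟨((st.2 q b).val + 1) % M, Nat.mod_lt _ hM⟩ : Fin M)
            else st.2 q b)).val = _
          rw [if_pos hq]
        have h5 : (st.1.val = q.val ∧ x = b) := ⟨by rw [hq.1], hq.2.symm⟩
        rw [h4, if_pos h5, Nat.mod_add_mod, Nat.add_assoc]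
      · have h4 : ((cStep K M hM step hb st x).2 q b).val = (st.2 q b).val := by
          show ((if q = st.1 ∧ b = x then (⟨((st.2 q b).val + 1) % M, Nat.mod_lt _ hM⟩ : Fin M)
            else st.2 q b)).val = _
          rw [if_neg hq]
        have h5 : ¬ (st.1.val = q.val ∧ x = b) := by
          rintro ⟨h6, h7⟩
          exact hq ⟨Fin.ext h6.symm, h7.symm⟩
        rw [h4, if_neg h5, Nat.zero_add]

variable [Fintype α]

/-- The path languages of the cascade have generalized star height at most one. -/
theorem gsh_cStep_run (K M : ℕ) (hM : 0 < M) (step : ℕ → α → ℕ)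
    (hb : ∀ y a, y < K → step y a < K)
    (hcf : ∀ w : List α, ∃ k : ℕ, ∀ y, y < K →
      List.foldl step y (List.replicate k w).flatten =
        List.foldl step y (List.replicate (k + 1) w).flatten)
    (st st' : CState α K M) :
    GSHLe 1 ({w | w.foldl (cStep K M hM step hb) st = st'} : Language α) := by
  have h := gsh_pcount K step hb hcf st.1.val st.1.isLt M hM
    (fun s c => s = st'.1.val ∧ ∀ (q : Fin K) (b : α),
      ((st.2 q b).val + c q b) % M = (st'.2 q b).val)
  refine h.of_iff (fun w => ?_)
  obtain ⟨h1, h2⟩ := cStep_foldl K M hM step hb w st
  show (w.foldl step st.1.val = st'.1.val ∧ ∀ (q : Fin K) (b : α),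
      ((st.2 q b).val + pcount step st.1.val q.val b w % M) % M = (st'.2 q b).val) ↔
    w.foldl (cStep K M hM step hb) st = st'
  constructor
  · rintro ⟨ha, hc⟩
    apply Prod.ext
    · apply Fin.ext
      rw [h1]
      exact ha
    · funext q b
      apply Fin.ext
      rw [h2 q b, ← hc q b, Nat.add_mod_mod]
  · intro hw
    refine ⟨?_, fun q b => ?_⟩
    · rw [← h1, hw]
    · rw [Nat.add_mod_mod, ← h2 q b, hw]

/-- **Three-level theorem.** Let `step` be a counter-free automaton on `K` states and `M ≥ 1`.
Annotate every position of a word with the state of the cascade `cStep` just before it, i.e.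
with the state of `step` and, for all states `q` and letters `b`, the number modulo `M` of
earlier positions carrying `b` that were read in state `q`. For every star-free language `K'`
over the annotated alphabet, the language of all words whose annotation lies in `K'` has
generalized star height at most one. -/
theorem gsh_three_level (K : ℕ) (step : ℕ → α → ℕ) (hb : ∀ y a, y < K → step y a < K)
    (hcf : ∀ w : List α, ∃ k : ℕ, ∀ y, y < K →
      List.foldl step y (List.replicate k w).flatten =
        List.foldl step y (List.replicate (k + 1) w).flatten)
    (M : ℕ) (hM : 0 < M) (st0 : CState α K M)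
    (K' : Language (α × CState α K M)) (hK' : GSHLe 0 K') :
    GSHLe 1 ({w | annot (cStep K M hM step hb) st0 w ∈ K'} : Language α) :=
  gsh_annot (cStep K M hM step hb)
    (fun st st' => gsh_cStep_run K M hM step hb hcf st st') K' hK' st0

end Vale.Agent.Lib.P329
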