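import Vale.Agent.Lib.P329.PrefixCount

/-!
# Two-sided modular counting with a left-ideal condition on the suffix

Let `φ` map the letters into a finite aperiodic monoid `N`. For a class `n` of `N`, a letter `b`
and a condition `S` on words, `tcount φ n b S w` is the number of factorizations `w = u b v`
such that the image of `u` is `n` and `v` satisfies `S`.

If `S` is closed under prepending letters (a left ideal) and has generalized star height at most
one, then the counted positions are exactly the counted positions (for the condition on `u`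
alone) of the left factor `u` of the factorization `w = u w₂` in which `w₂` is the shortest
suffix of `w` that satisfies `S`; so the level sets of the count modulo `M` are concatenations of a
level set of the one-sided count (`gsh_mcount`) with the language of the words that satisfy `S`
and have no proper suffix satisfying `S`.

For Boolean combinations of finitely many such conditions the count is a combination of the
counts for conditions `A ∧ F`, `A` a left ideal, by induction on the number of conditions:
split along the last one.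
-/

namespace Vale.Agent.Lib.P329

open Language

variable {α : Type} [DecidableEq α]

section defs

variable {N : Type} [Monoid N] [DecidableEq N]

open Classical in
/-- The two-sided counting recursion: `tcAux φ n b S m w` is the number of factorizations
`w = u b v` such that `m` times the image of `u` equals `n` and `v` satisfies `S`. -/
noncomputable def tcAux (φ : α → N) (n : N) (b : α) (S : List α → Prop) : N → List α → ℕ
  | _, [] => 0
  | m, c :: w => (if m = n ∧ c = b ∧ S w then 1 else 0) + tcAux φ n b S (m * φ c) w

/-- `tcount φ n b S w`: the number of factorizations `w = u b v` (positions of `w` carrying the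
letter `b`) such that the product of the images under `φ` of the letters of `u` equals `n` and
the word `v` after the position satisfies `S`. -/
noncomputable def tcount (φ : α → N) (n : N) (b : α) (S : List α → Prop) (w : List α) : ℕ :=
  tcAux φ n b S 1 w

omit [DecidableEq α] [DecidableEq N] in
theorem tcAux_nil [DecidableEq α] [DecidableEq N] (φ : α → N) (n : N) (b : α)
    (S : List α → Prop) (m : N) : tcAux φ n b S m [] = 0 := rfl

open Classical in
omit [DecidableEq α] [DecidableEq N] in
theorem tcAux_cons [DecidableEq α] [DecidableEq N] (φ : α → N) (n : N) (b : α)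
    (S : List α → Prop) (m : N) (c : α) (w : List α) :
    tcAux φ n b S m (c :: w)
      = (if m = n ∧ c = b ∧ S w then 1 else 0) + tcAux φ n b S (m * φ c) w := rfl

theorem mc_fold_eq (φ : α → N) (n : N) (b : α) (w : List α) :
    ∀ (m : N) (k : ℕ), (w.foldl (mcStep φ n b) (m, k)).2
      = k + tcAux φ n b (fun _ => True) m w := by
  induction w with
  | nil =>
    intro m k
    rfl
  | cons c w ih =>
    intro m k
    rw [List.foldl_cons, tcAux_cons]
    show (w.foldl (mcStep φ n b) (m * φ c, if m = n ∧ c = b then k + 1 else k)).2 = _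
    rw [ih]
    by_cases h : m = n ∧ c = b
    · rw [if_pos h, if_pos ⟨h.1, h.2, trivial⟩]
      omega
    · rw [if_neg h, if_neg (fun h' => h ⟨h'.1, h'.2.1⟩)]
      omega

/-- without a condition on the suffix, the two-sided count is the one-sided count -/
theorem tcount_true (φ : α → N) (n : N) (b : α) (w : List α) :
    tcount φ n b (fun _ => True) w = mcount φ n b w := by
  unfold tcount mcount
  rw [mc_fold_eq]
  omega

theorem tcAux_eq_zero (φ : α → N) (n : N) (b : α) (S : List α → Prop) (w : List α) :
    (∀ v, v <:+ w → ¬ S v) → ∀ m : N, tcAux φ n b S m w = 0 := by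
  induction w with
  | nil =>
    intro _ m
    rfl
  | cons c w ih =>
    intro h m
    rw [tcAux_cons, if_neg (fun h' => h w (List.suffix_cons c w) h'.2.2),
      ih (fun v hv => h v (hv.trans (List.suffix_cons c w)))]

omit [DecidableEq α] in
theorem mono_append {S : List α → Prop} (hmono : ∀ c w, S w → S (c :: w)) (u : List α)
    {v : List α} (hv : S v) : S (u ++ v) := by
  induction u with
  | nil => exact hv
  | cons c u ih => exact hmono c _ ih

theorem tcAux_of_not {S : List α → Prop} (hmono : ∀ c w, S w → S (c :: w)) (φ : α → N)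
    (n : N) (b : α) {w : List α} (hw : ¬ S w) (m : N) : tcAux φ n b S m w = 0 :=
  tcAux_eq_zero φ n b S w
    (fun v hv hS => hw (by
      obtain ⟨t, rfl⟩ := hv
      exact mono_append hmono t hS)) m

/-- the cut: if `w₂` satisfies the left ideal `S` and is minimal, then the positions of
`u ++ w₂` whose suffix satisfies `S` are the positions of `u` -/
theorem tcAux_cut {S : List α → Prop} (hmono : ∀ c w, S w → S (c :: w)) (φ : α → N)
    (n : N) (b : α) {w2 : List α} (h2 : S w2) (hmin : ∀ c w2', w2 = c :: w2' → ¬ S w2')
    (u : List α) :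
    ∀ m : N, tcAux φ n b S m (u ++ w2) = tcAux φ n b (fun _ => True) m u := by
  induction u with
  | nil =>
    intro m
    rw [List.nil_append, tcAux_nil]
    cases w2 with
    | nil => rfl
    | cons c w2' =>
      have hn : ¬ S w2' := hmin c w2' rfl
      rw [tcAux_cons, if_neg (fun h' => hn h'.2.2), tcAux_of_not hmono φ n b hn]
  | cons c u ih =>
    intro m
    rw [List.cons_append, tcAux_cons, tcAux_cons, ih]
    have hS : S (u ++ w2) := mono_append hmono u h2
    by_cases h : m = n ∧ c = b
    · rw [if_pos ⟨h.1, h.2, hS⟩, if_pos ⟨h.1, h.2, trivial⟩]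
    · rw [if_neg (fun h' => h ⟨h'.1, h'.2.1⟩), if_neg (fun h' => h ⟨h'.1, h'.2.1⟩)]

omit [DecidableEq α] in
theorem exists_cut {S : List α → Prop} (w : List α) (hw : S w) :
    ∃ u w2, w = u ++ w2 ∧ S w2 ∧ ∀ c w2', w2 = c :: w2' → ¬ S w2' := by
  induction w with
  | nil => exact ⟨[], [], rfl, hw, fun c w2' h => by cases h⟩
  | cons c w ih =>
    by_cases h : S w
    · obtain ⟨u, w2, e, h2, hmin⟩ := ih h
      exact ⟨c :: u, w2, by rw [e]; rfl, h2, hmin⟩
    · refine ⟨[], c :: w, rfl, hw, ?_⟩
      intro c' w2' e
      rw [List.cons.injEq] at e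
      rw [← e.2]
      exact h

theorem tcAux_congr (φ : α → N) (n : N) (b : α) {P Q : List α → Prop} (h : ∀ v, P v ↔ Q v)
    (m : N) (w : List α) : tcAux φ n b P m w = tcAux φ n b Q m w := by
  have : P = Q := funext (fun v => propext (h v))
  rw [this]

theorem tcAux_or (φ : α → N) (n : N) (b : α) {P Q : List α → Prop}
    (h : ∀ v, ¬ (P v ∧ Q v)) (w : List α) :
    ∀ m : N, tcAux φ n b (fun v => P v ∨ Q v) m w
      = tcAux φ n b P m w + tcAux φ n b Q m w := by
  induction w with
  | nil =>
    intro m
    rfl
  | cons c w ih =>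
    intro m
    rw [tcAux_cons, tcAux_cons, tcAux_cons, ih]
    by_cases h1 : m = n ∧ c = b
    · by_cases hP : P w
      · have hQ : ¬ Q w := fun hQ => h w ⟨hP, hQ⟩
        rw [if_pos ⟨h1.1, h1.2, Or.inl hP⟩, if_pos ⟨h1.1, h1.2, hP⟩,
          if_neg (fun h' => hQ h'.2.2)]
        omega
      · by_cases hQ : Q w
        · rw [if_pos ⟨h1.1, h1.2, Or.inr hQ⟩, if_neg (fun h' => hP h'.2.2),
            if_pos ⟨h1.1, h1.2, hQ⟩]
          omega
        · rw [if_neg (fun h' => h'.2.2.elim hP hQ), if_neg (fun h' => hP h'.2.2),
            if_neg (fun h' => hQ h'.2.2)]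
          omega
    · rw [if_neg (fun h' => h1 ⟨h'.1, h'.2.1⟩), if_neg (fun h' => h1 ⟨h'.1, h'.2.1⟩),
        if_neg (fun h' => h1 ⟨h'.1, h'.2.1⟩)]
      omega

end defs

omit [DecidableEq α] in
theorem ts_cast (M : ℕ) [NeZero M] (f : List α → ℕ) (h : StatLe 1 (fun w => f w % M)) :
    StatLe 1 (fun w => ((f w : ℕ) : ZMod M)) := by
  intro v
  refine (h v.val).of_iff (fun w => ?_)
  show f w % M = v.val ↔ ((f w : ℕ) : ZMod M) = v
  constructor
  · intro hw
    apply ZMod.val_injective
    rw [ZMod.val_natCast]
    exact hw
  · intro hw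
    rw [← hw, ZMod.val_natCast]

variable [Fintype α]

omit [DecidableEq α] in
/-- the words of `L` none of whose proper suffixes obtained by deleting the first letter lies
in `L` -/
theorem gsh_minimal {L : Language α} (hL : GSHLe 1 L) :
    GSHLe 1 ({w | w ∈ L ∧ ∀ c w', w = c :: w' → w' ∉ L} : Language α) := by
  obtain ⟨LT, hT, mT⟩ : ∃ LT : Language α, GSHLe 1 LT ∧
      ∀ w, w ∈ LT ↔ ∃ c : α, w ∈ ({[c]} : Language α) * Lᶜ :=
    ⟨_, gsh_exists (fun c => ({[c]} : Language α) * Lᶜ)
      (fun c => (gsh_letter 1 c).mul hL.compl), fun w => Iff.rfl⟩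
  refine GSHLe.and hL ((gsh_one 1).add hT) (fun w => ?_)
  show (w ∈ L ∧ ∀ c w', w = c :: w' → w' ∉ L) ↔ (w ∈ L ∧ w ∈ (1 : Language α) + LT)
  rw [Language.mem_add, Language.mem_one, mT]
  constructor
  · rintro ⟨h, hm⟩
    refine ⟨h, ?_⟩
    cases w with
    | nil => exact Or.inl rfl
    | cons c w' =>
      right
      refine ⟨c, ?_⟩
      rw [Language.mem_mul]
      exact ⟨[c], rfl, w', hm c w' rfl, rfl⟩
  · rintro ⟨h, hm⟩
    refine ⟨h, ?_⟩
    intro c w' e
    rcases hm with hm | ⟨c', hc'⟩
    · rw [hm] at e
      cases e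
    · rw [Language.mem_mul] at hc'
      obtain ⟨a, ha, b', hb', e'⟩ := hc'
      have ha' : a = [c'] := ha
      rw [ha', e] at e'
      have e2 : b' = w' := by
        rw [List.singleton_append, List.cons.injEq] at e'
        exact e'.2
      rw [← e2]
      exact hb'

/-- **Two-sided counting, left ideal.** The number, modulo `M`, of the factorizations
`w = u b v` with `u` in a given class of a finite aperiodic monoid and `v` in a language `S`
that is closed under prepending letters and has generalized star height at most one, is a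
statistic of generalized star height at most one. -/
theorem stat_tcount_ideal {N : Type} [Monoid N] [Fintype N] [DecidableEq N]
    (hN : ∀ x : N, ∃ n : ℕ, x ^ n = x ^ (n + 1)) (φ : α → N) (M : ℕ) (hM : 0 < M)
    (n : N) (b : α) (S : List α → Prop) (hS : GSHLe 1 ({w | S w} : Language α))
    (hmono : ∀ c w, S w → S (c :: w)) :
    StatLe 1 (fun w : List α => tcount φ n b S w % M) := by
  intro v
  obtain ⟨L1, hL1, m1⟩ : ∃ L1 : Language α, GSHLe 1 L1 ∧
      ∀ u, u ∈ L1 ↔ mcount φ n b u % M = v :=
    ⟨_, gsh_mcount hN φ M hM (fun _ c => c n b = v), fun u => Iff.rfl⟩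
  obtain ⟨LS, hLS, mS⟩ : ∃ LS : Language α, GSHLe 1 LS ∧ ∀ w, w ∈ LS ↔ S w :=
    ⟨_, hS, fun w => Iff.rfl⟩
  obtain ⟨Lm, hLm, mm⟩ : ∃ Lm : Language α, GSHLe 1 Lm ∧
      ∀ w, w ∈ Lm ↔ (w ∈ LS ∧ ∀ c w', w = c :: w' → w' ∉ LS) :=
    ⟨_, gsh_minimal hLS, fun w => Iff.rfl⟩
  have hcat := hL1.mul hLm
  have K1 : ∀ w, w ∈ L1 * Lm → tcount φ n b S w % M = v := by
    intro w hw
    rw [Language.mem_mul] at hw
    obtain ⟨u, hu, w2, hw2, rfl⟩ := hw
    obtain ⟨h2, hm⟩ := (mm w2).1 hw2
    have e : tcount φ n b S (u ++ w2) = tcount φ n b (fun _ => True) u :=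
      tcAux_cut hmono φ n b ((mS w2).1 h2)
        (fun c w2' e hs => hm c w2' e ((mS w2').2 hs)) u 1
    rw [e, tcount_true]
    exact (m1 u).1 hu
  have K2 : ∀ w, S w → tcount φ n b S w % M = v → w ∈ L1 * Lm := by
    intro w hw hc
    obtain ⟨u, w2, rfl, h2, hm⟩ := exists_cut w hw
    rw [Language.mem_mul]
    have e : tcount φ n b S (u ++ w2) = tcount φ n b (fun _ => True) u :=
      tcAux_cut hmono φ n b h2 hm u 1
    rw [e, tcount_true] at hc
    exact ⟨u, (m1 u).2 hc, w2,
      (mm w2).2 ⟨(mS w2).2 h2, fun c w2' e hs => hm c w2' e ((mS w2').1 hs)⟩, rfl⟩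
  have K3 : ∀ w, ¬ S w → tcount φ n b S w = 0 := fun w hw => tcAux_of_not hmono φ n b hw 1
  by_cases hv : v = 0
  · refine (hcat.add hLS.compl).of_iff (fun w => ?_)
    rw [Language.mem_add]
    show (w ∈ L1 * Lm ∨ ¬ (w ∈ LS)) ↔ tcount φ n b S w % M = v
    constructor
    · rintro (h | h)
      · exact K1 w h
      · rw [K3 w (fun hs => h ((mS w).2 hs)), hv, Nat.zero_mod]
    · intro h
      by_cases hw : S w
      · exact Or.inl (K2 w hw h)
      · exact Or.inr (fun hs => hw ((mS w).1 hs))
  · refine hcat.of_iff (fun w => ?_)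
    show w ∈ L1 * Lm ↔ tcount φ n b S w % M = v
    constructor
    · exact K1 w
    · intro h
      by_cases hw : S w
      · exact K2 w hw h
      · exfalso
        rw [K3 w hw, Nat.zero_mod] at h
        exact hv h.symm

theorem stat_tcount_aux {N : Type} [Monoid N] [Fintype N] [DecidableEq N]
    (hN : ∀ x : N, ∃ n : ℕ, x ^ n = x ^ (n + 1)) (φ : α → N) (M : ℕ) [NeZero M]
    (n : N) (b : α) {ι : Type} (S : ι → List α → Prop)
    (hS : ∀ i, GSHLe 1 ({w | S i w} : Language α))
    (hmono : ∀ i c w, S i w → S i (c :: w)) (s : Finset ι) :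
    ∀ (A : List α → Prop), GSHLe 1 ({w | A w} : Language α) → (∀ c w, A w → A (c :: w)) →
    ∀ (F : (ι → Prop) → Prop), (∀ p p' : ι → Prop, (∀ i ∈ s, p i ↔ p' i) → (F p ↔ F p')) →
      StatLe 1 (fun w : List α =>
        ((tcount φ n b (fun v => A v ∧ F (fun i => S i v)) w : ℕ) : ZMod M)) := by
  classical
  induction s using Finset.induction_on with
  | empty =>
    intro A hA hAm F hF
    have hconst : ∀ v, F (fun i => S i v) ↔ F (fun _ => True) :=
      fun v => hF _ _ (fun i hi => absurd hi (Finset.notMem_empty i))
    by_cases h0 : F (fun _ => True)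
    · have hst := ts_cast M _ (stat_tcount_ideal hN φ M (NeZero.pos M) n b A hA hAm)
      refine hst.congr (fun w => ?_)
      show ((tcount φ n b A w : ℕ) : ZMod M) = _
      unfold tcount
      exact congrArg (fun x : ℕ => (x : ZMod M))
        (tcAux_congr φ n b (P := A) (Q := fun v => A v ∧ F (fun i => S i v))
          (fun v => ⟨fun h => ⟨h, (hconst v).2 h0⟩, fun h => h.1⟩) 1 w)
    · refine (StatLe.const 1 (0 : ZMod M)).congr (fun w => ?_)
      show (0 : ZMod M) = ((tcount φ n b _ w : ℕ) : ZMod M)
      unfold tcount
      rw [tcAux_eq_zero φ n b _ w (fun v _ h => h0 ((hconst v).1 h.2)) 1, Nat.cast_zero]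
  | insert j s hj ih =>
    intro A hA hAm F hF
    have hupd : ∀ (p p' : ι → Prop) (P : Prop), (∀ i ∈ s, p i ↔ p' i) →
        (F (Function.update p j P) ↔ F (Function.update p' j P)) := by
      intro p p' P h
      apply hF
      intro i hi
      by_cases hij : i = j
      · subst hij
        rw [Function.update_self, Function.update_self]
      · rw [Function.update_of_ne hij, Function.update_of_ne hij]
        exact h i ((Finset.mem_insert.1 hi).resolve_left hij)
    have hself : ∀ (p : ι → Prop) (P : Prop), (P ↔ p j) →
        (F (Function.update p j P) ↔ F p) := by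
      intro p P h
      apply hF
      intro i _
      by_cases hij : i = j
      · subst hij
        rw [Function.update_self]
        exact h
      · rw [Function.update_of_ne hij]
    have hA' : GSHLe 1 ({w | A w ∧ S j w} : Language α) :=
      GSHLe.and hA (hS j) (fun w => Iff.rfl)
    have hA'm : ∀ c w, (A w ∧ S j w) → (A (c :: w) ∧ S j (c :: w)) :=
      fun c w h => ⟨hAm c w h.1, hmono j c w h.2⟩
    have e1 := ih (fun v => A v ∧ S j v) hA' hA'm (fun p => F (Function.update p j True))
      (fun p p' h => hupd p p' True h)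
    have e2 := ih A hA hAm (fun p => F (Function.update p j False))
      (fun p p' h => hupd p p' False h)
    have e3 := ih (fun v => A v ∧ S j v) hA' hA'm (fun p => F (Function.update p j False))
      (fun p p' h => hupd p p' False h)
    have hcomb := ((e1.prod e2).prod e3).comp
      (fun p : (ZMod M × ZMod M) × ZMod M => p.1.1 + p.1.2 - p.2)
    refine hcomb.congr (fun w => ?_)
    have k1 : tcount φ n b (fun v => A v ∧ F (fun i => S i v)) w
        = tcount φ n b (fun v => (A v ∧ S j v)
            ∧ F (Function.update (fun i => S i v) j True)) w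
          + tcount φ n b (fun v => (A v ∧ ¬ S j v)
            ∧ F (Function.update (fun i => S i v) j False)) w := by
      unfold tcount
      rw [← tcAux_or φ n b (fun v h => h.2.1.2 h.1.1.2)]
      apply tcAux_congr
      intro v
      by_cases hsj : S j v
      · have hh := hself (fun i => S i v) True ⟨fun _ => hsj, fun _ => trivial⟩
        constructor
        · rintro ⟨ha, hf⟩
          exact Or.inl ⟨⟨ha, hsj⟩, hh.2 hf⟩
        · rintro (⟨⟨ha, _⟩, hf⟩ | ⟨⟨_, hns⟩, _⟩)
          · exact ⟨ha, hh.1 hf⟩
          · exact absurd hsj hns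
      · have hh := hself (fun i => S i v) False ⟨fun h => h.elim, fun h => hsj h⟩
        constructor
        · rintro ⟨ha, hf⟩
          exact Or.inr ⟨⟨ha, hsj⟩, hh.2 hf⟩
        · rintro (⟨⟨_, hs⟩, _⟩ | ⟨⟨ha, _⟩, hf⟩)
          · exact absurd hs hsj
          · exact ⟨ha, hh.1 hf⟩
    have k2 : tcount φ n b (fun v => A v ∧ F (Function.update (fun i => S i v) j False)) w
        = tcount φ n b (fun v => (A v ∧ S j v)
            ∧ F (Function.update (fun i => S i v) j False)) w
          + tcount φ n b (fun v => (A v ∧ ¬ S j v)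
            ∧ F (Function.update (fun i => S i v) j False)) w := by
      unfold tcount
      rw [← tcAux_or φ n b (fun v h => h.2.1.2 h.1.1.2)]
      apply tcAux_congr
      intro v
      by_cases hsj : S j v
      · constructor
        · rintro ⟨ha, hf⟩
          exact Or.inl ⟨⟨ha, hsj⟩, hf⟩
        · rintro (⟨⟨ha, _⟩, hf⟩ | ⟨⟨_, hns⟩, _⟩)
          · exact ⟨ha, hf⟩
          · exact absurd hsj hns
      · constructor
        · rintro ⟨ha, hf⟩
          exact Or.inr ⟨⟨ha, hsj⟩, hf⟩
        · rintro (⟨⟨_, hs⟩, _⟩ | ⟨⟨ha, _⟩, hf⟩)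
          · exact absurd hs hsj
          · exact ⟨ha, hf⟩
    show ((tcount φ n b (fun v => (A v ∧ S j v)
          ∧ F (Function.update (fun i => S i v) j True)) w : ℕ) : ZMod M)
        + ((tcount φ n b (fun v => A v
          ∧ F (Function.update (fun i => S i v) j False)) w : ℕ) : ZMod M)
        - ((tcount φ n b (fun v => (A v ∧ S j v)
          ∧ F (Function.update (fun i => S i v) j False)) w : ℕ) : ZMod M)
      = ((tcount φ n b (fun v => A v ∧ F (fun i => S i v)) w : ℕ) : ZMod M)
    rw [k1, k2]
    push_cast
    ring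

/-- **Two-sided counting, Boolean combinations of left ideals.** Let `S i` be finitely many
languages of generalized star height at most one that are closed under prepending letters, and
let `F` be any Boolean function of them. The number, modulo `M`, of the factorizations
`w = u b v` with `u` in a given class of a finite aperiodic monoid and `v` satisfying the
Boolean combination `F` of the conditions `S i`, is a statistic of generalized star height at
most one. -/
theorem stat_tcount_bool {N : Type} [Monoid N] [Fintype N] [DecidableEq N]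
    (hN : ∀ x : N, ∃ n : ℕ, x ^ n = x ^ (n + 1)) (φ : α → N) (M : ℕ) (hM : 0 < M)
    (n : N) (b : α) {ι : Type} [Fintype ι] (S : ι → List α → Prop)
    (hS : ∀ i, GSHLe 1 ({w | S i w} : Language α))
    (hmono : ∀ i c w, S i w → S i (c :: w)) (F : (ι → Prop) → Prop) :
    StatLe 1 (fun w : List α => tcount φ n b (fun v => F (fun i => S i v)) w % M) := by
  have : NeZero M := ⟨by omega⟩
  have h := stat_tcount_aux hN φ M n b S hS hmono Finset.univ (fun _ => True)
    ((gsh_top 1).of_iff (fun w => ⟨fun _ => trivial, fun _ => trivial⟩))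
    (fun _ _ _ => trivial) F
    (fun p p' h => by
      have e : p = p' := funext (fun i => propext (h i (Finset.mem_univ i)))
      rw [e])
  have h2 := h.comp (fun z : ZMod M => z.val)
  refine h2.congr (fun w => ?_)
  show ((tcount φ n b (fun v => True ∧ F (fun i => S i v)) w : ℕ) : ZMod M).val
    = tcount φ n b (fun v => F (fun i => S i v)) w % M
  rw [ZMod.val_natCast]
  unfold tcount
  rw [tcAux_congr φ n b (P := fun v => True ∧ F (fun i => S i v))
    (Q := fun v => F (fun i => S i v)) (fun v => ⟨fun h => h.2, fun h => ⟨trivial, h⟩⟩)]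

/-- **Two-sided modular counting.** Let `N` be a finite aperiodic monoid, `φ` a map from the
letters to `N`, `M ≥ 1`, let `S i` be finitely many languages of generalized star height at most
one that are closed under prepending letters, and let `F k` be finitely many Boolean functions
of them. Every language whose membership depends only on the image of the word in `N` and on
the numbers, modulo `M`, of the factorizations `w = u b v` with a given letter `b`, a given
image `n` of `u`, and `v` satisfying the Boolean combination `F k` of the conditions `S i`,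
has generalized star height at most one. -/
theorem gsh_tcount {N : Type} [Monoid N] [Fintype N] [DecidableEq N]
    (hN : ∀ x : N, ∃ n : ℕ, x ^ n = x ^ (n + 1)) (φ : α → N) (M : ℕ) (hM : 0 < M)
    {ι : Type} [Fintype ι] (S : ι → List α → Prop)
    (hS : ∀ i, GSHLe 1 ({w | S i w} : Language α))
    (hmono : ∀ i c w, S i w → S i (c :: w))
    {κ : Type} [Fintype κ] (F : κ → (ι → Prop) → Prop)
    (Φ : N → (κ → N → α → ℕ) → Prop) :
    GSHLe 1 ({w | Φ ((w.map φ).prod)
      (fun k n b => tcount φ n b (fun v => F k (fun i => S i v)) w % M)} : Language α) := by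
  classical
  have himg : StatLe 1 (fun w : List α => (w.map φ).prod) :=
    fun v => (gsh_mcount hN φ M hM (fun m _ => m = v)).of_iff (fun w => Iff.rfl)
  have hcnt : StatLe 1 (fun w : List α =>
      (fun (k : κ) (n : N) (b : α) =>
        (⟨tcount φ n b (fun v => F k (fun i => S i v)) w % M, Nat.mod_lt _ hM⟩ : Fin M))) := by
    refine StatLe.pi (fun k => StatLe.pi (fun n => StatLe.pi (fun b => ?_)))
    intro v
    refine (stat_tcount_bool hN φ M hM n b S hS hmono (F k) v.val).of_iff (fun w => ?_)
    show tcount φ n b (fun v => F k (fun i => S i v)) w % M = v.val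
      ↔ (⟨tcount φ n b (fun v => F k (fun i => S i v)) w % M, Nat.mod_lt _ hM⟩ : Fin M) = v
    rw [Fin.ext_iff]
  have hlev := (himg.prod hcnt).level
    (fun p : N × (κ → N → α → Fin M) => Φ p.1 (fun k n b => (p.2 k n b).val))
  exact hlev.of_iff (fun w => Iff.rfl)

end Vale.Agent.Lib.P329
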