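import Vale.Agent.Lib.P329.AffErase
import Vale.Agent.Lib.P329.OrderTwentyCor

/-!
# At most two values other than the identity

If every language over a two-letter alphabet recognized by a group `G` has generalized star
height at most one, then so has every language recognized by `G` through a map of an arbitrary
finite alphabet that takes at most two values other than the identity (`gsh_of_two_values`):
the letters sent to the identity are erased and letters with equal images are identified
(`gsh_comap_erase`).

For the groups with at most `23` elements this gives `gsh_card_le_twenty_three_vals`: the
languages recognized through a map `φ` have generalized star height at most one as soon as the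
order of the group is not `20`, or no letter is sent to an element of order two, or `φ` takes at
most two values other than the identity.
-/

namespace Vale.Agent.Lib.P329

open Language

variable {α : Type} [Fintype α] [DecidableEq α]

/-- from the alphabet with two letters to the maps with at most two values other than the
identity -/
theorem gsh_of_two_values {G : Type} [Group G]
    (H : ∀ (ψ : Fin 2 → G) (Q : Set G),
      GSHLe 1 ({u | (u.map ψ).prod ∈ Q} : Language (Fin 2)))
    (φ : α → G) (g r : G) (hφ : ∀ x, φ x = 1 ∨ φ x = g ∨ φ x = r) (P : Set G) :
    GSHLe 1 ({w | (w.map φ).prod ∈ P} : Language α) := by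
  classical
  let ψ : Fin 2 → G := fun i => if i = 0 then g else r
  let f : α → Option (Fin 2) := fun x =>
    if φ x = 1 then none else if φ x = g then some 0 else some 1
  have hf : ∀ x, φ x = (f x).elim 1 ψ := by
    intro x
    by_cases hx1 : φ x = 1
    · have e : f x = none := if_pos hx1
      rw [e]
      exact hx1
    · by_cases hxg : φ x = g
      · have e : f x = some 0 := by
          show (if φ x = 1 then none else if φ x = g then some 0 else some 1) = some 0
          rw [if_neg hx1, if_pos hxg]
        rw [e]
        show φ x = (if (0 : Fin 2) = 0 then g else r)
        rw [if_pos rfl]
        exact hxg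
      · have hxr : φ x = r := ((hφ x).resolve_left hx1).resolve_left hxg
        have e : f x = some 1 := by
          show (if φ x = 1 then none else if φ x = g then some 0 else some 1) = some 1
          rw [if_neg hx1, if_neg hxg]
        rw [e]
        show φ x = (if (1 : Fin 2) = 0 then g else r)
        rw [if_neg (by decide)]
        exact hxr
  refine (gsh_comap_erase f (H ψ P)).of_iff (fun w => ?_)
  show ((w.filterMap f).map ψ).prod ∈ P ↔ (w.map φ).prod ∈ P
  rw [prod_filterMap_eq φ f ψ hf w]

/-- **Groups with at most twenty-three elements.** Let `G` be a group with at most `23`
elements and `φ` a map from a finite alphabet to `G`. Suppose that the order of `G` is not `20`,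
or that no letter is sent to an element of order two, or that `φ` takes at most two values
other than the identity. Then the words whose product lies in a given subset of `G` form a
language of generalized star height at most one. -/
theorem gsh_card_le_twenty_three_vals {G : Type} [Group G] [Finite G]
    (h : Nat.card G ≤ 23) (φ : α → G)
    (hφ : Nat.card G ≠ 20 ∨ (∀ x, orderOf (φ x) ≠ 2)
      ∨ ∃ g r : G, ∀ x, φ x = 1 ∨ φ x = g ∨ φ x = r)
    (P : Set G) : GSHLe 1 ({w | (w.map φ).prod ∈ P} : Language α) := by
  rcases hφ with h20 | hinv | ⟨g, r, hgr⟩
  · exact gsh_card_le_twenty_three h h20 φ P
  · exact gsh_card_le_twenty_three_no_inv h φ hinv P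
  · have hab : ∀ i : Fin 2, i = 0 ∨ i = 1 := by
      intro i
      fin_cases i
      · left; rfl
      · right; rfl
    exact gsh_of_two_values (fun ψ Q => gsh_card_le_twenty_three_two 0 1 hab h ψ Q) φ g r hgr P

end Vale.Agent.Lib.P329
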