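import Vale.Agent.Lib.P329.Variety

/-!
# Transport of the height-one property along a group isomorphism
-/

namespace Vale.Agent.Lib.P329

open Language

/-- If every language over `α` recognized by `L` has generalized star height at most one and
`K` is isomorphic to `L`, then the same holds for `K`. -/
theorem good_of_mulEquiv {α : Type} {K L : Type} [Group K] [Group L] (e : K ≃* L)
    (hL : GoodOver α L) : GoodOver α K := by
  intro φ P
  refine (hL (fun x => e (φ x)) (e '' P)).of_iff (fun w => ?_)
  have hprod : (w.map (fun x => e (φ x))).prod = e ((w.map φ).prod) := by
    induction w with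
    | nil => simp
    | cons x w ih => simp [ih]
  show (w.map (fun x => e (φ x))).prod ∈ e '' P ↔ (w.map φ).prod ∈ P
  rw [hprod]
  exact e.injective.mem_set_image

end Vale.Agent.Lib.P329
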