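import Vale.Agent.Lib.P329.Three

/-!
# Closure under division and finite direct products

The class of groups all of whose recognized languages (over a fixed finite alphabet) have
generalized star height at most one is closed under finite direct products, subgroups and
quotients: if every `K i` is in the class, `H` embeds into the product of the `K i` and `G` is
a quotient of `H`, then `G` is in the class.
-/

namespace Vale.Agent.Lib.P329

open Language

/-- `GoodOver α G`: for every map `φ` from the alphabet `α` into the group `G` and every subset
`P` of `G`, the language of all words `x₁ ... x_k` with `φ x₁ * ... * φ x_k ∈ P` has generalized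
star height at most one; i.e. every language over `α` recognized by `G` has generalized star
height at most one. -/
def GoodOver (α : Type) (G : Type) [Group G] : Prop :=
  ∀ (φ : α → G) (P : Set G), GSHLe 1 ({w | (w.map φ).prod ∈ P} : Language α)

variable {α : Type}

/-- **Closure under division and finite direct products.** -/
theorem good_div {ι : Type} [Fintype ι] (K : ι → Type) [∀ i, Group (K i)] [∀ i, Finite (K i)]
    (hK : ∀ i, GoodOver α (K i)) {G H : Type} [Group G] [Group H]
    (emb : H →* (∀ i, K i)) (hemb : Function.Injective emb)
    (π : H →* G) (hπ : Function.Surjective π) : GoodOver α G := by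
  intro φ P
  have : Fintype (∀ i, K i) := Fintype.ofFinite _
  choose ψ hψ using fun x => hπ (φ x)
  have hstat : StatLe 1 (fun w : List α =>
      (fun i : ι => (w.map (fun x => emb (ψ x) i)).prod)) := by
    refine StatLe.pi (fun i v => ?_)
    refine (hK i (fun x => emb (ψ x) i) {v}).of_iff (fun w => ?_)
    exact Set.mem_singleton_iff
  have hlev := hstat.level (fun t : ∀ i, K i => ∃ h : H, emb h = t ∧ π h ∈ P)
  refine hlev.of_iff (fun w => ?_)
  have e1 : ∀ w : List α,
      (fun i : ι => (w.map (fun x => emb (ψ x) i)).prod) = emb ((w.map ψ).prod) := by
    intro w
    induction w with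
    | nil =>
      funext i
      simp
    | cons x w ih =>
      funext i
      have hi := congrFun ih i
      simp only [List.map_cons, List.prod_cons, map_mul, Pi.mul_apply]
      rw [← hi]
  have e2 : ∀ w : List α, (w.map φ).prod = π ((w.map ψ).prod) := by
    intro w
    induction w with
    | nil => simp
    | cons x w ih =>
      simp only [List.map_cons, List.prod_cons, map_mul]
      rw [← ih, hψ x]
  show (∃ h : H, emb h = (fun i : ι => (w.map (fun x => emb (ψ x) i)).prod) ∧ π h ∈ P)
    ↔ (w.map φ).prod ∈ P
  rw [e1 w, e2 w]
  constructor
  · rintro ⟨h, hh, hP⟩
    rw [← hemb hh]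
    exact hP
  · intro hP
    exact ⟨_, rfl, hP⟩

end Vale.Agent.Lib.P329
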