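import Vale.Agent.Lib.P329.Hub
import Vale.Agent.Lib.P329.VisitsDefs

/-!
# Counting the visits of the base state

If an automaton with base state `0` is counter-free once the base state is made absorbing, then
so is the automaton that in addition counts, modulo `m`, how often a letter of a set `C` is read
in the base state, provided `C` contains every letter that moves the base state
(`visits_aper`). Hence all path languages of the counting automaton have generalized star
height at most one (`gsh_visits`).
-/

namespace Vale.Agent.Lib.P329

open Language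

variable {α : Type}

/-! ### Self-maps of a finite interval -/

/-- a self-map of `[0, M)` all of whose periodic points are fixed is stable after `M` steps -/
theorem iterate_stable (M : ℕ) (f : ℕ → ℕ) (hf : ∀ s, s < M → f s < M)
    (hper : ∀ s, s < M → ∀ p, 0 < p → f^[p] s = s → f s = s) :
    ∀ s, s < M → f^[M] s = f^[M + 1] s := by
  intro s hs
  have hit : ∀ i, f^[i] s < M := by
    intro i
    induction i with
    | zero => exact hs
    | succ i ih =>
      rw [Function.iterate_succ_apply']
      exact hf _ ih
  have key : ∀ i j, i < j → j ≤ M → f^[i] s = f^[j] s → f^[M] s = f^[M + 1] s := by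
    intro i j hij hjM heq
    have hper' : f^[j - i] (f^[i] s) = f^[i] s := by
      rw [← Function.iterate_add_apply, Nat.sub_add_cancel hij.le, ← heq]
    have hfix : f (f^[i] s) = f^[i] s := hper _ (hit i) (j - i) (by omega) hper'
    have e1 : f^[M] s = f^[M - i] (f^[i] s) := by
      rw [← Function.iterate_add_apply, Nat.sub_add_cancel (by omega)]
    have e2 : f^[M + 1] s = f^[M + 1 - i] (f^[i] s) := by
      rw [← Function.iterate_add_apply, Nat.sub_add_cancel (by omega)]
    rw [e1, e2, Function.iterate_fixed hfix, Function.iterate_fixed hfix]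
  obtain ⟨i, hi, j, hj, hij, heq⟩ : ∃ i ∈ Finset.range (M + 1), ∃ j ∈ Finset.range (M + 1),
      i ≠ j ∧ f^[i] s = f^[j] s := by
    apply Finset.exists_ne_map_eq_of_card_lt_of_maps_to (t := Finset.range M)
    · simp
    · intro i _
      exact Finset.mem_range.mpr (hit i)
  rw [Finset.mem_range] at hi hj
  rcases Nat.lt_or_gt_of_ne hij with h | h
  · exact key i j h (by omega) heq
  · exact key j i h (by omega) heq.symm

/-- a periodic point of a map that is stable after `k` steps is a fixed point -/
theorem periodic_fixed (g : ℕ → ℕ) (k p y : ℕ) (hp : 0 < p) (hk : g^[k] y = g^[k + 1] y)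
    (hy : g^[p] y = y) : g y = y := by
  have h1 : g^[p * k] y = y := by
    rw [Function.iterate_mul]
    exact Function.iterate_fixed hy k
  have hle : k ≤ p * k := Nat.le_mul_of_pos_left k hp
  have h2 : g^[(p * k - k) + (k + 1)] y = g^[(p * k - k) + k] y := by
    rw [Function.iterate_add_apply g (p * k - k) (k + 1) y,
      Function.iterate_add_apply g (p * k - k) k y, hk]
  have e1 : (p * k - k) + (k + 1) = p * k + 1 := by omega
  have e2 : (p * k - k) + k = p * k := by omega
  rw [e1, e2, Function.iterate_succ_apply', h1] at h2
  exact h2

/-! ### Arithmetic of the states `y + N * k` -/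

theorem pair_lt (N m y k : ℕ) (hy : y < N) (hk : k < m) : y + N * k < N * m := by
  have h1 : N * (k + 1) = N * k + N := Nat.mul_succ N k
  have h2 : N * (k + 1) ≤ N * m := Nat.mul_le_mul_left N hk
  omega

theorem rank_eq (m a : ℕ) (ha : a < m) :
    (a + m - 1) % m = if a = 0 then m - 1 else a - 1 := by
  by_cases h0 : a = 0
  · subst h0
    rw [if_pos rfl, Nat.zero_add, Nat.mod_eq_of_lt (by omega)]
  · rw [if_neg h0]
    have e : a + m - 1 = (a - 1) + m := by omega
    rw [e, Nat.add_mod_right, Nat.mod_eq_of_lt (by omega)]

theorem rank_inj (m a b : ℕ) (ha : a < m) (hb : b < m)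
    (h : (a + m - 1) % m = (b + m - 1) % m) : a = b := by
  rw [rank_eq m a ha, rank_eq m b hb] at h
  by_cases h0 : a = 0
  · by_cases h1 : b = 0
    · omega
    · rw [if_pos h0, if_neg h1] at h
      omega
  · by_cases h1 : b = 0
    · rw [if_neg h0, if_pos h1] at h
      omega
    · rw [if_neg h0, if_neg h1] at h
      omega

theorem rank_succ (m a : ℕ) (ha : a < m) (h0 : a ≠ 0) :
    (a + m - 1) % m < ((a + 1) % m + m - 1) % m := by
  rw [rank_eq m a ha, if_neg h0, rank_eq m ((a + 1) % m) (Nat.mod_lt _ (by omega))]
  rcases Nat.lt_or_ge (a + 1) m with h | h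
  · rw [Nat.mod_eq_of_lt h, if_neg (by omega)]
    omega
  · have e : a + 1 = m := by omega
    rw [e, Nat.mod_self, if_pos rfl]
    omega

/-! ### The visit-counting automaton -/

variable [DecidableEq α]

theorem visitStep_mod (N m : ℕ) (step : ℕ → α → ℕ) (C : Finset α)
    (hb : ∀ y a, y < N → step y a < N) (hN : 0 < N) (s : ℕ) (a : α) :
    visitStep N m step C s a % N = step (s % N) a := by
  unfold visitStep
  by_cases hc : s % N = 0 ∧ a ∈ C
  · rw [if_pos hc, Nat.add_mul_mod_self_left, hc.1, Nat.mod_eq_of_lt (hb 0 a hN)]
  · rw [if_neg hc, Nat.add_mul_mod_self_left, Nat.mod_eq_of_lt (hb _ a (Nat.mod_lt _ hN))]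

theorem visitStep_div (N m : ℕ) (step : ℕ → α → ℕ) (C : Finset α)
    (hb : ∀ y a, y < N → step y a < N) (hN : 0 < N) (s : ℕ) (a : α) :
    visitStep N m step C s a / N
      = if s % N = 0 ∧ a ∈ C then (s / N + 1) % m else s / N := by
  unfold visitStep
  by_cases hc : s % N = 0 ∧ a ∈ C
  · rw [if_pos hc, if_pos hc, Nat.add_mul_div_left _ _ hN, Nat.div_eq_of_lt (hb 0 a hN),
      Nat.zero_add]
  · rw [if_neg hc, if_neg hc, Nat.add_mul_div_left _ _ hN,
      Nat.div_eq_of_lt (hb _ a (Nat.mod_lt _ hN)), Nat.zero_add]

theorem visitStep_lt (N m : ℕ) (step : ℕ → α → ℕ) (C : Finset α)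
    (hb : ∀ y a, y < N → step y a < N) (s : ℕ) (a : α) (hs : s < N * m) :
    visitStep N m step C s a < N * m := by
  have hN : 0 < N := by
    rcases Nat.eq_zero_or_pos N with h | h
    · rw [h, Nat.zero_mul] at hs
      omega
    · exact h
  have hm : 0 < m := by
    rcases Nat.eq_zero_or_pos m with h | h
    · rw [h, Nat.mul_zero] at hs
      omega
    · exact h
  have hk : s / N < m := Nat.div_lt_of_lt_mul hs
  unfold visitStep
  by_cases hc : s % N = 0 ∧ a ∈ C
  · rw [if_pos hc]
    exact pair_lt N m _ _ (hb 0 a hN) (Nat.mod_lt _ hm)
  · rw [if_neg hc]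
    exact pair_lt N m _ _ (hb _ a (Nat.mod_lt _ hN)) hk

/-- the invariant of a run of the counting automaton that does not pass through its base state:
the rank of the counter does not decrease, and if the counter is unchanged at the end, then the
first component has followed the given automaton with its base state made absorbing -/
theorem visits_inv (N m : ℕ) (step : ℕ → α → ℕ) (C : Finset α)
    (hb : ∀ y a, y < N → step y a < N) (hC : ∀ a, a ∉ C → step 0 a = 0) (u : List α) :
    ∀ s, s < N * m → List.foldl (absStep (visitStep N m step C)) s u ≠ 0 →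
      (s / N + m - 1) % m
          ≤ (List.foldl (absStep (visitStep N m step C)) s u / N + m - 1) % m ∧
      (List.foldl (absStep (visitStep N m step C)) s u / N = s / N →
        List.foldl (absStep (visitStep N m step C)) s u % N
          = List.foldl (absStep step) (s % N) u) := by
  induction u with
  | nil =>
    intro s _ _
    exact ⟨le_refl _, fun _ => rfl⟩
  | cons a u ih =>
    intro s hs hA
    simp only [List.foldl_cons] at hA ⊢
    have hs0 : s ≠ 0 := by
      rintro rfl
      rw [absStep_zero, foldl_abs_zero] at hA
      exact hA rfl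
    rw [absStep_pos _ hs0] at hA ⊢
    have hN : 0 < N := by
      rcases Nat.eq_zero_or_pos N with h | h
      · rw [h, Nat.zero_mul] at hs
        omega
      · exact h
    have hk : s / N < m := Nat.div_lt_of_lt_mul hs
    have hs1 : visitStep N m step C s a < N * m := visitStep_lt N m step C hb s a hs
    obtain ⟨ih1, ih2⟩ := ih (visitStep N m step C s a) hs1 hA
    have hd := visitStep_div N m step C hb hN s a
    have hmod := visitStep_mod N m step C hb hN s a
    by_cases hc : s % N = 0 ∧ a ∈ C
    · rw [if_pos hc] at hd
      have hk0 : s / N ≠ 0 := by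
        intro h0
        apply hs0
        have e := Nat.div_add_mod s N
        rw [h0, hc.1] at e
        omega
      have hlt : (s / N + m - 1) % m < (visitStep N m step C s a / N + m - 1) % m := by
        rw [hd]
        exact rank_succ m (s / N) hk hk0
      refine ⟨by omega, ?_⟩
      intro hAeq
      exfalso
      rw [hAeq] at ih1
      omega
    · rw [if_neg hc] at hd
      rw [hd] at ih1 ih2
      refine ⟨ih1, ?_⟩
      intro hAeq
      rw [ih2 hAeq, hmod]
      by_cases hy0 : s % N = 0
      · have haC : a ∉ C := fun h => hc ⟨hy0, h⟩
        rw [hy0, hC a haC, absStep_zero]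
      · rw [absStep_pos _ hy0]

/-- **Visit counting preserves the hub property.** If the given automaton is counter-free once
its base state `0` is made absorbing, and every letter outside `C` fixes the base state, then
the visit-counting automaton is counter-free once its base state `0` is made absorbing. -/
theorem visits_aper (N m : ℕ) (step : ℕ → α → ℕ) (C : Finset α)
    (haper : ∀ w : List α, ∃ k : ℕ, ∀ y, y < N →
      List.foldl (absStep step) y (List.replicate k w).flatten =
        List.foldl (absStep step) y (List.replicate (k + 1) w).flatten)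
    (hb : ∀ y a, y < N → step y a < N) (hC : ∀ a, a ∉ C → step 0 a = 0) :
    ∀ w : List α, ∃ k : ℕ, ∀ s, s < N * m →
      List.foldl (absStep (visitStep N m step C)) s (List.replicate k w).flatten =
        List.foldl (absStep (visitStep N m step C)) s (List.replicate (k + 1) w).flatten := by
  intro w
  obtain ⟨k0, hk0⟩ := haper w
  refine ⟨N * m, fun s hs => ?_⟩
  rw [foldl_replicate_flatten, foldl_replicate_flatten]
  have hVb : ∀ y a, y < N * m → visitStep N m step C y a < N * m :=
    fun y a hy => visitStep_lt N m step C hb y a hy
  refine iterate_stable (N * m) (fun z => List.foldl (absStep (visitStep N m step C)) z w)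
    (fun z hz => foldl_abs_bound (N * m) _ hVb w z hz) ?_ s hs
  intro z hz p hp hper
  show List.foldl (absStep (visitStep N m step C)) z w = z
  by_cases hz0 : z = 0
  · subst hz0
    exact foldl_abs_zero _ w
  · have hN : 0 < N := by
      rcases Nat.eq_zero_or_pos N with h | h
      · rw [h, Nat.zero_mul] at hz
        omega
      · exact h
    obtain ⟨p', rfl⟩ : ∃ p', p = p' + 1 := ⟨p - 1, by omega⟩
    have hW : List.foldl (absStep (visitStep N m step C)) z
        (List.replicate (p' + 1) w).flatten = z := by
      rw [foldl_replicate_flatten]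
      exact hper
    have hsplit : List.foldl (absStep (visitStep N m step C))
        (List.foldl (absStep (visitStep N m step C)) z w) (List.replicate p' w).flatten = z := by
      rw [List.replicate_succ, List.flatten_cons, List.foldl_append] at hW
      exact hW
    have hFz0 : List.foldl (absStep (visitStep N m step C)) z w ≠ 0 := by
      intro h0
      rw [h0, foldl_abs_zero] at hsplit
      exact hz0 hsplit.symm
    have hFzlt : List.foldl (absStep (visitStep N m step C)) z w < N * m :=
      foldl_abs_bound (N * m) _ hVb w z hz
    obtain ⟨i1, i2⟩ := visits_inv N m step C hb hC w z hz hFz0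
    have hne2 : List.foldl (absStep (visitStep N m step C))
        (List.foldl (absStep (visitStep N m step C)) z w) (List.replicate p' w).flatten ≠ 0 := by
      rw [hsplit]
      exact hz0
    obtain ⟨j1, _⟩ := visits_inv N m step C hb hC (List.replicate p' w).flatten _ hFzlt hne2
    rw [hsplit] at j1
    have hdiv : List.foldl (absStep (visitStep N m step C)) z w / N = z / N :=
      rank_inj m _ _ (Nat.div_lt_of_lt_mul hFzlt) (Nat.div_lt_of_lt_mul hz) (le_antisymm j1 i1)
    have hne3 : List.foldl (absStep (visitStep N m step C)) z
        (List.replicate (p' + 1) w).flatten ≠ 0 := by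
      rw [hW]
      exact hz0
    obtain ⟨_, w2⟩ := visits_inv N m step C hb hC (List.replicate (p' + 1) w).flatten z hz hne3
    rw [hW] at w2
    have hyper := w2 rfl
    rw [foldl_replicate_flatten] at hyper
    have hyfix : List.foldl (absStep step) (z % N) w = z % N := by
      have h1 := hk0 (z % N) (Nat.mod_lt _ hN)
      rw [foldl_replicate_flatten, foldl_replicate_flatten] at h1
      exact periodic_fixed (fun y => List.foldl (absStep step) y w) k0 (p' + 1) (z % N)
        (by omega) h1 hyper.symm
    have hmod : List.foldl (absStep (visitStep N m step C)) z w % N = z % N := by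
      rw [i2 hdiv, hyfix]
    have e1 := Nat.div_add_mod (List.foldl (absStep (visitStep N m step C)) z w) N
    have e2 := Nat.div_add_mod z N
    rw [hdiv, hmod] at e1
    omega

variable [Fintype α]

/-- **Visit counting.** All path languages of the visit-counting automaton over a hub automaton
have generalized star height at most one. -/
theorem gsh_visits (N m : ℕ) (step : ℕ → α → ℕ) (C : Finset α)
    (haper : ∀ w : List α, ∃ k : ℕ, ∀ y, y < N →
      List.foldl (absStep step) y (List.replicate k w).flatten =
        List.foldl (absStep step) y (List.replicate (k + 1) w).flatten)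
    (hb : ∀ y a, y < N → step y a < N) (hC : ∀ a, a ∉ C → step 0 a = 0)
    (s t : ℕ) (hs : s < N * m) : GSHLe 1 (runL (visitStep N m step C) s t) :=
  gsh_run_aper (N * m) (visitStep N m step C) (visits_aper N m step C haper hb hC)
    (fun y a hy => visitStep_lt N m step C hb y a hy) s t hs

end Vale.Agent.Lib.P329
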