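import Vale.Agent.Lib.P329.Visits
import Vale.Agent.Lib.P329.Three
import Vale.Agent.Lib.P329.Count

/-!
# Counting marked letters of weight zero by the weight of the earlier letters modulo a prime

Letters carry weights `κ x`. For a prime `q`, a set `S` of letters whose weights are divisible
by `q`, a residue `r` and a modulus `m`, the number of positions of a word that carry a letter
of `S` and are preceded by letters of total weight congruent to `r` modulo `q`, taken modulo
`m`, is a statistic of generalized star height at most one (`stat_wocc`).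

The weight counter modulo a prime is counter-free once its state `0` is made absorbing
(`counter_aper`); the statistic is read off from two visit-counting automata over it.
-/

namespace Vale.Agent.Lib.P329

open Language

variable {α : Type}

/-- the weight counter modulo `q` -/
def cstep (q : ℕ) (κ : α → ℕ) (y : ℕ) (a : α) : ℕ := (y + κ a) % q

theorem cstep_lt (q : ℕ) (hq : 0 < q) (κ : α → ℕ) (y : ℕ) (a : α) : cstep q κ y a < q :=
  Nat.mod_lt _ hq

theorem foldl_cstep (q : ℕ) (κ : α → ℕ) (u : List α) :
    ∀ y, y < q → List.foldl (cstep q κ) y u = (y + (u.map κ).sum) % q := by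
  induction u with
  | nil =>
    intro y hy
    show y = (y + 0) % q
    rw [Nat.add_zero, Nat.mod_eq_of_lt hy]
  | cons a u ih =>
    intro y hy
    have hq : 0 < q := by omega
    rw [List.foldl_cons, ih _ (cstep_lt q hq κ y a), List.map_cons, List.sum_cons]
    show ((y + κ a) % q + (u.map κ).sum) % q = (y + (κ a + (u.map κ).sum)) % q
    rw [Nat.mod_add_mod, Nat.add_assoc]

theorem sum_map_replicate (κ : α → ℕ) (w : List α) (j : ℕ) :
    (((List.replicate j w).flatten).map κ).sum = j * (w.map κ).sum := by
  induction j with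
  | zero => simp
  | succ j ih =>
    rw [List.replicate_succ, List.flatten_cons, List.map_append, List.sum_append, ih]
    ring

/-- the weight counter modulo a prime is counter-free once the state `0` is made absorbing -/
theorem counter_aper (q : ℕ) (hq : q.Prime) (κ : α → ℕ) :
    ∀ w : List α, ∃ k : ℕ, ∀ y, y < q →
      List.foldl (absStep (cstep q κ)) y (List.replicate k w).flatten =
        List.foldl (absStep (cstep q κ)) y (List.replicate (k + 1) w).flatten := by
  intro w
  have hq0 : 0 < q := hq.pos
  have hb : ∀ y a, y < q → cstep q κ y a < q := fun y a _ => cstep_lt q hq0 κ y a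
  refine ⟨q, fun y hy => ?_⟩
  rw [foldl_replicate_flatten, foldl_replicate_flatten]
  refine iterate_stable q (fun z => List.foldl (absStep (cstep q κ)) z w)
    (fun z hz => foldl_abs_bound q _ hb w z hz) ?_ y hy
  intro z hz p hp hper
  show List.foldl (absStep (cstep q κ)) z w = z
  by_cases hz0 : z = 0
  · subst hz0
    exact foldl_abs_zero _ w
  · have hnz : ∀ j, (fun z => List.foldl (absStep (cstep q κ)) z w)^[j] z ≠ 0 := by
      intro j h0
      have h1 : (fun z => List.foldl (absStep (cstep q κ)) z w)^[p * j] z = z := by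
        rw [Function.iterate_mul]
        exact Function.iterate_fixed hper j
      have hle : j ≤ p * j := Nat.le_mul_of_pos_left j hp
      have h2 : (fun z => List.foldl (absStep (cstep q κ)) z w)^[(p * j - j) + j] z = 0 := by
        rw [Function.iterate_add_apply _ (p * j - j) j z, h0]
        exact Function.iterate_fixed (foldl_abs_zero _ w) _
      rw [Nat.sub_add_cancel hle, h1] at h2
      exact hz0 h2
    have hform : ∀ j, (fun z => List.foldl (absStep (cstep q κ)) z w)^[j] z
        = (z + j * (w.map κ).sum) % q := by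
      intro j
      have h := hnz j
      have e := foldl_replicate_flatten (absStep (cstep q κ)) w j z
      rw [← e] at h ⊢
      rw [foldl_abs_eq _ _ z h, foldl_cstep q κ _ z hz, sum_map_replicate]
    by_cases hW : (w.map κ).sum % q = 0
    · have h1 := hform 1
      rw [Function.iterate_one, Nat.one_mul] at h1
      rw [h1, Nat.add_mod, hW, Nat.add_zero, Nat.mod_mod, Nat.mod_eq_of_lt hz]
    · exfalso
      have hcop : Nat.Coprime ((w.map κ).sum) q := by
        have hnd : ¬ q ∣ (w.map κ).sum := fun hd => hW (Nat.mod_eq_zero_of_dvd hd)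
        exact ((Nat.Prime.coprime_iff_not_dvd hq).mpr hnd).symm
      obtain ⟨t, _, ht⟩ := Nat.exists_mul_mod_eq_one_of_coprime hcop hq.one_lt
      apply hnz (t * (q - z))
      rw [hform]
      have h1 : (w.map κ).sum * t ≡ 1 [MOD q] := by
        show (w.map κ).sum * t % q = 1 % q
        rw [ht, Nat.mod_eq_of_lt hq.one_lt]
      have e : t * (q - z) * (w.map κ).sum = (q - z) * ((w.map κ).sum * t) := by ring
      have h2 : z + t * (q - z) * (w.map κ).sum ≡ z + (q - z) * 1 [MOD q] := by
        rw [e]
        exact Nat.ModEq.add_left z (Nat.ModEq.mul_left (q - z) h1)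
      have e2 : z + (q - z) * 1 = q := by omega
      rw [e2] at h2
      have h3 : (z + t * (q - z) * (w.map κ).sum) % q = q % q := h2
      rw [h3, Nat.mod_self]

theorem modsub (m a b c : ℕ) (hm : 0 < m) (h : a ≡ b + c [MOD m]) :
    (a + (m - b % m)) % m = c % m := by
  have hb : b % m < m := Nat.mod_lt _ hm
  have h1 : b + (m - b % m) ≡ b % m + (m - b % m) [MOD m] :=
    Nat.ModEq.add_right _ (Nat.mod_modEq b m).symm
  have e1 : b % m + (m - b % m) = m := by omega
  rw [e1] at h1
  have h2 : b + (m - b % m) ≡ 0 [MOD m] := h1.trans (by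
    show m % m = 0 % m
    rw [Nat.mod_self, Nat.zero_mod])
  have h3 : a + (m - b % m) ≡ b + c + (m - b % m) [MOD m] := Nat.ModEq.add_right _ h
  have e2 : b + c + (m - b % m) = c + (b + (m - b % m)) := by omega
  rw [e2] at h3
  have h4 : c + (b + (m - b % m)) ≡ c + 0 [MOD m] := Nat.ModEq.add_left c h2
  exact h3.trans h4

variable [DecidableEq α] [Fintype α]

/-- the letters whose weight is not divisible by `q` -/
def nzSet (q : ℕ) (κ : α → ℕ) : Finset α := Finset.univ.filter (fun a => κ a % q ≠ 0)

omit [DecidableEq α] in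
theorem notMem_nzSet (q : ℕ) (κ : α → ℕ) (a : α) (h : κ a % q = 0) : a ∉ nzSet q κ := by
  unfold nzSet
  rw [Finset.mem_filter]
  exact fun h' => h'.2 h

omit [DecidableEq α] in
theorem cstep_zero_of_notMem (q : ℕ) (κ : α → ℕ) (a : α) (ha : a ∉ nzSet q κ) :
    cstep q κ 0 a = 0 := by
  unfold nzSet at ha
  rw [Finset.mem_filter] at ha
  show (0 + κ a) % q = 0
  rw [Nat.zero_add]
  by_contra h
  exact ha ⟨Finset.mem_univ a, h⟩

omit [DecidableEq α] [Fintype α] in
theorem foldl_bound (N : ℕ) (f : ℕ → α → ℕ) (hb : ∀ y a, y < N → f y a < N) (w : List α) :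
    ∀ y, y < N → List.foldl f y w < N := by
  induction w with
  | nil =>
    intro y hy
    exact hy
  | cons a w ih =>
    intro y hy
    rw [List.foldl_cons]
    exact ih _ (hb y a hy)

/-- the invariant linking the two visit-counting automata with the counting fold -/
theorem woc_inv (q m : ℕ) (hq : 0 < q) (hm : 0 < m) (κ : α → ℕ) (S : Finset α)
    (hS : ∀ x ∈ S, κ x % q = 0) (r : ℕ) (w : List α) :
    List.foldl (visitStep q m (cstep q κ) (S ∪ nzSet q κ)) ((q - r % q) % q) w < q * m
    ∧ List.foldl (visitStep q m (cstep q κ) (nzSet q κ)) ((q - r % q) % q) w < q * m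
    ∧ List.foldl (visitStep q m (cstep q κ) (S ∪ nzSet q κ)) ((q - r % q) % q) w % q
        = ((q - r % q) % q + (List.foldl (wocStep q κ S r) (0, 0) w).1) % q
    ∧ List.foldl (visitStep q m (cstep q κ) (nzSet q κ)) ((q - r % q) % q) w % q
        = ((q - r % q) % q + (List.foldl (wocStep q κ S r) (0, 0) w).1) % q
    ∧ List.foldl (visitStep q m (cstep q κ) (S ∪ nzSet q κ)) ((q - r % q) % q) w / q
        ≡ List.foldl (visitStep q m (cstep q κ) (nzSet q κ)) ((q - r % q) % q) w / q
          + (List.foldl (wocStep q κ S r) (0, 0) w).2 [MOD m] := by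
  have hb : ∀ y a, y < q → cstep q κ y a < q := fun y a _ => cstep_lt q hq κ y a
  have hy0 : (q - r % q) % q < q * m :=
    lt_of_lt_of_le (Nat.mod_lt _ hq) (Nat.le_mul_of_pos_right q hm)
  induction w using List.reverseRecOn with
  | nil =>
    refine ⟨hy0, hy0, ?_, ?_, ?_⟩
    · show (q - r % q) % q % q = ((q - r % q) % q + 0) % q
      rw [Nat.add_zero]
    · show (q - r % q) % q % q = ((q - r % q) % q + 0) % q
      rw [Nat.add_zero]
    · show (q - r % q) % q / q ≡ (q - r % q) % q / q + 0 [MOD m]
      rw [Nat.add_zero]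
  | append_singleton w x ih =>
    obtain ⟨b1, b2, m1, m2, dv⟩ := ih
    simp only [List.foldl_append, List.foldl_cons, List.foldl_nil]
    generalize List.foldl (visitStep q m (cstep q κ) (S ∪ nzSet q κ)) ((q - r % q) % q) w = A1
      at b1 m1 dv ⊢
    generalize List.foldl (visitStep q m (cstep q κ) (nzSet q κ)) ((q - r % q) % q) w = A2
      at b2 m2 dv ⊢
    generalize List.foldl (wocStep q κ S r) (0, 0) w = st at m1 m2 dv ⊢
    have hg : A1 % q = 0 ↔ st.1 % q = r % q := by
      rw [m1]
      exact mod_shift q (r % q) st.1 (Nat.mod_lt _ hq)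
    have hg2 : A2 % q = 0 ↔ st.1 % q = r % q := by
      rw [m2]
      exact mod_shift q (r % q) st.1 (Nat.mod_lt _ hq)
    refine ⟨visitStep_lt q m _ _ hb A1 x b1, visitStep_lt q m _ _ hb A2 x b2, ?_, ?_, ?_⟩
    · rw [visitStep_mod q m _ _ hb hq, m1]
      show (((q - r % q) % q + st.1) % q + κ x) % q = ((q - r % q) % q + (st.1 + κ x)) % q
      rw [Nat.mod_add_mod, Nat.add_assoc]
    · rw [visitStep_mod q m _ _ hb hq, m2]
      show (((q - r % q) % q + st.1) % q + κ x) % q = ((q - r % q) % q + (st.1 + κ x)) % q
      rw [Nat.mod_add_mod, Nat.add_assoc]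
    · rw [visitStep_div q m _ _ hb hq, visitStep_div q m _ _ hb hq]
      show (if A1 % q = 0 ∧ x ∈ S ∪ nzSet q κ then (A1 / q + 1) % m else A1 / q)
        ≡ (if A2 % q = 0 ∧ x ∈ nzSet q κ then (A2 / q + 1) % m else A2 / q)
          + (if x ∈ S ∧ st.1 % q = r % q then st.2 + 1 else st.2) [MOD m]
      by_cases hgate : st.1 % q = r % q
      · have g1 : A1 % q = 0 := hg.mpr hgate
        have g2 : A2 % q = 0 := hg2.mpr hgate
        by_cases hxS : x ∈ S
        · have hxZ : x ∉ nzSet q κ := notMem_nzSet q κ x (hS x hxS)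
          rw [if_pos ⟨g1, Finset.mem_union_left _ hxS⟩, if_neg (fun h => hxZ h.2),
            if_pos ⟨hxS, hgate⟩, ← Nat.add_assoc]
          exact (Nat.mod_modEq _ _).trans (Nat.ModEq.add_right 1 dv)
        · by_cases hxZ : x ∈ nzSet q κ
          · rw [if_pos ⟨g1, Finset.mem_union_right _ hxZ⟩, if_pos ⟨g2, hxZ⟩,
              if_neg (fun h => hxS h.1)]
            have h1 : (A1 / q + 1) % m ≡ A2 / q + st.2 + 1 [MOD m] :=
              (Nat.mod_modEq _ _).trans (Nat.ModEq.add_right 1 dv)
            have h2 : (A2 / q + 1) % m + st.2 ≡ A2 / q + 1 + st.2 [MOD m] :=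
              Nat.ModEq.add_right _ (Nat.mod_modEq _ _)
            have e : A2 / q + 1 + st.2 = A2 / q + st.2 + 1 := by omega
            rw [e] at h2
            exact h1.trans h2.symm
          · have hxU : ¬ (A1 % q = 0 ∧ x ∈ S ∪ nzSet q κ) := by
              rintro ⟨_, h⟩
              rcases Finset.mem_union.mp h with h' | h'
              · exact hxS h'
              · exact hxZ h'
            rw [if_neg hxU, if_neg (fun h => hxZ h.2), if_neg (fun h => hxS h.1)]
            exact dv
      · have g1 : ¬ A1 % q = 0 := fun h => hgate (hg.mp h)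
        have g2 : ¬ A2 % q = 0 := fun h => hgate (hg2.mp h)
        rw [if_neg (fun h => g1 h.1), if_neg (fun h => g2 h.1), if_neg (fun h => hgate h.2)]
        exact dv

/-- the final state of a visit-counting automaton is a statistic of generalized star height at
most one -/
theorem stat_visits (N m : ℕ) (step : ℕ → α → ℕ) (C : Finset α)
    (haper : ∀ w : List α, ∃ k : ℕ, ∀ y, y < N →
      List.foldl (absStep step) y (List.replicate k w).flatten =
        List.foldl (absStep step) y (List.replicate (k + 1) w).flatten)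
    (hb : ∀ y a, y < N → step y a < N) (hC : ∀ a, a ∉ C → step 0 a = 0)
    (s0 : ℕ) (hs0 : s0 < N * m) :
    StatLe 1 (fun w : List α =>
      (⟨List.foldl (visitStep N m step C) s0 w % (N * m), Nat.mod_lt _ (by omega)⟩
        : Fin (N * m))) := by
  intro v
  have h := gsh_visits N m step C haper hb hC s0 v.val hs0
  refine h.of_iff (fun w => ?_)
  have hlt : List.foldl (visitStep N m step C) s0 w < N * m :=
    foldl_bound (N * m) _ (fun y a hy => visitStep_lt N m step C hb y a hy) w s0 hs0
  show List.foldl (visitStep N m step C) s0 w = v.val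
    ↔ (⟨List.foldl (visitStep N m step C) s0 w % (N * m), Nat.mod_lt _ (by omega)⟩
        : Fin (N * m)) = v
  rw [Fin.ext_iff]
  show _ ↔ List.foldl (visitStep N m step C) s0 w % (N * m) = v.val
  rw [Nat.mod_eq_of_lt hlt]

/-- **Counting marked letters of weight zero.** For a prime `q`, weights `κ`, a set `S` of
letters whose weights are divisible by `q`, a residue `r` and a modulus `m ≥ 1`: the number of
positions of a word that carry a letter of `S` and are preceded by letters of total weight
congruent to `r` modulo `q`, taken modulo `m`, is a statistic of generalized star height at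
most one. -/
theorem stat_wocc (q : ℕ) (hq : q.Prime) (m : ℕ) (hm : 0 < m) (κ : α → ℕ) (S : Finset α)
    (hS : ∀ x ∈ S, κ x % q = 0) (r : ℕ) :
    StatLe 1 (fun w : List α => wocc q κ S r w % m) := by
  have hq0 : 0 < q := hq.pos
  have hb : ∀ y a, y < q → cstep q κ y a < q := fun y a _ => cstep_lt q hq0 κ y a
  have hy0 : (q - r % q) % q < q * m :=
    lt_of_lt_of_le (Nat.mod_lt _ hq0) (Nat.le_mul_of_pos_right q hm)
  have hC2 : ∀ a, a ∉ nzSet q κ → cstep q κ 0 a = 0 :=
    fun a ha => cstep_zero_of_notMem q κ a ha
  have hC1 : ∀ a, a ∉ S ∪ nzSet q κ → cstep q κ 0 a = 0 :=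
    fun a ha => hC2 a (fun h => ha (Finset.mem_union_right _ h))
  have h1 := stat_visits q m (cstep q κ) (S ∪ nzSet q κ) (counter_aper q hq κ) hb hC1 _ hy0
  have h2 := stat_visits q m (cstep q κ) (nzSet q κ) (counter_aper q hq κ) hb hC2 _ hy0
  have h3 := (h1.prod h2).comp
    (fun p : Fin (q * m) × Fin (q * m) => (p.1.val / q + (m - p.2.val / q % m)) % m)
  refine h3.congr (fun w => ?_)
  obtain ⟨b1, b2, _, _, dv⟩ := woc_inv q m hq0 hm κ S hS r w
  show (List.foldl (visitStep q m (cstep q κ) (S ∪ nzSet q κ)) ((q - r % q) % q) w % (q * m) / q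
      + (m - List.foldl (visitStep q m (cstep q κ) (nzSet q κ)) ((q - r % q) % q) w % (q * m)
          / q % m)) % m = wocc q κ S r w % m
  rw [Nat.mod_eq_of_lt b1, Nat.mod_eq_of_lt b2]
  exact modsub m _ _ _ hm dv

end Vale.Agent.Lib.P329
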