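import Vale.Agent.Lib.P329.WalkStat

/-!
# The walk statistic at a third letter

Two letters `a` and `b` move a counter modulo `q` by `+1` and `-1`; a third letter `c` does not
move it. For every function `f` on the residues modulo `q`, the sum of
`f (number of earlier a - number of earlier b)` over the occurrences of `c`, with values in
`ZMod M`, is a statistic of generalized star height at most one (`stat_walk_mark`): it is the
difference of the visit counts for the letter sets `{a, b, c}` and `{a, b}`.
-/

namespace Vale.Agent.Lib.P329

open Language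

variable {α : Type} [DecidableEq α]

/-- the invariant for the visit-counting automaton that also counts the letter `c` -/
theorem walk_inv3 (q M : ℕ) (hq : 0 < q) (hM : 0 < M) (a b c : α) (hab : a ≠ b) (hca : c ≠ a)
    (hcb : c ≠ b) (s : ℕ) (hs : s < q) (w : List α) :
    List.foldl (visitStep q M (pmStep q a b) {a, b, c}) s w < q * M
    ∧ List.foldl (visitStep q M (pmStep q a b) {a, b, c}) s w % q
        = (s + w.count a + (q - 1) * w.count b) % q
    ∧ List.foldl (visitStep q M (pmStep q a b) {a, b, c}) s w / q
        ≡ psum a b a (wind q s) 0 0 w + psum a b b (wind q s) 0 0 w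
          + psum a b c (wind q s) 0 0 w [MOD M] := by
  have hb : ∀ y x, y < q → pmStep q a b y x < q := fun y x hy => pmStep_lt q hq a b y x hy
  have hs0 : s < q * M := lt_of_lt_of_le hs (Nat.le_mul_of_pos_right q hM)
  induction w using List.reverseRecOn with
  | nil =>
    refine ⟨hs0, ?_, ?_⟩
    · show s % q = (s + 0 + (q - 1) * 0) % q
      simp only [Nat.mul_zero, Nat.add_zero]
    · show s / q ≡ 0 + 0 + 0 [MOD M]
      rw [Nat.div_eq_of_lt hs]
      exact Nat.ModEq.refl 0
  | append_singleton w x ih =>
    obtain ⟨b1, m1, dv⟩ := ih
    simp only [List.foldl_append, List.foldl_cons, List.foldl_nil]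
    rw [psum_append, psum_append, psum_append, psum_singleton, psum_singleton, psum_singleton,
      Nat.zero_add, Nat.zero_add]
    generalize List.foldl (visitStep q M (pmStep q a b) {a, b, c}) s w = S at b1 m1 dv ⊢
    refine ⟨visitStep_lt q M _ _ hb S x b1, ?_, ?_⟩
    · rw [visitStep_mod q M _ _ hb hq, m1]
      unfold pmStep
      by_cases hxa : x = a
      · subst hxa
        rw [if_pos rfl, List.count_append, List.count_append, List.count_cons_self,
          List.count_nil, List.count_cons_of_ne hab, List.count_nil, Nat.mod_add_mod]
        congr 1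
        ring
      · by_cases hxb : x = b
        · subst hxb
          rw [if_neg hxa, if_pos rfl, List.count_append, List.count_append,
            List.count_cons_self, List.count_nil, List.count_cons_of_ne hxa, List.count_nil,
            Nat.mod_add_mod]
          congr 1
          ring
        · rw [if_neg hxa, if_neg hxb, List.count_append, List.count_append,
            List.count_cons_of_ne hxa, List.count_cons_of_ne hxb, List.count_nil]
          rfl
    · rw [visitStep_div q M _ _ hb hq]
      have hg : S % q = 0 ↔ (s + w.count a + (q - 1) * w.count b) % q = 0 := by rw [m1]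
      rw [wind_def]
      have h1 : (S / q + 1) % M ≡ psum a b a (wind q s) 0 0 w + psum a b b (wind q s) 0 0 w
          + psum a b c (wind q s) 0 0 w + 1 [MOD M] :=
        (Nat.mod_modEq _ _).trans (Nat.ModEq.add_right 1 dv)
      by_cases hgate : (s + w.count a + (q - 1) * w.count b) % q = 0
      · have g1 : S % q = 0 := hg.mpr hgate
        simp only [if_pos hgate]
        by_cases hxa : x = a
        · have hmem : x ∈ ({a, b, c} : Finset α) := by
            rw [hxa]
            exact Finset.mem_insert_self a _
          have hxb : x ≠ b := fun h => hab (hxa.symm.trans h)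
          have hxc : x ≠ c := fun h => hca (h.symm.trans hxa)
          rw [if_pos ⟨g1, hmem⟩, if_pos hxa, if_neg hxb, if_neg hxc]
          have e : psum a b a (wind q s) 0 0 w + 1 + (psum a b b (wind q s) 0 0 w + 0)
              + (psum a b c (wind q s) 0 0 w + 0)
              = psum a b a (wind q s) 0 0 w + psum a b b (wind q s) 0 0 w
                + psum a b c (wind q s) 0 0 w + 1 := by omega
          rw [e]
          exact h1
        · by_cases hxb : x = b
          · have hmem : x ∈ ({a, b, c} : Finset α) := by
              rw [hxb]
              exact Finset.mem_insert_of_mem (Finset.mem_insert_self b _)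
            have hxc : x ≠ c := fun h => hcb (h.symm.trans hxb)
            rw [if_pos ⟨g1, hmem⟩, if_neg hxa, if_pos hxb, if_neg hxc]
            have e : psum a b a (wind q s) 0 0 w + 0 + (psum a b b (wind q s) 0 0 w + 1)
                + (psum a b c (wind q s) 0 0 w + 0)
                = psum a b a (wind q s) 0 0 w + psum a b b (wind q s) 0 0 w
                  + psum a b c (wind q s) 0 0 w + 1 := by omega
            rw [e]
            exact h1
          · by_cases hxc : x = c
            · have hmem : x ∈ ({a, b, c} : Finset α) := by
                rw [hxc]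
                exact Finset.mem_insert_of_mem
                  (Finset.mem_insert_of_mem (Finset.mem_singleton_self c))
              rw [if_pos ⟨g1, hmem⟩, if_neg hxa, if_neg hxb, if_pos hxc]
              have e : psum a b a (wind q s) 0 0 w + 0 + (psum a b b (wind q s) 0 0 w + 0)
                  + (psum a b c (wind q s) 0 0 w + 1)
                  = psum a b a (wind q s) 0 0 w + psum a b b (wind q s) 0 0 w
                    + psum a b c (wind q s) 0 0 w + 1 := by omega
              rw [e]
              exact h1
            · have hmem : x ∉ ({a, b, c} : Finset α) := by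
                intro h
                rcases Finset.mem_insert.mp h with h' | h'
                · exact hxa h'
                · rcases Finset.mem_insert.mp h' with h'' | h''
                  · exact hxb h''
                  · exact hxc (Finset.mem_singleton.mp h'')
              rw [if_neg (fun h => hmem h.2), if_neg hxa, if_neg hxb, if_neg hxc, Nat.add_zero,
                Nat.add_zero, Nat.add_zero]
              exact dv
      · have g1 : ¬ S % q = 0 := fun h => hgate (hg.mp h)
        simp only [if_neg hgate, ite_self, Nat.add_zero]
        rw [if_neg (fun h => g1 h.1)]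
        exact dv

variable [Fintype α]

/-- the number of occurrences of `c` at which the walk started at `s` is at the base state,
modulo `M` -/
theorem stat_walk_mark_nat (q M : ℕ) [NeZero q] [NeZero M] (a b c : α) (hab : a ≠ b)
    (hca : c ≠ a) (hcb : c ≠ b) (s : ℕ) (hs : s < q) :
    StatLe 1 (fun w : List α => ((psum a b c (wind q s) 0 0 w : ℕ) : ZMod M)) := by
  have hq : 0 < q := Nat.pos_of_ne_zero (NeZero.ne q)
  have hM : 0 < M := Nat.pos_of_ne_zero (NeZero.ne M)
  have hb : ∀ y x, y < q → pmStep q a b y x < q := fun y x hy => pmStep_lt q hq a b y x hy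
  have hC : ∀ x, x ∉ ({a, b, c} : Finset α) → pmStep q a b 0 x = 0 := by
    intro x hx
    have hxa : x ≠ a := fun h => hx (by rw [h]; exact Finset.mem_insert_self a _)
    have hxb : x ≠ b := fun h =>
      hx (by rw [h]; exact Finset.mem_insert_of_mem (Finset.mem_insert_self b _))
    unfold pmStep
    rw [if_neg hxa, if_neg hxb]
  have hs0 : s < q * M := lt_of_lt_of_le hs (Nat.le_mul_of_pos_right q hM)
  have h1 := stat_visits q M (pmStep q a b) {a, b, c} (pmStep_aper q hq a b) hb hC s hs0
  have h2 := h1.comp (fun v : Fin (q * M) => ((v.val / q : ℕ) : ZMod M))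
  have h3 := stat_walk_nat q M a b hab s hs
  have h4 := (h2.prod h3).comp (fun p : ZMod M × ZMod M => p.1 - p.2)
  refine h4.congr (fun w => ?_)
  obtain ⟨b1, _, dv⟩ := walk_inv3 q M hq hM a b c hab hca hcb s hs w
  show ((List.foldl (visitStep q M (pmStep q a b) {a, b, c}) s w % (q * M) / q : ℕ) : ZMod M)
      - ((psum a b a (wind q s) 0 0 w + psum a b b (wind q s) 0 0 w : ℕ) : ZMod M) = _
  rw [Nat.mod_eq_of_lt b1, (ZMod.natCast_eq_natCast_iff _ _ _).mpr dv, Nat.cast_add,
    add_sub_cancel_left]

/-- the number of occurrences of `c` at which (number of earlier `a`) minus (number of earlier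
`b`) has the residue `z` modulo `q`, taken modulo `M` -/
theorem stat_walk_mark_res (q M : ℕ) [NeZero q] [NeZero M] (a b c : α) (hab : a ≠ b)
    (hca : c ≠ a) (hcb : c ≠ b) (z : ZMod q) :
    StatLe 1 (fun w : List α =>
      ((psum a b c (fun X Y : ℕ => if (X : ZMod q) - (Y : ZMod q) = z then 1 else 0) 0 0 w : ℕ)
        : ZMod M)) := by
  have e : wind q (-z).val
      = fun X Y : ℕ => if (X : ZMod q) - (Y : ZMod q) = z then 1 else 0 := by
    funext X Y
    have h := wind_iff q (-z).val X Y
    rw [ZMod.natCast_zmod_val, neg_neg] at h
    unfold wind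
    by_cases hz : (X : ZMod q) - (Y : ZMod q) = z
    · rw [if_pos hz, if_pos (h.mpr hz)]
    · rw [if_neg hz, if_neg (fun h' => hz (h.mp h'))]
  have h1 := stat_walk_mark_nat q M a b c hab hca hcb (-z).val (ZMod.val_lt _)
  rw [e] at h1
  exact h1

/-- **The walk statistic at a third letter.** For every function `f` on the residues modulo
`q`, the sum of `f (number of earlier a - number of earlier b)` over the occurrences of a
letter `c` other than `a` and `b`, with values in `ZMod M`, is a statistic of generalized star
height at most one. -/
theorem stat_walk_mark (q M : ℕ) [NeZero q] [NeZero M] (a b c : α) (hab : a ≠ b) (hca : c ≠ a)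
    (hcb : c ≠ b) (f : ZMod q → ZMod M) :
    StatLe 1 (fun w : List α =>
      psum a b c (fun X Y : ℕ => f ((X : ZMod q) - (Y : ZMod q))) 0 0 w) := by
  have h1 : StatLe 1 (fun w : List α => (fun z : ZMod q =>
      ((psum a b c (fun X Y : ℕ => if (X : ZMod q) - (Y : ZMod q) = z then 1 else 0) 0 0 w : ℕ)
          : ZMod M))) :=
    StatLe.pi (fun z => stat_walk_mark_res q M a b c hab hca hcb z)
  have h2 := h1.comp (fun v : ZMod q → ZMod M => ∑ z : ZMod q, f z * v z)
  refine h2.congr (fun w => ?_)
  have e : (fun X Y : ℕ => f ((X : ZMod q) - (Y : ZMod q)))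
      = fun X Y : ℕ => ∑ z ∈ (Finset.univ : Finset (ZMod q)), f z
          * (((if (X : ZMod q) - (Y : ZMod q) = z then 1 else 0 : ℕ)) : ZMod M) := by
    funext X Y
    rw [Finset.sum_eq_single ((X : ZMod q) - (Y : ZMod q))]
    · rw [if_pos rfl, Nat.cast_one, mul_one]
    · intro z _ hz
      rw [if_neg (fun h => hz h.symm), Nat.cast_zero, mul_zero]
    · intro h
      exact absurd (Finset.mem_univ _) h
  show ∑ z : ZMod q, f z
      * ((psum a b c (fun X Y : ℕ => if (X : ZMod q) - (Y : ZMod q) = z then 1 else 0) 0 0 w : ℕ)
          : ZMod M) = _
  rw [e, psum_sum Finset.univ f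
      (fun (z : ZMod q) (X Y : ℕ) =>
        (((if (X : ZMod q) - (Y : ZMod q) = z then 1 else 0 : ℕ)) : ZMod M)) a b c w 0 0]
  apply Finset.sum_congr rfl
  intro z _
  rw [psum_cast]

end Vale.Agent.Lib.P329
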