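import Vale.Agent.Lib.P329.VisitsCount
import Vale.Agent.Lib.P329.PosSum

/-!
# The walk statistic

Two letters `a` and `b` move a counter modulo `q` by `+1` and `-1`. For every function `f` on
the residues modulo `q`, the sum of `f (number of earlier a - number of earlier b)` over all
occurrences of `a` and of `b` in a word, with values in `ZMod M`, is a statistic of generalized
star height at most one (`stat_walk`). It is read off from the visit-counting automata over the
walk automaton, whose base state is hit by the walk from both sides.
-/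

namespace Vale.Agent.Lib.P329

open Language

variable {α : Type} [DecidableEq α]

/-! ### More on sums over occurrences -/

theorem psum_zero {R : Type} [AddCommMonoid R] (a b x : α) (w : List α) :
    ∀ A B : ℕ, psum a b x (fun _ _ => (0 : R)) A B w = 0 := by
  induction w with
  | nil =>
    intro A B
    rfl
  | cons y v ih =>
    intro A B
    rw [psum_cons, ih, ite_self, add_zero]

theorem psum_singleton {R : Type} [AddCommMonoid R] (a b x : α) (F : ℕ → ℕ → R) (A B : ℕ)
    (y : α) : psum a b x F A B [y] = if y = x then F A B else 0 := by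
  rw [psum_cons]
  show (if y = x then F A B else 0) + 0 = _
  rw [add_zero]

theorem psum_append {R : Type} [AddCommMonoid R] (a b x : α) (F : ℕ → ℕ → R) (u v : List α) :
    ∀ A B : ℕ, psum a b x F A B (u ++ v)
      = psum a b x F A B u + psum a b x F (A + u.count a) (B + u.count b) v := by
  induction u with
  | nil =>
    intro A B
    show psum a b x F A B v = 0 + psum a b x F (A + 0) (B + 0) v
    rw [zero_add, add_zero, add_zero]
  | cons y u ih =>
    intro A B
    rw [List.cons_append, psum_cons, psum_cons, ih, add_assoc]
    have e1 : (if y = a then A + 1 else A) + u.count a = A + (y :: u).count a := by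
      by_cases hya : y = a
      · subst hya
        rw [if_pos rfl, List.count_cons_self]
        omega
      · rw [if_neg hya, List.count_cons_of_ne hya]
    have e2 : (if y = b then B + 1 else B) + u.count b = B + (y :: u).count b := by
      by_cases hyb : y = b
      · subst hyb
        rw [if_pos rfl, List.count_cons_self]
        omega
      · rw [if_neg hyb, List.count_cons_of_ne hyb]
    rw [e1, e2]

/-! ### The walk automaton -/

/-- the walk automaton on the residues modulo `q`: the letter `a` adds one, the letter `b`
subtracts one, every other letter does nothing -/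
def pmStep (q : ℕ) (a b : α) (z : ℕ) (x : α) : ℕ :=
  if x = a then (z + 1) % q else if x = b then (z + (q - 1)) % q else z

theorem pmStep_lt (q : ℕ) (hq : 0 < q) (a b : α) (z : ℕ) (x : α) (hz : z < q) :
    pmStep q a b z x < q := by
  unfold pmStep
  split_ifs
  · exact Nat.mod_lt _ hq
  · exact Nat.mod_lt _ hq
  · exact hz

theorem pred_mod (q y : ℕ) (hy0 : 0 < y) (hy : y < q) : (y + (q - 1)) % q = y - 1 := by
  have e : y + (q - 1) = (y - 1) + q := by omega
  rw [e, Nat.add_mod_right, Nat.mod_eq_of_lt (by omega)]

theorem pmStep_aper (q : ℕ) (hq : 0 < q) (a b : α) :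
    ∀ w : List α, ∃ k : ℕ, ∀ y, y < q →
      List.foldl (absStep (pmStep q a b)) y (List.replicate k w).flatten =
        List.foldl (absStep (pmStep q a b)) y (List.replicate (k + 1) w).flatten := by
  refine op_aper_abs q (pmStep q a b) ?_ (fun y x hy => pmStep_lt q hq a b y x hy)
  intro y y' x hy hyy' hy' h1 h2
  unfold pmStep at h1 h2 ⊢
  by_cases hxa : x = a
  · simp only [if_pos hxa] at h1 h2 ⊢
    have hy1 : y' + 1 < q := by
      rcases Nat.lt_or_ge (y' + 1) q with h | h
      · exact h
      · exfalso
        have e : y' + 1 = q := by omega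
        rw [e, Nat.mod_self] at h2
        exact h2 rfl
    rw [Nat.mod_eq_of_lt hy1, Nat.mod_eq_of_lt (by omega)]
    omega
  · simp only [if_neg hxa] at h1 h2 ⊢
    by_cases hxb : x = b
    · simp only [if_pos hxb] at h1 h2 ⊢
      rw [pred_mod q y hy (by omega), pred_mod q y' (by omega) hy']
      rw [pred_mod q y hy (by omega)] at h1
      omega
    · simp only [if_neg hxb]
      exact hyy'

/-- the indicator that the walk started at `s` is at the base state after `X` letters `a` and
`Y` letters `b` -/
def wind (q s X Y : ℕ) : ℕ := if (s + X + (q - 1) * Y) % q = 0 then 1 else 0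

theorem wind_def (q s X Y : ℕ) :
    wind q s X Y = if (s + X + (q - 1) * Y) % q = 0 then 1 else 0 := rfl

/-- the invariant linking the visit-counting automaton over the walk with the sums over
occurrences -/
theorem walk_inv (q M : ℕ) (hq : 0 < q) (hM : 0 < M) (a b : α) (hab : a ≠ b) (s : ℕ)
    (hs : s < q) (w : List α) :
    List.foldl (visitStep q M (pmStep q a b) {a, b}) s w < q * M
    ∧ List.foldl (visitStep q M (pmStep q a b) {a, b}) s w % q
        = (s + w.count a + (q - 1) * w.count b) % q
    ∧ List.foldl (visitStep q M (pmStep q a b) {a, b}) s w / q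
        ≡ psum a b a (wind q s) 0 0 w + psum a b b (wind q s) 0 0 w [MOD M] := by
  have hb : ∀ y x, y < q → pmStep q a b y x < q := fun y x hy => pmStep_lt q hq a b y x hy
  have hs0 : s < q * M := lt_of_lt_of_le hs (Nat.le_mul_of_pos_right q hM)
  induction w using List.reverseRecOn with
  | nil =>
    refine ⟨hs0, ?_, ?_⟩
    · show s % q = (s + 0 + (q - 1) * 0) % q
      simp only [Nat.mul_zero, Nat.add_zero]
    · show s / q ≡ 0 + 0 [MOD M]
      rw [Nat.div_eq_of_lt hs]
      exact Nat.ModEq.refl 0
  | append_singleton w x ih =>
    obtain ⟨b1, m1, dv⟩ := ih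
    simp only [List.foldl_append, List.foldl_cons, List.foldl_nil]
    rw [psum_append, psum_append, psum_singleton, psum_singleton, Nat.zero_add, Nat.zero_add]
    generalize List.foldl (visitStep q M (pmStep q a b) {a, b}) s w = S at b1 m1 dv ⊢
    refine ⟨visitStep_lt q M _ _ hb S x b1, ?_, ?_⟩
    · rw [visitStep_mod q M _ _ hb hq, m1]
      unfold pmStep
      by_cases hxa : x = a
      · subst hxa
        rw [if_pos rfl, List.count_append, List.count_append, List.count_cons_self,
          List.count_nil, List.count_cons_of_ne hab, List.count_nil, Nat.mod_add_mod]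
        congr 1
        ring
      · by_cases hxb : x = b
        · subst hxb
          rw [if_neg hxa, if_pos rfl, List.count_append, List.count_append,
            List.count_cons_self, List.count_nil, List.count_cons_of_ne hxa, List.count_nil,
            Nat.mod_add_mod]
          congr 1
          ring
        · rw [if_neg hxa, if_neg hxb, List.count_append, List.count_append,
            List.count_cons_of_ne hxa, List.count_cons_of_ne hxb, List.count_nil]
          rfl
    · rw [visitStep_div q M _ _ hb hq]
      have hg : S % q = 0 ↔ (s + w.count a + (q - 1) * w.count b) % q = 0 := by rw [m1]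
      rw [wind_def]
      by_cases hgate : (s + w.count a + (q - 1) * w.count b) % q = 0
      · have g1 : S % q = 0 := hg.mpr hgate
        simp only [if_pos hgate]
        by_cases hxa : x = a
        · subst hxa
          have hmem : x ∈ ({x, b} : Finset α) := Finset.mem_insert_self x _
          rw [if_pos ⟨g1, hmem⟩, if_pos rfl, if_neg hab]
          have h1 : (S / q + 1) % M ≡ psum x b x (wind q s) 0 0 w
              + psum x b b (wind q s) 0 0 w + 1 [MOD M] :=
            (Nat.mod_modEq _ _).trans (Nat.ModEq.add_right 1 dv)
          have e : psum x b x (wind q s) 0 0 w + 1 + (psum x b b (wind q s) 0 0 w + 0)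
              = psum x b x (wind q s) 0 0 w + psum x b b (wind q s) 0 0 w + 1 := by omega
          rw [e]
          exact h1
        · by_cases hxb : x = b
          · subst hxb
            have hmem : x ∈ ({a, x} : Finset α) :=
              Finset.mem_insert_of_mem (Finset.mem_singleton_self x)
            rw [if_pos ⟨g1, hmem⟩, if_neg hxa, if_pos rfl]
            have h1 : (S / q + 1) % M ≡ psum a x a (wind q s) 0 0 w
                + psum a x x (wind q s) 0 0 w + 1 [MOD M] :=
              (Nat.mod_modEq _ _).trans (Nat.ModEq.add_right 1 dv)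
            have e : psum a x a (wind q s) 0 0 w + 0 + (psum a x x (wind q s) 0 0 w + 1)
                = psum a x a (wind q s) 0 0 w + psum a x x (wind q s) 0 0 w + 1 := by omega
            rw [e]
            exact h1
          · have hmem : x ∉ ({a, b} : Finset α) := by
              intro h
              rcases Finset.mem_insert.mp h with h' | h'
              · exact hxa h'
              · exact hxb (Finset.mem_singleton.mp h')
            rw [if_neg (fun h => hmem h.2), if_neg hxa, if_neg hxb, Nat.add_zero, Nat.add_zero]
            exact dv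
      · have g1 : ¬ S % q = 0 := fun h => hgate (hg.mp h)
        simp only [if_neg hgate, ite_self, Nat.add_zero]
        rw [if_neg (fun h => g1 h.1)]
        exact dv

variable [Fintype α]

/-- the number of visits of the walk started at `s` to the base state, counted at the letters
`a` and `b` and taken modulo `M`, is a statistic of generalized star height at most one -/
theorem stat_walk_nat (q M : ℕ) [NeZero q] [NeZero M] (a b : α) (hab : a ≠ b) (s : ℕ)
    (hs : s < q) :
    StatLe 1 (fun w : List α =>
      ((psum a b a (wind q s) 0 0 w + psum a b b (wind q s) 0 0 w : ℕ) : ZMod M)) := by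
  have hq : 0 < q := Nat.pos_of_ne_zero (NeZero.ne q)
  have hM : 0 < M := Nat.pos_of_ne_zero (NeZero.ne M)
  have hb : ∀ y x, y < q → pmStep q a b y x < q := fun y x hy => pmStep_lt q hq a b y x hy
  have hC : ∀ x, x ∉ ({a, b} : Finset α) → pmStep q a b 0 x = 0 := by
    intro x hx
    have hxa : x ≠ a := fun h => hx (by rw [h]; exact Finset.mem_insert_self a _)
    have hxb : x ≠ b := fun h =>
      hx (by rw [h]; exact Finset.mem_insert_of_mem (Finset.mem_singleton_self b))
    unfold pmStep
    rw [if_neg hxa, if_neg hxb]
  have hs0 : s < q * M := lt_of_lt_of_le hs (Nat.le_mul_of_pos_right q hM)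
  have h1 := stat_visits q M (pmStep q a b) {a, b} (pmStep_aper q hq a b) hb hC s hs0
  have h2 := h1.comp (fun v : Fin (q * M) => ((v.val / q : ℕ) : ZMod M))
  refine h2.congr (fun w => ?_)
  obtain ⟨b1, _, dv⟩ := walk_inv q M hq hM a b hab s hs w
  show ((List.foldl (visitStep q M (pmStep q a b) {a, b}) s w % (q * M) / q : ℕ) : ZMod M) = _
  rw [Nat.mod_eq_of_lt b1]
  exact (ZMod.natCast_eq_natCast_iff _ _ _).mpr dv

omit [DecidableEq α] [Fintype α] in
theorem wind_iff (q : ℕ) [NeZero q] (s X Y : ℕ) :
    (s + X + (q - 1) * Y) % q = 0 ↔ (X : ZMod q) - (Y : ZMod q) = - (s : ZMod q) := by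
  have hq : 0 < q := Nat.pos_of_ne_zero (NeZero.ne q)
  have h2 : ((q - 1 : ℕ) : ZMod q) + 1 = 0 := by
    rw [← Nat.cast_one (R := ZMod q), ← Nat.cast_add, Nat.sub_add_cancel hq]
    exact ZMod.natCast_self q
  have h1 : ((q - 1 : ℕ) : ZMod q) = -1 := by linear_combination h2
  rw [← Nat.dvd_iff_mod_eq_zero, ← ZMod.natCast_eq_zero_iff, Nat.cast_add, Nat.cast_add,
    Nat.cast_mul, h1]
  constructor
  · intro h
    linear_combination h
  · intro h
    linear_combination h

/-- the number of positions carrying `a` or `b` at which (number of earlier `a`) minus (number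
of earlier `b`) has the residue `z` modulo `q`, taken modulo `M` -/
theorem stat_walk_res (q M : ℕ) [NeZero q] [NeZero M] (a b : α) (hab : a ≠ b) (z : ZMod q) :
    StatLe 1 (fun w : List α =>
      ((psum a b a (fun X Y : ℕ => if (X : ZMod q) - (Y : ZMod q) = z then 1 else 0) 0 0 w
        + psum a b b (fun X Y : ℕ => if (X : ZMod q) - (Y : ZMod q) = z then 1 else 0) 0 0 w : ℕ)
          : ZMod M)) := by
  have e : wind q (-z).val = fun X Y : ℕ => if (X : ZMod q) - (Y : ZMod q) = z then 1 else 0 := by
    funext X Y
    have h := wind_iff q (-z).val X Y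
    rw [ZMod.natCast_zmod_val, neg_neg] at h
    unfold wind
    by_cases hz : (X : ZMod q) - (Y : ZMod q) = z
    · rw [if_pos hz, if_pos (h.mpr hz)]
    · rw [if_neg hz, if_neg (fun h' => hz (h.mp h'))]
  have h1 := stat_walk_nat q M a b hab (-z).val (ZMod.val_lt _)
  rw [e] at h1
  exact h1

/-- **The walk statistic.** For every function `f` on the residues modulo `q`, the sum of
`f (number of earlier a - number of earlier b)` over all occurrences of `a` and of `b`, with
values in `ZMod M`, is a statistic of generalized star height at most one. -/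
theorem stat_walk (q M : ℕ) [NeZero q] [NeZero M] (a b : α) (hab : a ≠ b)
    (f : ZMod q → ZMod M) :
    StatLe 1 (fun w : List α =>
      psum a b a (fun X Y : ℕ => f ((X : ZMod q) - (Y : ZMod q))) 0 0 w
        + psum a b b (fun X Y : ℕ => f ((X : ZMod q) - (Y : ZMod q))) 0 0 w) := by
  have h1 : StatLe 1 (fun w : List α => (fun z : ZMod q =>
      ((psum a b a (fun X Y : ℕ => if (X : ZMod q) - (Y : ZMod q) = z then 1 else 0) 0 0 w
        + psum a b b (fun X Y : ℕ => if (X : ZMod q) - (Y : ZMod q) = z then 1 else 0) 0 0 w : ℕ)
          : ZMod M))) :=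
    StatLe.pi (fun z => stat_walk_res q M a b hab z)
  have h2 := h1.comp (fun v : ZMod q → ZMod M => ∑ z : ZMod q, f z * v z)
  refine h2.congr (fun w => ?_)
  have e : (fun X Y : ℕ => f ((X : ZMod q) - (Y : ZMod q)))
      = fun X Y : ℕ => ∑ z ∈ (Finset.univ : Finset (ZMod q)), f z
          * (((if (X : ZMod q) - (Y : ZMod q) = z then 1 else 0 : ℕ)) : ZMod M) := by
    funext X Y
    rw [Finset.sum_eq_single ((X : ZMod q) - (Y : ZMod q))]
    · rw [if_pos rfl, Nat.cast_one, mul_one]
    · intro z _ hz
      rw [if_neg (fun h => hz h.symm), Nat.cast_zero, mul_zero]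
    · intro h
      exact absurd (Finset.mem_univ _) h
  show ∑ z : ZMod q, f z
      * ((psum a b a (fun X Y : ℕ => if (X : ZMod q) - (Y : ZMod q) = z then 1 else 0) 0 0 w
        + psum a b b (fun X Y : ℕ => if (X : ZMod q) - (Y : ZMod q) = z then 1 else 0) 0 0 w : ℕ)
          : ZMod M) = _
  rw [e, psum_sum Finset.univ f
      (fun (z : ZMod q) (X Y : ℕ) => (((if (X : ZMod q) - (Y : ZMod q) = z then 1 else 0 : ℕ)) : ZMod M))
      a b a w 0 0,
    psum_sum Finset.univ f
      (fun (z : ZMod q) (X Y : ℕ) => (((if (X : ZMod q) - (Y : ZMod q) = z then 1 else 0 : ℕ)) : ZMod M))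
      a b b w 0 0, ← Finset.sum_add_distrib]
  apply Finset.sum_congr rfl
  intro z _
  rw [Nat.cast_add, mul_add, psum_cast, psum_cast]

end Vale.Agent.Lib.P329
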