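import Vale.Agent.Lib.P329.Mono

namespace Vale.Agent.Lib.P329

open Language

variable {α : Type} [DecidableEq α]

/-- the twisted wreath automaton on the states `0, ..., q * m - 1`: letters of `S` add `1`,
the letter `b` adds `q` on the multiples of `q`, all other letters fix every state -/
def wstep (S : Finset α) (b : α) (q m : ℕ) (y : ℕ) (x : α) : ℕ :=
  if x ∈ S then (y + 1) % (q * m)
  else if x = b then (if y % q = 0 then (y + q) % (q * m) else y) else y

/-- weighted sum over the occurrences of `b` of a function of the number of earlier letters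
from `S` (shifted by `k`) -/
def wsum {M : Type} [AddCommMonoid M] (S : Finset α) (b : α) (f : ℕ → M) : ℕ → List α → M
  | _, [] => 0
  | k, x :: w => (if x = b then f k else 0) + wsum S b f (if x ∈ S then k + 1 else k) w

theorem wstep_bound (S : Finset α) (b : α) (q m : ℕ) (hq : 0 < q) (hm : 0 < m) (y : ℕ) (x : α)
    (hy : y < q * m) : wstep S b q m y x < q * m := by
  have hqm : 0 < q * m := Nat.mul_pos hq hm
  unfold wstep
  split_ifs
  · exact Nat.mod_lt _ hqm
  · exact Nat.mod_lt _ hqm
  · exact hy
  · exact hy

theorem wstep_mono (S : Finset α) (b : α) (q m : ℕ) (hq : 0 < q) (hm : 0 < m) (y : ℕ) (x : α)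
    (_hy0 : 0 < y) (hy : y < q * m) : wstep S b q m y x = 0 ∨ y ≤ wstep S b q m y x := by
  have hqm : 0 < q * m := Nat.mul_pos hq hm
  unfold wstep
  split_ifs with h1 h2 h3
  · by_cases hlt : y + 1 < q * m
    · right
      rw [Nat.mod_eq_of_lt hlt]
      omega
    · left
      have : y + 1 = q * m := by omega
      rw [this, Nat.mod_self]
  · by_cases hlt : y + q < q * m
    · right
      rw [Nat.mod_eq_of_lt hlt]
      omega
    · left
      -- y is a multiple of q below q*m, so y + q = q * m
      obtain ⟨c, hc⟩ := Nat.dvd_of_mod_eq_zero h3
      have hcm : c < m := by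
        by_contra hcm
        have : m ≤ c := by omega
        have : q * m ≤ q * c := Nat.mul_le_mul_left q this
        omega
      have hle : q * (c + 1) ≤ q * m := Nat.mul_le_mul_left q (by omega)
      have : y + q = q * m := by
        have h5 : q * (c + 1) = q * c + q := by ring
        omega
      rw [this, Nat.mod_self]
  · right
    exact le_refl y
  · right
    exact le_refl y

theorem wsum_congr {M : Type} [AddCommMonoid M] (S : Finset α) (b : α) (f g : ℕ → M)
    (w : List α) : ∀ k l : ℕ, (∀ j, f (k + j) = g (l + j)) → wsum S b f k w = wsum S b g l w := by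
  induction w with
  | nil =>
    intro k l _
    rfl
  | cons x v ih =>
    intro k l h
    show (if x = b then f k else 0) + wsum S b f (if x ∈ S then k + 1 else k) v
      = (if x = b then g l else 0) + wsum S b g (if x ∈ S then l + 1 else l) v
    have h0 : f k = g l := by simpa using h 0
    rw [h0]
    congr 1
    by_cases hx : x ∈ S
    · rw [if_pos hx, if_pos hx]
      apply ih
      intro j
      have := h (1 + j)
      rw [← add_assoc, ← add_assoc] at this
      exact this
    · rw [if_neg hx, if_neg hx]
      exact ih k l h

/-- the final state of the twisted wreath automaton -/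
theorem foldl_wstep (S : Finset α) (b : α) (hb : b ∉ S) (q m : ℕ) (hq : 0 < q) (hm : 0 < m)
    (w : List α) : ∀ y : ℕ, y < q * m →
    List.foldl (wstep S b q m) y w
      = (y + w.countP (fun x => decide (x ∈ S))
          + q * wsum S b (fun k => if k % q = 0 then 1 else 0) y w) % (q * m) := by
  have hqm : 0 < q * m := Nat.mul_pos hq hm
  induction w with
  | nil =>
    intro y hy
    simp [wsum, Nat.mod_eq_of_lt hy]
  | cons x v ih =>
    intro y hy
    rw [List.foldl_cons, ih _ (wstep_bound S b q m hq hm y x hy)]
    by_cases hx : x ∈ S
    · have hxb : x ≠ b := fun h => hb (h ▸ hx)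
      have hstep : wstep S b q m y x = (y + 1) % (q * m) := by
        unfold wstep
        rw [if_pos hx]
      have hws : wsum S b (fun k => if k % q = 0 then 1 else 0) y (x :: v)
          = wsum S b (fun k => if k % q = 0 then 1 else 0) (y + 1) v := by
        show (if x = b then _ else 0) + wsum S b _ (if x ∈ S then y + 1 else y) v = _
        rw [if_neg hxb, if_pos hx, zero_add]
      have hcongr : wsum S b (fun k => if k % q = 0 then 1 else 0) ((y + 1) % (q * m)) v
          = wsum S b (fun k => if k % q = 0 then 1 else 0) (y + 1) v := by
        apply wsum_congr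
        intro j
        have : ((y + 1) % (q * m) + j) % q = (y + 1 + j) % q := by
          rw [Nat.add_mod, Nat.mod_mul_right_mod, ← Nat.add_mod]
        show (if ((y + 1) % (q * m) + j) % q = 0 then 1 else 0)
          = (if (y + 1 + j) % q = 0 then 1 else 0)
        rw [this]
      rw [hstep, hws, hcongr, List.countP_cons_of_pos (by simpa using hx)]
      have e1 : (y + 1) % (q * m) + List.countP (fun x => decide (x ∈ S)) v
          + q * wsum S b (fun k => if k % q = 0 then 1 else 0) (y + 1) v
          ≡ y + (List.countP (fun x => decide (x ∈ S)) v + 1)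
          + q * wsum S b (fun k => if k % q = 0 then 1 else 0) (y + 1) v [MOD q * m] := by
        have h1 : (y + 1) % (q * m) ≡ y + 1 [MOD q * m] := Nat.mod_modEq _ _
        have h2 := (h1.add_right (List.countP (fun x => decide (x ∈ S)) v)).add_right
          (q * wsum S b (fun k => if k % q = 0 then 1 else 0) (y + 1) v)
        have e : y + 1 + List.countP (fun x => decide (x ∈ S)) v
            = y + (List.countP (fun x => decide (x ∈ S)) v + 1) := by ring
        rw [e] at h2
        exact h2
      exact e1
    · have hcnt : List.countP (fun x => decide (x ∈ S)) (x :: v)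
          = List.countP (fun x => decide (x ∈ S)) v :=
        List.countP_cons_of_neg (by simpa using hx)
      rw [hcnt]
      by_cases hxb : x = b
      · by_cases hy0 : y % q = 0
        · have hstep : wstep S b q m y x = (y + q) % (q * m) := by
            unfold wstep
            rw [if_neg hx, if_pos hxb, if_pos hy0]
          have hws : wsum S b (fun k => if k % q = 0 then 1 else 0) y (x :: v)
              = 1 + wsum S b (fun k => if k % q = 0 then 1 else 0) y v := by
            show (if x = b then (if y % q = 0 then 1 else 0) else 0)
              + wsum S b _ (if x ∈ S then y + 1 else y) v = _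
            rw [if_pos hxb, if_pos hy0, if_neg hx]
          have hcongr : wsum S b (fun k => if k % q = 0 then 1 else 0) ((y + q) % (q * m)) v
              = wsum S b (fun k => if k % q = 0 then 1 else 0) y v := by
            apply wsum_congr
            intro j
            have : ((y + q) % (q * m) + j) % q = (y + j) % q := by
              rw [Nat.add_mod, Nat.mod_mul_right_mod, ← Nat.add_mod]
              have : y + q + j = y + j + q := by ring
              rw [this, Nat.add_mod_right]
            show (if ((y + q) % (q * m) + j) % q = 0 then 1 else 0)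
              = (if (y + j) % q = 0 then 1 else 0)
            rw [this]
          rw [hstep, hws, hcongr]
          have h1 : (y + q) % (q * m) ≡ y + q [MOD q * m] := Nat.mod_modEq _ _
          have h2 := (h1.add_right (List.countP (fun x => decide (x ∈ S)) v)).add_right
            (q * wsum S b (fun k => if k % q = 0 then 1 else 0) y v)
          have e : y + q + List.countP (fun x => decide (x ∈ S)) v
              + q * wsum S b (fun k => if k % q = 0 then 1 else 0) y v
              = y + List.countP (fun x => decide (x ∈ S)) v
              + q * (1 + wsum S b (fun k => if k % q = 0 then 1 else 0) y v) := by ring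
          rw [e] at h2
          exact h2
        · have hstep : wstep S b q m y x = y := by
            unfold wstep
            rw [if_neg hx, if_pos hxb, if_neg hy0]
          have hws : wsum S b (fun k => if k % q = 0 then 1 else 0) y (x :: v)
              = wsum S b (fun k => if k % q = 0 then 1 else 0) y v := by
            show (if x = b then (if y % q = 0 then 1 else 0) else 0)
              + wsum S b _ (if x ∈ S then y + 1 else y) v = _
            rw [if_pos hxb, if_neg hy0, if_neg hx, zero_add]
          rw [hstep, hws]
      · have hstep : wstep S b q m y x = y := by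
          unfold wstep
          rw [if_neg hx, if_neg hxb]
        have hws : wsum S b (fun k => if k % q = 0 then 1 else 0) y (x :: v)
            = wsum S b (fun k => if k % q = 0 then 1 else 0) y v := by
          show (if x = b then (if y % q = 0 then 1 else 0) else 0)
            + wsum S b _ (if x ∈ S then y + 1 else y) v = _
          rw [if_neg hxb, if_neg hx, zero_add]
        rw [hstep, hws]

/-- the counter automaton: number of letters of `S` modulo `M` -/
theorem foldl_counter (S : Finset α) (b : α) (hb : b ∉ S) (M : ℕ) (hM : 0 < M) (w : List α) :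
    List.foldl (wstep S b M 1) 0 w = w.countP (fun x => decide (x ∈ S)) % M := by
  have h := foldl_wstep S b hb M 1 hM Nat.one_pos w 0 (by simpa using hM)
  rw [h]
  simp only [mul_one, zero_add]
  rw [Nat.add_mul_mod_self_left]

variable [Fintype α]

/-- core counting theorem: the number of occurrences of `b` at which `y0 +` (number of earlier
letters from `S`) is divisible by `q`, taken modulo `m` -/
theorem gsh_wsum_core (S : Finset α) (b : α) (hb : b ∉ S) (q m : ℕ) (hq : 0 < q) (hm : 0 < m)
    (y0 : ℕ) (hy0 : y0 < q * m) (k : ℕ) :
    GSHLe 1 ({w | wsum S b (fun j => if j % q = 0 then 1 else 0) y0 w % m = k % m}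
      : Language α) := by
  have hqm : 0 < q * m := Nat.mul_pos hq hm
  have hA : ∀ j : ℕ, GSHLe 1 (runL (wstep S b (q * m) 1) 0 j) := fun j =>
    gsh_run (q * m * 1) (wstep S b (q * m) 1)
      (fun y a h0 hy => wstep_mono S b (q * m) 1 hqm Nat.one_pos y a h0 hy)
      (fun y a hy => wstep_bound S b (q * m) 1 hqm Nat.one_pos y a hy) 0 j (by simpa using hqm)
  have hB : ∀ t : ℕ, GSHLe 1 (runL (wstep S b q m) y0 t) := fun t =>
    gsh_run (q * m) (wstep S b q m)
      (fun y a h0 hy => wstep_mono S b q m hq hm y a h0 hy)
      (fun y a hy => wstep_bound S b q m hq hm y a hy) y0 t hy0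
  have h1 : GSHLe 1 ({w | ∃ j : Fin (q * m), w ∈ (runL (wstep S b (q * m) 1) 0 j.val
      ⊓ runL (wstep S b q m) y0 ((y0 + j.val + q * k) % (q * m)))} : Language α) :=
    gsh_exists _ (fun j => (hA j.val).inf (hB _))
  refine h1.of_iff (fun w => ?_)
  show (∃ j : Fin (q * m), w ∈ (runL (wstep S b (q * m) 1) 0 j.val
      ⊓ runL (wstep S b q m) y0 ((y0 + j.val + q * k) % (q * m))))
    ↔ wsum S b (fun j => if j % q = 0 then 1 else 0) y0 w % m = k % m
  constructor
  · rintro ⟨j, hj⟩
    rw [Language.mem_inf, mem_runL, mem_runL, foldl_counter S b hb (q * m) hqm w,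
      foldl_wstep S b hb q m hq hm w y0 hy0] at hj
    obtain ⟨hj1, hj2⟩ := hj
    have c1 : List.countP (fun x => decide (x ∈ S)) w ≡ j.val [MOD q * m] := by
      show _ % (q * m) = _ % (q * m)
      rw [hj1, Nat.mod_eq_of_lt j.isLt]
    have c2 : y0 + List.countP (fun x => decide (x ∈ S)) w
        + q * wsum S b (fun j => if j % q = 0 then 1 else 0) y0 w
        ≡ y0 + j.val + q * k [MOD q * m] := hj2
    have c3 : y0 + j.val + q * wsum S b (fun j => if j % q = 0 then 1 else 0) y0 w
        ≡ y0 + List.countP (fun x => decide (x ∈ S)) w
          + q * wsum S b (fun j => if j % q = 0 then 1 else 0) y0 w [MOD q * m] :=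
      ((c1.symm.add_left y0).add_right _)
    have c4 := c3.trans c2
    have c5 : q * wsum S b (fun j => if j % q = 0 then 1 else 0) y0 w ≡ q * k [MOD q * m] :=
      Nat.ModEq.add_left_cancel' (y0 + j.val) c4
    exact Nat.ModEq.mul_left_cancel' (by omega) c5
  · intro hw
    have hw' : wsum S b (fun j => if j % q = 0 then 1 else 0) y0 w ≡ k [MOD m] := hw
    refine ⟨⟨List.countP (fun x => decide (x ∈ S)) w % (q * m), Nat.mod_lt _ hqm⟩, ?_⟩
    rw [Language.mem_inf, mem_runL, mem_runL, foldl_counter S b hb (q * m) hqm w,
      foldl_wstep S b hb q m hq hm w y0 hy0]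
    refine ⟨rfl, ?_⟩
    have c1 : List.countP (fun x => decide (x ∈ S)) w
        ≡ List.countP (fun x => decide (x ∈ S)) w % (q * m) [MOD q * m] :=
      (Nat.mod_modEq _ _).symm
    have c2 : q * wsum S b (fun j => if j % q = 0 then 1 else 0) y0 w ≡ q * k [MOD q * m] :=
      Nat.ModEq.mul_left' q hw'
    exact ((c1.add_left y0).add c2)

end Vale.Agent.Lib.P329
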