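import Vale.Agent.Lib.P329.PrefixCount

/-!
# Wreath products of finite abelian groups by finite aperiodic monoids

`WrProd A N` is the (unrestricted) wreath product of an additive commutative monoid `A` by a
monoid `N` acting on itself by right multiplication: the pairs `(f, n)` with `f : N → A`,
multiplied by `(f, n) * (g, m) = (x ↦ f x + g (x * n), n * m)`. If `N` is finite and aperiodic
and `A` is a finite abelian group, every language recognized by `WrProd A N`, or by a quotient
of a submonoid of it, has generalized star height at most one (`gsh_wrprod`, `gsh_wrprod_div`).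
-/

namespace Vale.Agent.Lib.P329

open Language

/-- The wreath product of an additive commutative monoid `A` by a monoid `N`: pairs `(f, n)`
with `f : N → A` and `n : N`. -/
structure WrProd (A N : Type) where
  /-- the function component -/
  fn : N → A
  /-- the component in `N` -/
  base : N

namespace WrProd

variable {A N : Type} [AddCommMonoid A] [Monoid N]

/-- `(f, n) * (g, m) = (x ↦ f x + g (x * n), n * m)` and `1 = (0, 1)`. -/
instance instMonoid : Monoid (WrProd A N) where
  mul p q := ⟨fun x => p.fn x + q.fn (x * p.base), p.base * q.base⟩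
  one := ⟨fun _ => 0, 1⟩
  mul_assoc p q r := by
    show (⟨fun x => (p.fn x + q.fn (x * p.base)) + r.fn (x * (p.base * q.base)),
        (p.base * q.base) * r.base⟩ : WrProd A N)
      = ⟨fun x => p.fn x + (q.fn (x * p.base) + r.fn (x * p.base * q.base)),
        p.base * (q.base * r.base)⟩
    congr 1
    · funext x
      rw [add_assoc, mul_assoc]
    · exact mul_assoc _ _ _
  one_mul p := by
    show (⟨fun x => 0 + p.fn (x * 1), 1 * p.base⟩ : WrProd A N) = p
    cases p
    congr 1
    · funext x
      rw [zero_add, mul_one]
    · exact one_mul _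
  mul_one p := by
    show (⟨fun x => p.fn x + 0, p.base * 1⟩ : WrProd A N) = p
    cases p
    congr 1
    · funext x
      rw [add_zero]
    · exact mul_one _

theorem mul_fn (p q : WrProd A N) (x : N) : (p * q).fn x = p.fn x + q.fn (x * p.base) := rfl

theorem mul_base (p q : WrProd A N) : (p * q).base = p.base * q.base := rfl

theorem one_fn (x : N) : (1 : WrProd A N).fn x = 0 := rfl

theorem one_base : (1 : WrProd A N).base = 1 := rfl

end WrProd

variable {α : Type} [DecidableEq α]

theorem mc_foldl_fst {N : Type} [Monoid N] [DecidableEq N] (ψ : α → N) (n : N) (b : α)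
    (w : List α) (m : N) (c : ℕ) :
    (w.foldl (mcStep ψ n b) (m, c)).1 = m * (w.map ψ).prod := by
  induction w generalizing m c with
  | nil => simp
  | cons a w ih =>
    rw [List.foldl_cons, List.map_cons, List.prod_cons, ← mul_assoc]
    exact ih _ _

theorem mc_foldl_shift {N : Type} [Monoid N] [DecidableEq N] (ψ : α → N) (n : N) (b : α)
    (w : List α) (m : N) (c : ℕ) :
    (w.foldl (mcStep ψ n b) (m, c)).2 = c + (w.foldl (mcStep ψ n b) (m, 0)).2 := by
  induction w generalizing m c with
  | nil => simp
  | cons a w ih =>
    rw [List.foldl_cons, List.foldl_cons]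
    show (w.foldl (mcStep ψ n b) (m * ψ a, if m = n ∧ a = b then c + 1 else c)).2
      = c + (w.foldl (mcStep ψ n b) (m * ψ a, if m = n ∧ a = b then 0 + 1 else 0)).2
    rw [ih (m * ψ a) (if m = n ∧ a = b then c + 1 else c),
      ih (m * ψ a) (if m = n ∧ a = b then 0 + 1 else 0)]
    split_ifs <;> omega

/-- the function component of a product in the wreath product, in terms of the counts -/
theorem wr_prod_fn {A N : Type} [AddCommMonoid A] [Monoid N] [Fintype N] [DecidableEq N]
    [Fintype α] (φ : α → WrProd A N) (w : List α) (m x : N) :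
    ∑ n : N, ∑ b : α, (w.foldl (mcStep (fun a => (φ a).base) n b) (m, 0)).2 • (φ b).fn (x * n)
      = ((w.map φ).prod).fn (x * m) := by
  induction w generalizing m with
  | nil => simp [WrProd.one_fn]
  | cons a w ih =>
    rw [List.map_cons, List.prod_cons, WrProd.mul_fn, mul_assoc, ← ih (m * (φ a).base)]
    have h1 : ∀ (n : N) (b : α),
        ((a :: w).foldl (mcStep (fun a => (φ a).base) n b) (m, 0)).2 • (φ b).fn (x * n)
          = (if m = n ∧ a = b then (φ b).fn (x * n) else 0)
            + (w.foldl (mcStep (fun a => (φ a).base) n b) (m * (φ a).base, 0)).2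
              • (φ b).fn (x * n) := by
      intro n b
      rw [List.foldl_cons]
      show (w.foldl (mcStep (fun a => (φ a).base) n b)
          (m * (φ a).base, if m = n ∧ a = b then 0 + 1 else 0)).2 • (φ b).fn (x * n) = _
      rw [mc_foldl_shift, add_smul]
      split_ifs <;> simp
    simp only [h1, Finset.sum_add_distrib]
    congr 1
    rw [Finset.sum_eq_single m]
    · rw [Finset.sum_eq_single a]
      · simp
      · intro b _ hb
        rw [if_neg (fun h => hb h.2.symm)]
      · intro h; exact absurd (Finset.mem_univ a) h
    · intro n _ hn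
      apply Finset.sum_eq_zero
      intro b _
      rw [if_neg (fun h => hn h.1.symm)]
    · intro h; exact absurd (Finset.mem_univ m) h

omit [DecidableEq α] in
theorem wr_prod_base {A N : Type} [AddCommMonoid A] [Monoid N] (φ : α → WrProd A N)
    (w : List α) : ((w.map φ).prod).base = (w.map (fun a => (φ a).base)).prod := by
  induction w with
  | nil => rfl
  | cons a w ih => rw [List.map_cons, List.prod_cons, WrProd.mul_base, ih, List.map_cons,
      List.prod_cons]

/-- **Wreath products of finite abelian groups by finite aperiodic monoids.** Every language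
recognized by `WrProd A N` has generalized star height at most one. -/
theorem gsh_wrprod [Fintype α] {N : Type} [Monoid N] [Fintype N] [DecidableEq N]
    (hN : ∀ x : N, ∃ n : ℕ, x ^ n = x ^ (n + 1)) {A : Type} [AddCommGroup A] [Finite A]
    (φ : α → WrProd A N) (P : Set (WrProd A N)) :
    GSHLe 1 ({w | (w.map φ).prod ∈ P} : Language α) := by
  have hM : 0 < Nat.card A := Nat.card_pos
  have hA : ∀ a : A, Nat.card A • a = 0 := fun a => card_nsmul_eq_zero'
  have h := gsh_mcount hN (fun a => (φ a).base) (Nat.card A) hM
    (fun m c => (⟨fun x => ∑ n : N, ∑ b : α, c n b • (φ b).fn (x * n), m⟩ : WrProd A N) ∈ P)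
  refine h.of_iff (fun w => ?_)
  have e : (⟨fun x => ∑ n : N, ∑ b : α,
        (mcount (fun a => (φ a).base) n b w % Nat.card A) • (φ b).fn (x * n),
        (w.map (fun a => (φ a).base)).prod⟩ : WrProd A N) = (w.map φ).prod := by
    have hb := wr_prod_base φ w
    have hf : ∀ x : N, ∑ n : N, ∑ b : α,
        (mcount (fun a => (φ a).base) n b w % Nat.card A) • (φ b).fn (x * n)
          = ((w.map φ).prod).fn x := by
      intro x
      have h0 := wr_prod_fn φ w 1 x
      rw [mul_one] at h0
      rw [← h0]
      apply Finset.sum_congr rfl
      intro n _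
      apply Finset.sum_congr rfl
      intro b _
      show (mcount (fun a => (φ a).base) n b w % Nat.card A) • (φ b).fn (x * n)
        = mcount (fun a => (φ a).base) n b w • (φ b).fn (x * n)
      conv_rhs => rw [← Nat.mod_add_div (mcount (fun a => (φ a).base) n b w) (Nat.card A)]
      rw [add_smul, mul_smul, hA, add_zero]
    cases hp : (w.map φ).prod with
    | mk f0 b0 =>
      rw [hp] at hb hf
      congr 1
      · funext x
        exact hf x
      · exact hb.symm
  show (⟨fun x => ∑ n : N, ∑ b : α,
        (mcount (fun a => (φ a).base) n b w % Nat.card A) • (φ b).fn (x * n),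
        (w.map (fun a => (φ a).base)).prod⟩ : WrProd A N) ∈ P ↔ (w.map φ).prod ∈ P
  rw [e]

/-- The same for every monoid that is a quotient of a submonoid of `WrProd A N`. -/
theorem gsh_wrprod_div [Fintype α] {N : Type} [Monoid N] [Fintype N] [DecidableEq N]
    (hN : ∀ x : N, ∃ n : ℕ, x ^ n = x ^ (n + 1)) {A : Type} [AddCommGroup A] [Finite A]
    {S T : Type} [Monoid S] [Monoid T] (emb : T →* WrProd A N) (hemb : Function.Injective emb)
    (π : T →* S) (hπ : Function.Surjective π) (φ : α → S) (P : Set S) :
    GSHLe 1 ({w | (w.map φ).prod ∈ P} : Language α) := by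
  choose φ' hφ' using fun a => hπ (φ a)
  have h := gsh_wrprod hN (fun a => emb (φ' a)) (emb '' (π ⁻¹' P))
  refine h.of_iff (fun w => ?_)
  have e1 : (w.map (fun a => emb (φ' a))).prod = emb ((w.map φ').prod) := by
    rw [map_list_prod, List.map_map]
    rfl
  have e2 : (w.map φ).prod = π ((w.map φ').prod) := by
    rw [map_list_prod, List.map_map]
    congr 1
    apply List.map_congr_left
    intro a _
    exact (hφ' a).symm
  show (w.map (fun a => emb (φ' a))).prod ∈ emb '' (π ⁻¹' P) ↔ (w.map φ).prod ∈ P
  rw [e1, e2]
  constructor
  · rintro ⟨t, ht, hte⟩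
    rw [← hemb hte]
    exact ht
  · intro h
    exact ⟨_, h, rfl⟩

end Vale.Agent.Lib.P329
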