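import Vale.Agent.Lib.P329.WreathAb
import Vale.Agent.Lib.P329.Cascade

/-!
# Wreath products of monoids and generalized star height

`WrM X Y` is the (unrestricted) wreath product of a monoid `X` by a monoid `Y` acting on itself
by right multiplication: the pairs `(f, y)` with `f : Y → X`, multiplied by
`(f, y) * (g, z) = (x ↦ f x * g (x * y), y * z)`.

* `gsh_wrm_aper`: if every language recognized by the finite monoid `Y` has generalized star
  height at most one and `X` is finite and aperiodic, the same holds for `WrM X Y`.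
* `gsh_wrm_comm`: `WrM G N` for a finite commutative group `G` and a finite aperiodic monoid `N`.
* `gsh_wrm_three`: `WrM N₁ (WrM G N₂)`.
* `gsh_monoid_div`: passage to quotients of submonoids.
-/

namespace Vale.Agent.Lib.P329

open Language

/-- The wreath product of a monoid `X` by a monoid `Y`: pairs `(f, y)` with `f : Y → X` and
`y : Y`. -/
structure WrM (X Y : Type) where
  /-- the function component -/
  fn : Y → X
  /-- the component in `Y` -/
  base : Y

namespace WrM

variable {X Y : Type} [Monoid X] [Monoid Y]

/-- `(f, y) * (g, z) = (x ↦ f x * g (x * y), y * z)` and `1 = (1, 1)`. -/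
instance instMonoid : Monoid (WrM X Y) where
  mul p q := ⟨fun x => p.fn x * q.fn (x * p.base), p.base * q.base⟩
  one := ⟨fun _ => 1, 1⟩
  mul_assoc p q r := by
    show (⟨fun x => (p.fn x * q.fn (x * p.base)) * r.fn (x * (p.base * q.base)),
        (p.base * q.base) * r.base⟩ : WrM X Y)
      = ⟨fun x => p.fn x * (q.fn (x * p.base) * r.fn (x * p.base * q.base)),
        p.base * (q.base * r.base)⟩
    congr 1
    · funext x
      rw [mul_assoc, mul_assoc]
    · exact mul_assoc _ _ _
  one_mul p := by
    show (⟨fun x => 1 * p.fn (x * 1), 1 * p.base⟩ : WrM X Y) = p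
    cases p
    congr 1
    · funext x
      rw [one_mul, mul_one]
    · exact one_mul _
  mul_one p := by
    show (⟨fun x => p.fn x * 1, p.base * 1⟩ : WrM X Y) = p
    cases p
    congr 1
    · funext x
      rw [mul_one]
    · exact mul_one _

theorem mul_fn (p q : WrM X Y) (x : Y) : (p * q).fn x = p.fn x * q.fn (x * p.base) := rfl

theorem mul_base (p q : WrM X Y) : (p * q).base = p.base * q.base := rfl

theorem one_fn (x : Y) : (1 : WrM X Y).fn x = 1 := rfl

theorem one_base : (1 : WrM X Y).base = 1 := rfl

theorem instFinite {X Y : Type} [Finite X] [Finite Y] : Finite (WrM X Y) := by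
  classical
  apply Finite.of_injective (fun p : WrM X Y => (p.fn, p.base))
  intro p q h
  cases p
  cases q
  simp only [Prod.mk.injEq] at h
  obtain ⟨h1, h2⟩ := h
  subst h1
  subst h2
  rfl

end WrM

variable {α : Type}

theorem wrm_prod_base {X Y : Type} [Monoid X] [Monoid Y] (φ : α → WrM X Y) (w : List α) :
    ((w.map φ).prod).base = (w.map (fun a => (φ a).base)).prod := by
  induction w with
  | nil => rfl
  | cons a w ih => rw [List.map_cons, List.prod_cons, WrM.mul_base, ih, List.map_cons,
      List.prod_cons]

/-- the function component of a product in the wreath product is the image, under a map into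
`X`, of the word annotated by the prefix products in `Y` -/
theorem wrm_prod_fn {X Y : Type} [Monoid X] [Monoid Y] (φ : α → WrM X Y) (w : List α)
    (m x : Y) :
    ((annot (fun (y : Y) (a : α) => y * (φ a).base) m w).map
        (fun p : α × Y => (φ p.1).fn (x * p.2))).prod
      = ((w.map φ).prod).fn (x * m) := by
  induction w generalizing m with
  | nil => rfl
  | cons a w ih =>
    rw [annot_cons, List.map_cons, List.prod_cons, ih, List.map_cons, List.prod_cons,
      WrM.mul_fn, mul_assoc]

/-- **Aperiodic monoids on the left of a wreath product.** -/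
theorem gsh_wrm_aper [Fintype α] [DecidableEq α] {X Y : Type} [Monoid X] [Finite X] [Monoid Y]
    [Finite Y] (hX : ∀ x : X, ∃ n : ℕ, x ^ n = x ^ (n + 1))
    (hY : ∀ (ψ : α → Y) (P : Set Y), GSHLe 1 ({w | (w.map ψ).prod ∈ P} : Language α))
    (φ : α → WrM X Y) (P : Set (WrM X Y)) :
    GSHLe 1 ({w | (w.map φ).prod ∈ P} : Language α) := by
  classical
  have := Fintype.ofFinite X
  have := Fintype.ofFinite Y
  have hrun : ∀ q q' : Y,
      GSHLe 1 ({w | w.foldl (fun (y : Y) (a : α) => y * (φ a).base) q = q'} : Language α) := by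
    intro q q'
    refine (hY (fun a => (φ a).base) {m | q * m = q'}).of_iff (fun w => ?_)
    show q * (w.map (fun a => (φ a).base)).prod = q' ↔ _
    rw [← foldl_mul_prod (fun a => (φ a).base) w q]
    rfl
  have hfn : ∀ x : Y, StatLe 1 (fun w : List α => ((w.map φ).prod).fn x) := by
    intro x v
    have hK : GSHLe 0 ({u | (u.map (fun p : α × Y => (φ p.1).fn (x * p.2))).prod = v}
        : Language (α × Y)) :=
      schutzenberger hX (fun p : α × Y => (φ p.1).fn (x * p.2)) v
    have h := gsh_annot (fun (y : Y) (a : α) => y * (φ a).base) hrun _ hK 1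
    refine h.of_iff (fun w => ?_)
    show ((annot (fun (y : Y) (a : α) => y * (φ a).base) 1 w).map
        (fun p : α × Y => (φ p.1).fn (x * p.2))).prod = v ↔ ((w.map φ).prod).fn x = v
    rw [wrm_prod_fn, mul_one]
  have hbase : StatLe 1 (fun w : List α => ((w.map φ).prod).base) := by
    intro v
    refine (hY (fun a => (φ a).base) {v}).of_iff (fun w => ?_)
    show (w.map (fun a => (φ a).base)).prod = v ↔ ((w.map φ).prod).base = v
    rw [wrm_prod_base]
  have hst := (StatLe.pi (β := fun _ : Y => X) hfn).prod hbase
  have h := hst.level (fun v : (Y → X) × Y => (⟨v.1, v.2⟩ : WrM X Y) ∈ P)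
  exact h

/-- Passage to quotients of submonoids. -/
theorem gsh_monoid_div {W S T : Type} [Monoid W] [Monoid S] [Monoid T]
    (hW : ∀ (φ : α → W) (P : Set W), GSHLe 1 ({w | (w.map φ).prod ∈ P} : Language α))
    (emb : T →* W) (hemb : Function.Injective emb) (π : T →* S) (hπ : Function.Surjective π)
    (φ : α → S) (P : Set S) : GSHLe 1 ({w | (w.map φ).prod ∈ P} : Language α) := by
  choose φ' hφ' using fun a => hπ (φ a)
  have h := hW (fun a => emb (φ' a)) (emb '' (π ⁻¹' P))
  refine h.of_iff (fun w => ?_)
  have e1 : (w.map (fun a => emb (φ' a))).prod = emb ((w.map φ').prod) := by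
    rw [map_list_prod, List.map_map]
    rfl
  have e2 : (w.map φ).prod = π ((w.map φ').prod) := by
    rw [map_list_prod, List.map_map]
    congr 1
    apply List.map_congr_left
    intro a _
    exact (hφ' a).symm
  show (w.map (fun a => emb (φ' a))).prod ∈ emb '' (π ⁻¹' P) ↔ (w.map φ).prod ∈ P
  rw [e1, e2]
  constructor
  · rintro ⟨t, ht, hte⟩
    rw [← hemb hte]
    exact ht
  · intro h
    exact ⟨_, h, rfl⟩

/-- the wreath product of a commutative group, written multiplicatively, embeds into the
additive version -/
def wrmToAdd {G N : Type} [CommGroup G] [Monoid N] : WrM G N →* WrProd (Additive G) N where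
  toFun p := ⟨fun x => Additive.ofMul (p.fn x), p.base⟩
  map_one' := rfl
  map_mul' _ _ := rfl

theorem wrmToAdd_injective {G N : Type} [CommGroup G] [Monoid N] :
    Function.Injective (wrmToAdd : WrM G N →* WrProd (Additive G) N) := by
  intro p q h
  cases p with
  | mk f1 b1 =>
    cases q with
    | mk f2 b2 =>
      have h1 : (fun x => Additive.ofMul (f1 x)) = fun x => Additive.ofMul (f2 x) :=
        congrArg WrProd.fn h
      have h2 : b1 = b2 := congrArg WrProd.base h
      subst h2
      have h3 : f1 = f2 := by
        funext x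
        exact Additive.ofMul.injective (congrFun h1 x)
      subst h3
      rfl

/-- **Finite commutative group wreath finite aperiodic monoid.** -/
theorem gsh_wrm_comm [Fintype α] [DecidableEq α] {N : Type} [Monoid N] [Finite N]
    (hN : ∀ x : N, ∃ n : ℕ, x ^ n = x ^ (n + 1)) {G : Type} [CommGroup G] [Finite G]
    (φ : α → WrM G N) (P : Set (WrM G N)) :
    GSHLe 1 ({w | (w.map φ).prod ∈ P} : Language α) := by
  classical
  have := Fintype.ofFinite N
  exact gsh_wrprod_div hN (A := Additive G) wrmToAdd wrmToAdd_injective (MonoidHom.id _)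
    Function.surjective_id φ P

/-- **Aperiodic wreath (commutative group wreath aperiodic).** -/
theorem gsh_wrm_three [Fintype α] [DecidableEq α] {N₁ N₂ : Type} [Monoid N₁] [Finite N₁]
    [Monoid N₂] [Finite N₂] (h₁ : ∀ x : N₁, ∃ n : ℕ, x ^ n = x ^ (n + 1))
    (h₂ : ∀ x : N₂, ∃ n : ℕ, x ^ n = x ^ (n + 1)) {G : Type} [CommGroup G] [Finite G]
    (φ : α → WrM N₁ (WrM G N₂)) (P : Set (WrM N₁ (WrM G N₂))) :
    GSHLe 1 ({w | (w.map φ).prod ∈ P} : Language α) := by
  have : Finite (WrM G N₂) := WrM.instFinite
  exact gsh_wrm_aper h₁ (fun ψ Q => gsh_wrm_comm h₂ ψ Q) φ P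

end Vale.Agent.Lib.P329
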